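import Vale.Agent.P162c.Defs

/-!
# P162, module CHAIN: chaining of conditional exponential moments by Hoelder
-/

namespace Vale.Agent.P162c.Chain

open Finset

variable {A : Type*} [Fintype A] [Nonempty A] {d : ℕ}

/-- expectation with respect to the uniform measure -/
noncomputable def ev (F : (Fin d → A) → ℝ) : ℝ := (∑ t, F t) / (Fintype.card (Fin d → A) : ℝ)

/-- overwrite the coordinates in `S` -/
def ow (S : Finset (Fin d)) (s t : Fin d → A) : Fin d → A := fun i => if i ∈ S then s i else t i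

/-- partial average over the coordinates in `S` -/
noncomputable def pav (S : Finset (Fin d)) (F : (Fin d → A) → ℝ) (t : Fin d → A) : ℝ :=
  ev (fun s => F (ow S s t))

lemma card_pos' : (0 : ℝ) < (Fintype.card (Fin d → A) : ℝ) := by
  exact_mod_cast Fintype.card_pos

lemma ev_mono {F G : (Fin d → A) → ℝ} (h : ∀ t, F t ≤ G t) : ev F ≤ ev G := by
  unfold ev
  have := card_pos' (A := A) (d := d)
  gcongr with t
  exact h t

lemma ev_const (c : ℝ) : ev (fun _ : Fin d → A => c) = c := by
  unfold ev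
  have := card_pos' (A := A) (d := d)
  rw [sum_const, card_univ, nsmul_eq_mul]
  field_simp

lemma ev_mul_const (c : ℝ) (F : (Fin d → A) → ℝ) : ev (fun t => c * F t) = c * ev F := by
  unfold ev
  rw [← mul_sum, mul_div_assoc]

lemma ev_add (F G : (Fin d → A) → ℝ) : ev (fun t => F t + G t) = ev F + ev G := by
  unfold ev
  rw [sum_add_distrib, add_div]

lemma ev_sum {ι : Type*} (M : Finset ι) (F : ι → (Fin d → A) → ℝ) :
    ev (fun t => ∑ m ∈ M, F m t) = ∑ m ∈ M, ev (F m) := by
  unfold ev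
  rw [sum_comm, sum_div]

lemma ow_ow (S : Finset (Fin d)) (s t : Fin d → A) : ow S (ow S s t) (ow S t s) = s := by
  funext i
  unfold ow
  split_ifs <;> rfl

lemma ev_pav (S : Finset (Fin d)) (F : (Fin d → A) → ℝ) : ev (pav S F) = ev F := by
  have hc := card_pos' (A := A) (d := d)
  unfold pav ev
  rw [← sum_div]
  have h : ∑ t : Fin d → A, ∑ s : Fin d → A, F (ow S s t) =
      (Fintype.card (Fin d → A) : ℝ) * ∑ t, F t := by
    rw [← Finset.sum_product']
    have e : ∑ x ∈ (univ : Finset (Fin d → A)) ×ˢ (univ : Finset (Fin d → A)), F (ow S x.2 x.1) =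
        ∑ x ∈ (univ : Finset (Fin d → A)) ×ˢ (univ : Finset (Fin d → A)), F x.2 := by
      refine Finset.sum_nbij' (fun x => (ow S x.1 x.2, ow S x.2 x.1))
        (fun x => (ow S x.1 x.2, ow S x.2 x.1)) ?_ ?_ ?_ ?_ ?_
      · intro x _; simp
      · intro x _; simp
      · intro x _; simp [ow_ow]
      · intro x _; simp [ow_ow]
      · intro x _; rfl
    rw [e, Finset.sum_product (univ : Finset (Fin d → A)) (univ : Finset (Fin d → A))
      (fun x => F x.2)]
    simp
  rw [h]
  field_simp

/-- Hypotheses of the chaining lemma. -/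
structure Hyp (D : ℕ) (W : ℕ → (Fin d → A) → ℝ) (e : ℕ → ℝ) : Prop where
  one_le : ∀ m < D, ∀ t, 1 ≤ W m t
  dep : ∀ m < D, ∀ t t' : Fin d → A, (∀ i : Fin d, i.val < m → t i = t' i) → W m t = W m t'
  e_nonneg : ∀ m < D, 0 ≤ e m
  avg : ∀ m < D, ∀ r ≤ m, ∀ q : ℕ, 1 ≤ q → ∀ t,
    pav (univ.filter fun i : Fin d => m - r ≤ i.val ∧ i.val < m) (fun t => W m t ^ q) t
      ≤ Real.exp (e m * 2 ^ q * (3 / 4) ^ r)

variable {D : ℕ} {W : ℕ → (Fin d → A) → ℝ} {e : ℕ → ℝ}

/-- the blocks -/
def Bk (D i : ℕ) : Finset ℕ := (range D).filter fun m => 2 ^ i ≤ m ∧ m < 2 ^ (i + 1)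

/-- the coordinates averaged for block `i` -/
def Sc (d i : ℕ) : Finset (Fin d) := univ.filter fun j : Fin d => 2 ^ i / 2 ≤ j.val ∧ j.val < 2 ^ (i + 1)

/-- the block product -/
noncomputable def Fb (D : ℕ) (W : ℕ → (Fin d → A) → ℝ) (i : ℕ) (t : Fin d → A) : ℝ :=
  ∏ m ∈ Bk D i, (W m t) ^ (1 / 32 : ℝ)

/-- the exponents -/
noncomputable def be (e : ℕ → ℝ) (m : ℕ) : ℝ := e m * (2 * (19 / 20) ^ m)

lemma num_bound (i m : ℕ) (h1 : 2 ^ i ≤ m) (h2 : m < 2 ^ (i + 1)) :
    (2 : ℝ) ^ (max 1 (2 ^ i / 32)) * (3 / 4 : ℝ) ^ (m - 2 ^ i / 2) ≤ 2 * (19 / 20) ^ m := by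
  set x := m - 2 ^ i / 2 with hx
  have hx2 : m ≤ 2 * x := by omega
  have h3 : ((19 / 20 : ℝ)) ^ (2 * x) ≤ (19 / 20 : ℝ) ^ m :=
    pow_le_pow_of_le_one (by norm_num) (by norm_num) hx2
  have h4 : ((19 / 20 : ℝ)) ^ (2 * x) = (361 / 400 : ℝ) ^ x := by
    rw [pow_mul]; norm_num
  rcases Nat.lt_or_ge i 5 with hi | hi
  · have : 2 ^ i / 32 = 0 := by
      apply Nat.div_eq_of_lt
      calc 2 ^ i < 2 ^ 5 := Nat.pow_lt_pow_right (by norm_num) hi
        _ = 32 := by norm_num
    rw [this]
    have h5 : (3 / 4 : ℝ) ^ x ≤ (361 / 400 : ℝ) ^ x :=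
      pow_le_pow_left₀ (by norm_num) (by norm_num) x
    simp only [zero_le, sup_of_le_left, pow_one]
    linarith
  · obtain ⟨j, rfl⟩ := Nat.exists_eq_add_of_le hi
    have h5 : 2 ^ (5 + j) / 32 = 2 ^ j := by
      rw [pow_add]; norm_num
    have h6 : 1 ≤ 2 ^ j := Nat.one_le_two_pow
    have h7 : 2 ^ (5 + j) = 32 * 2 ^ j := by rw [pow_add]; norm_num
    rw [h5, max_eq_right h6]
    have hxq : 16 * 2 ^ j ≤ x := by omega
    have h8 : (2 : ℝ) ^ (2 ^ j) ≤ (361 / 300 : ℝ) ^ x := by
      calc (2 : ℝ) ^ (2 ^ j) ≤ ((361 / 300 : ℝ) ^ 16) ^ (2 ^ j) := by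
            gcongr; norm_num
        _ = (361 / 300 : ℝ) ^ (16 * 2 ^ j) := by rw [pow_mul]
        _ ≤ (361 / 300 : ℝ) ^ x := pow_le_pow_right₀ (by norm_num) hxq
    have h9 : (2 : ℝ) ^ (2 ^ j) * (3 / 4 : ℝ) ^ x ≤ (361 / 400 : ℝ) ^ x := by
      calc (2 : ℝ) ^ (2 ^ j) * (3 / 4 : ℝ) ^ x ≤ (361 / 300 : ℝ) ^ x * (3 / 4 : ℝ) ^ x := by gcongr
        _ = (361 / 400 : ℝ) ^ x := by rw [← mul_pow]; norm_num
    have h10 : 0 ≤ (19 / 20 : ℝ) ^ m := by positivity
    linarith

lemma pav_congr (S S' : Finset (Fin d)) (F : (Fin d → A) → ℝ) (m : ℕ)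
    (hdep : ∀ t t' : Fin d → A, (∀ i : Fin d, i.val < m → t i = t' i) → F t = F t')
    (hS : ∀ i : Fin d, i.val < m → (i ∈ S ↔ i ∈ S')) (t : Fin d → A) :
    pav S F t = pav S' F t := by
  unfold pav
  congr 1
  funext s
  apply hdep
  intro i hi
  unfold ow
  by_cases h : i ∈ S
  · rw [if_pos h, if_pos ((hS i hi).1 h)]
  · rw [if_neg h, if_neg (fun h' => h ((hS i hi).2 h'))]

lemma block (H : Hyp D W e) (i : ℕ) (t : Fin d → A) :
    pav (Sc d i) (Fb D W i) t ≤ Real.exp (∑ m ∈ Bk D i, be e m) := by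
  classical
  by_cases hB : (Bk D i).card = 0
  · have hB' : Bk D i = ∅ := card_eq_zero.1 hB
    have e1 : pav (Sc d i) (Fb D W i) t = 1 := by
      unfold pav Fb
      simp only [hB', prod_empty]
      exact ev_const 1
    rw [e1, hB']
    simp
  set M : ℕ := (Bk D i).card with hM
  have hM1 : 1 ≤ M := Nat.one_le_iff_ne_zero.2 hB
  have hMr : (1 : ℝ) ≤ M := by exact_mod_cast hM1
  set q : ℕ := max 1 (2 ^ i / 32) with hq
  have hq1 : 1 ≤ q := le_max_left _ _
  have hMi : M ≤ 2 ^ i := by
    have : Bk D i ⊆ Ico (2 ^ i) (2 ^ (i + 1)) := by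
      intro m hm
      simp only [Bk, mem_filter] at hm
      exact mem_Ico.2 hm.2
    have h2 := card_le_card this
    rw [Nat.card_Ico, pow_succ] at h2
    omega
  have hMq : M ≤ 32 * q := by
    rcases Nat.lt_or_ge i 5 with hi | hi
    · have : 2 ^ i < 2 ^ 5 := Nat.pow_lt_pow_right (by norm_num) hi
      omega
    · obtain ⟨j, rfl⟩ := Nat.exists_eq_add_of_le hi
      have h5 : 2 ^ (5 + j) / 32 = 2 ^ j := by
        rw [pow_add]; norm_num
      have h7 : 2 ^ (5 + j) = 32 * 2 ^ j := by rw [pow_add]; norm_num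
      have : 2 ^ j ≤ q := by rw [hq, h5]; exact le_max_right _ _
      omega
  have hmem : ∀ m ∈ Bk D i, m < D ∧ 2 ^ i ≤ m ∧ m < 2 ^ (i + 1) := by
    intro m hm
    simpa only [Bk, mem_filter, mem_range] using hm
  have hbe : ∀ m ∈ Bk D i, e m * 2 ^ q * (3 / 4) ^ (m - 2 ^ i / 2) ≤ (M : ℝ) * be e m := by
    intro m hm
    obtain ⟨hmD, h1, h2⟩ := hmem m hm
    have h3 := num_bound i m h1 h2
    have he := H.e_nonneg m hmD
    have h4 : e m * 2 ^ q * (3 / 4) ^ (m - 2 ^ i / 2) ≤ be e m := by
      unfold be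
      rw [mul_assoc]
      exact mul_le_mul_of_nonneg_left h3 he
    have h5 : 0 ≤ be e m := by unfold be; positivity
    nlinarith
  -- pointwise bound
  have hpt : ∀ u : Fin d → A, Fb D W i u ≤ Real.exp (∑ m ∈ Bk D i, be e m) *
      ∑ m ∈ Bk D i, (1 / (M : ℝ)) * (Real.exp (-(M * be e m)) * W m u ^ q) := by
    intro u
    have h1 : ∀ m ∈ Bk D i, (W m u) ^ (1 / 32 : ℝ) ≤
        Real.exp (be e m) * (Real.exp (-(M * be e m)) * W m u ^ q) ^ (1 / (M : ℝ)) := by
      intro m hm
      have hW := H.one_le m (hmem m hm).1 u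
      have hW0 : 0 ≤ W m u := by linarith
      rw [Real.mul_rpow (Real.exp_pos _).le (by positivity), ← mul_assoc, ← Real.exp_mul,
        ← Real.exp_add]
      have e0 : be e m + -(M * be e m) * (1 / (M : ℝ)) = 0 := by
        field_simp; ring
      rw [e0, Real.exp_zero, one_mul, ← Real.rpow_natCast, ← Real.rpow_mul hW0]
      apply Real.rpow_le_rpow_of_exponent_le hW
      rw [mul_one_div, div_le_div_iff₀ (by norm_num) (by linarith), one_mul]
      have : (M : ℝ) ≤ 32 * q := by exact_mod_cast hMq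
      linarith
    calc Fb D W i u ≤ ∏ m ∈ Bk D i, (Real.exp (be e m) *
          (Real.exp (-(M * be e m)) * W m u ^ q) ^ (1 / (M : ℝ))) := by
          unfold Fb
          apply prod_le_prod
          · intro m hm
            have hW := H.one_le m (hmem m hm).1 u
            positivity
          · exact h1
      _ = Real.exp (∑ m ∈ Bk D i, be e m) *
          ∏ m ∈ Bk D i, (Real.exp (-(M * be e m)) * W m u ^ q) ^ (1 / (M : ℝ)) := by
          rw [prod_mul_distrib, Real.exp_sum]
      _ ≤ _ := by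
          apply mul_le_mul_of_nonneg_left _ (Real.exp_pos _).le
          apply Real.geom_mean_le_arith_mean_weighted
          · intro m _; positivity
          · rw [sum_const, ← hM, nsmul_eq_mul]
            field_simp
          · intro m hm
            have hW := H.one_le m (hmem m hm).1 u
            positivity
  have hav : ∀ m ∈ Bk D i, ev (fun s => W m (ow (Sc d i) s t) ^ q) ≤
      Real.exp (M * be e m) := by
    intro m hm
    obtain ⟨hmD, h1, h2⟩ := hmem m hm
    have h3 := H.avg m hmD (m - 2 ^ i / 2) (Nat.sub_le _ _) q hq1 t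
    have h4 : pav (Sc d i) (fun t => W m t ^ q) t =
        pav (univ.filter fun j : Fin d => m - (m - 2 ^ i / 2) ≤ j.val ∧ j.val < m)
          (fun t => W m t ^ q) t := by
      apply pav_congr _ _ _ m
      · intro t t' h
        show W m t ^ q = W m t' ^ q
        rw [H.dep m hmD t t' h]
      · intro j hj
        simp only [Sc, mem_filter, mem_univ, true_and]
        omega
    calc ev (fun s => W m (ow (Sc d i) s t) ^ q) = pav (Sc d i) (fun t => W m t ^ q) t := rfl
      _ ≤ _ := by
        rw [h4]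
        exact h3.trans (Real.exp_le_exp.2 (hbe m hm))
  calc pav (Sc d i) (Fb D W i) t
      ≤ ev (fun s => Real.exp (∑ m ∈ Bk D i, be e m) *
        ∑ m ∈ Bk D i, (1 / (M : ℝ)) * (Real.exp (-(M * be e m)) * W m (ow (Sc d i) s t) ^ q)) :=
        ev_mono fun s => hpt _
    _ = Real.exp (∑ m ∈ Bk D i, be e m) * ∑ m ∈ Bk D i, (1 / (M : ℝ)) *
        (Real.exp (-(M * be e m)) * ev (fun s => W m (ow (Sc d i) s t) ^ q)) := by
        rw [ev_mul_const, ev_sum]
        congr 1
        refine sum_congr rfl fun m _ => ?_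
        rw [ev_mul_const, ev_mul_const]
    _ ≤ Real.exp (∑ m ∈ Bk D i, be e m) * ∑ m ∈ Bk D i, (1 / (M : ℝ)) * 1 := by
        gcongr with m hm
        calc Real.exp (-(M * be e m)) * ev (fun s => W m (ow (Sc d i) s t) ^ q)
            ≤ Real.exp (-(M * be e m)) * Real.exp (M * be e m) := by
              gcongr
              exact hav m hm
          _ = 1 := by rw [← Real.exp_add]; simp
    _ = Real.exp (∑ m ∈ Bk D i, be e m) := by
        rw [sum_const, ← hM, nsmul_eq_mul]
        field_simp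

lemma Fb_dep (H : Hyp D W e) (i : ℕ) (t t' : Fin d → A)
    (h : ∀ j : Fin d, j.val < 2 ^ (i + 1) → t j = t' j) : Fb D W i t = Fb D W i t' := by
  unfold Fb
  refine prod_congr rfl fun m hm => ?_
  simp only [Bk, mem_filter, mem_range] at hm
  rw [H.dep m hm.1 t t' (fun j hj => h j (by omega))]

lemma Fb_nonneg (H : Hyp D W e) (i : ℕ) (t : Fin d → A) : 0 ≤ Fb D W i t := by
  unfold Fb
  refine prod_nonneg fun m hm => ?_
  simp only [Bk, mem_filter, mem_range] at hm
  have := H.one_le m hm.1 t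
  positivity

/-- product over the blocks of parity `p` -/
noncomputable def Gp (D : ℕ) (W : ℕ → (Fin d → A) → ℝ) (p I : ℕ) (t : Fin d → A) : ℝ :=
  ∏ i ∈ (range I).filter (fun i => i % 2 = p), Fb D W i t

lemma Gp_nonneg (H : Hyp D W e) (p I : ℕ) (t : Fin d → A) : 0 ≤ Gp D W p I t :=
  prod_nonneg fun i _ => Fb_nonneg H i t

lemma Gp_dep (H : Hyp D W e) (p I : ℕ) (t t' : Fin d → A)
    (h : ∀ j : Fin d, j.val < 2 ^ I → t j = t' j) : Gp D W p I t = Gp D W p I t' := by
  unfold Gp
  refine prod_congr rfl fun i hi => ?_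
  simp only [mem_filter, mem_range] at hi
  refine Fb_dep H i t t' (fun j hj => h j ?_)
  have : 2 ^ (i + 1) ≤ 2 ^ I := Nat.pow_le_pow_right (by norm_num) hi.1
  omega

lemma chainP (H : Hyp D W e) (p : ℕ) : ∀ I : ℕ, ev (Gp D W p I) ≤
    Real.exp (∑ i ∈ (range I).filter (fun i => i % 2 = p), ∑ m ∈ Bk D i, be e m) := by
  intro I
  induction I using Nat.strong_induction_on with
  | _ I ih =>
    rcases Nat.eq_zero_or_pos I with rfl | hI
    · have : Gp D W p 0 = fun _ : Fin d → A => (1 : ℝ) := by funext t; simp [Gp]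
      rw [this, ev_const]
      simp
    obtain ⟨J, rfl⟩ : ∃ J, I = J + 1 := ⟨I - 1, by omega⟩
    by_cases hp : J % 2 = p
    · -- the new block
      have hG : ∀ t, Gp D W p (J + 1) t = Gp D W p (J - 1) t * Fb D W J t := by
        intro t
        unfold Gp
        have e1 : (range (J + 1)).filter (fun i => i % 2 = p) =
            insert J ((range (J - 1)).filter (fun i => i % 2 = p)) := by
          ext i
          simp only [mem_filter, mem_range, mem_insert]
          constructor
          · rintro ⟨h1, h2⟩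
            by_cases h : i = J
            · exact Or.inl h
            · exact Or.inr ⟨by omega, h2⟩
          · rintro (rfl | ⟨h1, h2⟩)
            · exact ⟨by omega, hp⟩
            · exact ⟨by omega, h2⟩
        rw [e1, prod_insert, mul_comm]
        simp only [mem_filter, mem_range]
        omega
      have hE : ∑ i ∈ (range (J + 1)).filter (fun i => i % 2 = p), ∑ m ∈ Bk D i, be e m =
          (∑ i ∈ (range (J - 1)).filter (fun i => i % 2 = p), ∑ m ∈ Bk D i, be e m) +
            ∑ m ∈ Bk D J, be e m := by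
        have e1 : (range (J + 1)).filter (fun i => i % 2 = p) =
            insert J ((range (J - 1)).filter (fun i => i % 2 = p)) := by
          ext i
          simp only [mem_filter, mem_range, mem_insert]
          constructor
          · rintro ⟨h1, h2⟩
            by_cases h : i = J
            · exact Or.inl h
            · exact Or.inr ⟨by omega, h2⟩
          · rintro (rfl | ⟨h1, h2⟩)
            · exact ⟨by omega, hp⟩
            · exact ⟨by omega, h2⟩
        rw [e1, sum_insert, add_comm]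
        simp only [mem_filter, mem_range]
        omega
      have h1 : ∀ t, pav (Sc d J) (Gp D W p (J + 1)) t ≤
          Real.exp (∑ m ∈ Bk D J, be e m) * Gp D W p (J - 1) t := by
        intro t
        have h2 : pav (Sc d J) (Gp D W p (J + 1)) t =
            Gp D W p (J - 1) t * pav (Sc d J) (Fb D W J) t := by
          unfold pav
          rw [← ev_mul_const]
          congr 1
          funext s
          rw [hG]
          congr 1
          rcases Nat.eq_zero_or_pos J with rfl | hJ
          · simp [Gp]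
          · obtain ⟨K, rfl⟩ : ∃ K, J = K + 1 := ⟨J - 1, by omega⟩
            apply Gp_dep H
            intro j hj
            unfold ow
            rw [if_neg]
            simp only [Sc, mem_filter, mem_univ, true_and]
            intro h3
            have : 2 ^ (K + 1) / 2 = 2 ^ K := by rw [pow_succ]; omega
            rw [this] at h3
            simp only [Nat.add_sub_cancel] at hj
            omega
        rw [h2, mul_comm]
        exact mul_le_mul_of_nonneg_right (block H J t) (Gp_nonneg H _ _ _)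
      calc ev (Gp D W p (J + 1)) = ev (pav (Sc d J) (Gp D W p (J + 1))) := (ev_pav _ _).symm
        _ ≤ ev (fun t => Real.exp (∑ m ∈ Bk D J, be e m) * Gp D W p (J - 1) t) := ev_mono h1
        _ = Real.exp (∑ m ∈ Bk D J, be e m) * ev (Gp D W p (J - 1)) := ev_mul_const _ _
        _ ≤ Real.exp (∑ m ∈ Bk D J, be e m) *
            Real.exp (∑ i ∈ (range (J - 1)).filter (fun i => i % 2 = p), ∑ m ∈ Bk D i, be e m) := by
            gcongr
            exact ih (J - 1) (by omega)
        _ = _ := by rw [← Real.exp_add, hE, add_comm]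
    · have e1 : (range (J + 1)).filter (fun i => i % 2 = p) =
          (range J).filter (fun i => i % 2 = p) := by
        ext i
        simp only [mem_filter, mem_range]
        constructor
        · rintro ⟨h1, h2⟩
          refine ⟨?_, h2⟩
          by_contra h
          have : i = J := by omega
          subst this
          exact hp h2
        · rintro ⟨h1, h2⟩
          exact ⟨by omega, h2⟩
      have hG : Gp D W p (J + 1) = Gp (d := d) D W p J := by
        funext t
        unfold Gp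
        rw [e1]
      rw [hG, e1]
      exact ih J (by omega)

lemma ev_nonneg {F : (Fin d → A) → ℝ} (h : ∀ t, 0 ≤ F t) : 0 ≤ ev F := by
  unfold ev
  have := card_pos' (A := A) (d := d)
  exact div_nonneg (sum_nonneg fun t _ => h t) this.le

theorem chain (H : Hyp D W e) :
    ev (fun t => ∏ m ∈ range D, (W m t) ^ (1 / 64 : ℝ)) ≤
      Real.exp (∑ m ∈ range D, e m * (19 / 20) ^ m) := by
  classical
  rcases Nat.eq_zero_or_pos D with rfl | hD
  · simp only [range_zero, prod_empty, sum_empty, Real.exp_zero]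
    rw [ev_const]
  -- number of blocks
  set I := D with hI
  have hlt : ∀ m < D, m < 2 ^ D := fun m hm => hm.trans Nat.lt_two_pow_self
  have hpart : (range D).erase 0 = (range I).biUnion (Bk D) := by
    ext m
    simp only [mem_erase, mem_range, mem_biUnion, Bk, mem_filter]
    constructor
    · rintro ⟨h0, hm⟩
      refine ⟨Nat.log 2 m, ?_, hm, Nat.pow_log_le_self 2 h0, Nat.lt_pow_succ_log_self (by norm_num) m⟩
      exact (Nat.log_lt_self 2 h0).trans hm
    · rintro ⟨i, _, hm, h1, _⟩
      refine ⟨?_, hm⟩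
      rintro rfl
      have := Nat.one_le_two_pow (n := i)
      omega
  have hdisj : ∀ i ∈ range I, ∀ j ∈ range I, i ≠ j → Disjoint (Bk D i) (Bk D j) := by
    intro i _ j _ hij
    rw [disjoint_left]
    intro m h1 h2
    simp only [Bk, mem_filter, mem_range] at h1 h2
    rcases Nat.lt_or_gt_of_ne hij with h | h
    · have : 2 ^ (i + 1) ≤ 2 ^ j := Nat.pow_le_pow_right (by norm_num) h
      omega
    · have : 2 ^ (j + 1) ≤ 2 ^ i := Nat.pow_le_pow_right (by norm_num) h
      omega
  have h0 : (0 : ℕ) ∈ range D := mem_range.2 hD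
  -- the product
  have hprod : ∀ t : Fin d → A, ∏ m ∈ range D, (W m t) ^ (1 / 64 : ℝ) =
      (W 0 t) ^ (1 / 64 : ℝ) * ((Gp D W 0 I t) ^ (1 / 2 : ℝ) * (Gp D W 1 I t) ^ (1 / 2 : ℝ)) := by
    intro t
    rw [← mul_prod_erase _ _ h0, hpart, prod_biUnion hdisj]
    congr 1
    have e1 : ∀ i ∈ range I, ∏ m ∈ Bk D i, (W m t) ^ (1 / 64 : ℝ) = (Fb D W i t) ^ (1 / 2 : ℝ) := by
      intro i _
      unfold Fb
      rw [← Real.finsetProd_rpow]
      · refine prod_congr rfl fun m hm => ?_
        simp only [Bk, mem_filter, mem_range] at hm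
        have := H.one_le m hm.1 t
        rw [← Real.rpow_mul (by linarith)]
        norm_num
      · intro m hm
        simp only [Bk, mem_filter, mem_range] at hm
        have := H.one_le m hm.1 t
        positivity
    rw [prod_congr rfl e1, ← prod_filter_mul_prod_filter_not (range I) (fun i => i % 2 = 0)]
    have e2 : (range I).filter (fun i => ¬ i % 2 = 0) = (range I).filter (fun i => i % 2 = 1) := by
      ext i
      simp only [mem_filter, mem_range]
      omega
    rw [e2]
    unfold Gp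
    rw [← Real.finsetProd_rpow, ← Real.finsetProd_rpow]
    · intro i _; exact Fb_nonneg H i t
    · intro i _; exact Fb_nonneg H i t
  set S0 := ∑ i ∈ (range I).filter (fun i => i % 2 = 0), ∑ m ∈ Bk D i, be e m with hS0
  set S1 := ∑ i ∈ (range I).filter (fun i => i % 2 = 1), ∑ m ∈ Bk D i, be e m with hS1
  have hS : S0 + S1 = ∑ m ∈ (range D).erase 0, be e m := by
    rw [hpart, sum_biUnion hdisj,
      ← sum_filter_add_sum_filter_not (range I) (fun i => i % 2 = 0)]
    have e2 : (range I).filter (fun i => ¬ i % 2 = 0) = (range I).filter (fun i => i % 2 = 1) := by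
      ext i
      simp only [mem_filter, mem_range]
      omega
    rw [e2]
  have hW0 : ∀ t, (W 0 t) ^ (1 / 64 : ℝ) ≤ Real.exp (e 0) := by
    intro t
    have h1 := H.avg 0 hD 0 le_rfl 1 le_rfl t
    have h2 : pav (univ.filter fun i : Fin d => 0 - 0 ≤ i.val ∧ i.val < 0) (fun t => W 0 t ^ 1) t
        = W 0 t := by
      unfold pav
      have : ∀ s : Fin d → A, W 0 (ow (univ.filter fun i : Fin d => 0 - 0 ≤ i.val ∧ i.val < 0) s t)
          = W 0 t := fun s => H.dep 0 hD _ _ (fun i hi => absurd hi (by omega))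
      simp only [this, pow_one]
      exact ev_const _
    rw [h2] at h1
    simp only [pow_one, pow_zero, mul_one] at h1
    have h3 := H.one_le 0 hD t
    have he := H.e_nonneg 0 hD
    calc (W 0 t) ^ (1 / 64 : ℝ) ≤ (Real.exp (e 0 * 2)) ^ (1 / 64 : ℝ) :=
          Real.rpow_le_rpow (by linarith) h1 (by norm_num)
      _ = Real.exp (e 0 * 2 * (1 / 64)) := by rw [← Real.exp_mul]
      _ ≤ Real.exp (e 0) := Real.exp_le_exp.2 (by linarith)
  have hpt : ∀ t : Fin d → A, ∏ m ∈ range D, (W m t) ^ (1 / 64 : ℝ) ≤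
      Real.exp (e 0) * Real.exp ((S0 + S1) / 2) *
        (1 / 2 * (Real.exp (-S0) * Gp D W 0 I t) + 1 / 2 * (Real.exp (-S1) * Gp D W 1 I t)) := by
    intro t
    rw [hprod t, mul_assoc (Real.exp (e 0))]
    have g0 := Gp_nonneg H 0 I t
    have g1 := Gp_nonneg H 1 I t
    have h1 : (Gp D W 0 I t) ^ (1 / 2 : ℝ) * (Gp D W 1 I t) ^ (1 / 2 : ℝ) =
        Real.exp ((S0 + S1) / 2) * ((Real.exp (-S0) * Gp D W 0 I t) ^ (1 / 2 : ℝ) *
          (Real.exp (-S1) * Gp D W 1 I t) ^ (1 / 2 : ℝ)) := by
      rw [Real.mul_rpow (Real.exp_pos _).le g0, Real.mul_rpow (Real.exp_pos _).le g1,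
        ← Real.exp_mul, ← Real.exp_mul]
      have e3 : Real.exp ((S0 + S1) / 2) * (Real.exp (-S0 * (1 / 2)) * Real.exp (-S1 * (1 / 2))) = 1 := by
        rw [← Real.exp_add, ← Real.exp_add]
        have : (S0 + S1) / 2 + (-S0 * (1 / 2) + -S1 * (1 / 2)) = 0 := by ring
        rw [this, Real.exp_zero]
      calc (Gp D W 0 I t) ^ (1 / 2 : ℝ) * (Gp D W 1 I t) ^ (1 / 2 : ℝ)
          = (Real.exp ((S0 + S1) / 2) * (Real.exp (-S0 * (1 / 2)) * Real.exp (-S1 * (1 / 2)))) *
            ((Gp D W 0 I t) ^ (1 / 2 : ℝ) * (Gp D W 1 I t) ^ (1 / 2 : ℝ)) := by rw [e3, one_mul]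
        _ = _ := by ring
    have h2 := Real.geom_mean_le_arith_mean2_weighted (w₁ := 1 / 2) (w₂ := 1 / 2)
      (p₁ := Real.exp (-S0) * Gp D W 0 I t) (p₂ := Real.exp (-S1) * Gp D W 1 I t)
      (by norm_num) (by norm_num) (by positivity) (by positivity) (by norm_num)
    apply mul_le_mul (hW0 t) _ (by positivity) (Real.exp_pos _).le
    rw [h1]
    exact mul_le_mul_of_nonneg_left h2 (Real.exp_pos _).le
  have hc0 := chainP H 0 I
  have hc1 := chainP H 1 I
  calc ev (fun t => ∏ m ∈ range D, (W m t) ^ (1 / 64 : ℝ))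
      ≤ ev (fun t => Real.exp (e 0) * Real.exp ((S0 + S1) / 2) *
        (1 / 2 * (Real.exp (-S0) * Gp D W 0 I t) + 1 / 2 * (Real.exp (-S1) * Gp D W 1 I t))) :=
        ev_mono hpt
    _ = Real.exp (e 0) * Real.exp ((S0 + S1) / 2) *
        (1 / 2 * (Real.exp (-S0) * ev (Gp D W 0 I)) + 1 / 2 * (Real.exp (-S1) * ev (Gp D W 1 I))) := by
        rw [ev_mul_const, ev_add, ev_mul_const, ev_mul_const, ev_mul_const, ev_mul_const]
    _ ≤ Real.exp (e 0) * Real.exp ((S0 + S1) / 2) *
        (1 / 2 * (Real.exp (-S0) * Real.exp S0) + 1 / 2 * (Real.exp (-S1) * Real.exp S1)) := by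
        gcongr
    _ = Real.exp (e 0 + (S0 + S1) / 2) := by
        rw [← Real.exp_add (-S0), ← Real.exp_add (-S1), ← Real.exp_add]
        simp
        ring_nf
    _ ≤ Real.exp (∑ m ∈ range D, e m * (19 / 20) ^ m) := by
        apply Real.exp_le_exp.2
        rw [hS, ← add_sum_erase _ _ h0, sum_div]
        simp only [pow_zero, mul_one]
        apply add_le_add le_rfl
        apply sum_le_sum
        intro m _
        unfold be
        apply le_of_eq
        ring

end Vale.Agent.P162c.Chain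

namespace Vale.Agent.P162c

open Finset Vale.Agent.P162

theorem chain : S_CHAIN := by
  refine ⟨1, one_pos, ?_⟩
  intro d A _ _ W e he hW hdep havg
  set W' : ℕ → (Fin d → A) → ℝ := fun m t => if h : m < d then W ⟨m, h⟩ t else 1 with hW'
  set e' : ℕ → ℝ := fun m => if h : m < d then e ⟨m, h⟩ else 0 with he'
  have H : Chain.Hyp d W' e' := by
    refine ⟨?_, ?_, ?_, ?_⟩
    · intro m hm t
      simp only [hW', dif_pos hm]
      exact hW _ _
    · intro m hm t t' h
      simp only [hW', dif_pos hm]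
      exact hdep _ _ _ (fun i hi => h i hi)
    · intro m hm
      simp only [he', dif_pos hm]
      exact he _
    · intro m hm r hr q _ t
      have h := havg ⟨m, hm⟩ r q t hr
      simp only [hW', he', dif_pos hm]
      have e1 : (univ.filter fun i : Fin d => m - r ≤ (i : ℕ) ∧ i < (⟨m, hm⟩ : Fin d)) =
          univ.filter fun i : Fin d => m - r ≤ (i : ℕ) ∧ (i : ℕ) < m := by
        ext i
        simp only [mem_filter, mem_univ, true_and, Fin.lt_def]
      first
        | exact h
        | (rw [e1] at h; exact h)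
  have h := Chain.chain H
  have e1 : ∀ t : Fin d → A, ∏ m ∈ range d, (W' m t) ^ (1 / 64 : ℝ) =
      ∏ m : Fin d, W m t ^ (1 / 64 : ℝ) := by
    intro t
    rw [← Fin.prod_univ_eq_prod_range (fun m => (W' m t) ^ (1 / 64 : ℝ)) d]
    refine prod_congr rfl fun m _ => ?_
    simp only [hW', dif_pos m.isLt, Fin.eta]
  have e2 : ∑ m ∈ range d, e' m * (19 / 20 : ℝ) ^ m = ∑ m : Fin d, e m * (19 / 20) ^ (m : ℕ) := by
    rw [← Fin.sum_univ_eq_sum_range (fun m => e' m * (19 / 20 : ℝ) ^ m) d]
    refine sum_congr rfl fun m _ => ?_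
    simp only [he', dif_pos m.isLt, Fin.eta]
  simp only [e1, e2] at h
  rw [one_mul]
  exact h

end Vale.Agent.P162c
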