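import Mathlib
import Vale.Agent.P162.Defs

/-!
P162 (Thorp shuffle): shared definitions and module statements (as Props)
for the proof of `t_mix (2^d) = O(d)`.

Sites / positions: `I → Bool` (`I = Fin d`).  `avg` is the uniform average from `P162.Defs`.
-/

namespace Vale.Agent.P162c

open Finset Vale.Agent.P162

/-- flip coordinate `j` -/
def flip {I : Type} [DecidableEq I] (j : I) (x : I → Bool) : I → Bool :=
  Function.update x j (!x j)

lemma flip_flip {I : Type} [DecidableEq I] (j : I) (x : I → Bool) : flip j (flip j x) = x := by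
  funext i; unfold flip; by_cases h : i = j
  · subst h; simp
  · simp [h]

lemma update_flip {I : Type} [DecidableEq I] (j : I) (x : I → Bool) (b : Bool) :
    Function.update (flip j x) j b = Function.update x j b := by
  unfold flip; simp

/-- one layer of switches along coordinate `j`: `x` is flipped iff the switch of its edge is on -/
def swFun {I : Type} [DecidableEq I] (j : I) (s : (I → Bool) → Bool) (x : I → Bool) : I → Bool :=
  if s (Function.update x j false) = true then flip j x else x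

lemma swFun_swFun {I : Type} [DecidableEq I] (j : I) (s : (I → Bool) → Bool) (x : I → Bool) :
    swFun j s (swFun j s x) = x := by
  unfold swFun
  by_cases h : s (Function.update x j false) = true
  · simp [h, update_flip, flip_flip]
  · simp [h]

/-- one layer of switches as a permutation of the positions -/
def sw {I : Type} [DecidableEq I] (j : I) (s : (I → Bool) → Bool) : Equiv.Perm (I → Bool) where
  toFun := swFun j s
  invFun := swFun j s
  left_inv := swFun_swFun j s
  right_inv := swFun_swFun j s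

/-- butterfly for a list of coordinates; the HEAD of the list is applied LAST -/
def op {I : Type} [DecidableEq I] (t : I → (I → Bool) → Bool) : List I → Equiv.Perm (I → Bool)
  | [] => 1
  | j :: l => sw j (t j) * op t l

/-- Benes network; the head of the list is the outermost coordinate -/
def net {I : Type} [DecidableEq I] (s t : I → (I → Bool) → Bool) :
    List I → Equiv.Perm (I → Bool)
  | [] => 1
  | j :: l => sw j (t j) * net s t l * sw j (s j)

/-- number of `b ⊆ U` such that `b` and its image under `B` are both `flip j`-invariant -/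
def cnt {I : Type} [Fintype I] [DecidableEq I] (j : I) (B : Equiv.Perm (I → Bool))
    (U : Finset (I → Bool)) : ℕ :=
  (U.powerset.filter (fun b => b.image (flip j) = b ∧
    (b.image B).image (flip j) = b.image B)).card

/-- total loop weight of the token set `U` in the network -/
noncomputable def Wt {I : Type} [Fintype I] [DecidableEq I] (s t : I → (I → Bool) → Bool) :
    List I → Finset (I → Bool) → ℝ
  | [], _ => 1
  | j :: l, U => (cnt j (net s t l) U : ℝ) * Wt s t l (U.image (sw j (s j)))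

/-- sites of `U` whose `j`-neighbour is also in `U` -/
def dbl {I : Type} [Fintype I] [DecidableEq I] (j : I) (U : Finset (I → Bool)) : Finset (I → Bool) :=
  U.filter (fun x => flip j x ∈ U)

/-- weighted number of doubly occupied edges over the levels of the network -/
noncomputable def Es {I : Type} [Fintype I] [DecidableEq I] (γ : ℝ)
    (s : I → (I → Bool) → Bool) : List I → Finset (I → Bool) → ℝ
  | [], _ => 0
  | j :: l, U => γ ^ l.length * ((dbl j U).card : ℝ) + Es γ s l (U.image (sw j (s j)))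

/-! ### Module DYAD -/

/-- singular value inequality for powers -/
def S_DYAD : Prop :=
  ∀ (Y : Type) [Fintype Y] [DecidableEq Y] (A : Matrix Y Y ℝ) (l : ℕ),
    ((A ^ (2 ^ l)).transpose * A ^ (2 ^ l)).trace ≤ ((A.transpose * A) ^ (2 ^ l)).trace

/-! ### Module PATH -/

/-- trace of a power through an entrywise Hoelder bound -/
def S_PATH : Prop :=
  ∀ (Y : Type) [Fintype Y] [DecidableEq Y] (A B : Matrix Y Y ℝ) (p : ℕ) (δ C : ℝ), 2 ≤ p →
    0 ≤ δ → 0 ≤ C → (∀ x y, 0 ≤ A x y) → (∀ x y, 0 ≤ B x y) →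
    (∀ x y, A x y ^ p ≤ δ * B x y ^ (p - 1)) → (∀ x, ∑ y, B x y ≤ C) →
    (A ^ p).trace ≤ δ * (Fintype.card Y : ℝ) * C ^ (p - 1)

/-! ### Module CHAIN -/

/-- partial average over the coordinates in `S` -/
noncomputable def pav {d : ℕ} {A : Type} [Fintype A] (S : Finset (Fin d))
    (F : (Fin d → A) → ℝ) (t : Fin d → A) : ℝ :=
  avg (fun u : Fin d → A => F (fun i => if i ∈ S then u i else t i))

/-- Hoelder chaining over levels -/
def S_CHAIN : Prop :=
  ∃ C : ℝ, 0 < C ∧ ∀ (d : ℕ) (A : Type) [Fintype A] [Nonempty A]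
    (W : Fin d → (Fin d → A) → ℝ) (e : Fin d → ℝ),
    (∀ m, 0 ≤ e m) → (∀ m t, 1 ≤ W m t) →
    (∀ (m : Fin d) (t t' : Fin d → A), (∀ i : Fin d, i < m → t i = t' i) → W m t = W m t') →
    (∀ (m : Fin d) (r q : ℕ) (t : Fin d → A), r ≤ (m : ℕ) →
      pav (univ.filter (fun i : Fin d => (m : ℕ) - r ≤ (i : ℕ) ∧ (i : ℕ) < m))
        (fun t => W m t ^ q) t ≤ Real.exp (e m * 2 ^ q * (3 / 4) ^ r)) →
    avg (fun t => ∏ m, W m t ^ (1 / 64 : ℝ)) ≤ Real.exp (C * ∑ m, e m * (19 / 20) ^ (m : ℕ))

/-! ### Module COLOR -/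

/-- trace recursion for colourings.  `op t l` acts on colourings by `a ∘ (op t l)⁻¹`. -/
def S_COLOR : Prop :=
  ∀ (I : Type) [Fintype I] [DecidableEq I] (K : Type) [Fintype K] [DecidableEq K] (z : K)
    (l : List I), l.Nodup → ∀ (E : Finset (I → Bool)) (p : ℝ), 0 ≤ p → p ≤ 1 →
    ∑ a ∈ univ.filter (fun a : (I → Bool) → K => ∀ x, x ∉ E → a x = z),
      p ^ (univ.filter (fun x => a x ≠ z)).card *
        avg (fun T : (I → (I → Bool) → Bool) × (I → (I → Bool) → Bool) =>
          if (∀ x, a ((op T.1 l)⁻¹ x) = a ((op T.2 l)⁻¹ x)) then (1 : ℝ) else 0)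
      ≤ Real.exp ((3 / 4) ^ l.length * ((Fintype.card K : ℝ) - 1) * p * (E.card : ℝ))

/-! ### Module NODE -/

/-- moments of the loop count of a level, over the outer `l.length` output layers -/
def S_NODE : Prop :=
  ∀ (I : Type) [Fintype I] [DecidableEq I] (l : List I) (j : I), l.Nodup → j ∉ l →
    ∀ (B : Equiv.Perm (I → Bool)), (∀ x, B x j = x j) → ∀ (U : Finset (I → Bool)) (q : ℕ),
    avg (fun t : I → (I → Bool) → Bool => (cnt j (op t l * B) U : ℝ) ^ q)
      ≤ Real.exp (2 ^ q * (3 / 4) ^ l.length * ((dbl j U).card : ℝ))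

/-! ### Module OCC -/

/-- exponential moment of the number of doubly occupied edges after the layers of `l` -/
def S_OCC : Prop :=
  ∀ (I : Type) [Fintype I] [DecidableEq I] (l : List I) (j : I), l.Nodup → j ∉ l →
    ∀ (U : Finset (I → Bool)) (u : ℝ), 0 ≤ u →
    avg (fun t : I → (I → Bool) → Bool =>
        (1 + u) ^ ((dbl j (U.image (op t l))).filter (fun x => x j = false)).card)
      ≤ Real.exp (u * (U.card : ℝ) ^ 2 / 2 ^ l.length)

/-! ### Module LOOP -/

/-- the loop identity (as an inequality) -/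
def S_LOOP : Prop :=
  ∀ (I : Type) [Fintype I] [DecidableEq I] (l : List I), l.Nodup →
    ∀ (U : Finset (I → Bool)) (y : (I → Bool) → (I → Bool)),
    avg (fun T : (I → (I → Bool) → Bool) × (I → (I → Bool) → Bool) =>
        if (∀ x ∈ U, net T.1 T.2 l x = y x) then 1 / Wt T.1 T.2 l U else 0)
      ≤ (1 / 2) ^ (l.length * U.card)

/-! ### Module EXPT -/

/-- exponential moment of the total loop weight, first-half switches fixed -/
def S_EXPT : Prop :=
  ∃ C : ℝ, 0 < C ∧ ∀ (d : ℕ) (s : Fin d → (Fin d → Bool) → Bool) (U : Finset (Fin d → Bool)),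
    avg (fun t : Fin d → (Fin d → Bool) → Bool => Wt s t (List.finRange d) U ^ (1 / 64 : ℝ))
      ≤ Real.exp (C * Es (19 / 20) s (List.finRange d) U)

/-! ### Module EXPK -/

/-- exponential moment of the total loop weight -/
def S_EXPK : Prop :=
  ∃ C β : ℝ, 0 < C ∧ 0 < β ∧ β ≤ 1 ∧ ∀ (d : ℕ) (U : Finset (Fin d → Bool)),
    avg (fun T : (Fin d → (Fin d → Bool) → Bool) × (Fin d → (Fin d → Bool) → Bool) =>
        Wt T.1 T.2 (List.finRange d) U ^ (1 / 64 : ℝ))
      ≤ Real.exp (C * (U.card : ℝ) * ((U.card : ℝ) / 2 ^ d) ^ β)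

/-! ### Operators on functions on a `Perm`-set -/

/-- average over one layer, as a matrix on a set `Y` with an action of the permutations -/
noncomputable def Pm {I : Type} [Fintype I] [DecidableEq I] (Y : Type) [Fintype Y] [DecidableEq Y]
    [MulAction (Equiv.Perm (I → Bool)) Y] (j : I) : Matrix Y Y ℝ :=
  fun y y' => avg (fun s : (I → Bool) → Bool => if sw j s • y = y' then (1 : ℝ) else 0)

/-- `Tm Y [j₀, j₁, …] = … * P_{j₁} * P_{j₀}` (one butterfly acting on functions) -/
noncomputable def Tm {I : Type} [Fintype I] [DecidableEq I] (Y : Type) [Fintype Y] [DecidableEq Y]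
    [MulAction (Equiv.Perm (I → Bool)) Y] : List I → Matrix Y Y ℝ
  | [] => 1
  | j :: l => Tm Y l * Pm Y j

/-- `Qm = Tmᵀ * Tm` -/
noncomputable def Qm {I : Type} [Fintype I] [DecidableEq I] (Y : Type) [Fintype Y] [DecidableEq Y]
    [MulAction (Equiv.Perm (I → Bool)) Y] (l : List I) : Matrix Y Y ℝ :=
  (Tm Y l).transpose * Tm Y l

/-! ### Module KER -/

/-- the kernel of `Tᵀ T` is the law of the Benes network -/
def S_KER : Prop :=
  ∀ (I : Type) [Fintype I] [DecidableEq I] (Y : Type) [Fintype Y] [DecidableEq Y]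
    [MulAction (Equiv.Perm (I → Bool)) Y] (l : List I), l.Nodup → ∀ y y' : Y,
    Qm Y l y y' = avg (fun T : (I → (I → Bool) → Bool) × (I → (I → Bool) → Bool) =>
      if net T.1 T.2 l • y = y' then (1 : ℝ) else 0)

/-! ### Module RETURN -/

/-- trace of powers of the token kernel -/
def S_RETURN : Prop :=
  ∃ (p₀ : ℕ), ∀ (d : ℕ) (ι : Type) [Fintype ι] [DecidableEq ι] (p : ℕ) (C : ℝ), p₀ ≤ p →
    (∀ U : Finset (Fin d → Bool), U.card = Fintype.card ι →
      avg (fun T : (Fin d → (Fin d → Bool) → Bool) × (Fin d → (Fin d → Bool) → Bool) =>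
        Wt T.1 T.2 (List.finRange d) U ^ (1 / 64 : ℝ)) ≤ C) → 1 ≤ C →
    ((Qm (ι ↪ (Fin d → Bool)) (List.finRange d)) ^ p).trace ≤ C ^ (p - 1)

/-! ### Module SUB -/

/-- subadditivity of the trace of a PSD operator over invariant subspaces -/
def S_SUB : Prop :=
  ∀ (H : Type) [NormedAddCommGroup H] [InnerProductSpace ℝ H] [FiniteDimensional ℝ H]
    (M : H →ₗ[ℝ] H), (∀ v w, inner ℝ (M v) w = inner ℝ v (M w)) → (∀ v, 0 ≤ inner ℝ (M v) v) →
    ∀ (κ : Type) [Fintype κ] (V : κ → Submodule ℝ H), (∀ i, ∀ v ∈ V i, M v ∈ V i) →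
    LinearMap.trace ℝ H (M ∘ₗ ((⨆ i, V i).starProjection : H →L[ℝ] H)) ≤
      ∑ i, LinearMap.trace ℝ H (M ∘ₗ ((V i).starProjection : H →L[ℝ] H))

/-! ### Module STAR -/

/-- if a unitary representation has no vector invariant under `Perm`s of a set of `m + 1` points
then the sum of the transpositions through `x` is at most `m - 1` -/
def S_STAR : Prop :=
  ∀ (S : Type) [Fintype S] [DecidableEq S] (V : Type) [NormedAddCommGroup V]
    [InnerProductSpace ℝ V] [FiniteDimensional ℝ V]
    (ρ : Equiv.Perm S →* (V →ₗ[ℝ] V)), (∀ g v, ‖ρ g v‖ = ‖v‖) → ∀ m : ℕ, 1 ≤ m →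
    (∀ (B : Finset S) (v : V), B.card = m + 1 →
      (∀ a ∈ B, ∀ b ∈ B, ρ (Equiv.swap a b) v = v) → v = 0) →
    ∀ (x : S) (v : V),
      inner ℝ v (∑ y ∈ univ.erase x, ρ (Equiv.swap x y) v) ≤ ((m : ℝ) - 1) * ‖v‖ ^ 2

end Vale.Agent.P162c
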