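import Mathlib
import Vale.Agent.P162c.Defs

/-!
P162c, module COLOR, part A: the abstract two-halves lemma.
-/

namespace Vale.Agent.P162c
namespace Color

open Finset Vale.Agent.P162

lemma avg_eq {Ω : Type} [Fintype Ω] (F : Ω → ℝ) :
    avg F = (∑ ω, F ω) * ((Fintype.card Ω : ℝ))⁻¹ := by
  unfold avg; rw [div_eq_mul_inv]

lemma avg_nonneg {Ω : Type} [Fintype Ω] {F : Ω → ℝ} (h : ∀ ω, 0 ≤ F ω) : 0 ≤ avg F := by
  rw [avg_eq]
  exact mul_nonneg (Finset.sum_nonneg fun i _ => h i) (by positivity)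

lemma avg_mono {Ω : Type} [Fintype Ω] {F G : Ω → ℝ} (h : ∀ ω, F ω ≤ G ω) : avg F ≤ avg G := by
  rw [avg_eq, avg_eq]
  exact mul_le_mul_of_nonneg_right (Finset.sum_le_sum fun i _ => h i) (by positivity)

lemma avg_sum {Ω ι : Type} [Fintype Ω] (s : Finset ι) (F : ι → Ω → ℝ) :
    avg (fun ω => ∑ i ∈ s, F i ω) = ∑ i ∈ s, avg (F i) := by
  simp only [avg_eq]
  rw [Finset.sum_comm, Finset.sum_mul]

lemma avg_mul_left {Ω : Type} [Fintype Ω] (c : ℝ) (F : Ω → ℝ) :
    avg (fun ω => c * F ω) = c * avg F := by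
  simp only [avg_eq, ← Finset.mul_sum, mul_assoc]

lemma avg_mul_right {Ω : Type} [Fintype Ω] (c : ℝ) (F : Ω → ℝ) :
    avg (fun ω => F ω * c) = avg F * c := by
  simp only [avg_eq, ← Finset.sum_mul]; ring

lemma avg_prod {Ω Ω' : Type} [Fintype Ω] [Fintype Ω'] (F : Ω × Ω' → ℝ) :
    avg F = avg (fun ω => avg (fun ω' => F (ω, ω'))) := by
  simp only [avg_eq, Fintype.card_prod, Fintype.sum_prod_type, Nat.cast_mul, mul_inv,
    Finset.sum_mul]
  refine Finset.sum_congr rfl fun i _ => Finset.sum_congr rfl fun j _ => ?_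
  ring

lemma avg_mul_avg {Ω Ω' : Type} [Fintype Ω] [Fintype Ω'] (F : Ω → ℝ) (G : Ω' → ℝ) :
    avg F * avg G = avg (fun ω => avg (fun ω' => F ω * G ω')) := by
  simp only [avg_mul_left, avg_mul_right]

lemma avg_comm {Ω Ω' : Type} [Fintype Ω] [Fintype Ω'] (F : Ω → Ω' → ℝ) :
    avg (fun ω => avg (fun ω' => F ω ω')) = avg (fun ω' => avg (fun ω => F ω ω')) := by
  simp only [avg_eq, Finset.sum_mul]
  rw [Finset.sum_comm]
  refine Finset.sum_congr rfl fun i _ => Finset.sum_congr rfl fun j _ => ?_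
  ring

lemma avg_equiv {Ω Ω' : Type} [Fintype Ω] [Fintype Ω'] (e : Ω ≃ Ω') (F : Ω' → ℝ) :
    avg (fun ω => F (e ω)) = avg F := by
  simp only [avg_eq, Fintype.card_congr e, Equiv.sum_comp e F]

lemma avg_const {Ω : Type} [Fintype Ω] [Nonempty Ω] (c : ℝ) : avg (fun _ : Ω => c) = c := by
  simp [avg_eq, mul_comm]

section abs

variable {H K Ω : Type} [Fintype H] [DecidableEq H] [Fintype K] [DecidableEq K] [Fintype Ω]

/-- colourings supported in `E` -/
def Cl (z : K) (E : Finset H) : Finset (H → K) :=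
  univ.filter (fun a => ∀ x, x ∉ E → a x = z)

/-- size of the support -/
def sz (z : K) (a : H → K) : ℕ := (univ.filter (fun x => a x ≠ z)).card

/-- law of the image of the colouring `a` -/
noncomputable def mu (g : Ω → Equiv.Perm H) (a u : H → K) : ℝ :=
  avg (fun ω => if (∀ x, a ((g ω)⁻¹ x) = u x) then (1 : ℝ) else 0)

lemma mu_nonneg (g : Ω → Equiv.Perm H) (a u : H → K) : 0 ≤ mu g a u :=
  avg_nonneg fun ω => by positivity

/-- the trace functional -/
noncomputable def FF (z : K) (g : Ω → Equiv.Perm H) (E : Finset H) (p : ℝ) : ℝ :=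
  ∑ a ∈ Cl z E, p ^ sz z a * ∑ u, mu g a u ^ 2

lemma FF_nonneg (z : K) (g : Ω → Equiv.Perm H) (E : Finset H) (p : ℝ) (hp : 0 ≤ p) :
    0 ≤ FF z g E p :=
  Finset.sum_nonneg fun a _ => mul_nonneg (pow_nonneg hp _)
    (Finset.sum_nonneg fun u _ => sq_nonneg _)

/-- mixture of two colourings along `A` -/
def mx (A : H → Bool) (u v : H → K) : H → K := fun x => if A x = true then v x else u x

lemma sum_mu_mul (g : Ω → Equiv.Perm H) (a : H → K) (f : (H → K) → (H → K)) :
    ∑ u, mu g a u * mu g a (f u) = avg (fun ω => avg (fun ω' =>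
      if (∀ x, a ((g ω')⁻¹ x) = f (fun y => a ((g ω)⁻¹ y)) x) then (1 : ℝ) else 0)) := by
  unfold mu
  simp only [avg_mul_avg]
  rw [← avg_sum]
  congr 1
  funext ω
  rw [← avg_sum]
  congr 1
  funext ω'
  rw [Finset.sum_eq_single (fun y => a ((g ω)⁻¹ y))]
  · simp
  · intro u _ hu
    rw [if_neg, zero_mul]
    intro h
    exact hu (funext fun x => (h x).symm)
  · intro h; exact absurd (mem_univ _) h

lemma sum_mu_sq (g : Ω → Equiv.Perm H) (a : H → K) :
    ∑ u, mu g a u ^ 2 = avg (fun ω => avg (fun ω' =>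
      if (∀ x, a ((g ω')⁻¹ x) = a ((g ω)⁻¹ x)) then (1 : ℝ) else 0)) := by
  have := sum_mu_mul g a id
  simp only [id] at this
  rw [← this]
  exact Finset.sum_congr rfl fun u _ => by ring

/-- the deterministic injection lemma -/
lemma inj (z : K) (g g' : Equiv.Perm H) (A : H → Bool) (v : H → K) (E : Finset H) (p : ℝ)
    (hp0 : 0 ≤ p) (hp1 : p ≤ 1) :
    ∑ a ∈ Cl z E, p ^ sz z a *
        (if (∀ x, a (g'⁻¹ x) = mx A (fun y => a (g⁻¹ y)) v x) then (1 : ℝ) else 0) ≤
      ∑ a ∈ Cl z E, p ^ sz z a * ((if (∀ x, a (g'⁻¹ x) = a (g⁻¹ x)) then (1 : ℝ) else 0) *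
        (if (∀ x, A x = true → a (g'⁻¹ x) = z) then (1 : ℝ) else 0)) := by
  classical
  set τ : Equiv.Perm H := g⁻¹ * g' with hτ
  let S : H → Prop := fun i => ∀ n : ℕ, A (g' ((τ ^ n) i)) = false
  let f : (H → K) → (H → K) := fun a x => if S x then a x else z
  have hS : ∀ i, S (τ i) ↔ S i := by
    intro i
    constructor
    · intro h n
      -- use finite order
      obtain ⟨m, hm, hm1⟩ := (isOfFinOrder_of_finite τ).exists_pow_eq_one
      have h1 := h (n + m - 1)
      have : (τ ^ (n + m - 1)) (τ i) = (τ ^ n) i := by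
        have h2 : (τ ^ (n + m - 1)) (τ i) = (τ ^ (n + m - 1 + 1)) i := by
          rw [pow_succ]; rfl
        rw [h2, show n + m - 1 + 1 = n + m by omega, pow_add, hm1]; simp
      rwa [this] at h1
    · intro h n
      have h1 := h (n + 1)
      have : (τ ^ (n + 1)) i = (τ ^ n) (τ i) := by rw [pow_succ]; rfl
      rwa [this] at h1
  have key : ∀ a : H → K, (∀ x, a (g'⁻¹ x) = mx A (fun y => a (g⁻¹ y)) v x) →
      (∀ i, a i = if A (g' i) = true then v (g' i) else a (τ i)) := by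
    intro a h i
    have := h (g' i)
    have e1 : g'⁻¹ (g' i) = i := by simp
    rw [e1] at this
    rw [this, hτ]; rfl
  have keyn : ∀ a : H → K, (∀ x, a (g'⁻¹ x) = mx A (fun y => a (g⁻¹ y)) v x) →
      ∀ (n : ℕ) (i : H), (∀ m < n, A (g' ((τ ^ m) i)) = false) → a i = a ((τ ^ n) i) := by
    intro a h n
    induction n with
    | zero => intro i _; simp
    | succ n ih =>
      intro i hi
      rw [ih i (fun m hm => hi m (by omega))]
      have h1 := key a h ((τ ^ n) i)
      rw [hi n (by omega)] at h1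
      simp only [Bool.false_eq_true, if_false] at h1
      rw [h1, pow_succ']; rfl
  have hinj : Set.InjOn f {a | ∀ x, a (g'⁻¹ x) = mx A (fun y => a (g⁻¹ y)) v x} := by
    intro a ha b hb hab
    funext i
    by_cases hi : S i
    · have := congrFun hab i
      simpa [f, hi] using this
    · have hex : ∃ n : ℕ, A (g' ((τ ^ n) i)) = true := by
        by_contra hne
        push Not at hne
        exact hi (fun n => by simpa using hne n)
      have hn := Nat.find_spec hex
      have hmin : ∀ m < Nat.find hex, A (g' ((τ ^ m) i)) = false := by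
        intro m hm
        have := Nat.find_min hex hm
        simpa using this
      rw [keyn a ha _ i hmin, keyn b hb _ i hmin, key a ha, key b hb]
      simp [hn]
  have hsz : ∀ a : H → K, sz z (f a) ≤ sz z a := by
    intro a
    apply Finset.card_le_card
    intro x hx
    simp only [mem_filter, mem_univ, true_and, f] at hx ⊢
    by_cases h : S x
    · simpa [h] using hx
    · simp [h] at hx
  have hmem : ∀ a ∈ Cl z E, f a ∈ Cl z E := by
    intro a ha
    simp only [Cl, mem_filter, mem_univ, true_and] at ha ⊢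
    intro x hx
    simp only [f]
    by_cases h : S x
    · rw [if_pos h, ha x hx]
    · rw [if_neg h]
  have hc1 : ∀ a : H → K, (∀ x, a (g'⁻¹ x) = mx A (fun y => a (g⁻¹ y)) v x) →
      (∀ x, f a (g'⁻¹ x) = f a (g⁻¹ x)) := by
    intro a ha x
    have hx : g⁻¹ x = τ (g'⁻¹ x) := by simp [hτ]
    rw [hx]
    simp only [f, hS]
    by_cases h : S (g'⁻¹ x)
    · rw [if_pos h, if_pos h]
      have := key a ha (g'⁻¹ x)
      have h0 := h 0
      simp only [pow_zero, Equiv.Perm.coe_one, id] at h0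
      rw [h0] at this
      simpa using this
    · rw [if_neg h, if_neg h]
  have hc2 : ∀ a : H → K, (∀ x, A x = true → f a (g'⁻¹ x) = z) := by
    intro a x hx
    simp only [f]
    rw [if_neg]
    intro h
    have h0 := h 0
    have e1 : g' (g'⁻¹ x) = x := by simp
    simp only [pow_zero, Equiv.Perm.coe_one, id] at h0
    rw [e1, hx] at h0
    exact absurd h0 (by decide)
  -- conclusion
  calc ∑ a ∈ Cl z E, p ^ sz z a *
        (if (∀ x, a (g'⁻¹ x) = mx A (fun y => a (g⁻¹ y)) v x) then (1 : ℝ) else 0)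
      = ∑ a ∈ (Cl z E).filter (fun a => ∀ x, a (g'⁻¹ x) = mx A (fun y => a (g⁻¹ y)) v x),
          p ^ sz z a := by
        rw [Finset.sum_filter]
        refine Finset.sum_congr rfl fun a _ => ?_
        split_ifs <;> simp
    _ ≤ ∑ a ∈ (Cl z E).filter (fun a => ∀ x, a (g'⁻¹ x) = mx A (fun y => a (g⁻¹ y)) v x),
          p ^ sz z (f a) := by
        refine Finset.sum_le_sum fun a _ => ?_
        exact pow_le_pow_of_le_one hp0 hp1 (hsz a)
    _ = ∑ b ∈ ((Cl z E).filter
          (fun a => ∀ x, a (g'⁻¹ x) = mx A (fun y => a (g⁻¹ y)) v x)).image f,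
          p ^ sz z b := by
        rw [Finset.sum_image]
        intro a ha b hb hab
        rw [mem_coe, mem_filter] at ha hb
        exact hinj ha.2 hb.2 hab
    _ ≤ ∑ b ∈ (Cl z E).filter (fun b => (∀ x, b (g'⁻¹ x) = b (g⁻¹ x)) ∧
          (∀ x, A x = true → b (g'⁻¹ x) = z)), p ^ sz z b := by
        apply Finset.sum_le_sum_of_subset_of_nonneg
        · intro b hb
          rw [Finset.mem_image] at hb
          obtain ⟨a, ha, rfl⟩ := hb
          rw [mem_filter] at ha ⊢
          exact ⟨hmem a ha.1, hc1 a ha.2, hc2 a⟩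
        · intro b _ _
          positivity
    _ = _ := by
        rw [Finset.sum_filter]
        refine Finset.sum_congr rfl fun a _ => ?_
        by_cases h1 : (∀ x, a (g'⁻¹ x) = a (g⁻¹ x))
        · by_cases h2 : (∀ x, A x = true → a (g'⁻¹ x) = z)
          · rw [if_pos ⟨h1, h2⟩, if_pos h1, if_pos h2]; ring
          · rw [if_neg (fun h => h2 h.2), if_pos h1, if_neg h2]; ring
        · rw [if_neg (fun h => h1 h.1), if_neg h1]; ring

lemma mx_mx (A : H → Bool) (u v : H → K) : mx A (mx A u v) (mx A v u) = u := by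
  funext x; unfold mx; by_cases h : A x = true <;> simp [h]

/-- swapping along `A` as an equivalence on pairs -/
def mxE (A : H → Bool) : (H → K) × (H → K) ≃ (H → K) × (H → K) where
  toFun q := (mx A q.1 q.2, mx A q.2 q.1)
  invFun q := (mx A q.1 q.2, mx A q.2 q.1)
  left_inv q := by simp [mx_mx]
  right_inv q := by simp [mx_mx]

lemma amgm (g0 g1 : Ω → Equiv.Perm H) (a0 a1 : H → K) (A : H → Bool) :
    ∑ q : (H → K) × (H → K), mu g0 a0 q.1 * mu g1 a1 q.2 * mu g0 a0 (mx A q.1 q.2) *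
        mu g1 a1 (mx A q.2 q.1) ≤
      ∑ q : (H → K) × (H → K), mu g0 a0 q.1 * mu g0 a0 (mx A q.1 q.2) * mu g1 a1 q.2 ^ 2 := by
  have h1 : ∑ q : (H → K) × (H → K),
      mu g0 a0 q.1 * mu g0 a0 (mx A q.1 q.2) * mu g1 a1 (mx A q.2 q.1) ^ 2 =
      ∑ q : (H → K) × (H → K), mu g0 a0 q.1 * mu g0 a0 (mx A q.1 q.2) * mu g1 a1 q.2 ^ 2 := by
    rw [← Equiv.sum_comp (mxE A)]
    refine Finset.sum_congr rfl fun q _ => ?_
    simp only [mxE, Equiv.coe_fn_mk, mx_mx]
    ring
  have h2 : ∑ q : (H → K) × (H → K), mu g0 a0 q.1 * mu g1 a1 q.2 * mu g0 a0 (mx A q.1 q.2) *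
        mu g1 a1 (mx A q.2 q.1) ≤
      ∑ q : (H → K) × (H → K), (1 / 2 *
        (mu g0 a0 q.1 * mu g0 a0 (mx A q.1 q.2) * mu g1 a1 (mx A q.2 q.1) ^ 2) + 1 / 2 *
        (mu g0 a0 q.1 * mu g0 a0 (mx A q.1 q.2) * mu g1 a1 q.2 ^ 2)) := by
    refine Finset.sum_le_sum fun q _ => ?_
    have := mul_nonneg (mul_nonneg (mu_nonneg g0 a0 q.1) (mu_nonneg g0 a0 (mx A q.1 q.2)))
      (sq_nonneg (mu g1 a1 q.2 - mu g1 a1 (mx A q.2 q.1)))
    nlinarith [this]
  rw [Finset.sum_add_distrib, ← Finset.mul_sum, ← Finset.mul_sum, h1] at h2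
  linarith

/-- sum over the colourings of the half `0` -/
lemma half (z : K) (g : Ω → Equiv.Perm H) (E : Finset H) (p : ℝ) (hp0 : 0 ≤ p) (hp1 : p ≤ 1)
    (A : H → Bool) (v : H → K) :
    ∑ a ∈ Cl z E, p ^ sz z a * ∑ u, mu g a u * mu g a (mx A u v) ≤
      ∑ a ∈ Cl z E, p ^ sz z a * avg (fun ω => avg (fun ω' =>
        (if (∀ x, a ((g ω')⁻¹ x) = a ((g ω)⁻¹ x)) then (1 : ℝ) else 0) *
        (if (∀ x, A x = true → a ((g ω')⁻¹ x) = z) then (1 : ℝ) else 0))) := by
  have e1 : ∀ a : H → K, ∑ u, mu g a u * mu g a (mx A u v) = avg (fun ω => avg (fun ω' =>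
      if (∀ x, a ((g ω')⁻¹ x) = mx A (fun y => a ((g ω)⁻¹ y)) v x) then (1 : ℝ) else 0)) :=
    fun a => sum_mu_mul g a (fun u => mx A u v)
  simp only [e1]
  simp only [← avg_mul_left, ← avg_sum]
  exact avg_mono fun ω => avg_mono fun ω' => inj z (g ω) (g ω') A v E p hp0 hp1

/-- the abstract two-halves lemma -/
lemma twoHalves {Λ : Type} [Fintype Λ] (z : K) (g0 g1 : Ω → Equiv.Perm H)
    (E0 E1 : Finset H) (p : ℝ) (hp0 : 0 ≤ p) (hp1 : p ≤ 1) (A : Λ → H → Bool)
    (hA : ∀ U : Finset H, avg (fun s => if (∀ x ∈ U, A s x = false) then (1 : ℝ) else 0) ≤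
      (1 / 2) ^ U.card) :
    ∑ a0 ∈ Cl z E0, ∑ a1 ∈ Cl z E1, p ^ sz z a0 * p ^ sz z a1 * avg (fun s =>
        ∑ q : (H → K) × (H → K), mu g0 a0 q.1 * mu g1 a1 q.2 * mu g0 a0 (mx (A s) q.1 q.2) *
        mu g1 a1 (mx (A s) q.2 q.1)) ≤
      FF z g1 E1 p * FF z g0 E0 (p / 2) := by
  set G : Λ → ℝ := fun s => ∑ a ∈ Cl z E0, p ^ sz z a * avg (fun ω => avg (fun ω' =>
        (if (∀ x, a ((g0 ω')⁻¹ x) = a ((g0 ω)⁻¹ x)) then (1 : ℝ) else 0) *
        (if (∀ x, A s x = true → a ((g0 ω')⁻¹ x) = z) then (1 : ℝ) else 0))) with hG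
  have step1 : ∀ s, ∑ a0 ∈ Cl z E0, ∑ a1 ∈ Cl z E1, p ^ sz z a0 * p ^ sz z a1 *
        ∑ q : (H → K) × (H → K), mu g0 a0 q.1 * mu g1 a1 q.2 * mu g0 a0 (mx (A s) q.1 q.2) *
        mu g1 a1 (mx (A s) q.2 q.1) ≤ FF z g1 E1 p * G s := by
    intro s
    calc _ ≤ ∑ a0 ∈ Cl z E0, ∑ a1 ∈ Cl z E1, p ^ sz z a0 * p ^ sz z a1 *
          ∑ q : (H → K) × (H → K), mu g0 a0 q.1 * mu g0 a0 (mx (A s) q.1 q.2) *
            mu g1 a1 q.2 ^ 2 := by
          refine Finset.sum_le_sum fun a0 _ => Finset.sum_le_sum fun a1 _ => ?_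
          exact mul_le_mul_of_nonneg_left (amgm g0 g1 a0 a1 (A s)) (by positivity)
      _ = ∑ a1 ∈ Cl z E1, p ^ sz z a1 * ∑ v, mu g1 a1 v ^ 2 *
            ∑ a0 ∈ Cl z E0, p ^ sz z a0 * ∑ u, mu g0 a0 u * mu g0 a0 (mx (A s) u v) := by
          rw [Finset.sum_comm]
          refine Finset.sum_congr rfl fun a1 _ => ?_
          simp only [Fintype.sum_prod_type, Finset.mul_sum]
          rw [Finset.sum_comm' (s := Cl z E0) (t := fun _ => (univ : Finset (H → K)))
            (s' := fun _ => Cl z E0) (t' := univ) (by simp)]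
          rw [Finset.sum_comm' (s := (univ : Finset (H → K))) (t := fun _ => Cl z E0)
            (s' := fun _ => (univ : Finset (H → K))) (t' := Cl z E0) (by simp)]
          rw [Finset.sum_comm' (s := (univ : Finset (H → K))) (t := fun _ => Cl z E0)
            (s' := fun _ => (univ : Finset (H → K))) (t' := Cl z E0) (by simp)]
          refine Finset.sum_congr rfl fun a0 _ => ?_
          rw [Finset.sum_comm]
          refine Finset.sum_congr rfl fun u _ => Finset.sum_congr rfl fun v _ => ?_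
          ring
      _ ≤ ∑ a1 ∈ Cl z E1, p ^ sz z a1 * ∑ v, mu g1 a1 v ^ 2 * G s := by
          refine Finset.sum_le_sum fun a1 _ => ?_
          refine mul_le_mul_of_nonneg_left ?_ (by positivity)
          refine Finset.sum_le_sum fun v _ => ?_
          exact mul_le_mul_of_nonneg_left (half z g0 E0 p hp0 hp1 (A s) v) (sq_nonneg _)
      _ = FF z g1 E1 p * G s := by
          simp only [FF, ← Finset.sum_mul, ← mul_assoc]
  have step2 : avg G ≤ FF z g0 E0 (p / 2) := by
    simp only [hG]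
    rw [avg_sum]
    unfold FF
    refine Finset.sum_le_sum fun a _ => ?_
    rw [avg_mul_left, sum_mu_sq, avg_comm]
    have e : (p / 2) ^ sz z a = p ^ sz z a * (1 / 2) ^ sz z a := by
      rw [← mul_pow]; congr 1; ring
    rw [e, mul_assoc]
    refine mul_le_mul_of_nonneg_left ?_ (by positivity)
    rw [← avg_mul_left]
    refine avg_mono fun ω => ?_
    rw [avg_comm, ← avg_mul_left]
    refine avg_mono fun ω' => ?_
    rw [avg_mul_left, mul_comm]
    refine mul_le_mul_of_nonneg_right ?_ (by positivity)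
    have hU := hA (univ.filter (fun x => a ((g0 ω')⁻¹ x) ≠ z))
    have hcard : (univ.filter (fun x => a ((g0 ω')⁻¹ x) ≠ z)).card = sz z a := by
      unfold sz
      rw [← Finset.card_map (g0 ω').toEmbedding (s := univ.filter (fun x => a x ≠ z))]
      congr 1
      ext x
      simp only [mem_filter, mem_univ, true_and, mem_map_equiv]
      rfl
    rw [hcard] at hU
    refine le_trans (le_of_eq ?_) hU
    congr 1
    funext s
    refine if_congr ?_ rfl rfl
    constructor
    · intro h x hx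
      simp only [mem_filter, mem_univ, true_and] at hx
      by_contra hne
      exact hx (h x (by simpa using hne))
    · intro h x hx
      by_contra hne
      have := h x (by simpa using hne)
      rw [this] at hx
      exact absurd hx (by decide)
  calc _ = avg (fun s => ∑ a0 ∈ Cl z E0, ∑ a1 ∈ Cl z E1, p ^ sz z a0 * p ^ sz z a1 *
        ∑ q : (H → K) × (H → K), mu g0 a0 q.1 * mu g1 a1 q.2 * mu g0 a0 (mx (A s) q.1 q.2) *
        mu g1 a1 (mx (A s) q.2 q.1)) := by
        simp only [← avg_mul_left, ← avg_sum]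
    _ ≤ avg (fun s => FF z g1 E1 p * G s) := avg_mono step1
    _ = FF z g1 E1 p * avg G := avg_mul_left _ _
    _ ≤ _ := mul_le_mul_of_nonneg_left step2 (FF_nonneg z g1 E1 p hp0)

end abs

end Color
end Vale.Agent.P162c
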