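import Mathlib
import Vale.Agent.P162c.ColorA

/-!
P162c, module COLOR: the trace recursion for colourings.
-/

namespace Vale.Agent.P162c
namespace Color

open Finset Vale.Agent.P162

section bits

variable {I : Type} [Fintype I] [DecidableEq I]

/-- merge two switch settings -/
def mrg (P : I → (I → Bool) → Bool) (t t' : I → (I → Bool) → Bool) : I → (I → Bool) → Bool :=
  fun i x => if P i x = true then t i x else t' i x

/-- merging as an equivalence on pairs -/
def mrgE (P : I → (I → Bool) → Bool) :
    (I → (I → Bool) → Bool) × (I → (I → Bool) → Bool) ≃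
      (I → (I → Bool) → Bool) × (I → (I → Bool) → Bool) where
  toFun q := (mrg P q.1 q.2, mrg P q.2 q.1)
  invFun q := (mrg P q.1 q.2, mrg P q.2 q.1)
  left_inv q := by
    ext i x <;> by_cases h : P i x = true <;> simp [mrg, h]
  right_inv q := by
    ext i x <;> by_cases h : P i x = true <;> simp [mrg, h]

lemma avg_mrg (P : I → (I → Bool) → Bool) (F : (I → (I → Bool) → Bool) → ℝ) :
    avg (fun t => avg (fun t' => F (mrg P t t'))) = avg F := by
  have h1 : avg (fun q : (I → (I → Bool) → Bool) × (I → (I → Bool) → Bool) =>
      F (mrg P q.1 q.2)) = avg (fun q : (I → (I → Bool) → Bool) × (I → (I → Bool) → Bool) =>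
      F q.1) := by
    rw [← avg_equiv (mrgE P) (fun q => F q.1)]
    rfl
  rw [avg_prod, avg_prod] at h1
  rw [h1]
  congr 1
  funext t
  exact avg_const (Ω := I → (I → Bool) → Bool) (F t)

/-- flipping one bit of the switch setting -/
def flp (j : I) (x₀ : I → Bool) (r : I → (I → Bool) → Bool) : I → (I → Bool) → Bool :=
  Function.update r j (Function.update (r j) x₀ (!r j x₀))

lemma flp_flp (j : I) (x₀ : I → Bool) (r : I → (I → Bool) → Bool) :
    flp j x₀ (flp j x₀ r) = r := by
  unfold flp
  simp

lemma bitU (j : I) (c : (I → Bool) → Bool) (U : Finset (I → Bool)) :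
    avg (fun r : I → (I → Bool) → Bool => if (∀ x ∈ U, r j x = c x) then (1 : ℝ) else 0) =
      (1 / 2) ^ U.card := by
  classical
  induction U using Finset.induction_on with
  | empty => simp [avg_const]
  | insert x₀ U hx ih =>
    rw [Finset.card_insert_of_notMem hx, pow_succ, ← ih]
    let e : (I → (I → Bool) → Bool) ≃ (I → (I → Bool) → Bool) :=
      Function.Involutive.toPerm (flp j x₀) (flp_flp j x₀)
    have h1 : ∀ r : I → (I → Bool) → Bool,
        (∀ x ∈ U, e r j x = c x) ↔ (∀ x ∈ U, r j x = c x) := by
      intro r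
      refine forall₂_congr fun x hxU => ?_
      have hne : x ≠ x₀ := fun h => hx (h ▸ hxU)
      have e1 : e r j x = r j x := by
        show flp j x₀ r j x = r j x
        simp [flp, hne]
      rw [e1]
    have h2 : ∀ r : I → (I → Bool) → Bool, (e r j x₀ = c x₀) ↔ ¬ (r j x₀ = c x₀) := by
      intro r
      have e1 : e r j x₀ = !(r j x₀) := by
        show flp j x₀ r j x₀ = !(r j x₀)
        simp [flp]
      rw [e1]
      cases r j x₀ <;> cases c x₀ <;> simp
    have h3 : avg (fun r : I → (I → Bool) → Bool =>
        if (∀ x ∈ insert x₀ U, r j x = c x) then (1 : ℝ) else 0) =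
        avg (fun r : I → (I → Bool) → Bool =>
        if (∀ x ∈ insert x₀ U, e r j x = c x) then (1 : ℝ) else 0) :=
      (avg_equiv e (fun r => if (∀ x ∈ insert x₀ U, r j x = c x) then (1 : ℝ) else 0)).symm
    have h4 : avg (fun r : I → (I → Bool) → Bool =>
        if (∀ x ∈ insert x₀ U, r j x = c x) then (1 : ℝ) else 0) +
        avg (fun r : I → (I → Bool) → Bool =>
        if (∀ x ∈ insert x₀ U, e r j x = c x) then (1 : ℝ) else 0) =
        avg (fun r : I → (I → Bool) → Bool => if (∀ x ∈ U, r j x = c x) then (1 : ℝ) else 0) := by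
      simp only [avg_eq, ← add_mul, ← Finset.sum_add_distrib]
      congr 1
      refine Finset.sum_congr rfl fun r _ => ?_
      simp only [Finset.forall_mem_insert, h1, h2]
      by_cases ha : r j x₀ = c x₀ <;> by_cases hb : (∀ x ∈ U, r j x = c x) <;> simp [ha, hb]
    rw [← h3] at h4
    linarith

end bits

section net

variable {I : Type} [Fintype I] [DecidableEq I] {K : Type} [Fintype K] [DecidableEq K]

/-- half `x j = false` -/
abbrev Hf (j : I) : Type := {x : I → Bool // x j = false}

/-- embedding of the half into the two halves -/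
def emb (j : I) (b : Bool) (x : Hf j) : I → Bool := Function.update x.1 j b

/-- projection to the half -/
def prj (j : I) (x : I → Bool) : Hf j := ⟨Function.update x j false, by simp⟩

omit [Fintype I] in
lemma emb_j (j : I) (b : Bool) (x : Hf j) : emb j b x j = b := by simp [emb]

omit [Fintype I] in
lemma prj_emb (j : I) (b : Bool) (x : Hf j) : prj j (emb j b x) = x := by
  apply Subtype.ext
  funext i
  by_cases h : i = j
  · subst h; simp [prj, x.2]
  · simp [prj, emb, h]

omit [Fintype I] in
lemma emb_prj (j : I) (b : Bool) (x : I → Bool) (hx : x j = b) : emb j b (prj j x) = x := by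
  funext i
  by_cases h : i = j
  · subst h; simp [emb, hx]
  · simp [prj, emb, h]

/-- restriction of a permutation to a half -/
def res (j : I) (b : Bool) (g : Equiv.Perm (I → Bool)) (hg : ∀ x, g x j = x j) :
    Equiv.Perm (Hf j) where
  toFun x := prj j (g (emb j b x))
  invFun x := prj j (g⁻¹ (emb j b x))
  left_inv x := by
    show prj j (g⁻¹ (emb j b (prj j (g (emb j b x))))) = x
    rw [emb_prj j b _ (by rw [hg, emb_j])]
    simp [prj_emb]
  right_inv x := by
    have h : (g⁻¹ (emb j b x)) j = b := by
      have := hg (g⁻¹ (emb j b x))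
      have e : g (g⁻¹ (emb j b x)) = emb j b x := by simp
      rw [e, emb_j] at this
      exact this.symm
    show prj j (g (emb j b (prj j (g⁻¹ (emb j b x))))) = x
    rw [emb_prj j b _ h]
    have e : g (g⁻¹ (emb j b x)) = emb j b x := by simp
    rw [e, prj_emb]

omit [Fintype I] in
lemma emb_res_inv (j : I) (b : Bool) (g : Equiv.Perm (I → Bool)) (hg : ∀ x, g x j = x j)
    (x : Hf j) : emb j b ((res j b g hg)⁻¹ x) = g⁻¹ (emb j b x) := by
  have h : (g⁻¹ (emb j b x)) j = b := by
    have := hg (g⁻¹ (emb j b x))
    have e : g (g⁻¹ (emb j b x)) = emb j b x := by simp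
    rw [e, emb_j] at this
    exact this.symm
  exact emb_prj j b _ h

omit [Fintype I] in
lemma swFun_ne (i j : I) (hij : i ≠ j) (s : (I → Bool) → Bool) (x : I → Bool) :
    swFun i s x j = x j := by
  unfold swFun flip
  split_ifs
  · rw [Function.update_of_ne hij.symm]
  · rfl

omit [Fintype I] in
lemma sw_inv (j : I) (s : (I → Bool) → Bool) (x : I → Bool) : (sw j s)⁻¹ x = swFun j s x := rfl

omit [Fintype I] in
lemma op_inv_cons (t : I → (I → Bool) → Bool) (j : I) (l : List I) (x : I → Bool) :
    (op t (j :: l))⁻¹ x = (op t l)⁻¹ (swFun j (t j) x) := by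
  simp only [op, mul_inv_rev, Equiv.Perm.mul_apply]
  rfl

omit [Fintype I] in
lemma op_pres (j : I) (l : List I) (hj : j ∉ l) (t : I → (I → Bool) → Bool) (x : I → Bool) :
    op t l x j = x j := by
  induction l generalizing x with
  | nil => rfl
  | cons i l ih =>
    have h1 : i ≠ j := fun h => hj (by simp [h])
    have h2 : j ∉ l := fun h => hj (by simp [h])
    have e : op t (i :: l) x = swFun i (t i) (op t l x) := rfl
    rw [e, swFun_ne i j h1, ih h2]

omit [Fintype I] in
lemma op_inv_congr (j : I) (b : Bool) (l : List I) (hj : j ∉ l) (t t' : I → (I → Bool) → Bool)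
    (h : ∀ i ∈ l, ∀ y : I → Bool, y j = b → t i y = t' i y) (x : I → Bool) (hx : x j = b) :
    (op t l)⁻¹ x = (op t' l)⁻¹ x := by
  induction l generalizing x with
  | nil => rfl
  | cons i l ih =>
    have h1 : i ≠ j := fun h => hj (by simp [h])
    have h2 : j ∉ l := fun h => hj (by simp [h])
    rw [op_inv_cons, op_inv_cons]
    have e : swFun i (t i) x = swFun i (t' i) x := by
      unfold swFun
      rw [h i (by simp) _ (by rw [Function.update_of_ne h1.symm]; exact hx)]
    rw [e]
    exact ih h2 (fun i' hi' => h i' (by simp [hi'])) _ (by rw [swFun_ne i j h1]; exact hx)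

/-- the law on a half -/
def gb (j : I) (l : List I) (hj : j ∉ l) (b : Bool) (t : I → (I → Bool) → Bool) :
    Equiv.Perm (Hf j) := res j b (op t l) (op_pres j l hj t)

lemma mu_split (j : I) (l : List I) (hj : j ∉ l) (b : Bool) (a c : (I → Bool) → K) :
    mu (fun t => op t l) a c =
      mu (gb j l hj b) (fun x => a (emb j b x)) (fun x => c (emb j b x)) *
      mu (gb j l hj (!b)) (fun x => a (emb j (!b) x)) (fun x => c (emb j (!b) x)) := by
  unfold mu
  rw [avg_mul_avg, ← avg_mrg (fun _ x => decide (x j = b))]
  congr 1
  funext t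
  congr 1
  funext t'
  simp only [gb, emb_res_inv]
  have h1 : ∀ x : I → Bool, x j = b →
      (op (mrg (fun _ x => decide (x j = b)) t t') l)⁻¹ x = (op t l)⁻¹ x := by
    intro x hx
    refine op_inv_congr j b l hj _ _ ?_ x hx
    intro i _ y hy
    simp [mrg, hy]
  have h2 : ∀ x : I → Bool, x j = !b →
      (op (mrg (fun _ x => decide (x j = b)) t t') l)⁻¹ x = (op t' l)⁻¹ x := by
    intro x hx
    refine op_inv_congr j (!b) l hj _ _ ?_ x hx
    intro i _ y hy
    simp [mrg, hy]
  have h3 : (∀ x, a ((op (mrg (fun _ x => decide (x j = b)) t t') l)⁻¹ x) = c x) ↔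
      (∀ x : Hf j, a ((op t l)⁻¹ (emb j b x)) = c (emb j b x)) ∧
      (∀ x : Hf j, a ((op t' l)⁻¹ (emb j (!b) x)) = c (emb j (!b) x)) := by
    constructor
    · intro h
      constructor
      · intro x
        rw [← h1 _ (emb_j j b x)]
        exact h _
      · intro x
        rw [← h2 _ (emb_j j (!b) x)]
        exact h _
    · rintro ⟨ha, hb⟩ x
      by_cases hx : x j = b
      · have := ha (prj j x)
        rw [emb_prj j b x hx] at this
        rw [h1 x hx, this]
      · have hx' : x j = !b := by
          cases h : x j <;> cases b <;> simp_all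
        have := hb (prj j x)
        rw [emb_prj j (!b) x hx'] at this
        rw [h2 x hx', this]
  rw [if_congr h3 rfl rfl]
  by_cases ha : (∀ x : Hf j, a ((op t l)⁻¹ (emb j b x)) = c (emb j b x))
  · by_cases hb : (∀ x : Hf j, a ((op t' l)⁻¹ (emb j (!b) x)) = c (emb j (!b) x))
    · rw [if_pos ⟨ha, hb⟩, if_pos ha, if_pos hb]; ring
    · rw [if_neg (fun h => hb h.2), if_neg hb]; ring
  · rw [if_neg (fun h => ha h.1), if_neg ha]; ring

lemma mu_cons (j : I) (l : List I) (hj : j ∉ l) (a c : (I → Bool) → K) :
    mu (fun t => op t (j :: l)) a c =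
      avg (fun r : I → (I → Bool) → Bool =>
        mu (fun t => op t l) a (fun x => c (swFun j (r j) x))) := by
  unfold mu
  rw [← avg_mrg (fun i _ => decide (i = j))]
  congr 1
  funext r
  congr 1
  funext t
  refine if_congr ?_ rfl rfl
  have h1 : ∀ x : I → Bool, (op (mrg (fun i _ => decide (i = j)) r t) (j :: l))⁻¹ x =
      (op t l)⁻¹ (swFun j (r j) x) := by
    intro x
    rw [op_inv_cons]
    have e : mrg (fun i _ => decide (i = j)) r t j = r j := by
      funext y; simp [mrg]
    rw [e]
    refine op_inv_congr j _ l hj _ _ ?_ _ rfl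
    intro i hi y _
    have : i ≠ j := fun h => hj (h ▸ hi)
    simp [mrg, this]
  simp only [h1]
  constructor
  · intro h x
    have := h (swFun j (r j) x)
    rwa [swFun_swFun] at this
  · intro h x
    have := h (swFun j (r j) x)
    rwa [swFun_swFun] at this

/-- splitting of colourings -/
def splitE (K : Type) (j : I) (b : Bool) : ((I → Bool) → K) ≃ (Hf j → K) × (Hf j → K) where
  toFun c := (fun x => c (emb j b x), fun x => c (emb j (!b) x))
  invFun q := fun x => if x j = b then q.1 (prj j x) else q.2 (prj j x)
  left_inv c := by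
    funext x
    by_cases hx : x j = b
    · simp [hx, emb_prj j b x hx]
    · have hx' : x j = !b := by
        cases h : x j <;> cases b <;> simp_all
      simp [hx, emb_prj j (!b) x hx']
  right_inv q := by
    ext x
    · simp [emb_j, prj_emb]
    · simp [emb_j, prj_emb]

/-- precomposition with one layer -/
def preE (K : Type) (j : I) (s : (I → Bool) → Bool) : ((I → Bool) → K) ≃ ((I → Bool) → K) where
  toFun c := fun x => c (swFun j s x)
  invFun c := fun x => c (swFun j s x)
  left_inv c := by funext x; simp [swFun_swFun]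
  right_inv c := by funext x; simp [swFun_swFun]

omit [Fintype I] in
lemma sw_sw_emb (j : I) (s s' : (I → Bool) → Bool) (b : Bool) (c : (I → Bool) → K) (x : Hf j) :
    c (swFun j s (swFun j s' (emb j b x))) =
      mx (fun y : Hf j => xor (s y.1) (s' y.1)) (fun y => c (emb j b y))
        (fun y => c (emb j (!b) y)) x := by
  have h0 : ∀ b : Bool, Function.update (emb j b x) j false = x.1 := by
    intro b
    have := congrArg Subtype.val (prj_emb j b x)
    simpa [prj] using this
  have hf : ∀ b : Bool, flip j (emb j b x) = emb j (!b) x := by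
    intro b
    unfold flip
    rw [emb_j]
    simp [emb]
  have h1 : ∀ (s : (I → Bool) → Bool) (b : Bool),
      swFun j s (emb j b x) = emb j (xor (s x.1) b) x := by
    intro s b
    unfold swFun
    rw [h0]
    cases h : s x.1
    · simp
    · simp [hf]
  rw [h1, h1]
  simp only [mx]
  cases s x.1 <;> cases s' x.1 <;> simp

lemma sum_sq_cons (j : I) (l : List I) (hj : j ∉ l) (b : Bool) (a : (I → Bool) → K) :
    ∑ c, mu (fun t => op t (j :: l)) a c ^ 2 =
      avg (fun s : (I → (I → Bool) → Bool) × (I → (I → Bool) → Bool) =>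
        ∑ q : (Hf j → K) × (Hf j → K),
          mu (gb j l hj b) (fun x => a (emb j b x)) q.1 *
          mu (gb j l hj (!b)) (fun x => a (emb j (!b) x)) q.2 *
          mu (gb j l hj b) (fun x => a (emb j b x))
            (mx (fun y : Hf j => xor (s.1 j y.1) (s.2 j y.1)) q.1 q.2) *
          mu (gb j l hj (!b)) (fun x => a (emb j (!b) x))
            (mx (fun y : Hf j => xor (s.1 j y.1) (s.2 j y.1)) q.2 q.1)) := by
  simp only [mu_cons j l hj, sq, avg_mul_avg]
  rw [avg_prod, ← avg_sum]
  congr 1
  funext r
  rw [← avg_sum]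
  congr 1
  funext r'
  rw [← Equiv.sum_comp (preE K j (r j)), ← Equiv.sum_comp (splitE K j b)]
  refine Finset.sum_congr rfl fun c _ => ?_
  simp only [preE, splitE, Equiv.coe_fn_mk, swFun_swFun]
  rw [mu_split j l hj b a c, mu_split j l hj b a (fun x => c (swFun j (r j) (swFun j (r' j) x)))]
  simp only [sw_sw_emb, Bool.not_not]
  ring

lemma sz_split (z : K) (j : I) (b : Bool) (a : (I → Bool) → K) :
    sz z a = sz z (fun x : Hf j => a (emb j b x)) + sz z (fun x : Hf j => a (emb j (!b) x)) := by
  have hh : ∀ b : Bool, sz z (fun x : Hf j => a (emb j b x)) =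
      ((univ.filter (fun x => a x ≠ z)).filter (fun x => x j = b)).card := by
    intro b
    unfold sz
    refine Finset.card_bij (fun x _ => emb j b x) ?_ ?_ ?_
    · intro x hx
      simp only [mem_filter, mem_univ, true_and] at hx ⊢
      exact ⟨hx, emb_j j b x⟩
    · intro x _ y _ hxy
      have := congrArg (prj j) hxy
      rwa [prj_emb, prj_emb] at this
    · intro y hy
      simp only [mem_filter, mem_univ, true_and] at hy
      refine ⟨prj j y, ?_, emb_prj j b y hy.2⟩
      simp only [mem_filter, mem_univ, true_and]
      rw [emb_prj j b y hy.2]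
      exact hy.1
  rw [hh b, hh (!b)]
  unfold sz
  rw [← Finset.card_filter_add_card_filter_not (fun x : I → Bool => x j = b)]
  congr 2
  ext x
  simp only [mem_filter]
  refine and_congr_right fun _ => ?_
  cases x j <;> cases b <;> simp

/-- part of `E` in a half -/
def Eh (j : I) (b : Bool) (E : Finset (I → Bool)) : Finset (Hf j) :=
  univ.filter (fun x => emb j b x ∈ E)

lemma FF_cons (z : K) (j : I) (l : List I) (hj : j ∉ l) (b : Bool) (E : Finset (I → Bool))
    (p : ℝ) (hp0 : 0 ≤ p) (hp1 : p ≤ 1) :
    FF z (fun t => op t (j :: l)) E p ≤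
      FF z (gb j l hj (!b)) (Eh j (!b) E) p * FF z (gb j l hj b) (Eh j b E) (p / 2) := by
  refine le_trans (le_of_eq ?_) (twoHalves z (gb j l hj b) (gb j l hj (!b)) (Eh j b E)
    (Eh j (!b) E) p hp0 hp1
    (fun (s : (I → (I → Bool) → Bool) × (I → (I → Bool) → Bool)) (y : Hf j) =>
      xor (s.1 j y.1) (s.2 j y.1)) ?_)
  · unfold FF
    rw [← Finset.sum_product']
    refine Finset.sum_equiv (splitE K j b) ?_ ?_
    · intro a
      simp only [Cl, Eh, splitE, mem_filter, mem_univ, true_and, mem_product, Equiv.coe_fn_mk]
      constructor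
      · intro h
        exact ⟨fun x hx => h _ hx, fun x hx => h _ hx⟩
      · rintro ⟨ha, hb⟩ x hx
        by_cases hxj : x j = b
        · have := ha (prj j x)
          rw [emb_prj j b x hxj] at this
          exact this hx
        · have hx' : x j = !b := by
            cases h : x j <;> cases b <;> simp_all
          have := hb (prj j x)
          rw [emb_prj j (!b) x hx'] at this
          exact this hx
    · intro a _
      rw [sum_sq_cons j l hj b a, sz_split z j b a, pow_add]
      rfl
  · intro U
    rw [avg_prod]
    refine le_trans (avg_mono (G := fun _ => (1 / 2 : ℝ) ^ U.card) ?_) (le_of_eq (avg_const _))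
    intro r
    have h := bitU j (r j) (U.image Subtype.val)
    rw [Finset.card_image_of_injective _ Subtype.val_injective] at h
    rw [← h]
    refine le_of_eq ?_
    congr 1
    funext r'
    refine if_congr ?_ rfl rfl
    simp only [mem_image]
    constructor
    · rintro h x ⟨y, hy, rfl⟩
      have := h y hy
      revert this
      cases r j y.1 <;> cases r' j y.1 <;> simp
    · intro h x hx
      rw [h x.1 ⟨x, hx, rfl⟩]
      simp

lemma FF_half (z : K) (j : I) (l : List I) (hj : j ∉ l) (b : Bool) (E : Finset (I → Bool))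
    (p : ℝ) (hp0 : 0 ≤ p) :
    FF z (gb j l hj b) (Eh j b E) p ≤
      FF z (fun t => op t l) (E.filter (fun x => x j = b)) p := by
  classical
  let f : (Hf j → K) → ((I → Bool) → K) := fun a x => if x j = b then a (prj j x) else z
  have hf : ∀ (a : Hf j → K) (x : Hf j), f a (emb j b x) = a x := by
    intro a x
    simp [f, emb_j, prj_emb]
  have hfinj : Function.Injective f := by
    intro a a' h
    funext x
    rw [← hf a x, h, hf a' x]
  have hsz : ∀ a : Hf j → K, sz z (f a) = sz z a := by
    intro a
    rw [sz_split z j b (f a)]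
    have e1 : (fun x : Hf j => f a (emb j b x)) = a := funext (hf a)
    have e2 : (fun x : Hf j => f a (emb j (!b) x)) = fun _ => z := by
      funext x
      simp [f, emb_j]
    rw [e1, e2]
    simp [sz]
  unfold FF
  calc ∑ a ∈ Cl z (Eh j b E), p ^ sz z a * ∑ u, mu (gb j l hj b) a u ^ 2
      = ∑ a ∈ Cl z (Eh j b E), p ^ sz z (f a) *
          ∑ u, mu (fun t => op t l) (f a) u ^ 2 := by
        refine Finset.sum_congr rfl fun a _ => ?_
        rw [hsz, sum_mu_sq, sum_mu_sq]
        congr 2
        funext t
        congr 1
        funext t'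
        refine if_congr ?_ rfl rfl
        constructor
        · intro h x
          by_cases hx : x j = b
          · have h1 := h (prj j x)
            rw [← hf a, ← hf a ((gb j l hj b t)⁻¹ _)] at h1
            simp only [gb, emb_res_inv] at h1
            rwa [emb_prj j b x hx] at h1
          · have hp : ∀ t : I → (I → Bool) → Bool, ((op t l)⁻¹ x) j = x j := by
              intro t
              have := op_pres j l hj t ((op t l)⁻¹ x)
              have e : op t l ((op t l)⁻¹ x) = x := by simp
              rw [e] at this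
              exact this.symm
            simp only [f, hp, if_neg hx]
        · intro h x
          have h1 := h (emb j b x)
          rw [← hf a, ← hf a ((gb j l hj b t)⁻¹ _)]
          simp only [gb, emb_res_inv]
          exact h1
    _ = ∑ a ∈ (Cl z (Eh j b E)).image f, p ^ sz z a * ∑ u, mu (fun t => op t l) a u ^ 2 := by
        rw [Finset.sum_image]
        intro a _ a' _ h
        exact hfinj h
    _ ≤ _ := by
        apply Finset.sum_le_sum_of_subset_of_nonneg
        · intro a ha
          rw [mem_image] at ha
          obtain ⟨a', ha', rfl⟩ := ha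
          simp only [Cl, Eh, mem_filter, mem_univ, true_and] at ha' ⊢
          intro x hx
          by_cases hxj : x j = b
          · simp only [f, if_pos hxj]
            apply ha'
            rw [emb_prj j b x hxj]
            intro hE
            exact hx ⟨hE, hxj⟩
          · simp only [f, if_neg hxj]
        · intro a _ _
          exact mul_nonneg (pow_nonneg hp0 _) (Finset.sum_nonneg fun u _ => sq_nonneg _)

lemma FF_nil (z : K) (E : Finset (I → Bool)) (p : ℝ) (hp0 : 0 ≤ p) :
    FF z (fun t : I → (I → Bool) → Bool => op t []) E p ≤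
      Real.exp (((Fintype.card K : ℝ) - 1) * p * E.card) := by
  classical
  have h1 : ∀ a : (I → Bool) → K,
      ∑ u, mu (fun t : I → (I → Bool) → Bool => op t []) a u ^ 2 = 1 := by
    intro a
    rw [sum_mu_sq]
    simp only [op, forall_const, implies_true, if_true, avg_const]
  unfold FF
  simp only [h1, mul_one]
  have h2 : ∑ a ∈ Cl z E, p ^ sz z a =
      ∏ x : I → Bool, ∑ k ∈ (if x ∈ E then (univ : Finset K) else {z}),
        (if k = z then (1 : ℝ) else p) := by
    rw [Finset.prod_univ_sum]
    refine Finset.sum_congr ?_ ?_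
    · ext a
      simp only [Cl, mem_filter, mem_univ, true_and, Fintype.mem_piFinset]
      refine forall_congr' fun x => ?_
      by_cases hx : x ∈ E <;> simp [hx]
    · intro a _
      rw [Finset.prod_ite]
      simp [sz]
  rw [h2]
  have h3 : ∀ x : I → Bool, ∑ k ∈ (if x ∈ E then (univ : Finset K) else {z}),
        (if k = z then (1 : ℝ) else p) = if x ∈ E then 1 + ((Fintype.card K : ℝ) - 1) * p else 1 := by
    intro x
    by_cases hx : x ∈ E
    · simp only [hx, if_true]
      rw [← Finset.add_sum_erase _ _ (mem_univ z)]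
      simp only [if_true]
      congr 1
      rw [Finset.sum_congr rfl (g := fun _ => p)]
      · rw [Finset.sum_const, Finset.card_erase_of_mem (mem_univ z), Finset.card_univ, nsmul_eq_mul,
          Nat.cast_sub (Fintype.card_pos_iff.mpr ⟨z⟩)]
        simp
      · intro k hk
        rw [if_neg (Finset.ne_of_mem_erase hk)]
    · simp [hx]
  simp only [h3]
  rw [Finset.prod_ite_mem, Finset.univ_inter, Finset.prod_const]
  have hK : (0 : ℝ) ≤ (Fintype.card K : ℝ) - 1 := by
    have : 1 ≤ Fintype.card K := Fintype.card_pos_iff.mpr ⟨z⟩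
    have : (1 : ℝ) ≤ Fintype.card K := by exact_mod_cast this
    linarith
  calc (1 + ((Fintype.card K : ℝ) - 1) * p) ^ E.card
      ≤ Real.exp (((Fintype.card K : ℝ) - 1) * p) ^ E.card := by
        refine pow_le_pow_left₀ (by positivity) ?_ _
        have := Real.add_one_le_exp (((Fintype.card K : ℝ) - 1) * p)
        linarith
    _ = _ := by
        rw [← Real.exp_nat_mul]; congr 1; ring

lemma FF_bound (z : K) (l : List I) (hl : l.Nodup) : ∀ (E : Finset (I → Bool)) (p : ℝ),
    0 ≤ p → p ≤ 1 → FF z (fun t => op t l) E p ≤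
      Real.exp ((3 / 4) ^ l.length * ((Fintype.card K : ℝ) - 1) * p * (E.card : ℝ)) := by
  induction l with
  | nil =>
    intro E p hp0 _
    have := FF_nil z E p hp0
    simpa using this
  | cons j l ih =>
    intro E p hp0 hp1
    have hj : j ∉ l := (List.nodup_cons.mp hl).1
    have hl' : l.Nodup := (List.nodup_cons.mp hl).2
    have hK : (0 : ℝ) ≤ (Fintype.card K : ℝ) - 1 := by
      have : 1 ≤ Fintype.card K := Fintype.card_pos_iff.mpr ⟨z⟩
      have : (1 : ℝ) ≤ Fintype.card K := by exact_mod_cast this
      linarith
    have main : ∀ b : Bool, FF z (fun t => op t (j :: l)) E p ≤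
        Real.exp ((3 / 4) ^ l.length * ((Fintype.card K : ℝ) - 1) * p *
          (((E.filter (fun x => x j = !b)).card : ℝ) +
            ((E.filter (fun x => x j = b)).card : ℝ) / 2)) := by
      intro b
      refine le_trans (FF_cons z j l hj b E p hp0 hp1) ?_
      have h1 := le_trans (FF_half z j l hj (!b) E p hp0)
        (ih hl' (E.filter (fun x => x j = !b)) p hp0 hp1)
      have h2 := le_trans (FF_half z j l hj b E (p / 2) (by linarith))
        (ih hl' (E.filter (fun x => x j = b)) (p / 2) (by linarith) (by linarith))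
      refine le_trans (mul_le_mul h1 h2 (FF_nonneg z _ _ _ (by linarith)) (Real.exp_pos _).le) ?_
      rw [← Real.exp_add]
      refine le_of_eq ?_
      congr 1
      ring
    have hcard : ((E.filter (fun x => x j = false)).card : ℝ) +
        ((E.filter (fun x => x j = true)).card : ℝ) = (E.card : ℝ) := by
      rw [← Nat.cast_add, ← Finset.card_filter_add_card_filter_not (s := E)
        (fun x : I → Bool => x j = false)]
      congr 3
      ext x
      simp
    have hc : (0 : ℝ) ≤ (3 / 4) ^ l.length * ((Fintype.card K : ℝ) - 1) * p := by positivity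
    rcases le_total ((E.filter (fun x => x j = false)).card : ℝ)
      ((E.filter (fun x => x j = true)).card : ℝ) with h | h
    · refine le_trans (main true) (Real.exp_le_exp.mpr ?_)
      rw [List.length_cons, pow_succ, ← hcard]
      simp only [Bool.not_true]
      nlinarith [mul_nonneg hc (sub_nonneg.mpr h)]
    · refine le_trans (main false) (Real.exp_le_exp.mpr ?_)
      rw [List.length_cons, pow_succ, ← hcard]
      simp only [Bool.not_false]
      nlinarith [mul_nonneg hc (sub_nonneg.mpr h)]

end net

end Color

open Finset Vale.Agent.P162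

theorem color : S_COLOR := by
  intro I _ _ K _ _ z l hl E p hp0 hp1
  refine le_trans (le_of_eq ?_) (Color.FF_bound z l hl E p hp0 hp1)
  unfold Color.FF
  refine Finset.sum_congr rfl fun a _ => ?_
  rw [Color.sum_mu_sq, Color.avg_prod, Color.avg_comm]
  rfl

end Vale.Agent.P162c
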