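import Mathlib
import Vale.Agent.P162c.Defs

/-!
P162 (Thorp shuffle): module statements, part 2.
-/

namespace Vale.Agent.P162c

open Finset Vale.Agent.P162

/-! ### Module TRLAP -/

def S_TRLAP : Prop :=
  ∀ (S : Type) [Fintype S] [DecidableEq S] (V : Type) [NormedAddCommGroup V]
    [InnerProductSpace ℝ V] [FiniteDimensional ℝ V]
    (ρ : Equiv.Perm S →* (V →ₗ[ℝ] V)), (∀ g v, ‖ρ g v‖ = ‖v‖) → ∀ s : ℕ,
    (∀ (B : Finset S) (v : V), B.card = s + 1 →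
      (∀ a ∈ B, ∀ b ∈ B, ρ (Equiv.swap a b) v = v) → v = 0) →
    ∀ v : V, (Fintype.card S : ℝ) * ((Fintype.card S : ℝ) - s) * ‖v‖ ^ 2 ≤
      ∑ x : S, ∑ y : S, inner ℝ v (v - ρ (Equiv.swap x y) v)

/-! ### Module RAD -/

/-- Rademacher chaos of order two -/
def S_RAD : Prop :=
  ∃ C c₀ : ℝ, 0 < C ∧ 0 < c₀ ∧ ∀ (ι : Type) [Fintype ι] [DecidableEq ι] (t : ℝ), 0 ≤ t →
    t * Fintype.card ι ≤ c₀ →
    avg (fun σ : ι → Bool =>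
        Real.exp (2 * t * ((∑ i, sgn (σ i)) ^ 2 - Fintype.card ι)))
      ≤ Real.exp (C * (t * Fintype.card ι) ^ 2)

/-! ### Module ENERGY -/

/-- average of the layer `j` in a representation -/
noncomputable def Prep {I : Type} [Fintype I] [DecidableEq I] {V : Type} [NormedAddCommGroup V]
    [InnerProductSpace ℝ V] (ρ : Equiv.Perm (I → Bool) →* (V →L[ℝ] V)) (j : I) : V →L[ℝ] V :=
  ((Fintype.card ((I → Bool) → Bool) : ℝ)⁻¹) • ∑ s : (I → Bool) → Bool, ρ (sw j s)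

/-- butterfly in a representation; `Trep [j₀, j₁, …] = … P_{j₁} P_{j₀}` -/
noncomputable def Trep {I : Type} [Fintype I] [DecidableEq I] {V : Type} [NormedAddCommGroup V]
    [InnerProductSpace ℝ V] (ρ : Equiv.Perm (I → Bool) →* (V →L[ℝ] V)) : List I → (V →L[ℝ] V)
  | [] => 1
  | j :: l => Trep ρ l * Prep ρ j

/-- transposition Laplacian `∑_{x<y} (1 - (x y))` -/
noncomputable def Lap {S : Type} [Fintype S] [DecidableEq S] {V : Type} [NormedAddCommGroup V]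
    [InnerProductSpace ℝ V] (ρ : Equiv.Perm S →* (V →L[ℝ] V)) : V →L[ℝ] V :=
  (1 / 2 : ℝ) • ∑ x : S, ∑ y : S, (1 - ρ (Equiv.swap x y))

def S_ENERGY : Prop :=
  ∃ C c₀ : ℝ, 0 < C ∧ 0 < c₀ ∧ ∀ (d : ℕ) (V : Type) [NormedAddCommGroup V]
    [InnerProductSpace ℝ V] [FiniteDimensional ℝ V]
    (ρ : Equiv.Perm (Fin d → Bool) →* (V →L[ℝ] V)), (∀ g v, ‖ρ g v‖ = ‖v‖) →
    ∀ c : ℝ, 0 ≤ c → c ≤ c₀ → ∀ v : V,
    ‖Trep ρ (List.finRange d) v‖ ^ 2 ≤ Real.exp (C * c ^ 2 * 2 ^ d) *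
      inner ℝ v (NormedSpace.exp (-(c / 2 ^ d) • Lap ρ) v)

/-! ### Levels in `L²` of the permutations -/

/-- `L²` of the deck orders; `X c` is the position of the card `c` -/
abbrev HH (d : ℕ) : Type := EuclideanSpace ℝ (Equiv.Perm (Fin d → Bool))

/-- functions of the positions of the cards in `R` -/
def VR {d : ℕ} (R : Finset (Fin d → Bool)) : Submodule ℝ (HH d) where
  carrier := {f | ∀ X X' : Equiv.Perm (Fin d → Bool), (∀ c ∈ R, X c = X' c) → f X = f X'}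
  add_mem' := by
    intro a b ha hb X X' h
    simp only [PiLp.add_apply]
    rw [ha X X' h, hb X X' h]
  zero_mem' := by intro X X' _; rfl
  smul_mem' := by
    intro c a ha X X' h
    simp only [PiLp.smul_apply]
    rw [ha X X' h]

/-- span of the functions of the positions of `j` cards -/
def Vlev (d j : ℕ) : Submodule ℝ (HH d) :=
  ⨆ R : {R : Finset (Fin d → Bool) // R.card = j}, VR R.1

/-- the butterfly on `L²` of the deck orders -/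
noncomputable def TT (d : ℕ) : HH d →ₗ[ℝ] HH d :=
  Matrix.toEuclideanLin (Tm (Equiv.Perm (Fin d → Bool)) (List.finRange d))

/-! ### Module HIGH -/

def S_HIGH : Prop :=
  ∀ ε : ℝ, 0 < ε → ∃ c : ℝ, 0 < c ∧ ∀ d J : ℕ, ε * 2 ^ d ≤ J → J ≤ 2 ^ d →
    ∀ f ∈ (Vlev d J)ᗮ, ‖TT d f‖ ^ 2 ≤ Real.exp (-c * 2 ^ d) * ‖f‖ ^ 2

/-! ### Module LEVEL -/

/-- new functions of `j` tokens: all one-coordinate sums vanish -/
def New {Ω : Type} [Fintype Ω] [DecidableEq Ω] {j : ℕ} (φ : (Fin j ↪ Ω) → ℝ) : Prop :=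
  ∀ (i : Fin j) (X : Fin j ↪ Ω),
    ∑ Y ∈ univ.filter (fun Y : Fin j ↪ Ω => ∀ i', i' ≠ i → Y i' = X i'), φ Y = 0

/-- eigenvalue bound for new token functions gives a norm bound on the level `j` -/
def S_LEVEL : Prop :=
  ∀ (d j : ℕ) (b : ℝ), 1 ≤ j → 0 ≤ b →
    (∀ (x : ℝ) (φ : (Fin j ↪ (Fin d → Bool)) → ℝ), φ ≠ 0 → New φ → 0 ≤ x →
      (Qm (Fin j ↪ (Fin d → Bool)) (List.finRange d)).mulVec φ = x • φ → x ≤ b) →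
    ∀ f ∈ Vlev d j, f ∈ (Vlev d (j - 1))ᗮ → ‖TT d f‖ ^ 2 ≤ b * ‖f‖ ^ 2

/-! ### Modules GRAM1, GRAM -/

def S_GRAM1 : Prop :=
  ∀ (Ω : Type) [Fintype Ω] [DecidableEq Ω] (ι : Type) [Fintype ι] [DecidableEq ι] (j : ℕ)
    (φ : (Fin j ↪ Ω) → ℝ), New φ → ∀ e e' : Fin j ↪ ι, 4 * Fintype.card ι ≤ Fintype.card Ω →
    |∑ X : ι ↪ Ω, φ (e.trans X) * φ (e'.trans X)| ≤
      (2 * (j : ℝ) / Fintype.card Ω) ^ (univ.filter (fun i => e' i ∉ Set.range e)).card *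
        ∑ X : ι ↪ Ω, φ (e.trans X) ^ 2

def S_GRAM : Prop :=
  ∀ (d j m p : ℕ) (x : ℝ) (φ : (Fin j ↪ (Fin d → Bool)) → ℝ), 1 ≤ j → 1 ≤ m →
    4 * (j * m) ≤ 2 ^ d → φ ≠ 0 → New φ → 0 ≤ x →
    (Qm (Fin j ↪ (Fin d → Bool)) (List.finRange d)).mulVec φ = x • φ →
    x ^ p * (m : ℝ) ^ j ≤
      2 ^ j * ((Qm ((Fin j × Fin m) ↪ (Fin d → Bool)) (List.finRange d)) ^ p).trace

/-! ### Module TRLEV -/

/-- trace of `(T^K)ᵀ T^K` on the level `≤ j` (`K = 2^l`) -/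
def S_TRLEV : Prop :=
  ∀ (d j l : ℕ), j ≤ 2 ^ d →
    LinearMap.trace ℝ (HH d)
      ((LinearMap.adjoint (TT d ^ (2 ^ l)) ∘ₗ (TT d ^ (2 ^ l))) ∘ₗ
        ((Vlev d j).starProjection : HH d →L[ℝ] HH d)) ≤
      ((2 ^ d).choose j : ℝ) *
        ((Qm (Fin j ↪ (Fin d → Bool)) (List.finRange d)) ^ (2 ^ l)).trace

/-! ### Module DECOMP -/

/-- abstract decomposition of the Hilbert-Schmidt norm along a flag of reducing subspaces -/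
def S_DECOMP : Prop :=
  ∀ (H : Type) [NormedAddCommGroup H] [InnerProductSpace ℝ H] [FiniteDimensional ℝ H]
    (T : H →ₗ[ℝ] H) (V : ℕ → Submodule ℝ H) (J K₁ K₂ : ℕ) (b : ℕ → ℝ) (B : ℝ),
    Monotone V → (∀ j, ∀ v ∈ V j, T v ∈ V j) → (∀ j, ∀ v ∈ V j, LinearMap.adjoint T v ∈ V j) →
    (∀ j, 0 ≤ b j) → 0 ≤ B →
    (∀ j, 1 ≤ j → j ≤ J → ∀ v ∈ V j, v ∈ (V (j - 1))ᗮ → ‖T v‖ ^ 2 ≤ b j * ‖v‖ ^ 2) →
    (∀ v ∈ (V J)ᗮ, ‖T v‖ ^ 2 ≤ B * ‖v‖ ^ 2) →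
    LinearMap.trace ℝ H (LinearMap.adjoint (T ^ (K₂ + K₁)) ∘ₗ (T ^ (K₂ + K₁))) ≤
      LinearMap.trace ℝ H ((LinearMap.adjoint (T ^ (K₂ + K₁)) ∘ₗ (T ^ (K₂ + K₁))) ∘ₗ
        ((V 0).starProjection : H →L[ℝ] H)) +
      ∑ j ∈ Finset.Icc 1 J, b j ^ K₂ * LinearMap.trace ℝ H
        ((LinearMap.adjoint (T ^ K₁) ∘ₗ (T ^ K₁)) ∘ₗ ((V j).starProjection : H →L[ℝ] H)) +
      B ^ K₂ * LinearMap.trace ℝ H (LinearMap.adjoint (T ^ K₁) ∘ₗ (T ^ K₁))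

/-! ### Module NUM -/

/-- choice of the block size and resulting eigenvalue bound -/
def S_NUM1 : Prop :=
  ∀ (C β : ℝ) (p : ℕ), 0 < C → 0 < β → β ≤ 1 → 1 ≤ p →
    ∃ ε δ : ℝ, 0 < ε ∧ ε ≤ 1 / 4 ∧ 0 < δ ∧ ∀ n j : ℕ, 1 ≤ j → (j : ℝ) ≤ ε * n →
      ∃ m : ℕ, 1 ≤ m ∧ 4 * (j * m) ≤ n ∧
        ∀ x : ℝ, 0 ≤ x →
          x ^ p * (m : ℝ) ^ j ≤
            2 ^ j * Real.exp (C * p * ((j * m : ℕ) : ℝ) * (((j * m : ℕ) : ℝ) / n) ^ β) →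
          x ≤ (((j : ℝ) / n) ^ δ) ^ j

/-- final numerical estimate -/
def S_NUM2 : Prop :=
  ∀ (δ C c : ℝ), 0 < δ → 0 < C → 0 < c → ∃ K₂ n₀ : ℕ, ∀ n J : ℕ, n₀ ≤ n → (J : ℝ) ≤ n / 4 →
    ∑ j ∈ Finset.Icc 1 J, ((((j : ℝ) / n) ^ δ) ^ j) ^ K₂ * ((n.choose j : ℝ) *
        Real.exp (C * j)) + Real.exp (-c * n) ^ K₂ * Real.exp (C * n) ≤ 1 / 4

/-! ### Module LINK and FINAL -/

/-- Hilbert-Schmidt norm bound for `K` butterflies -/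
def S_MIXTR : Prop :=
  ∃ K d₀ : ℕ, ∀ d : ℕ, d₀ ≤ d →
    ((Tm (Equiv.Perm (Fin d → Bool)) (List.finRange d) ^ K).transpose *
      Tm (Equiv.Perm (Fin d → Bool)) (List.finRange d) ^ K).trace ≤ 1 + 1 / 4

/-- the goal: `t_mix (2^d) ≤ C d` -/
def S_GOALD : Prop :=
  ∃ C : ℝ, ∀ d : ℕ, 1 ≤ d →
    (∀ t : ℕ, C * (d : ℝ) ≤ t → thorpTV (2 ^ (d - 1)) t ≤ 1 / 4) ∧
      (tmix (2 ^ (d - 1)) : ℝ) ≤ C * (d : ℝ)

end Vale.Agent.P162c
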