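import Mathlib
import Vale.Agent.P162c.Defs2

/-!
P162 (Thorp shuffle): module DECOMP.
-/

namespace Vale.Agent.P162c

namespace DECOMP

section
variable {H : Type} [NormedAddCommGroup H] [InnerProductSpace ℝ H] [FiniteDimensional ℝ H]

/-- The orthogonal complement of an adjoint-invariant subspace is invariant. -/
lemma orth_inv (T : H →ₗ[ℝ] H) (U : Submodule ℝ H)
    (hU' : ∀ v ∈ U, LinearMap.adjoint T v ∈ U) {v : H} (hv : v ∈ Uᗮ) : T v ∈ Uᗮ := by
  rw [Submodule.mem_orthogonal] at hv ⊢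
  intro u hu
  rw [← LinearMap.adjoint_inner_left]
  exact hv _ (hU' u hu)

/-- A reducing subspace: the projection commutes with the operator. -/
lemma comm1 (T : H →ₗ[ℝ] H) (U : Submodule ℝ H) (hU : ∀ v ∈ U, T v ∈ U)
    (hU' : ∀ v ∈ U, LinearMap.adjoint T v ∈ U) (v : H) :
    U.starProjection (T v) = T (U.starProjection v) := by
  refine Submodule.eq_starProjection_of_mem_orthogonal (hU _ ?_) ?_
  · exact Submodule.starProjection_apply_mem U v
  · rw [← map_sub]
    exact orth_inv T U hU' (Submodule.sub_starProjection_mem_orthogonal v)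

lemma commn (T : H →ₗ[ℝ] H) (U : Submodule ℝ H) (hU : ∀ v ∈ U, T v ∈ U)
    (hU' : ∀ v ∈ U, LinearMap.adjoint T v ∈ U) (n : ℕ) (v : H) :
    U.starProjection ((T ^ n) v) = (T ^ n) (U.starProjection v) := by
  induction n generalizing v with
  | zero => simp
  | succ n ih =>
    rw [pow_succ, Module.End.mul_apply, Module.End.mul_apply, ih, comm1 T U hU hU']

/-- Pythagoras for an operator commuting with the projection. -/
lemma pyth (S : H →ₗ[ℝ] H) (U : Submodule ℝ H)
    (hS : ∀ v, U.starProjection (S v) = S (U.starProjection v)) (v : H) :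
    ‖S v‖ ^ 2 = ‖S (U.starProjection v)‖ ^ 2 + ‖S (v - U.starProjection v)‖ ^ 2 := by
  have h1 : S v = U.starProjection (S v) + (S v - U.starProjection (S v)) := by abel
  have h2 : inner ℝ (U.starProjection (S v)) (S v - U.starProjection (S v)) = 0 :=
    Submodule.inner_right_of_mem_orthogonal (Submodule.starProjection_apply_mem U _)
      (Submodule.sub_starProjection_mem_orthogonal _)
  have h3 := norm_add_sq_real (U.starProjection (S v)) (S v - U.starProjection (S v))
  rw [← h1, h2] at h3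
  rw [h3, hS, map_sub]
  ring

/-- The trace of `S† S P` is the sum of squares. -/
lemma trace_proj (S : H →ₗ[ℝ] H) (U : Submodule ℝ H)
    (hS : ∀ v, U.starProjection (S v) = S (U.starProjection v)) :
    LinearMap.trace ℝ H ((LinearMap.adjoint S ∘ₗ S) ∘ₗ (U.starProjection : H →L[ℝ] H)) =
      ∑ i, ‖S (U.starProjection (stdOrthonormalBasis ℝ H i))‖ ^ 2 := by
  rw [LinearMap.trace_eq_sum_inner _ (stdOrthonormalBasis ℝ H)]
  refine Finset.sum_congr rfl fun i _ => ?_
  set e := stdOrthonormalBasis ℝ H i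
  simp only [LinearMap.comp_apply, ContinuousLinearMap.coe_coe]
  rw [LinearMap.adjoint_inner_right]
  have h1 : S e = S (U.starProjection e) + (S e - U.starProjection (S e)) := by
    rw [hS]; abel
  rw [h1, inner_add_left]
  have h2 : inner ℝ (S e - U.starProjection (S e)) (S (U.starProjection e)) = 0 := by
    rw [← hS]
    exact Submodule.inner_left_of_mem_orthogonal (Submodule.starProjection_apply_mem U _)
      (Submodule.sub_starProjection_mem_orthogonal _)
  rw [h2, add_zero, real_inner_self_eq_norm_sq]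

/-- The trace of `S† S` is the sum of squares. -/
lemma trace_full (S : H →ₗ[ℝ] H) :
    LinearMap.trace ℝ H (LinearMap.adjoint S ∘ₗ S) =
      ∑ i, ‖S (stdOrthonormalBasis ℝ H i)‖ ^ 2 := by
  rw [LinearMap.trace_eq_sum_inner _ (stdOrthonormalBasis ℝ H)]
  refine Finset.sum_congr rfl fun i _ => ?_
  rw [LinearMap.comp_apply, LinearMap.adjoint_inner_right, real_inner_self_eq_norm_sq]

omit [FiniteDimensional ℝ H] in
/-- Iterating a bound on an invariant set. -/
lemma iter_bound (T : H →ₗ[ℝ] H) (p : H → Prop) (hp : ∀ v, p v → p (T v)) (b : ℝ) (hb : 0 ≤ b)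
    (h : ∀ v, p v → ‖T v‖ ^ 2 ≤ b * ‖v‖ ^ 2) (n : ℕ) (v : H) (hv : p v) :
    ‖(T ^ n) v‖ ^ 2 ≤ b ^ n * ‖v‖ ^ 2 := by
  induction n generalizing v with
  | zero => simp
  | succ n ih =>
    rw [pow_succ T, Module.End.mul_apply]
    refine (ih (T v) (hp v hv)).trans ?_
    calc b ^ n * ‖T v‖ ^ 2 ≤ b ^ n * (b * ‖v‖ ^ 2) :=
          mul_le_mul_of_nonneg_left (h v hv) (pow_nonneg hb n)
      _ = b ^ (n + 1) * ‖v‖ ^ 2 := by ring

omit [FiniteDimensional ℝ H] in
lemma inv_pow (T : H →ₗ[ℝ] H) (p : H → Prop) (hp : ∀ v, p v → p (T v)) (n : ℕ) (v : H)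
    (hv : p v) : p ((T ^ n) v) := by
  induction n generalizing v with
  | zero => simpa using hv
  | succ n ih =>
    rw [pow_succ, Module.End.mul_apply]
    exact ih (T v) (hp v hv)

/-- Telescoping over the levels. -/
lemma tele (T : H →ₗ[ℝ] H) (V : ℕ → Submodule ℝ H) (K₁ K₂ : ℕ) (b : ℕ → ℝ)
    (hmono : Monotone V) (h1 : ∀ j, ∀ v ∈ V j, T v ∈ V j)
    (h2 : ∀ j, ∀ v ∈ V j, LinearMap.adjoint T v ∈ V j) (hb : ∀ j, 0 ≤ b j)
    (e : H) (J : ℕ)
    (hj : ∀ j, 1 ≤ j → j ≤ J → ∀ v ∈ V j, v ∈ (V (j - 1))ᗮ → ‖T v‖ ^ 2 ≤ b j * ‖v‖ ^ 2) :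
    ‖(T ^ (K₂ + K₁)) ((V J).starProjection e)‖ ^ 2 ≤
      ‖(T ^ (K₂ + K₁)) ((V 0).starProjection e)‖ ^ 2 +
      ∑ j ∈ Finset.Icc 1 J, b j ^ K₂ * ‖(T ^ K₁) ((V j).starProjection e)‖ ^ 2 := by
  induction J with
  | zero => simp
  | succ J ih =>
    have ih' := ih (fun j hj1 hj2 => hj j hj1 (hj2.trans (Nat.le_succ J)))
    rw [Finset.sum_Icc_succ_top (by omega)]
    have hcomp : (V J).starProjection ((V (J + 1)).starProjection e) = (V J).starProjection e := by
      refine Submodule.eq_starProjection_of_mem_orthogonal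
        (Submodule.starProjection_apply_mem _ _) ?_
      have : (V (J + 1)).starProjection e - (V J).starProjection e =
          (e - (V J).starProjection e) - (e - (V (J + 1)).starProjection e) := by abel
      rw [this]
      refine Submodule.sub_mem _ (Submodule.sub_starProjection_mem_orthogonal _) ?_
      exact Submodule.orthogonal_le (hmono (Nat.le_succ J))
        (Submodule.sub_starProjection_mem_orthogonal _)
    set v := (V (J + 1)).starProjection e with hv
    have hvm : v ∈ V (J + 1) := Submodule.starProjection_apply_mem _ _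
    have e1 := pyth (T ^ (K₂ + K₁)) (V J) (commn T (V J) (h1 J) (h2 J) _) v
    have e2 := pyth (T ^ K₁) (V J) (commn T (V J) (h1 J) (h2 J) _) v
    rw [hcomp] at e1 e2
    set w := v - (V J).starProjection e with hw
    have hwp : w ∈ V (J + 1) ∧ w ∈ (V J)ᗮ := by
      constructor
      · exact Submodule.sub_mem _ hvm (hmono (Nat.le_succ J) (Submodule.starProjection_apply_mem _ _))
      · rw [hw, ← hcomp]
        exact Submodule.sub_starProjection_mem_orthogonal _
    have hpinv : ∀ u, (u ∈ V (J + 1) ∧ u ∈ (V J)ᗮ) → (T u ∈ V (J + 1) ∧ T u ∈ (V J)ᗮ) :=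
      fun u hu => ⟨h1 _ _ hu.1, orth_inv T (V J) (h2 J) hu.2⟩
    have hTw := inv_pow T (fun u => u ∈ V (J + 1) ∧ u ∈ (V J)ᗮ) hpinv K₁ w hwp
    have hbnd := iter_bound T (fun u => u ∈ V (J + 1) ∧ u ∈ (V J)ᗮ) hpinv (b (J + 1)) (hb _)
      (fun u hu => hj (J + 1) (by omega) le_rfl u hu.1 (by simpa using hu.2)) K₂ _ hTw
    rw [← Module.End.mul_apply, ← pow_add] at hbnd
    have e3 : ‖(T ^ K₁) w‖ ^ 2 ≤ ‖(T ^ K₁) v‖ ^ 2 := by
      rw [e2]
      have := sq_nonneg ‖(T ^ K₁) ((V J).starProjection e)‖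
      linarith
    have e4 := mul_le_mul_of_nonneg_left e3 (pow_nonneg (hb (J + 1)) K₂)
    rw [e1]
    linarith

end

end DECOMP

open DECOMP in
theorem decomp : S_DECOMP := by
  intro H _ _ _ T V J K₁ K₂ b B hmono h1 h2 hb hB hj hJ
  rw [trace_full, trace_full, trace_proj _ _ (commn T (V 0) (h1 0) (h2 0) _)]
  simp_rw [fun j => trace_proj (T ^ K₁) (V j) (commn T (V j) (h1 j) (h2 j) K₁)]
  simp_rw [Finset.mul_sum]
  rw [Finset.sum_comm, ← Finset.sum_add_distrib, ← Finset.sum_add_distrib]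
  refine Finset.sum_le_sum fun i _ => ?_
  set e := stdOrthonormalBasis ℝ H i
  have e1 := pyth (T ^ (K₂ + K₁)) (V J) (commn T (V J) (h1 J) (h2 J) _) e
  have e2 := pyth (T ^ K₁) (V J) (commn T (V J) (h1 J) (h2 J) _) e
  have ht := tele T V K₁ K₂ b hmono h1 h2 hb e J hj
  set w := e - (V J).starProjection e with hw
  have hwp : w ∈ (V J)ᗮ := Submodule.sub_starProjection_mem_orthogonal _
  have hpinv : ∀ u, u ∈ (V J)ᗮ → T u ∈ (V J)ᗮ := fun u hu => orth_inv T (V J) (h2 J) hu
  have hTw := inv_pow T (fun u => u ∈ (V J)ᗮ) hpinv K₁ w hwp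
  have hbnd := iter_bound T (fun u => u ∈ (V J)ᗮ) hpinv B hB hJ K₂ _ hTw
  rw [← Module.End.mul_apply, ← pow_add] at hbnd
  have e3 : ‖(T ^ K₁) w‖ ^ 2 ≤ ‖(T ^ K₁) e‖ ^ 2 := by
    rw [e2]
    have := sq_nonneg ‖(T ^ K₁) ((V J).starProjection e)‖
    linarith
  have e4 := mul_le_mul_of_nonneg_left e3 (pow_nonneg hB K₂)
  rw [e1]
  linarith

end Vale.Agent.P162c
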