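import Mathlib
import Vale.Agent.P162c.Defs2

/-!
P162 (Thorp shuffle): module statements, part 3 (ENERGY split).
-/

namespace Vale.Agent.P162c

open Finset Vale.Agent.P162

/-- moment generating function of the sum of the anticommuting `D i j` in an `s`-invariant state -/
def S_MOM : Prop :=
  ∃ C c₀ : ℝ, 0 < C ∧ 0 < c₀ ∧ ∀ (ι : Type) [Fintype ι] [DecidableEq ι]
    (V : Type) [NormedAddCommGroup V] [InnerProductSpace ℝ V] [FiniteDimensional ℝ V]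
    (s : ι → (V →L[ℝ] V)) (D : ι → ι → (V →L[ℝ] V)),
    (∀ i v w, inner ℝ (s i v) w = inner ℝ v (s i w)) →
    (∀ i, s i * s i = 1) →
    (∀ i j, s i * s j = s j * s i) →
    (∀ i j, i ≠ j → s i * D i j = -(D i j * s i)) →
    (∀ i j, i ≠ j → s j * D i j = -(D i j * s j)) →
    (∀ i j k, k ≠ i → k ≠ j → s k * D i j = D i j * s k) →
    (∀ i j v, i ≠ j → ‖D i j v‖ ≤ 4 * ‖v‖) →
    ∀ u : V, (∀ i, s i u = u) → ∀ t : ℝ, 0 ≤ t → t * Fintype.card ι ≤ c₀ →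
    inner ℝ u (NormedSpace.exp (-t • ((1 / 2 : ℝ) • ∑ i, ∑ j ∈ univ.erase i, D i j -
      ∑ i, (1 - s i))) u) ≤ Real.exp (C * (t * Fintype.card ι) ^ 2) * ‖u‖ ^ 2

end Vale.Agent.P162c
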