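import Vale.Agent.P162c.Defs

/-! Module DYAD: `tr((A^K)ᵀ A^K) ≤ tr((Aᵀ A)^K)` for `K = 2^l`. -/

namespace Vale.Agent.P162c
namespace DYAD

open Matrix

variable {Y : Type} [Fintype Y] [DecidableEq Y]

/-- `(XY)^k X = X (YX)^k`. -/
lemma pow_mul_shift (X Z : Matrix Y Y ℝ) (k : ℕ) : (X * Z) ^ k * X = X * (Z * X) ^ k := by
  induction k with
  | zero => simp
  | succ k ih =>
    calc (X * Z) ^ (k + 1) * X = (X * Z) ^ k * X * (Z * X) := by
          rw [pow_succ]; simp only [Matrix.mul_assoc]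
      _ = X * (Z * X) ^ (k + 1) := by
          rw [ih, Matrix.mul_assoc, ← pow_succ]

/-- cyclicity of the trace of a power of a product. -/
lemma trace_pow_comm (X Z : Matrix Y Y ℝ) (k : ℕ) :
    ((X * Z) ^ (k + 1)).trace = ((Z * X) ^ (k + 1)).trace := by
  have h1 : (X * Z) ^ (k + 1) = X * (Z * X) ^ k * Z := by
    rw [pow_succ, ← Matrix.mul_assoc, pow_mul_shift]
  have h2 : (Z * X) ^ (k + 1) = Z * (X * (Z * X) ^ k) := by
    rw [← Matrix.mul_assoc, ← pow_succ']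
  rw [h1, h2, Matrix.trace_mul_comm (X * (Z * X) ^ k) Z]

lemma trace_pow_comm' (X Z : Matrix Y Y ℝ) {k : ℕ} (hk : 0 < k) :
    ((X * Z) ^ k).trace = ((Z * X) ^ k).trace := by
  obtain ⟨j, rfl⟩ : ∃ j, k = j + 1 := ⟨k - 1, by omega⟩
  exact trace_pow_comm X Z j

lemma trace_tmul (M N : Matrix Y Y ℝ) :
    (Mᵀ * N).trace = ∑ i, ∑ j, M j i * N j i := by
  simp [Matrix.trace, Matrix.mul_apply, Matrix.transpose_apply]

/-- `tr(MᵀN) ≤ (tr MᵀM + tr NᵀN)/2`. -/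
lemma trace_cs (M N : Matrix Y Y ℝ) :
    (Mᵀ * N).trace ≤ ((Mᵀ * M).trace + (Nᵀ * N).trace) / 2 := by
  have h : ∀ i j, M j i * N j i ≤ (M j i * M j i + N j i * N j i) / 2 := by
    intro i j; nlinarith [sq_nonneg (M j i - N j i)]
  calc (Mᵀ * N).trace = ∑ i, ∑ j, M j i * N j i := trace_tmul M N
    _ ≤ ∑ i, ∑ j, (M j i * M j i + N j i * N j i) / 2 :=
        Finset.sum_le_sum fun i _ => Finset.sum_le_sum fun j _ => h i j
    _ = _ := by
        rw [trace_tmul M M, trace_tmul N N, ← Finset.sum_add_distrib, Finset.sum_div]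
        refine Finset.sum_congr rfl fun i _ => ?_
        rw [← Finset.sum_add_distrib, Finset.sum_div]

/-- `tr(M²) ≤ tr(MᵀM)`. -/
lemma trace_sq_le (M : Matrix Y Y ℝ) : (M * M).trace ≤ (Mᵀ * M).trace := by
  have h := trace_cs Mᵀ M
  rw [Matrix.transpose_transpose, Matrix.trace_mul_comm M Mᵀ] at h
  linarith

/-- `tr(P^K Q^K) ≤ tr(P^{2K})` for `P = AᵀA`, `Q = AAᵀ`. -/
lemma trace_PQ (A : Matrix Y Y ℝ) (k : ℕ) (hk : 0 < k) :
    ((Aᵀ * A) ^ k * (A * Aᵀ) ^ k).trace ≤ ((Aᵀ * A) ^ (2 * k)).trace := by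
  have hP : ((Aᵀ * A) ^ k)ᵀ = (Aᵀ * A) ^ k := by
    rw [Matrix.transpose_pow, Matrix.transpose_mul, Matrix.transpose_transpose]
  have hQ : ((A * Aᵀ) ^ k)ᵀ = (A * Aᵀ) ^ k := by
    rw [Matrix.transpose_pow, Matrix.transpose_mul, Matrix.transpose_transpose]
  have h := trace_cs ((Aᵀ * A) ^ k) ((A * Aᵀ) ^ k)
  rw [hP, hQ, ← pow_add, ← pow_add, ← two_mul] at h
  rw [trace_pow_comm' A Aᵀ (by omega : 0 < 2 * k)] at h
  linarith

/-- the joint induction. -/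
lemma joint (m : ℕ) :
    (∀ A : Matrix Y Y ℝ, ((A ^ (2 ^ m))ᵀ * A ^ (2 ^ m)).trace ≤ ((Aᵀ * A) ^ (2 ^ m)).trace) ∧
    (∀ P Q : Matrix Y Y ℝ, Pᵀ = P → Qᵀ = Q →
      ((P * Q) ^ (2 ^ m)).trace ≤ (P ^ (2 ^ m) * Q ^ (2 ^ m)).trace) := by
  induction m with
  | zero => simp
  | succ m ih =>
    obtain ⟨hD, hE⟩ := ih
    have hK : 0 < 2 ^ m := by positivity
    constructor
    · intro A
      have e1 : A ^ (2 ^ (m + 1)) = (A * A) ^ (2 ^ m) := by
        rw [← pow_two, ← pow_mul, pow_succ, mul_comm]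
      have h1 := hD (A * A)
      have e2 : ((A * A)ᵀ * (A * A)) = Aᵀ * ((Aᵀ * A) * A) := by
        rw [Matrix.transpose_mul]; simp only [Matrix.mul_assoc]
      have h2 : (((A * A)ᵀ * (A * A)) ^ (2 ^ m)).trace
          = (((Aᵀ * A) * (A * Aᵀ)) ^ (2 ^ m)).trace := by
        rw [e2, trace_pow_comm' Aᵀ ((Aᵀ * A) * A) hK]
        simp only [Matrix.mul_assoc]
      have h3 := hE (Aᵀ * A) (A * Aᵀ)
        (by rw [Matrix.transpose_mul, Matrix.transpose_transpose])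
        (by rw [Matrix.transpose_mul, Matrix.transpose_transpose])
      have h4 := trace_PQ A (2 ^ m) hK
      have e3 : 2 ^ (m + 1) = 2 * 2 ^ m := by rw [pow_succ, mul_comm]
      rw [e1, e3]
      linarith
    · intro P Q hP hQ
      have e3 : 2 ^ (m + 1) = 2 ^ m + 2 ^ m := by rw [pow_succ]; ring
      have h1 : ((P * Q) ^ (2 ^ (m + 1))).trace ≤
          (((P * Q) ^ (2 ^ m))ᵀ * (P * Q) ^ (2 ^ m)).trace := by
        rw [e3, pow_add]
        exact trace_sq_le _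
      have h2 := hD (P * Q)
      have e4 : (P * Q)ᵀ * (P * Q) = Q * ((P * P) * Q) := by
        rw [Matrix.transpose_mul, hP, hQ]; simp only [Matrix.mul_assoc]
      have h3 : (((P * Q)ᵀ * (P * Q)) ^ (2 ^ m)).trace
          = (((P * P) * (Q * Q)) ^ (2 ^ m)).trace := by
        rw [e4, trace_pow_comm' Q ((P * P) * Q) hK]
        simp only [Matrix.mul_assoc]
      have h4 := hE (P * P) (Q * Q) (by rw [Matrix.transpose_mul, hP])
        (by rw [Matrix.transpose_mul, hQ])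
      have e5 : (P * P) ^ (2 ^ m) = P ^ (2 ^ (m + 1)) := by
        rw [← pow_two, ← pow_mul, pow_succ, mul_comm]
      have e6 : (Q * Q) ^ (2 ^ m) = Q ^ (2 ^ (m + 1)) := by
        rw [← pow_two, ← pow_mul, pow_succ, mul_comm]
      rw [e5, e6] at h4
      linarith

end DYAD

theorem dyad : S_DYAD := by
  intro Y _ _ A l
  exact (DYAD.joint l).1 A

end Vale.Agent.P162c
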