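import Vale.Agent.P162c.Defs3

/-!
# P162c, module ENERGY, part (b): the inductive step
-/

namespace Vale.Agent.P162c
namespace EnergyB

open Finset Vale.Agent.P162

variable {V : Type} [NormedAddCommGroup V] [InnerProductSpace ℝ V] [FiniteDimensional ℝ V]

/-- symmetric operators -/
def Sym (A : V →L[ℝ] V) : Prop := ∀ v w, inner ℝ (A v) w = inner ℝ v (A w)

omit [FiniteDimensional ℝ V] in
lemma Sym.smul {A : V →L[ℝ] V} (h : Sym A) (r : ℝ) : Sym (r • A) := by
  intro v w
  simp only [ContinuousLinearMap.coe_smul', Pi.smul_apply, real_inner_smul_left,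
    real_inner_smul_right, h v w]

lemma Sym.exp {A : V →L[ℝ] V} (h : Sym A) : Sym (NormedSpace.exp A) := by
  have : CompleteSpace V := FiniteDimensional.complete ℝ V
  have h1 : IsSelfAdjoint A := by
    rw [ContinuousLinearMap.isSelfAdjoint_iff_isSymmetric]
    exact h
  have h2 : IsSelfAdjoint (NormedSpace.exp A) := h1.exp
  rw [ContinuousLinearMap.isSelfAdjoint_iff_isSymmetric] at h2
  exact h2

lemma exp_half (A : V →L[ℝ] V) (r : ℝ) :
    NormedSpace.exp (r • A) = NormedSpace.exp ((r / 2) • A) * NormedSpace.exp ((r / 2) • A) := by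
  have : CompleteSpace V := FiniteDimensional.complete ℝ V
  letI : NormedAlgebra ℚ (V →L[ℝ] V) := NormedAlgebra.restrictScalars ℚ ℝ (V →L[ℝ] V)
  rw [← NormedSpace.exp_add_of_commute (Commute.refl _), ← add_smul]
  congr 2
  ring

lemma inner_exp {A : V →L[ℝ] V} (h : Sym A) (r : ℝ) (v : V) :
    inner ℝ v (NormedSpace.exp (r • A) v) = ‖NormedSpace.exp ((r / 2) • A) v‖ ^ 2 := by
  rw [exp_half, ContinuousLinearMap.mul_apply, ← real_inner_self_eq_norm_sq]
  exact ((h.smul _).exp v _).symm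

lemma exp_add' {A B : V →L[ℝ] V} (h : A * B = B * A) :
    NormedSpace.exp (A + B) = NormedSpace.exp A * NormedSpace.exp B := by
  have : CompleteSpace V := FiniteDimensional.complete ℝ V
  letI : NormedAlgebra ℚ (V →L[ℝ] V) := NormedAlgebra.restrictScalars ℚ ℝ (V →L[ℝ] V)
  exact NormedSpace.exp_add_of_commute h

lemma comm_exp {A B : V →L[ℝ] V} (h : A * B = B * A) (r : ℝ) :
    A * NormedSpace.exp (r • B) = NormedSpace.exp (r • B) * A := by
  have h1 : Commute A (r • B) := (show Commute A B from h).smul_right r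
  exact (h1.exp_right).eq

lemma exp_comm_exp {A B : V →L[ℝ] V} (h : A * B = B * A) (r r' : ℝ) :
    NormedSpace.exp (r • A) * NormedSpace.exp (r' • B) =
      NormedSpace.exp (r' • B) * NormedSpace.exp (r • A) := by
  have h1 : Commute (r • A) (r' • B) := ((show Commute A B from h).smul_left r).smul_right r'
  exact (h1.exp_left.exp_right).eq

/-- The inductive step of ENERGY, abstractly.  `T₀, T₁` are the butterflies of the two halves, `L₀,
L₁` their Laplacians, `P` the average over the outer layer. -/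
lemma step {T0 T1 P L0 L1 L R : V →L[ℝ] V} {B t K : ℝ}
    (hL0 : Sym L0) (hL1 : Sym L1) (hL : Sym L)
    (hT1L0 : T1 * L0 = L0 * T1) (hL01 : L0 * L1 = L1 * L0)
    (hid : (2 : ℝ) • (L0 + L1) = L + R) (hLR : L * R = R * L)
    (hLP : P * L = L * P) (hP : ∀ v, ‖P v‖ ≤ ‖v‖)
    (ih0 : ∀ v, ‖T0 v‖ ^ 2 ≤ B * inner ℝ v (NormedSpace.exp (-(2 * t) • L0) v))
    (ih1 : ∀ v, ‖T1 v‖ ^ 2 ≤ B * inner ℝ v (NormedSpace.exp (-(2 * t) • L1) v))
    (hB : 0 ≤ B) (hK : 0 ≤ K)
    (mom : ∀ u, P u = u → inner ℝ u (NormedSpace.exp (-t • R) u) ≤ K * ‖u‖ ^ 2)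
    (hPP : P * P = P) (v : V) :
    ‖(T0 * T1 * P) v‖ ^ 2 ≤ B * B * K * inner ℝ v (NormedSpace.exp (-t • L) v) := by
  set u := P v with hu
  set E0 := NormedSpace.exp (-t • L0) with hE0
  set E1 := NormedSpace.exp (-t • L1) with hE1
  have r1 : (-(2 * t)) / 2 = -t := by ring
  -- first half
  have a1 : ‖T0 (T1 u)‖ ^ 2 ≤ B * ‖E0 (T1 u)‖ ^ 2 := by
    have := ih0 (T1 u)
    rwa [inner_exp hL0, r1] at this
  have a2 : E0 (T1 u) = T1 (E0 u) := by
    have := comm_exp hT1L0 (-t)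
    have h2 := congrArg (fun A : V →L[ℝ] V => A u) this
    exact h2.symm
  have a3 : ‖T1 (E0 u)‖ ^ 2 ≤ B * ‖E1 (E0 u)‖ ^ 2 := by
    have := ih1 (E0 u)
    rwa [inner_exp hL1, r1] at this
  -- the total exponent
  have a4 : ‖E1 (E0 u)‖ ^ 2 = inner ℝ u (NormedSpace.exp (-(2 * t) • (L0 + L1)) u) := by
    have hS : Sym (L0 + L1) := by
      intro v w
      have h0 := hL0 v w
      have h1 := hL1 v w
      change inner ℝ (L0 v + L1 v) w = inner ℝ v (L0 w + L1 w)
      rw [inner_add_left, inner_add_right, h0, h1]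
    rw [inner_exp hS, r1]
    congr 2
    have h1 : -t • (L0 + L1) = -t • L1 + -t • L0 := by rw [smul_add, add_comm]
    have h2 : (-t • L1) * (-t • L0) = (-t • L0) * (-t • L1) := by
      simp only [smul_mul_assoc, mul_smul_comm, hL01]
    rw [h1, exp_add' h2]
    rfl
  have a5 : -(2 * t) • (L0 + L1) = -t • L + -t • R := by
    rw [← smul_add, ← hid, smul_smul]
    congr 1
    ring
  have a6 : NormedSpace.exp (-(2 * t) • (L0 + L1)) =
      NormedSpace.exp ((-t / 2) • L) * (NormedSpace.exp (-t • R) * NormedSpace.exp ((-t / 2) • L)) := by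
    have h2 : (-t • L) * (-t • R) = (-t • R) * (-t • L) := by
      simp only [smul_mul_assoc, mul_smul_comm, hLR]
    rw [a5, exp_add' h2, exp_half L (-t), mul_assoc, exp_comm_exp hLR]
  set w := NormedSpace.exp ((-t / 2) • L) u with hw
  have a7 : inner ℝ u (NormedSpace.exp (-(2 * t) • (L0 + L1)) u) =
      inner ℝ w (NormedSpace.exp (-t • R) w) := by
    rw [a6]
    exact ((hL.smul (-t / 2)).exp u _).symm
  have hPw : P w = w := by
    have h1 := comm_exp hLP (-t / 2)
    have h2 := congrArg (fun A : V →L[ℝ] V => A u) h1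
    have h3 : P u = u := by
      have := congrArg (fun A : V →L[ℝ] V => A v) hPP
      exact this
    change P (NormedSpace.exp ((-t / 2) • L) u) = NormedSpace.exp ((-t / 2) • L) (P u) at h2
    rw [h3] at h2
    exact h2
  have a8 := mom w hPw
  have a9 : ‖w‖ ≤ ‖NormedSpace.exp ((-t / 2) • L) v‖ := by
    have h1 := comm_exp hLP (-t / 2)
    have h2 := congrArg (fun A : V →L[ℝ] V => A v) h1
    change P (NormedSpace.exp ((-t / 2) • L) v) = NormedSpace.exp ((-t / 2) • L) (P v) at h2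
    rw [hw, hu, ← h2]
    exact hP _
  have a10 : inner ℝ v (NormedSpace.exp (-t • L) v) = ‖NormedSpace.exp ((-t / 2) • L) v‖ ^ 2 :=
    inner_exp hL (-t) v
  have a11 : ‖w‖ ^ 2 ≤ inner ℝ v (NormedSpace.exp (-t • L) v) := by
    rw [a10]
    gcongr
  calc ‖(T0 * T1 * P) v‖ ^ 2 = ‖T0 (T1 u)‖ ^ 2 := rfl
    _ ≤ B * ‖E0 (T1 u)‖ ^ 2 := a1
    _ = B * ‖T1 (E0 u)‖ ^ 2 := by rw [a2]
    _ ≤ B * (B * ‖E1 (E0 u)‖ ^ 2) := by gcongr
    _ = B * B * inner ℝ w (NormedSpace.exp (-t • R) w) := by rw [a4, a7]; ring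
    _ ≤ B * B * (K * ‖w‖ ^ 2) := by gcongr
    _ ≤ B * B * (K * inner ℝ v (NormedSpace.exp (-t • L) v)) := by gcongr
    _ = _ := by ring

end EnergyB
end Vale.Agent.P162c
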