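import Vale.Agent.P162c.EnergyDefs
import Vale.Agent.P162c.EnergyB

/-!
# P162c, module ENERGY: assembly
-/

namespace Vale.Agent.P162c
namespace Energy

open Finset Vale.Agent.P162 EnergyB

section general

variable {S : Type} [Fintype S] [DecidableEq S] {V : Type} [NormedAddCommGroup V]
  [InnerProductSpace ℝ V] (ρ : Equiv.Perm S →* (V →L[ℝ] V))

lemma inner_pres (h : ∀ g v, ‖ρ g v‖ = ‖v‖) (g : Equiv.Perm S) (v w : V) :
    inner ℝ (ρ g v) (ρ g w) = inner ℝ v w :=
  LinearIsometry.inner_map_map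
    ({ toLinearMap := (ρ g : V →ₗ[ℝ] V), norm_map' := h g } : V →ₗᵢ[ℝ] V) v w

lemma swap_sym (h : ∀ g v, ‖ρ g v‖ = ‖v‖) (x y : S) : Sym (ρ (Equiv.swap x y)) := by
  intro v w
  have h1 := inner_pres ρ h (Equiv.swap x y) (ρ (Equiv.swap x y) v) w
  rw [← h1]
  have h2 : ρ (Equiv.swap x y) (ρ (Equiv.swap x y) v) = v := by
    have : ρ (Equiv.swap x y) * ρ (Equiv.swap x y) = 1 := by
      rw [← map_mul, Equiv.swap_mul_self, map_one]
    exact congrArg (fun A : V →L[ℝ] V => A v) this
  rw [h2]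

lemma Lap_sym (h : ∀ g v, ‖ρ g v‖ = ‖v‖) : Sym (Lap ρ) := by
  unfold Lap
  refine Sym.smul ?_ _
  intro v w
  simp only [ContinuousLinearMap.sum_apply, sum_inner, inner_sum]
  refine Finset.sum_congr rfl fun x _ => Finset.sum_congr rfl fun y _ => ?_
  have h1 := swap_sym ρ h x y v w
  change inner ℝ (v - ρ (Equiv.swap x y) v) w = inner ℝ v (w - ρ (Equiv.swap x y) w)
  rw [inner_sub_left, inner_sub_right, h1]

lemma Lap_central (g : Equiv.Perm S) : ρ g * Lap ρ = Lap ρ * ρ g := by
  unfold Lap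
  rw [mul_smul_comm, smul_mul_assoc]
  congr 1
  rw [Finset.mul_sum, Finset.sum_mul]
  simp only [Finset.mul_sum, Finset.sum_mul]
  rw [← Equiv.sum_comp g (fun x => ∑ y, (1 - ρ (Equiv.swap x y)) * ρ g)]
  refine Finset.sum_congr rfl fun x _ => ?_
  rw [← Equiv.sum_comp g (fun y => (1 - ρ (Equiv.swap (g x) y)) * ρ g)]
  refine Finset.sum_congr rfl fun y _ => ?_
  rw [mul_sub, sub_mul, mul_one, one_mul, ← map_mul, ← map_mul, Equiv.mul_swap_eq_swap_mul]

lemma Lap_comm {A : V →L[ℝ] V} (h : ∀ g, ρ g * A = A * ρ g) : Lap ρ * A = A * Lap ρ := by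
  unfold Lap
  rw [mul_smul_comm, smul_mul_assoc]
  congr 1
  rw [Finset.mul_sum, Finset.sum_mul]
  refine Finset.sum_congr rfl fun x _ => ?_
  rw [Finset.mul_sum, Finset.sum_mul]
  refine Finset.sum_congr rfl fun y _ => ?_
  rw [mul_sub, sub_mul, mul_one, one_mul, h]

end general

section layers

variable {I : Type} [Fintype I] [DecidableEq I] {V : Type} [NormedAddCommGroup V]
  [InnerProductSpace ℝ V] (ρ : Equiv.Perm (I → Bool) →* (V →L[ℝ] V))

lemma Prep_comm {A : V →L[ℝ] V} (h : ∀ g, ρ g * A = A * ρ g) (j : I) :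
    Prep ρ j * A = A * Prep ρ j := by
  unfold Prep
  rw [mul_smul_comm, smul_mul_assoc]
  congr 1
  rw [Finset.mul_sum, Finset.sum_mul]
  exact Finset.sum_congr rfl fun s _ => h _

lemma Trep_comm {A : V →L[ℝ] V} (h : ∀ g, ρ g * A = A * ρ g) (l : List I) :
    Trep ρ l * A = A * Trep ρ l := by
  induction l with
  | nil => simp [Trep]
  | cons j l ih =>
    simp only [Trep]
    rw [mul_assoc, Prep_comm ρ h, ← mul_assoc, ih, mul_assoc]

lemma Prep_norm (h : ∀ g v, ‖ρ g v‖ = ‖v‖) (j : I) (v : V) : ‖Prep ρ j v‖ ≤ ‖v‖ := by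
  unfold Prep
  have hc : (0 : ℝ) < Fintype.card ((I → Bool) → Bool) := by
    exact_mod_cast Fintype.card_pos
  change ‖((Fintype.card ((I → Bool) → Bool) : ℝ)⁻¹) •
    ((∑ s : (I → Bool) → Bool, ρ (sw j s)) v)‖ ≤ ‖v‖
  rw [norm_smul, Real.norm_of_nonneg (by positivity), inv_mul_le_iff₀ hc,
    ContinuousLinearMap.sum_apply]
  refine (norm_sum_le _ _).trans ?_
  simp only [h, Finset.sum_const, nsmul_eq_mul, Finset.card_univ]
  exact le_rfl

lemma sw_mul (j : I) (s s' : (I → Bool) → Bool) :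
    sw j s * sw j s' = sw j (fun x => xor (s x) (s' x)) := by
  ext1 x
  rw [Equiv.Perm.mul_apply]
  change swFun j s (swFun j s' x) = swFun j (fun x => xor (s x) (s' x)) x
  unfold swFun
  cases h1 : s (Function.update x j false) <;> cases h2 : s' (Function.update x j false) <;>
    simp [h1, h2, update_flip, flip_flip]

/-- translation of the switches -/
def xorEquiv (s : (I → Bool) → Bool) : ((I → Bool) → Bool) ≃ ((I → Bool) → Bool) where
  toFun s' := fun x => xor (s x) (s' x)
  invFun s' := fun x => xor (s x) (s' x)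
  left_inv s' := by funext x; simp
  right_inv s' := by funext x; simp

lemma sw_Prep (j : I) (s : (I → Bool) → Bool) : ρ (sw j s) * Prep ρ j = Prep ρ j := by
  unfold Prep
  rw [mul_smul_comm]
  congr 1
  rw [Finset.mul_sum]
  simp only [← map_mul, sw_mul]
  exact Equiv.sum_comp (xorEquiv s) (fun s' => ρ (sw j s'))

lemma Prep_Prep (j : I) : Prep ρ j * Prep ρ j = Prep ρ j := by
  have hc : (0 : ℝ) < Fintype.card ((I → Bool) → Bool) := by
    exact_mod_cast Fintype.card_pos
  conv_lhs => enter [1]; unfold Prep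
  rw [smul_mul_assoc, Finset.sum_mul]
  simp only [sw_Prep]
  rw [Finset.sum_const, Finset.card_univ, ← Nat.cast_smul_eq_nsmul ℝ, smul_smul,
    inv_mul_cancel₀ hc.ne', one_smul]

end layers

lemma swap_eq_sw {d : ℕ} (i : Fin d → Bool) :
    Equiv.swap (lo i) (hi i) = sw (0 : Fin (d + 1)) (fun x => decide (x = lo i)) := by
  have hu : ∀ x : Fin (d + 1) → Bool, Function.update x 0 false = lo (Fin.tail x) := by
    intro x
    rw [← Fin.cons_self_tail x, Fin.update_cons_zero, Fin.tail_cons]
  have hne : lo i ≠ hi i := by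
    intro h
    have := congrFun h 0
    simp at this
  ext1 x
  change Equiv.swap (lo i) (hi i) x = swFun 0 (fun x => decide (x = lo i)) x
  unfold swFun
  rw [hu]
  by_cases h : Fin.tail x = i
  · have h1 : lo (Fin.tail x) = lo i := by rw [h]
    simp only [h1, decide_true, if_true]
    cases hx : x 0
    · have e : x = lo i := by rw [← Fin.cons_self_tail x, h, hx]
      rw [e, Equiv.swap_apply_left]
      unfold flip
      change hi i = Function.update (Fin.cons false i : Fin (d + 1) → Bool) 0 true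
      rw [Fin.update_cons_zero]
    · have e : x = hi i := by rw [← Fin.cons_self_tail x, h, hx]
      rw [e, Equiv.swap_apply_right]
      unfold flip
      change lo i = Function.update (Fin.cons true i : Fin (d + 1) → Bool) 0 false
      rw [Fin.update_cons_zero]
  · have h1 : lo (Fin.tail x) ≠ lo i := by
      intro h2
      apply h
      have := congrArg Fin.tail h2
      rwa [Fin.tail_cons, Fin.tail_cons] at this
    have h2 : x ≠ lo i := by
      rintro rfl
      exact h (Fin.tail_cons _ _)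
    have h3 : x ≠ hi i := by
      rintro rfl
      exact h (Fin.tail_cons _ _)
    rw [Equiv.swap_apply_of_ne_of_ne h2 h3, if_neg]
    simpa using h1

theorem energy_of (hMOM : S_MOM) (hid : S_EID) (hrel : S_EREL) (hfac : S_EFAC) : S_ENERGY := by
  obtain ⟨C, c₀, hC, hc₀, hmom⟩ := hMOM
  refine ⟨C, c₀, hC, hc₀, ?_⟩
  have key : ∀ (d : ℕ) (V : Type) [NormedAddCommGroup V]
    [InnerProductSpace ℝ V] [FiniteDimensional ℝ V]
    (ρ : Equiv.Perm (Fin d → Bool) →* (V →L[ℝ] V)), (∀ g v, ‖ρ g v‖ = ‖v‖) →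
    ∀ c : ℝ, 0 ≤ c → c ≤ c₀ → ∀ v : V,
    ‖Trep ρ (List.finRange d) v‖ ^ 2 ≤ Real.exp (C * c ^ 2 * (2 ^ d - 1)) *
      inner ℝ v (NormedSpace.exp (-(c / 2 ^ d) • Lap ρ) v) := by
    intro d
    induction d with
    | zero =>
      intro V _ _ _ ρ hρ c hc hc1 v
      have hL : Lap ρ = 0 := by
        unfold Lap
        have : ∀ x y : Fin 0 → Bool, (1 : V →L[ℝ] V) - ρ (Equiv.swap x y) = 0 := by
          intro x y
          rw [Subsingleton.elim (Equiv.swap x y) 1, map_one, sub_self]
        simp [this]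
      rw [hL, smul_zero, NormedSpace.exp_zero]
      simp only [List.finRange_zero, Trep, pow_zero, sub_self, mul_zero, Real.exp_zero, one_mul]
      change ‖v‖ ^ 2 ≤ inner ℝ v v
      rw [real_inner_self_eq_norm_sq]
    | succ d ih =>
      intro V _ _ _ ρ hρ c hc hc1 v
      set ρ0 := ρ.comp (emb false) with hρ0
      set ρ1 := ρ.comp (emb true) with hρ1
      have n0 : ∀ g v, ‖ρ0 g v‖ = ‖v‖ := fun g v => hρ _ v
      have n1 : ∀ g v, ‖ρ1 g v‖ = ‖v‖ := fun g v => hρ _ v
      have hcomm : ∀ g h, ρ0 g * ρ1 h = ρ1 h * ρ0 g := by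
        intro g h
        change ρ (emb false g) * ρ (emb true h) = ρ (emb true h) * ρ (emb false g)
        rw [← map_mul, ← map_mul, emb_comm]
      have hcard : (Fintype.card (Fin d → Bool) : ℝ) = 2 ^ d := by simp
      obtain ⟨e1, e2, e3, e4, e5, e6⟩ := hrel d V ρ hρ
      have t0 : (0 : ℝ) ≤ c / 2 ^ (d + 1) := by positivity
      have tt : 2 * (c / 2 ^ (d + 1)) = c / 2 ^ d := by
        rw [pow_succ]; field_simp
      have tc : c / 2 ^ (d + 1) * (Fintype.card (Fin d → Bool) : ℝ) = c / 2 := by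
        rw [hcard, pow_succ]; field_simp
      have i0 := ih V ρ0 n0 c hc hc1
      have i1 := ih V ρ1 n1 c hc hc1
      rw [← tt] at i0 i1
      have h := step (T0 := Trep ρ0 (List.finRange d)) (T1 := Trep ρ1 (List.finRange d))
        (P := Prep ρ 0) (L0 := Lap ρ0) (L1 := Lap ρ1) (L := Lap ρ) (R := eR ρ)
        (B := Real.exp (C * c ^ 2 * (2 ^ d - 1))) (t := c / 2 ^ (d + 1))
        (K := Real.exp (C * (c / 2) ^ 2))
        (Lap_sym ρ0 n0) (Lap_sym ρ1 n1) (Lap_sym ρ hρ)
        (Trep_comm ρ1 (fun g => (Lap_comm ρ0 (fun g' => hcomm g' g)).symm) _)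
        (Lap_comm ρ0 (fun g => (Lap_comm ρ1 (fun g' => (hcomm g g').symm)).symm))
        (hid d V ρ) ?_ (Prep_comm ρ (Lap_central ρ) 0) (Prep_norm ρ hρ 0) i0 i1
        (Real.exp_nonneg _) (Real.exp_nonneg _) ?_ (Prep_Prep ρ 0) v
      · rw [hfac d V ρ]
        refine h.trans ?_
        refine mul_le_mul_of_nonneg_right ?_ ?_
        · have h2 : 0 ≤ C * c ^ 2 := by positivity
          have h3 : (2 : ℝ) ^ (d + 1) = 2 ^ d * 2 := pow_succ _ _
          rw [← Real.exp_add, ← Real.exp_add, Real.exp_le_exp, h3]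
          nlinarith
        · rw [inner_exp (Lap_sym ρ hρ)]
          positivity
      · -- `Lap ρ` commutes with `eR ρ`
        have hcen : ∀ g, Commute (Lap ρ) (ρ g) := fun g => (Lap_central ρ g).symm
        have : Commute (Lap ρ) (eR ρ) := by
          unfold eR
          refine Commute.sub_right ?_ ?_
          · refine Commute.smul_right ?_ _
            refine Commute.sum_right _ _ _ fun i _ => Commute.sum_right _ _ _ fun j _ => ?_
            unfold eD
            exact (((hcen _).add_right (hcen _)).sub_right (hcen _)).sub_right (hcen _)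
          · refine Commute.sum_right _ _ _ fun i _ => ?_
            exact (Commute.one_right _).sub_right (hcen _)
        exact this.eq
      · intro u hu
        have hsu : ∀ i, es ρ i u = u := by
          intro i
          have h1 := sw_Prep ρ (0 : Fin (d + 1)) (fun x => decide (x = lo i))
          rw [← swap_eq_sw] at h1
          have h2 := congrArg (fun A : V →L[ℝ] V => A u) h1
          change ρ (Equiv.swap (lo i) (hi i)) (Prep ρ 0 u) = Prep ρ 0 u at h2
          rw [hu] at h2
          exact h2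
        have := hmom (Fin d → Bool) V (es ρ) (eD ρ) (fun i => swap_sym ρ hρ _ _) e1 e2 e3 e4 e5 e6
          u hsu (c / 2 ^ (d + 1)) t0 (by rw [tc]; linarith)
        rw [tc] at this
        exact this
  intro d V _ _ _ ρ hρ c hc hc1 v
  refine (key d V ρ hρ c hc hc1 v).trans ?_
  refine mul_le_mul_of_nonneg_right ?_ ?_
  · rw [Real.exp_le_exp]
    have h2 : 0 ≤ C * c ^ 2 := by positivity
    nlinarith
  · rw [inner_exp (Lap_sym ρ hρ)]
    positivity

end Energy
end Vale.Agent.P162c
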