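import Vale.Agent.P162c.Defs3

/-!
# P162c, module ENERGY: embeddings of the halves and statements of the parts
-/

namespace Vale.Agent.P162c
namespace Energy

open Finset Vale.Agent.P162

/-- action of `g` on the half `x 0 = b` -/
def embFun {d : ℕ} (b : Bool) (g : (Fin d → Bool) → (Fin d → Bool)) (x : Fin (d + 1) → Bool) :
    Fin (d + 1) → Bool :=
  if x 0 = b then Fin.cons b (g (Fin.tail x)) else x

lemma embFun_zero {d : ℕ} (b : Bool) (g : (Fin d → Bool) → (Fin d → Bool)) (x : Fin (d + 1) → Bool) :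
    embFun b g x 0 = x 0 := by
  unfold embFun
  split_ifs with h
  · simp [h]
  · rfl

lemma embFun_pos {d : ℕ} {b : Bool} (g : (Fin d → Bool) → (Fin d → Bool)) {x : Fin (d + 1) → Bool}
    (h : x 0 = b) : embFun b g x = Fin.cons b (g (Fin.tail x)) := if_pos h

lemma embFun_neg {d : ℕ} {b : Bool} (g : (Fin d → Bool) → (Fin d → Bool)) {x : Fin (d + 1) → Bool}
    (h : x 0 ≠ b) : embFun b g x = x := if_neg h

lemma embFun_comp {d : ℕ} (b : Bool) (g h : (Fin d → Bool) → (Fin d → Bool))
    (x : Fin (d + 1) → Bool) : embFun b g (embFun b h x) = embFun b (g ∘ h) x := by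
  by_cases hx : x 0 = b
  · rw [embFun_pos h hx, embFun_pos (g ∘ h) hx, embFun_pos g (by simp), Fin.tail_cons]
    rfl
  · rw [embFun_neg h hx, embFun_neg g hx, embFun_neg _ hx]

lemma embFun_id {d : ℕ} (b : Bool) (x : Fin (d + 1) → Bool) : embFun b id x = x := by
  unfold embFun
  split_ifs with h
  · rw [← h]
    exact Fin.cons_self_tail x
  · rfl

/-- permutations of the half `x 0 = b` -/
def emb {d : ℕ} (b : Bool) : Equiv.Perm (Fin d → Bool) →* Equiv.Perm (Fin (d + 1) → Bool) where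
  toFun g :=
    { toFun := embFun b g
      invFun := embFun b g.symm
      left_inv := fun x => by
        rw [embFun_comp]
        have : (g.symm ∘ g : (Fin d → Bool) → (Fin d → Bool)) = id := by
          funext y; simp
        rw [this, embFun_id]
      right_inv := fun x => by
        rw [embFun_comp]
        have : (g ∘ g.symm : (Fin d → Bool) → (Fin d → Bool)) = id := by
          funext y; simp
        rw [this, embFun_id] }
  map_one' := by
    ext1 x
    exact embFun_id b x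
  map_mul' g h := by
    ext1 x
    exact (embFun_comp b g h x).symm

lemma emb_cons {d : ℕ} (b : Bool) (g : Equiv.Perm (Fin d → Bool)) (x : Fin d → Bool) :
    emb b g (Fin.cons b x : Fin (d + 1) → Bool) = Fin.cons b (g x) := by
  change embFun b g _ = _
  unfold embFun
  rw [if_pos (by simp), Fin.tail_cons]

lemma emb_other {d : ℕ} (b : Bool) (g : Equiv.Perm (Fin d → Bool)) (x : Fin (d + 1) → Bool)
    (h : x 0 ≠ b) : emb b g x = x := by
  change embFun b g _ = _
  unfold embFun
  rw [if_neg h]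

lemma emb_comm {d : ℕ} (g h : Equiv.Perm (Fin d → Bool)) :
    emb false g * emb true h = emb true h * emb false g := by
  ext1 x
  rw [Equiv.Perm.mul_apply, Equiv.Perm.mul_apply]
  have z : ∀ (b : Bool) (k : Equiv.Perm (Fin d → Bool)) (y : Fin (d + 1) → Bool),
      (emb b k y) 0 = y 0 := fun b k y => embFun_zero b k y
  cases hx : x 0
  · rw [emb_other true h x (by simp [hx]), emb_other true h _ (by simp [z, hx])]
  · rw [emb_other false g x (by simp [hx]), emb_other false g _ (by simp [z, hx])]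

lemma emb_swap {d : ℕ} (b : Bool) (x y : Fin d → Bool) :
    emb b (Equiv.swap x y) = Equiv.swap (Fin.cons b x : Fin (d + 1) → Bool) (Fin.cons b y) := by
  ext1 z
  by_cases hz : z 0 = b
  · have e : z = Fin.cons b (Fin.tail z) := by rw [← hz]; exact (Fin.cons_self_tail z).symm
    rw [e, emb_cons]
    have hinj : Function.Injective (fun w : Fin d → Bool => (Fin.cons b w : Fin (d + 1) → Bool)) :=
      fun w w' h => Fin.cons_right_injective (α := fun _ => Bool) b h
    exact hinj.map_swap x y (Fin.tail z)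
  · rw [emb_other b _ z hz, Equiv.swap_apply_of_ne_of_ne]
    · rintro rfl; simp at hz
    · rintro rfl; simp at hz

/-- lower site of an edge of coordinate `0` -/
abbrev lo {d : ℕ} (x : Fin d → Bool) : Fin (d + 1) → Bool := Fin.cons false x

/-- upper site of an edge of coordinate `0` -/
abbrev hi {d : ℕ} (x : Fin d → Bool) : Fin (d + 1) → Bool := Fin.cons true x

variable {V : Type} [NormedAddCommGroup V] [InnerProductSpace ℝ V]

/-- the flip of the edge `i` -/
noncomputable def es {d : ℕ} (ρ : Equiv.Perm (Fin (d + 1) → Bool) →* (V →L[ℝ] V))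
    (i : Fin d → Bool) : V →L[ℝ] V := ρ (Equiv.swap (lo i) (hi i))

/-- the operators `D` -/
noncomputable def eD {d : ℕ} (ρ : Equiv.Perm (Fin (d + 1) → Bool) →* (V →L[ℝ] V))
    (i j : Fin d → Bool) : V →L[ℝ] V :=
  ρ (Equiv.swap (lo i) (hi j)) + ρ (Equiv.swap (hi i) (lo j)) - ρ (Equiv.swap (lo i) (lo j)) -
    ρ (Equiv.swap (hi i) (hi j))

/-- the remainder -/
noncomputable def eR {d : ℕ} (ρ : Equiv.Perm (Fin (d + 1) → Bool) →* (V →L[ℝ] V)) : V →L[ℝ] V :=
  (1 / 2 : ℝ) • ∑ i, ∑ j ∈ univ.erase i, eD ρ i j - ∑ i, (1 - es ρ i)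

/-- PART ID (helper9): the identity `2(L₀+L₁) = L + R` -/
def S_EID : Prop :=
  ∀ (d : ℕ) (V : Type) [NormedAddCommGroup V] [InnerProductSpace ℝ V]
    (ρ : Equiv.Perm (Fin (d + 1) → Bool) →* (V →L[ℝ] V)),
    (2 : ℝ) • (Lap (ρ.comp (emb false)) + Lap (ρ.comp (emb true))) = Lap ρ + eR ρ

/-- PART REL (helper9): the relations needed for `S_MOM` -/
def S_EREL : Prop :=
  ∀ (d : ℕ) (V : Type) [NormedAddCommGroup V] [InnerProductSpace ℝ V]
    (ρ : Equiv.Perm (Fin (d + 1) → Bool) →* (V →L[ℝ] V)), (∀ g v, ‖ρ g v‖ = ‖v‖) →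
    (∀ i, es ρ i * es ρ i = 1) ∧
    (∀ i j, es ρ i * es ρ j = es ρ j * es ρ i) ∧
    (∀ i j, i ≠ j → es ρ i * eD ρ i j = -(eD ρ i j * es ρ i)) ∧
    (∀ i j, i ≠ j → es ρ j * eD ρ i j = -(eD ρ i j * es ρ j)) ∧
    (∀ i j k, k ≠ i → k ≠ j → es ρ k * eD ρ i j = eD ρ i j * es ρ k) ∧
    (∀ i j v, i ≠ j → ‖eD ρ i j v‖ ≤ 4 * ‖v‖)

/-- PART FAC (helper7): the butterfly factorises over the two halves -/
def S_EFAC : Prop :=
  ∀ (d : ℕ) (V : Type) [NormedAddCommGroup V] [InnerProductSpace ℝ V]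
    (ρ : Equiv.Perm (Fin (d + 1) → Bool) →* (V →L[ℝ] V)),
    Trep ρ (List.finRange (d + 1)) =
      Trep (ρ.comp (emb false)) (List.finRange d) * Trep (ρ.comp (emb true)) (List.finRange d) *
        Prep ρ 0

end Energy
end Vale.Agent.P162c
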