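import Vale.Agent.P162c.EnergyDefs

/-!
# P162c, module ENERGY, part FAC: the butterfly factorises over the two halves
-/

namespace Vale.Agent.P162c
namespace Energy

open Finset Vale.Agent.P162

/-- switches of the two halves -/
def spl (d : ℕ) : (((Fin d → Bool) → Bool) × ((Fin d → Bool) → Bool)) ≃
    ((Fin (d + 1) → Bool) → Bool) where
  toFun p := fun x => if x 0 = true then p.2 (Fin.tail x) else p.1 (Fin.tail x)
  invFun s := (fun x => s (Fin.cons false x), fun x => s (Fin.cons true x))
  left_inv p := by
    ext x <;> simp
  right_inv s := by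
    funext x
    by_cases h : x 0 = true
    · simp only [h, if_true]
      congr 1
      rw [← h]
      exact Fin.cons_self_tail x
    · have h' : x 0 = false := by simpa using h
      simp only [h', Bool.false_eq_true, if_false]
      congr 1
      rw [← h']
      exact Fin.cons_self_tail x

lemma flip_succ {d : ℕ} (j : Fin d) (x : Fin (d + 1) → Bool) :
    flip (Fin.succ j) x = Fin.cons (x 0) (flip j (Fin.tail x)) := by
  unfold flip
  conv_lhs => rw [← Fin.cons_self_tail x]
  rw [← Fin.cons_update]
  simp [Fin.tail]

lemma sw_spl {d : ℕ} (j : Fin d) (p q : (Fin d → Bool) → Bool) :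
    sw (Fin.succ j) (spl d (p, q)) = emb false (sw j p) * emb true (sw j q) := by
  ext1 x
  rw [Equiv.Perm.mul_apply]
  have z : ∀ (b : Bool) (k : Equiv.Perm (Fin d → Bool)) (y : Fin (d + 1) → Bool),
      (emb b k y) 0 = y 0 := fun b k y => embFun_zero b k y
  have hL : sw (Fin.succ j) (spl d (p, q)) x
      = if (spl d (p, q)) (Function.update x (Fin.succ j) false) = true
        then flip (Fin.succ j) x else x := rfl
  have h0 : (Function.update x (Fin.succ j) false) 0 = x 0 := by
    rw [Function.update_of_ne (Fin.succ_ne_zero j).symm]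
  have ht : Fin.tail (Function.update x (Fin.succ j) false)
      = Function.update (Fin.tail x) j false := Fin.tail_update_succ x j false
  have hS : (spl d (p, q)) (Function.update x (Fin.succ j) false)
      = if x 0 = true then q (Function.update (Fin.tail x) j false)
        else p (Function.update (Fin.tail x) j false) := by
    change (if (Function.update x (Fin.succ j) false) 0 = true then
      q (Fin.tail (Function.update x (Fin.succ j) false))
      else p (Fin.tail (Function.update x (Fin.succ j) false))) = _
    rw [h0, ht]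
  rw [hL, hS, flip_succ]
  cases hx : x 0
  · rw [emb_other true _ x (by simp [hx])]
    have e : emb false (sw j p) x = Fin.cons false (sw j p (Fin.tail x)) := embFun_pos _ hx
    rw [e]
    have hs : sw j p (Fin.tail x) = if p (Function.update (Fin.tail x) j false) = true
      then flip j (Fin.tail x) else Fin.tail x := rfl
    rw [hs]
    simp only [Bool.false_eq_true, if_false]
    split_ifs with h
    · rfl
    · rw [← hx]
      exact (Fin.cons_self_tail x).symm
  · rw [emb_other false _ (emb true (sw j q) x) (by simp [z, hx])]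
    have e : emb true (sw j q) x = Fin.cons true (sw j q (Fin.tail x)) := embFun_pos _ hx
    rw [e]
    have hs : sw j q (Fin.tail x) = if q (Function.update (Fin.tail x) j false) = true
      then flip j (Fin.tail x) else Fin.tail x := rfl
    rw [hs]
    simp only [if_true]
    split_ifs with h
    · rfl
    · rw [← hx]
      exact (Fin.cons_self_tail x).symm

variable {V : Type} [NormedAddCommGroup V] [InnerProductSpace ℝ V]

lemma prep_succ {d : ℕ} (ρ : Equiv.Perm (Fin (d + 1) → Bool) →* (V →L[ℝ] V)) (j : Fin d) :
    Prep ρ (Fin.succ j) = Prep (ρ.comp (emb false)) j * Prep (ρ.comp (emb true)) j := by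
  unfold Prep
  have hcard : (Fintype.card ((Fin (d + 1) → Bool) → Bool) : ℝ)
      = (Fintype.card ((Fin d → Bool) → Bool) : ℝ) * (Fintype.card ((Fin d → Bool) → Bool) : ℝ) := by
    rw [← Fintype.card_congr (spl d), Fintype.card_prod]
    push_cast
    ring
  have hsum : (∑ s : (Fin (d + 1) → Bool) → Bool, ρ (sw (Fin.succ j) s))
      = (∑ s : (Fin d → Bool) → Bool, (ρ.comp (emb false)) (sw j s)) *
        (∑ s : (Fin d → Bool) → Bool, (ρ.comp (emb true)) (sw j s)) := by
    rw [← (spl d).sum_comp, Fintype.sum_prod_type, Finset.sum_mul_sum]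
    apply Finset.sum_congr rfl
    intro p _
    apply Finset.sum_congr rfl
    intro q _
    rw [sw_spl, map_mul]
    rfl
  rw [hsum, hcard, mul_inv, smul_mul_smul_comm]

lemma comm_emb {d : ℕ} (ρ : Equiv.Perm (Fin (d + 1) → Bool) →* (V →L[ℝ] V))
    (g h : Equiv.Perm (Fin d → Bool)) :
    Commute ((ρ.comp (emb true)) g) ((ρ.comp (emb false)) h) := by
  change ρ (emb true g) * ρ (emb false h) = ρ (emb false h) * ρ (emb true g)
  rw [← map_mul, ← map_mul, emb_comm]

lemma comm_prep {d : ℕ} (ρ : Equiv.Perm (Fin (d + 1) → Bool) →* (V →L[ℝ] V)) (A : V →L[ℝ] V)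
    (b : Bool) (hA : ∀ g, Commute A ((ρ.comp (emb b)) g)) (j : Fin d) :
    Commute A (Prep (ρ.comp (emb b)) j) := by
  unfold Prep
  apply Commute.smul_right
  exact Commute.sum_right _ _ _ (fun s _ => hA _)

lemma comm_trep {d : ℕ} (ρ : Equiv.Perm (Fin (d + 1) → Bool) →* (V →L[ℝ] V)) (A : V →L[ℝ] V)
    (b : Bool) (hA : ∀ g, Commute A ((ρ.comp (emb b)) g)) (l : List (Fin d)) :
    Commute A (Trep (ρ.comp (emb b)) l) := by
  induction l with
  | nil => exact Commute.one_right A
  | cons j l ih => exact ih.mul_right (comm_prep ρ A b hA j)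

lemma trep_map_succ {d : ℕ} (ρ : Equiv.Perm (Fin (d + 1) → Bool) →* (V →L[ℝ] V))
    (l : List (Fin d)) :
    Trep ρ (l.map Fin.succ) = Trep (ρ.comp (emb false)) l * Trep (ρ.comp (emb true)) l := by
  induction l with
  | nil => simp [Trep]
  | cons j l ih =>
      have hc : Commute (Prep (ρ.comp (emb false)) j) (Trep (ρ.comp (emb true)) l) := by
        apply comm_trep ρ _ true
        intro g
        apply Commute.symm
        exact comm_prep ρ _ false (fun h => comm_emb ρ g h) j
      simp only [List.map_cons, Trep]
      rw [ih, prep_succ]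
      calc Trep (ρ.comp (emb false)) l * Trep (ρ.comp (emb true)) l *
            (Prep (ρ.comp (emb false)) j * Prep (ρ.comp (emb true)) j)
          = Trep (ρ.comp (emb false)) l * (Trep (ρ.comp (emb true)) l *
            Prep (ρ.comp (emb false)) j) * Prep (ρ.comp (emb true)) j := by
            simp only [mul_assoc]
        _ = Trep (ρ.comp (emb false)) l * (Prep (ρ.comp (emb false)) j *
            Trep (ρ.comp (emb true)) l) * Prep (ρ.comp (emb true)) j := by rw [hc.eq]
        _ = _ := by simp only [mul_assoc]

theorem efac : S_EFAC := by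
  intro d V _ _ ρ
  rw [List.finRange_succ]
  simp only [Trep]
  rw [trep_map_succ]

/-- the butterfly of the upper half commutes with everything in the lower half -/
lemma trep_comm {d : ℕ} (ρ : Equiv.Perm (Fin (d + 1) → Bool) →* (V →L[ℝ] V))
    (l l' : List (Fin d)) :
    Commute (Trep (ρ.comp (emb false)) l) (Trep (ρ.comp (emb true)) l') := by
  apply comm_trep ρ _ true
  intro g
  apply Commute.symm
  exact comm_trep ρ _ false (fun h => comm_emb ρ g h) l

end Energy
end Vale.Agent.P162c
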