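import Vale.Agent.P162c.EnergyR

/-!
# P162c, module ENERGY: the identity
-/

namespace Vale.Agent.P162c
namespace Energy

open Finset Vale.Agent.P162

lemma sum_cons {d : ℕ} {A : Type*} [AddCommMonoid A] (f : (Fin (d + 1) → Bool) → A) :
    ∑ X, f X = ∑ x : Fin d → Bool, (f (hi x) + f (lo x)) := by
  rw [← Equiv.sum_comp (Fin.consEquiv (fun _ : Fin (d + 1) => Bool)) f, Fintype.sum_prod_type,
    Fintype.sum_bool, Finset.sum_add_distrib]
  rfl

lemma eR_eq {d : ℕ} {V : Type} [NormedAddCommGroup V] [InnerProductSpace ℝ V]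
    (ρ : Equiv.Perm (Fin (d + 1) → Bool) →* (V →L[ℝ] V)) :
    eR ρ = (1 / 2 : ℝ) • ∑ x, ∑ y, eD ρ x y := by
  have h : ∀ x, ∑ y, eD ρ x y = ∑ y ∈ univ.erase x, eD ρ x y - (2 : ℝ) • (1 - es ρ x) := by
    intro x
    rw [← Finset.add_sum_erase univ _ (Finset.mem_univ x)]
    have : eD ρ x x = -((2 : ℝ) • (1 - es ρ x)) := by
      unfold eD es
      rw [Equiv.swap_self, Equiv.swap_self, Equiv.swap_comm (hi x) (lo x)]
      have h1 : ρ (Equiv.refl _) = 1 := map_one ρ
      rw [h1, two_smul]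
      abel
    rw [this]
    abel
  unfold eR
  simp only [h, Finset.sum_sub_distrib, smul_sub, ← Finset.smul_sum, smul_smul]
  norm_num

theorem eid' : S_EID := by
  intro d V _ _ ρ
  rw [eR_eq]
  unfold Lap
  have h0 : ∀ b (x y : Fin d → Bool), (ρ.comp (emb b)) (Equiv.swap x y) =
      ρ (Equiv.swap (Fin.cons b x : Fin (d + 1) → Bool) (Fin.cons b y)) := by
    intro b x y
    rw [MonoidHom.comp_apply, emb_swap]
  simp only [h0]
  rw [sum_cons (fun X : Fin (d + 1) → Bool => ∑ Y, (1 - ρ (Equiv.swap X Y)))]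
  simp only [sum_cons]
  rw [← smul_add, smul_smul, ← smul_add]
  have e2 : (2 : ℝ) * (1 / 2) = 1 / 2 + 1 / 2 := by norm_num
  rw [e2, add_smul, ← smul_add]
  congr 1
  simp only [← Finset.sum_add_distrib]
  refine Finset.sum_congr rfl fun x _ => Finset.sum_congr rfl fun y _ => ?_
  unfold eD
  change _ = 1 - ρ (Equiv.swap (hi x) (hi y)) + (1 - ρ (Equiv.swap (hi x) (lo y))) +
    (1 - ρ (Equiv.swap (lo x) (hi y)) + (1 - ρ (Equiv.swap (lo x) (lo y)))) + _
  abel

end Energy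
end Vale.Agent.P162c
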