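import Vale.Agent.P162c.Energy
import Vale.Agent.P162c.EnergyI
import Vale.Agent.P162c.EnergyF

/-!
# P162c, module ENERGY
-/

namespace Vale.Agent.P162c

theorem energy (hMOM : S_MOM) : S_ENERGY :=
  Energy.energy_of hMOM Energy.eid' Energy.erel Energy.efac

end Vale.Agent.P162c
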