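import Vale.Agent.P162c.EnergyDefs

/-!
# P162c, module ENERGY: relations
-/

namespace Vale.Agent.P162c
namespace Energy

open Finset Vale.Agent.P162

section

variable {d : ℕ}

lemma lo_inj {i j : Fin d → Bool} : lo i = lo j ↔ i = j := by
  constructor
  · intro h
    have := congrArg Fin.tail h
    rwa [Fin.tail_cons, Fin.tail_cons] at this
  · rintro rfl; rfl

lemma hi_inj {i j : Fin d → Bool} : hi i = hi j ↔ i = j := by
  constructor
  · intro h
    have := congrArg Fin.tail h
    rwa [Fin.tail_cons, Fin.tail_cons] at this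
  · rintro rfl; rfl

lemma lo_ne_hi (i j : Fin d → Bool) : lo i ≠ hi j := by
  intro h
  have := congrFun h 0
  simp at this

lemma hi_ne_lo (i j : Fin d → Bool) : hi i ≠ lo j := fun h => lo_ne_hi j i h.symm

variable {V : Type} [NormedAddCommGroup V] [InnerProductSpace ℝ V]
  (ρ : Equiv.Perm (Fin (d + 1) → Bool) →* (V →L[ℝ] V))

/-- moving the flip of the edge `k` through a transposition -/
lemma es_mul_swap (k : Fin d → Bool) (x y : Fin (d + 1) → Bool) :
    es ρ k * ρ (Equiv.swap x y) =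
      ρ (Equiv.swap (Equiv.swap (lo k) (hi k) x) (Equiv.swap (lo k) (hi k) y)) * es ρ k := by
  unfold es
  rw [← map_mul, ← map_mul, Equiv.mul_swap_eq_swap_mul]

lemma sw_lo (k : Fin d → Bool) : Equiv.swap (lo k) (hi k) (lo k) = hi k := Equiv.swap_apply_left _ _
lemma sw_hi (k : Fin d → Bool) : Equiv.swap (lo k) (hi k) (hi k) = lo k := Equiv.swap_apply_right _ _
lemma sw_lo' {k i : Fin d → Bool} (h : i ≠ k) : Equiv.swap (lo k) (hi k) (lo i) = lo i :=
  Equiv.swap_apply_of_ne_of_ne (fun e => h (lo_inj.mp e)) (lo_ne_hi _ _)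
lemma sw_hi' {k i : Fin d → Bool} (h : i ≠ k) : Equiv.swap (lo k) (hi k) (hi i) = hi i :=
  Equiv.swap_apply_of_ne_of_ne (hi_ne_lo _ _) (fun e => h (hi_inj.mp e))

end

theorem erel : S_EREL := by
  intro d V _ _ ρ hρ
  refine ⟨?_, ?_, ?_, ?_, ?_, ?_⟩
  · intro i
    unfold es
    rw [← map_mul, Equiv.swap_mul_self, map_one]
  · intro i j
    by_cases h : i = j
    · rw [h]
    · rw [show es ρ j = ρ (Equiv.swap (lo j) (hi j)) from rfl, es_mul_swap, sw_lo' (Ne.symm h),
        sw_hi' (Ne.symm h)]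
  · intro i j h
    unfold eD
    simp only [mul_add, mul_sub, add_mul, sub_mul, es_mul_swap, sw_lo, sw_hi, sw_lo' (Ne.symm h),
      sw_hi' (Ne.symm h)]
    abel
  · intro i j h
    unfold eD
    simp only [mul_add, mul_sub, add_mul, sub_mul, es_mul_swap, sw_lo, sw_hi, sw_lo' h, sw_hi' h]
    abel
  · intro i j k hi' hj'
    unfold eD
    simp only [mul_add, mul_sub, add_mul, sub_mul, es_mul_swap, sw_lo' (Ne.symm hi'),
      sw_hi' (Ne.symm hi'), sw_lo' (Ne.symm hj'), sw_hi' (Ne.symm hj')]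
  · intro i j v _
    unfold eD
    change ‖ρ _ v + ρ _ v - ρ _ v - ρ _ v‖ ≤ 4 * ‖v‖
    refine (norm_sub_le _ _).trans ?_
    refine (add_le_add_left ((norm_sub_le _ _).trans (add_le_add_left (norm_add_le _ _) _)) _).trans ?_
    simp only [hρ]
    linarith

end Energy
end Vale.Agent.P162c
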