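import Mathlib
import Vale.Agent.P162.Basic
import Vale.Agent.P162c.Defs

/-!
P162c, module EXPK: exponential moment of the total loop weight over both halves of the switches.
-/

namespace Vale.Agent.P162c.EK

open Finset Vale.Agent.P162

variable {I : Type} [Fintype I] [DecidableEq I]

lemma image_op_cons (s : I → (I → Bool) → Bool) (j : I) (l : List I) (U : Finset (I → Bool)) :
    (U.image (op s l)).image (sw j (s j)) = U.image (op s (j :: l)) := by
  rw [Finset.image_image]
  rfl

lemma Es_eq (γ : ℝ) (s : I → (I → Bool) → Bool) (U : Finset (I → Bool)) :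
    ∀ (l pre : List I), Es γ s l (U.image (op s pre)) =
      ∑ i : Fin l.length, γ ^ (l.length - 1 - (i : ℕ)) *
        ((dbl (l.get i) (U.image (op s ((l.take (i : ℕ)).reverse ++ pre)))).card : ℝ)
  | [], pre => by simp [Es]
  | j :: l, pre => by
      rw [Es, image_op_cons, Es_eq γ s U l (j :: pre)]
      have h := Fin.sum_univ_succ (n := l.length) (fun i : Fin (l.length + 1) =>
        γ ^ (l.length + 1 - 1 - (i : ℕ)) *
        ((dbl ((j :: l).get i)
          (U.image (op s (((j :: l).take (i : ℕ)).reverse ++ pre)))).card : ℝ))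
      have h2 : (∑ i : Fin (j :: l).length, γ ^ ((j :: l).length - 1 - (i : ℕ)) *
        ((dbl ((j :: l).get i)
          (U.image (op s (((j :: l).take (i : ℕ)).reverse ++ pre)))).card : ℝ)) =
        ∑ i : Fin (l.length + 1), γ ^ (l.length + 1 - 1 - (i : ℕ)) *
        ((dbl ((j :: l).get i)
          (U.image (op s (((j :: l).take (i : ℕ)).reverse ++ pre)))).card : ℝ) := rfl
      rw [h2, h]
      congr 1
      apply Finset.sum_congr rfl
      intro i _
      have h3 : l.length + 1 - 1 - ((i.succ : Fin (l.length + 1)) : ℕ)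
          = l.length - 1 - (i : ℕ) := by
        simp only [Fin.val_succ]; omega
      rw [h3]
      simp

lemma card_dbl (j : I) (V : Finset (I → Bool)) :
    (dbl j V).card = 2 * ((dbl j V).filter (fun x => x j = false)).card := by
  have h1 := Finset.card_filter_add_card_filter_not (s := dbl j V) (fun x => x j = false)
  have h2 : ((dbl j V).filter (fun x => ¬ x j = false)).card
      = ((dbl j V).filter (fun x => x j = false)).card := by
    apply Finset.card_nbij' (flip j) (flip j)
    · intro x hx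
      simp only [dbl, Finset.coe_filter, Finset.mem_filter, Set.mem_ofPred_eq] at hx ⊢
      refine ⟨⟨hx.1.2, ?_⟩, ?_⟩
      · rw [flip_flip]; exact hx.1.1
      · have := hx.2
        simp [flip]
        cases hxj : x j <;> simp_all
    · intro x hx
      simp only [dbl, Finset.coe_filter, Finset.mem_filter, Set.mem_ofPred_eq] at hx ⊢
      refine ⟨⟨hx.1.2, ?_⟩, ?_⟩
      · rw [flip_flip]; exact hx.1.1
      · simp [flip, hx.2]
    · intro x _; exact flip_flip j x
    · intro x _; exact flip_flip j x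
  omega

lemma exp_conv {κ : Type} [Fintype κ] (w x : κ → ℝ) (hw : ∀ i, 0 ≤ w i) (hs : ∑ i, w i ≤ 1) :
    Real.exp (∑ i, w i * x i) ≤ ∑ i, w i * Real.exp (x i) + (1 - ∑ i, w i) := by
  set y := ∑ i, w i * x i with hy
  have tl : ∀ z : ℝ, Real.exp y * (1 + z - y) ≤ Real.exp z := by
    intro z
    have h := Real.add_one_le_exp (z - y)
    calc Real.exp y * (1 + z - y) ≤ Real.exp y * Real.exp (z - y) := by
          apply mul_le_mul_of_nonneg_left _ (Real.exp_pos y).le
          linarith
      _ = Real.exp z := by rw [← Real.exp_add]; congr 1; ring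
  have h1 : ∑ i, w i * (Real.exp y * (1 + x i - y)) ≤ ∑ i, w i * Real.exp (x i) :=
    Finset.sum_le_sum (fun i _ => mul_le_mul_of_nonneg_left (tl (x i)) (hw i))
  have h2 : (1 - ∑ i, w i) * (Real.exp y * (1 + 0 - y)) ≤ (1 - ∑ i, w i) * Real.exp 0 :=
    mul_le_mul_of_nonneg_left (tl 0) (by linarith)
  have h3 : ∑ i, w i * (Real.exp y * (1 + x i - y))
      = Real.exp y * ((1 - y) * ∑ i, w i + y) := by
    rw [hy, Finset.mul_sum, ← Finset.sum_add_distrib, Finset.mul_sum]
    apply Finset.sum_congr rfl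
    intro i _
    ring
  rw [h3] at h1
  rw [Real.exp_zero] at h2
  nlinarith [h1, h2]

lemma avg_sum {Ω κ : Type} [Fintype Ω] [Fintype κ] (F : κ → Ω → ℝ) :
    avg (fun ω => ∑ i, F i ω) = ∑ i, avg (F i) := by
  unfold avg
  rw [Finset.sum_comm, Finset.sum_div]

lemma holder {Ω κ : Type} [Fintype Ω] [Nonempty Ω] [Fintype κ] (w M : κ → ℝ) (f : κ → Ω → ℝ)
    (hw : ∀ i, 0 ≤ w i) (hs : ∑ i, w i ≤ 1)
    (h : ∀ i, avg (fun ω => Real.exp (f i ω)) ≤ Real.exp (M i)) :
    avg (fun ω => Real.exp (∑ i, w i * f i ω)) ≤ Real.exp (∑ i, w i * M i) := by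
  have h1 : ∀ ω, Real.exp (∑ i, w i * f i ω) ≤ Real.exp (∑ i, w i * M i) *
      (∑ i, w i * (Real.exp (-(M i)) * Real.exp (f i ω)) + (1 - ∑ i, w i)) := by
    intro ω
    have h2 := exp_conv w (fun i => f i ω - M i) hw hs
    have h3 : ∑ i, w i * f i ω = ∑ i, w i * M i + ∑ i, w i * (f i ω - M i) := by
      rw [← Finset.sum_add_distrib]
      apply Finset.sum_congr rfl
      intro i _
      ring
    rw [h3, Real.exp_add]
    apply mul_le_mul_of_nonneg_left _ (Real.exp_pos _).le
    refine h2.trans (le_of_eq ?_)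
    congr 1
    apply Finset.sum_congr rfl
    intro i _
    rw [← Real.exp_add]
    congr 2
    ring
  refine (avg_mono h1).trans ?_
  rw [avg_const_mul]
  have h4 : avg (fun ω => ∑ i, w i * (Real.exp (-(M i)) * Real.exp (f i ω)) + (1 - ∑ i, w i))
      ≤ 1 := by
    rw [avg_add, avg_const, avg_sum]
    have h5 : ∑ i, avg (fun ω => w i * (Real.exp (-(M i)) * Real.exp (f i ω))) ≤ ∑ i, w i := by
      apply Finset.sum_le_sum
      intro i _
      rw [avg_const_mul, avg_const_mul]
      have h6 : Real.exp (-(M i)) * avg (fun ω => Real.exp (f i ω)) ≤ 1 := by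
        calc Real.exp (-(M i)) * avg (fun ω => Real.exp (f i ω))
            ≤ Real.exp (-(M i)) * Real.exp (M i) :=
              mul_le_mul_of_nonneg_left (h i) (Real.exp_pos _).le
          _ = 1 := by rw [← Real.exp_add]; simp
      calc w i * (Real.exp (-(M i)) * avg (fun ω => Real.exp (f i ω))) ≤ w i * 1 :=
            mul_le_mul_of_nonneg_left h6 (hw i)
        _ = w i := mul_one _
    linarith
  calc Real.exp (∑ i, w i * M i) *
      avg (fun ω => ∑ i, w i * (Real.exp (-(M i)) * Real.exp (f i ω)) + (1 - ∑ i, w i))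
      ≤ Real.exp (∑ i, w i * M i) * 1 := mul_le_mul_of_nonneg_left h4 (Real.exp_pos _).le
    _ = _ := mul_one _

lemma avg_prod {A B : Type} [Fintype A] [Fintype B] (F : A → B → ℝ) :
    avg (fun T : A × B => F T.1 T.2) = avg (fun a => avg (fun b => F a b)) := by
  unfold avg
  rw [Fintype.sum_prod_type, Fintype.card_prod, ← Finset.sum_div, Nat.cast_mul, div_div]
  congr 1
  ring

lemma min_le_rpow {x β : ℝ} (hx : 0 ≤ x) (hβ1 : β ≤ 1) (h1 : x ≤ 1) :
    x ≤ x ^ β := by
  rcases hx.eq_or_lt with h | h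
  · rw [← h]; exact Real.rpow_nonneg le_rfl _
  · calc x = x ^ (1 : ℝ) := (Real.rpow_one x).symm
      _ ≤ x ^ β := Real.rpow_le_rpow_of_exponent_ge h h1 hβ1

/-- single level bound -/
lemma level (hO : S_OCC) (d : ℕ) (U : Finset (Fin d → Bool)) (lam : ℝ) (hlam : 0 < lam)
    (i : Fin (List.finRange d).length) :
    avg (fun s : Fin d → (Fin d → Bool) → Bool =>
      Real.exp (lam * ((dbl ((List.finRange d).get i)
        (U.image (op s (((List.finRange d).take (i : ℕ)).reverse ++ [])))).card : ℝ)))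
      ≤ Real.exp ((Real.exp (2 * lam) - 1) * (U.card : ℝ) *
          ((U.card : ℝ) / 2 ^ (i : ℕ)) ^ (1 / 20 : ℝ)) := by
  set k : ℝ := (U.card : ℝ) with hk
  have hk0 : 0 ≤ k := by positivity
  set u : ℝ := Real.exp (2 * lam) - 1 with hu
  have hu2 : 2 * lam ≤ u := by
    have := Real.add_one_le_exp (2 * lam)
    rw [hu]; linarith
  set x : ℝ := k / 2 ^ (i : ℕ) with hx
  have hx0 : 0 ≤ x := by positivity
  by_cases h1 : x ≤ 1
  · have hlen : (((List.finRange d).take (i : ℕ)).reverse ++ []).length = (i : ℕ) := by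
      simp only [List.append_nil, List.length_reverse, List.length_take]
      have := i.2
      omega
    have hnd : (List.finRange d).Nodup := List.nodup_finRange d
    have hnd1 : (((List.finRange d).take (i : ℕ)).reverse ++ []).Nodup := by
      simp only [List.append_nil, List.nodup_reverse]
      exact hnd.sublist (List.take_sublist _ _)
    have hnot : (List.finRange d).get i ∉ (((List.finRange d).take (i : ℕ)).reverse ++ []) := by
      simp only [List.append_nil, List.mem_reverse]
      intro hmem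
      rw [List.mem_take_iff_getElem] at hmem
      obtain ⟨m, hm, hme⟩ := hmem
      have hm1 : m < (List.finRange d).length := by omega
      have hinj : (⟨m, hm1⟩ : Fin (List.finRange d).length) = i := by
        apply List.nodup_iff_injective_get.1 hnd
        simpa using hme
      have : m = (i : ℕ) := by rw [← hinj]
      omega
    have h2 := hO (Fin d) (((List.finRange d).take (i : ℕ)).reverse ++ [])
      ((List.finRange d).get i) hnd1 hnot U u (by linarith)
    rw [hlen] at h2
    refine le_trans (le_of_eq ?_) (h2.trans ?_)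
    · apply avg_congr
      intro s
      rw [card_dbl]
      have h3 : (1 + u) = Real.exp (2 * lam) := by rw [hu]; ring
      rw [h3, ← Real.exp_nat_mul]
      congr 1
      push_cast
      ring
    · apply Real.exp_le_exp.2
      have h4 : u * k ^ 2 / 2 ^ (i : ℕ) = u * k * x := by rw [hx]; ring
      rw [← hk, h4]
      apply mul_le_mul_of_nonneg_left (min_le_rpow hx0 (by norm_num) h1)
      have : 0 ≤ u := by linarith
      positivity
  · push Not at h1
    have h5 : ∀ s : Fin d → (Fin d → Bool) → Bool,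
      Real.exp (lam * ((dbl ((List.finRange d).get i)
        (U.image (op s (((List.finRange d).take (i : ℕ)).reverse ++ [])))).card : ℝ))
        ≤ Real.exp (u * k * x ^ (1 / 20 : ℝ)) := by
      intro s
      apply Real.exp_le_exp.2
      have h6 : ((dbl ((List.finRange d).get i)
        (U.image (op s (((List.finRange d).take (i : ℕ)).reverse ++ [])))).card : ℝ) ≤ k := by
        rw [hk]
        exact_mod_cast (Finset.card_filter_le _ _).trans Finset.card_image_le
      have h7 : (1 : ℝ) ≤ x ^ (1 / 20 : ℝ) := Real.one_le_rpow h1.le (by norm_num)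
      have h8 : lam * k ≤ u * k := mul_le_mul_of_nonneg_right (by linarith) hk0
      have h9 : 0 ≤ u * k := by
        have : 0 ≤ u := by linarith
        positivity
      calc lam * _ ≤ lam * k := mul_le_mul_of_nonneg_left h6 hlam.le
        _ ≤ u * k := h8
        _ = u * k * 1 := (mul_one _).symm
        _ ≤ u * k * x ^ (1 / 20 : ℝ) := mul_le_mul_of_nonneg_left h7 h9
    refine (avg_mono h5).trans (le_of_eq ?_)
    exact avg_const _

lemma two_rpow_le : (2 : ℝ) ^ (1 / 20 : ℝ) ≤ 26 / 25 := by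
  have h : (2 : ℝ) ≤ (26 / 25) ^ (20 : ℕ) := by norm_num
  calc (2 : ℝ) ^ (1 / 20 : ℝ) ≤ ((26 / 25 : ℝ) ^ (20 : ℕ)) ^ (1 / 20 : ℝ) :=
        Real.rpow_le_rpow (by norm_num) h (by norm_num)
    _ = 26 / 25 := by
        rw [← Real.rpow_natCast, ← Real.rpow_mul (by norm_num)]
        norm_num

lemma geom_le (q : ℝ) (h0 : 0 ≤ q) (h1 : q < 1) (N : ℕ) :
    ∑ m ∈ range N, q ^ m ≤ 1 / (1 - q) := by
  rw [le_div_iff₀ (by linarith), mul_comm, mul_neg_geom_sum]
  have := pow_nonneg h0 N
  linarith

lemma sum_fin_reflect (g : ℕ → ℝ) (N : ℕ) :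
    ∑ i : Fin N, g (N - 1 - (i : ℕ)) = ∑ m ∈ range N, g m := by
  rw [Fin.sum_univ_eq_sum_range (fun i => g (N - 1 - i)) N, Finset.sum_range_reflect]

end EK

open EK Finset Vale.Agent.P162

theorem expk (hT : S_EXPT) (hO : S_OCC) : S_EXPK := by
  obtain ⟨C, hC, hT⟩ := hT
  set lam : ℝ := 20 * C with hlam
  have hlam0 : 0 < lam := by positivity
  set u : ℝ := Real.exp (2 * lam) - 1 with hu
  have hu2 : 2 * lam ≤ u := by
    have := Real.add_one_le_exp (2 * lam)
    rw [hu]; linarith
  have hu0 : 0 < u := by linarith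
  refine ⟨5 * u, 1 / 20, by positivity, by norm_num, by norm_num, ?_⟩
  intro d U
  have hL : (List.finRange d).length = d := List.length_finRange
  rw [avg_prod (fun (s : Fin d → (Fin d → Bool) → Bool) (t : Fin d → (Fin d → Bool) → Bool) =>
    Wt s t (List.finRange d) U ^ (1 / 64 : ℝ))]
  refine (avg_mono (fun s => hT d s U)).trans ?_
  have hEs : ∀ s : Fin d → (Fin d → Bool) → Bool, C * Es (19 / 20) s (List.finRange d) U =
      ∑ i : Fin (List.finRange d).length,
        ((19 / 20 : ℝ) ^ ((List.finRange d).length - 1 - (i : ℕ)) / 20) *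
          (lam * ((dbl ((List.finRange d).get i)
            (U.image (op s (((List.finRange d).take (i : ℕ)).reverse ++ [])))).card : ℝ)) := by
    intro s
    have h1 := Es_eq (19 / 20) s U (List.finRange d) []
    have h2 : U.image (op s []) = U := by
      have : (⇑(op s ([] : List (Fin d))) : (Fin d → Bool) → (Fin d → Bool)) = id := rfl
      rw [this, Finset.image_id]
    rw [h2] at h1
    rw [h1, Finset.mul_sum]
    apply Finset.sum_congr rfl
    intro i _
    rw [hlam]
    ring
  rw [avg_congr (fun s => by rw [hEs s])]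
  have hws : ∑ i : Fin (List.finRange d).length,
      ((19 / 20 : ℝ) ^ ((List.finRange d).length - 1 - (i : ℕ)) / 20) ≤ 1 := by
    rw [sum_fin_reflect (fun m => (19 / 20 : ℝ) ^ m / 20), ← Finset.sum_div]
    have := geom_le (19 / 20) (by norm_num) (by norm_num) (List.finRange d).length
    have h20 : (1 : ℝ) / (1 - 19 / 20) = 20 := by norm_num
    rw [h20] at this
    linarith
  refine (holder (κ := Fin (List.finRange d).length) _
    (fun i => u * (U.card : ℝ) * ((U.card : ℝ) / 2 ^ (i : ℕ)) ^ (1 / 20 : ℝ)) _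
    (fun i => by positivity) hws (fun i => level hO d U lam hlam0 i)).trans ?_
  apply Real.exp_le_exp.2
  set k : ℝ := (U.card : ℝ) with hk
  have hk0 : 0 ≤ k := by positivity
  have hterm : ∀ i : Fin (List.finRange d).length,
      ((19 / 20 : ℝ) ^ ((List.finRange d).length - 1 - (i : ℕ)) / 20) *
        (u * k * (k / 2 ^ (i : ℕ)) ^ (1 / 20 : ℝ)) ≤
      (u * k * (k / 2 ^ d) ^ (1 / 20 : ℝ)) *
        ((fun m => (13 / 250 : ℝ) * (494 / 500 : ℝ) ^ m)
          ((List.finRange d).length - 1 - (i : ℕ))) := by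
    intro i
    have hi : (i : ℕ) < d := by have := i.2; omega
    set m := (List.finRange d).length - 1 - (i : ℕ) with hm
    have hmi : m + 1 + (i : ℕ) = d := by omega
    have h1 : k / 2 ^ (i : ℕ) = 2 ^ (m + 1) * (k / 2 ^ d) := by
      have h0 : (2 : ℝ) ^ d = 2 ^ (m + 1) * 2 ^ (i : ℕ) := by
        rw [← pow_add, hmi]
      rw [h0]
      field_simp
    have h2 : (k / 2 ^ (i : ℕ)) ^ (1 / 20 : ℝ)
        = ((2 : ℝ) ^ (1 / 20 : ℝ)) ^ (m + 1) * (k / 2 ^ d) ^ (1 / 20 : ℝ) := by
      rw [h1, Real.mul_rpow (by positivity) (by positivity)]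
      congr 1
      rw [← Real.rpow_natCast, ← Real.rpow_mul (by norm_num), ← Real.rpow_natCast,
        ← Real.rpow_mul (by norm_num), mul_comm]
    have h3 : ((2 : ℝ) ^ (1 / 20 : ℝ)) ^ (m + 1) ≤ (26 / 25 : ℝ) ^ (m + 1) :=
      pow_le_pow_left₀ (by positivity) two_rpow_le _
    rw [h2]
    have hP : 0 ≤ (k / 2 ^ d) ^ (1 / 20 : ℝ) := by positivity
    have h4 : ((19 / 20 : ℝ) ^ m / 20) * (26 / 25 : ℝ) ^ (m + 1)
        = (13 / 250 : ℝ) * (494 / 500 : ℝ) ^ m := by
      rw [pow_succ, show (494 / 500 : ℝ) = (19 / 20) * (26 / 25) by norm_num, mul_pow]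
      ring
    calc ((19 / 20 : ℝ) ^ m / 20) * (u * k *
          (((2 : ℝ) ^ (1 / 20 : ℝ)) ^ (m + 1) * (k / 2 ^ d) ^ (1 / 20 : ℝ)))
        = (u * k * (k / 2 ^ d) ^ (1 / 20 : ℝ)) * (((19 / 20 : ℝ) ^ m / 20) *
            ((2 : ℝ) ^ (1 / 20 : ℝ)) ^ (m + 1)) := by ring
      _ ≤ (u * k * (k / 2 ^ d) ^ (1 / 20 : ℝ)) * (((19 / 20 : ℝ) ^ m / 20) *
            (26 / 25 : ℝ) ^ (m + 1)) := by
          apply mul_le_mul_of_nonneg_left _ (by positivity)
          apply mul_le_mul_of_nonneg_left h3 (by positivity)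
      _ = _ := by rw [h4]
  refine (Finset.sum_le_sum (fun i _ => hterm i)).trans ?_
  rw [← Finset.mul_sum, sum_fin_reflect (fun m => (13 / 250 : ℝ) * (494 / 500 : ℝ) ^ m),
    ← Finset.mul_sum]
  have hg := geom_le (494 / 500) (by norm_num) (by norm_num) (List.finRange d).length
  have h6 : (13 / 250 : ℝ) * ∑ m ∈ range (List.finRange d).length, (494 / 500 : ℝ) ^ m ≤ 5 := by
    have : (1 : ℝ) / (1 - 494 / 500) = 500 / 6 := by norm_num
    rw [this] at hg
    linarith
  have hP : 0 ≤ u * k * (k / 2 ^ d) ^ (1 / 20 : ℝ) := by positivity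
  calc u * k * (k / 2 ^ d) ^ (1 / 20 : ℝ) *
      ((13 / 250 : ℝ) * ∑ m ∈ range (List.finRange d).length, (494 / 500 : ℝ) ^ m)
      ≤ u * k * (k / 2 ^ d) ^ (1 / 20 : ℝ) * 5 := mul_le_mul_of_nonneg_left h6 hP
    _ = 5 * u * k * (k / 2 ^ d) ^ (1 / 20 : ℝ) := by ring

end Vale.Agent.P162c
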