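import Vale.Agent.P162c.Defs

/-!
P162c module EXPT (helper15): exponential moment of the total loop weight, first half fixed.
-/

namespace Vale.Agent.P162c

open Finset Vale.Agent.P162

namespace EXPT

section gen

variable {I : Type} [Fintype I] [DecidableEq I]

/-- reversed product of the first-half switches -/
def opr (s : I → (I → Bool) → Bool) : List I → Equiv.Perm (I → Bool)
  | [] => 1
  | j :: l => opr s l * sw j (s j)

omit [Fintype I] in
theorem net_append (s t : I → (I → Bool) → Bool) (l l' : List I) :
    net s t (l ++ l') = op t l * (net s t l' * opr s l) := by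
  induction l with
  | nil => simp [op, opr]
  | cons j l ih =>
    simp only [List.cons_append, net, op, opr, ih]
    group

omit [Fintype I] in
theorem op_congr (t t' : I → (I → Bool) → Bool) (l : List I) (h : ∀ j ∈ l, t j = t' j) :
    op t l = op t' l := by
  induction l with
  | nil => rfl
  | cons j l ih =>
    simp only [op]
    rw [h j (by simp), ih (fun i hi => h i (by simp [hi]))]

omit [Fintype I] in
theorem net_congr (s t t' : I → (I → Bool) → Bool) (l : List I) (h : ∀ j ∈ l, t j = t' j) :
    net s t l = net s t' l := by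
  induction l with
  | nil => rfl
  | cons j l ih =>
    simp only [net]
    rw [h j (by simp), ih (fun i hi => h i (by simp [hi]))]

omit [Fintype I] in
theorem sw_coord (i j : I) (hij : j ≠ i) (σ : (I → Bool) → Bool) (x : I → Bool) :
    sw i σ x j = x j := by
  show swFun i σ x j = x j
  unfold swFun
  split_ifs
  · unfold flip
    rw [Function.update_of_ne hij]
  · rfl

omit [Fintype I] in
theorem net_coord (s t : I → (I → Bool) → Bool) (l : List I) (j : I) (hj : j ∉ l) (x : I → Bool) :
    net s t l x j = x j := by
  induction l generalizing x with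
  | nil => rfl
  | cons i l ih =>
    simp only [List.mem_cons, not_or] at hj
    simp only [net, Equiv.Perm.mul_apply]
    rw [sw_coord i j hj.1, ih hj.2, sw_coord i j hj.1]

omit [Fintype I] in
theorem opr_coord (s : I → (I → Bool) → Bool) (l : List I) (j : I) (hj : j ∉ l) (x : I → Bool) :
    opr s l x j = x j := by
  induction l generalizing x with
  | nil => rfl
  | cons i l ih =>
    simp only [List.mem_cons, not_or] at hj
    simp only [opr, Equiv.Perm.mul_apply]
    rw [ih hj.2, sw_coord i j hj.1]

theorem one_le_cnt (j : I) (B : Equiv.Perm (I → Bool)) (U : Finset (I → Bool)) :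
    1 ≤ cnt j B U := by
  unfold cnt
  apply Finset.card_pos.2
  refine ⟨∅, ?_⟩
  simp

end gen

theorem avg_equiv {Ω Ω' : Type} [Fintype Ω] [Fintype Ω'] (e : Ω ≃ Ω') (F : Ω' → ℝ) :
    avg (fun ω => F (e ω)) = avg F := by
  unfold avg
  rw [Equiv.sum_comp e F, Fintype.card_congr e]

variable {d : ℕ}

/-- suffixes of the list of coordinates -/
def L (d k : ℕ) : List (Fin d) := (List.finRange d).drop k

theorem length_L (k : ℕ) : (L d k).length = d - k := by
  simp [L]

theorem nodup_L (k : ℕ) : (L d k).Nodup :=
  (List.nodup_finRange d).sublist (List.drop_sublist _ _)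

theorem L_cons (k : ℕ) (hk : k < d) : L d k = ⟨k, hk⟩ :: L d (k + 1) := by
  unfold L
  rw [List.drop_eq_getElem_cons (by simpa using hk)]
  simp

theorem mem_L (k : ℕ) (j : Fin d) : j ∈ L d k ↔ k ≤ (j : ℕ) := by
  constructor
  · intro h
    obtain ⟨i, hi, rfl⟩ := List.mem_iff_getElem.1 h
    simp only [L, List.getElem_drop, List.getElem_finRange, Fin.val_cast]
    omega
  · intro h
    apply List.mem_iff_getElem.2
    refine ⟨j - k, ?_, ?_⟩
    · rw [length_L]; have := j.2; omega
    · simp only [L, List.getElem_drop, List.getElem_finRange]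
      ext
      simp
      omega

theorem mem_take_L (k r : ℕ) (j : Fin d) (h : j ∈ (L d k).take r) : k ≤ (j : ℕ) ∧ (j : ℕ) < k + r := by
  obtain ⟨i, hi, rfl⟩ := List.mem_iff_getElem.1 h
  rw [List.length_take] at hi
  simp only [L, List.getElem_take, List.getElem_drop, List.getElem_finRange, Fin.val_cast]
  omega

/-- the token sets after `k` layers -/
def V (s : Fin d → (Fin d → Bool) → Bool) (U : Finset (Fin d → Bool)) : ℕ → Finset (Fin d → Bool)
  | 0 => U
  | k + 1 => if h : k < d then (V s U k).image (sw ⟨k, h⟩ (s ⟨k, h⟩)) else V s U k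

/-- the factor of coordinate `k` -/
noncomputable def cf (s t : Fin d → (Fin d → Bool) → Bool) (U : Finset (Fin d → Bool)) (k : ℕ) : ℝ :=
  if h : k < d then (cnt ⟨k, h⟩ (net s t (L d (k + 1))) (V s U k) : ℝ) else 1

/-- the energy of coordinate `k` -/
noncomputable def ef (s : Fin d → (Fin d → Bool) → Bool) (U : Finset (Fin d → Bool)) (k : ℕ) : ℝ :=
  if h : k < d then ((dbl ⟨k, h⟩ (V s U k)).card : ℝ) else 0

theorem Wt_eq (s t : Fin d → (Fin d → Bool) → Bool) (U : Finset (Fin d → Bool)) :
    ∀ n k, k + n = d → Wt s t (L d k) (V s U k) = ∏ i ∈ Ico k d, cf s t U i := by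
  intro n
  induction n with
  | zero =>
    intro k hk
    have : L d k = [] := by
      apply List.eq_nil_of_length_eq_zero
      rw [length_L]; omega
    rw [this]
    simp only [Wt]
    rw [show k = d by omega, Finset.Ico_self, Finset.prod_empty]
  | succ n ih =>
    intro k hk
    have hkd : k < d := by omega
    rw [L_cons k hkd]
    simp only [Wt]
    rw [Finset.prod_eq_prod_Ico_succ_bot hkd, ← ih (k + 1) (by omega)]
    congr 1
    · rw [cf, dif_pos hkd]
    · rw [V, dif_pos hkd]

theorem Es_eq (γ : ℝ) (s : Fin d → (Fin d → Bool) → Bool) (U : Finset (Fin d → Bool)) :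
    ∀ n k, k + n = d → Es γ s (L d k) (V s U k)
      = ∑ i ∈ Ico k d, γ ^ (d - (i + 1)) * ef s U i := by
  intro n
  induction n with
  | zero =>
    intro k hk
    have : L d k = [] := by
      apply List.eq_nil_of_length_eq_zero
      rw [length_L]; omega
    rw [this]
    simp only [Es]
    rw [show k = d by omega, Finset.Ico_self, Finset.sum_empty]
  | succ n ih =>
    intro k hk
    have hkd : k < d := by omega
    rw [L_cons k hkd]
    simp only [Es]
    rw [Finset.sum_eq_sum_Ico_succ_bot hkd, ← ih (k + 1) (by omega)]
    congr 1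
    · rw [ef, dif_pos hkd, length_L]
    · rw [V, dif_pos hkd]

/-- reversal of the coordinates of the switches -/
def rv (d : ℕ) : (Fin d → (Fin d → Bool) → Bool) ≃ (Fin d → (Fin d → Bool) → Bool) :=
  Equiv.arrowCongr Fin.revPerm (Equiv.refl _)

theorem rv_apply (t : Fin d → (Fin d → Bool) → Bool) (i : Fin d) : rv d t i = t (Fin.rev i) := rfl

end EXPT

open EXPT

theorem expt (hNODE : S_NODE) (hCHAIN : S_CHAIN) : S_EXPT := by
  obtain ⟨C, hC, hch⟩ := hCHAIN
  refine ⟨C, hC, ?_⟩
  intro d s U
  -- the weights
  set W : Fin d → (Fin d → ((Fin d → Bool) → Bool)) → ℝ := fun m t =>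
    cf s (rv d t) U (Fin.rev m : Fin d) with hW
  set e : Fin d → ℝ := fun m => ef s U (Fin.rev m : Fin d) with he
  have hmain := hch d ((Fin d → Bool) → Bool) W e ?_ ?_ ?_ ?_
  · -- conclusion
    have h1 : avg (fun t : Fin d → (Fin d → Bool) → Bool =>
        Wt s t (List.finRange d) U ^ (1 / 64 : ℝ))
        = avg (fun t => ∏ m, W m t ^ (1 / 64 : ℝ)) := by
      rw [← avg_equiv (rv d) (fun t : Fin d → (Fin d → Bool) → Bool =>
        Wt s t (List.finRange d) U ^ (1 / 64 : ℝ))]
      congr 1
      funext t
      have h2 := Wt_eq s (rv d t) U d 0 (by omega)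
      have h3 : L d 0 = List.finRange d := by simp [L]
      have h4 : V s U 0 = U := rfl
      rw [h3, h4] at h2
      rw [h2, ← Finset.range_eq_Ico, Finset.prod_range, Real.finsetProd_rpow]
      · congr 1
        exact (Equiv.prod_comp Fin.revPerm (fun i : Fin d => cf s (rv d t) U i)).symm
      · intro m _
        simp only [hW, cf]
        rw [dif_pos (Fin.rev m).2]
        positivity
    have h5 : Es (19 / 20) s (List.finRange d) U = ∑ m : Fin d, e m * (19 / 20) ^ (m : ℕ) := by
      have h2 := Es_eq (19 / 20) s U d 0 (by omega)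
      have h3 : L d 0 = List.finRange d := by simp [L]
      have h4 : V s U 0 = U := rfl
      rw [h3, h4] at h2
      rw [h2, ← Finset.range_eq_Ico, Finset.sum_range,
        ← Equiv.sum_comp Fin.revPerm (fun i : Fin d => (19 / 20 : ℝ) ^ (d - ((i : ℕ) + 1)) * ef s U i)]
      refine Finset.sum_congr rfl fun m _ => ?_
      simp only [Fin.revPerm_apply, he]
      rw [mul_comm]
      congr 2
      have := m.2
      rw [Fin.val_rev]
      omega
    rw [h1, h5]
    exact hmain
  · intro m
    simp only [he, ef]
    rw [dif_pos (Fin.rev m).2]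
    positivity
  · intro m t
    simp only [hW, cf]
    rw [dif_pos (Fin.rev m).2]
    exact_mod_cast one_le_cnt _ _ _
  · intro m t t' h
    simp only [hW, cf]
    rw [dif_pos (Fin.rev m).2, dif_pos (Fin.rev m).2]
    rw [net_congr s (rv d t) (rv d t')]
    intro j hj
    rw [mem_L] at hj
    rw [rv_apply, rv_apply]
    apply h
    rw [Fin.lt_def]
    rw [Fin.val_rev] at hj ⊢
    have := m.2
    have := j.2
    omega
  · intro m r q t hr
    set j : Fin d := Fin.rev m with hj
    have hjd : (j : ℕ) < d := j.2
    have hjm : (j : ℕ) + 1 + m = d := by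
      rw [hj, Fin.val_rev]; have := m.2; omega
    set L1 : List (Fin d) := (L d (j + 1)).take r with hL1
    set L2 : List (Fin d) := (L d (j + 1)).drop r with hL2
    have hL12 : L d (j + 1) = L1 ++ L2 := (List.take_append_drop r _).symm
    have hL2' : L2 = L d (j + 1 + r) := by
      rw [hL2, L, L, List.drop_drop]
    have hnd : L1.Nodup := (nodup_L _).sublist (List.take_sublist _ _)
    have hj1 : j ∉ L1 := by
      intro hm
      have := (mem_take_L _ _ _ hm).1
      omega
    have hj2 : j ∉ L2 := by
      rw [hL2', mem_L]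
      omega
    have hlen : L1.length = r := by
      rw [hL1, List.length_take, length_L]
      omega
    set B : Equiv.Perm (Fin d → Bool) := net s (rv d t) L2 * opr s L1 with hB
    have hBj : ∀ x, B x j = x j := by
      intro x
      rw [hB, Equiv.Perm.mul_apply, net_coord s _ L2 j hj2, opr_coord s L1 j hj1]
    have hnode := hNODE (Fin d) L1 j hnd hj1 B hBj (V s U j) q
    rw [hlen] at hnode
    have hkey : pav (univ.filter (fun i : Fin d => (m : ℕ) - r ≤ (i : ℕ) ∧ (i : ℕ) < m))
        (fun t => W m t ^ q) t
        = avg (fun t : Fin d → (Fin d → Bool) → Bool => (cnt j (op t L1 * B) (V s U j) : ℝ) ^ q) := by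
      rw [← avg_equiv (rv d) (fun t : Fin d → (Fin d → Bool) → Bool =>
        (cnt j (op t L1 * B) (V s U j) : ℝ) ^ q)]
      unfold pav
      congr 1
      funext u
      simp only [hW, cf]
      rw [dif_pos (Fin.rev m).2]
      have e1 : net s (rv d (fun i => if i ∈ univ.filter (fun i : Fin d => (m : ℕ) - r ≤ (i : ℕ) ∧
          (i : ℕ) < m) then u i else t i)) (L d (j + 1)) = op (rv d u) L1 * B := by
        rw [hL12, net_append, hB]
        congr 1
        · apply op_congr
          intro i hi
          have := mem_take_L _ _ _ hi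
          rw [rv_apply, rv_apply, if_pos]
          rw [mem_filter]
          refine ⟨mem_univ _, ?_⟩
          rw [Fin.val_rev]
          have := i.2
          omega
        · congr 1
          apply net_congr
          intro i hi
          rw [hL2', mem_L] at hi
          rw [rv_apply, rv_apply, if_neg]
          rw [mem_filter]
          intro hc
          have h2 := hc.2
          rw [Fin.val_rev] at h2
          have := i.2
          omega
      have e2 := congrArg (fun X => ((cnt j X (V s U j) : ℕ) : ℝ) ^ q) e1
      exact e2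
    rw [hkey]
    refine hnode.trans (le_of_eq ?_)
    congr 1
    simp only [he, ef]
    rw [dif_pos (Fin.rev m).2]
    ring

end Vale.Agent.P162c
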