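import Mathlib
import Vale.Agent.P162c.Defs
import Vale.Agent.P162.Thorp
import Vale.Agent.P162.Butterfly
import Vale.Agent.P162.Tensor
import Vale.Agent.P162.Triangle
import Vale.Agent.P162.Table
import Vale.Agent.P162.Hyper
import Vale.Agent.P162.Soft

/-!
P162, module LINK: from the Hilbert-Schmidt norm of `K` butterflies to the mixing time of the
Thorp shuffle.
-/

namespace Vale.Agent.P162c

open Finset Vale.Agent.P162

/-- goal: `t_mix (2^d) ≤ C d` -/
def S_GOALC : Prop :=
  ∃ C : ℝ, ∀ d : ℕ, 1 ≤ d →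
    (∀ t : ℕ, C * (d : ℝ) ≤ t → thorpTV (2 ^ (d - 1)) t ≤ 1 / 4) ∧
      (tmix (2 ^ (d - 1)) : ℝ) ≤ C * (d : ℝ)

/-- Hilbert-Schmidt bound for `K` butterflies on the full deck -/
def S_HS : Prop :=
  ∃ K d₀ : ℕ, ∀ d : ℕ, d₀ ≤ d →
    (((Tm (Equiv.Perm (Fin d → Bool)) (List.finRange d)) ^ K).transpose *
      (Tm (Equiv.Perm (Fin d → Bool)) (List.finRange d)) ^ K).trace ≤ 1 + 1 / 4

namespace Link

/-! ### one layer -/

section layer

variable {I : Type} [Fintype I] [DecidableEq I]

lemma sw_apply (j : I) (s : (I → Bool) → Bool) (x : I → Bool) :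
    sw j s x = if s (Function.update x j false) = true then flip j x else x := rfl

lemma sw_mul (j : I) (s s' : (I → Bool) → Bool) :
    sw j s * sw j s' = sw j (fun x => xor (s x) (s' x)) := by
  ext1 x
  rw [Equiv.Perm.mul_apply, sw_apply, sw_apply, sw_apply]
  by_cases h : s' (Function.update x j false) = true
  · rw [if_pos h, update_flip, flip_flip]
    by_cases h' : s (Function.update x j false) = true
    · rw [if_pos h', h, h']; simp
    · rw [if_neg h']
      have h'' : s (Function.update x j false) = false := by simpa using h'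
      rw [h, h'']; simp
  · rw [if_neg h]
    have h0 : s' (Function.update x j false) = false := by simpa using h
    by_cases h' : s (Function.update x j false) = true
    · rw [if_pos h', h0, h']; simp
    · rw [if_neg h']
      have h'' : s (Function.update x j false) = false := by simpa using h'
      rw [h0, h'']; simp

lemma sw_other (j : I) (s : (I → Bool) → Bool) (x : I → Bool) {i : I} (hi : i ≠ j) :
    sw j s x i = x i := by
  rw [sw_apply]
  split_ifs
  · unfold flip; rw [Function.update_of_ne hi]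
  · rfl

lemma flip_self (j : I) (x : I → Bool) : flip j x j = !(x j) := by
  unfold flip; rw [Function.update_self]

lemma flip_ne (j : I) (x : I → Bool) : flip j x ≠ x := by
  intro h
  have := congrFun h j
  rw [flip_self] at this
  cases hx : x j <;> simp [hx] at this

lemma eq_or_flip (j : I) (x y : I → Bool) (h : ∀ i, i ≠ j → x i = y i) : x = y ∨ x = flip j y := by
  by_cases hj : x j = y j
  · left
    funext i
    by_cases hi : i = j
    · rw [hi, hj]
    · exact h i hi
  · right
    funext i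
    by_cases hi : i = j
    · rw [hi, flip_self]
      cases hx : x j <;> cases hy : y j <;> simp_all
    · unfold flip
      rw [Function.update_of_ne hi]
      exact h i hi

lemma upd_self_false (j : I) (x : I → Bool) (h : x j = false) : Function.update x j false = x := by
  rw [← h, Function.update_eq_self]

lemma upd_true (j : I) (x : I → Bool) (h : x j = true) : Function.update x j false = flip j x := by
  unfold flip; rw [h]; rfl

/-- every permutation moving points only along coordinate `j` is a layer of switches -/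
lemma exists_sw (j : I) (h : Equiv.Perm (I → Bool)) (hh : ∀ x, ∀ i, i ≠ j → h x i = x i) :
    ∃ s, sw j s = h := by
  have hx : ∀ x, h x = x ∨ h x = flip j x := fun x => eq_or_flip j _ _ (hh x)
  have hf : ∀ x, h x = flip j x → h (flip j x) = x := by
    intro x e
    rcases hx (flip j x) with e' | e'
    · exfalso
      have : h (flip j x) = h x := by rw [e', e]
      exact flip_ne j x (h.injective this)
    · rw [e', flip_flip]
  refine ⟨fun x => decide (h x = flip j x), ?_⟩
  ext1 x
  rw [sw_apply]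
  simp only [decide_eq_true_eq]
  by_cases hxj : x j = true
  · rw [upd_true j x hxj, flip_flip]
    split_ifs with e
    · have := hf _ (by rw [e, flip_flip] : h (flip j x) = flip j (flip j x))
      rw [flip_flip] at this
      exact this.symm
    · rcases hx x with e' | e'
      · exact e'.symm
      · exact absurd (hf x e') e
  · have hxj' : x j = false := by simpa using hxj
    rw [upd_self_false j x hxj']
    split_ifs with e
    · exact e.symm
    · rcases hx x with e' | e'
      · exact e'.symm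
      · exact absurd e' e

/-- sum over the states reachable by one layer -/
lemma sum_sw (j : I) (Y : Equiv.Perm (I → Bool)) (F : Finset (Equiv.Perm (I → Bool)))
    (hF : ∀ Z, Z ∈ F ↔ ∃ s, sw j s * Y = Z) (f : Equiv.Perm (I → Bool) → ℝ) :
    avg (fun s : (I → Bool) → Bool => f (sw j s * Y)) = (∑ Z ∈ F, f Z) / (F.card : ℝ) := by
  classical
  set N : Equiv.Perm (I → Bool) → ℕ := fun Z => (univ.filter (fun s => sw j s * Y = Z)).card with hN
  -- the number of representations does not depend on the state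
  have hconst : ∀ Z ∈ F, N Z = N Y := by
    intro Z hZ
    obtain ⟨s₀, hs₀⟩ := (hF Z).1 hZ
    refine Finset.card_bij' (fun s _ => fun x => xor (s x) (s₀ x))
      (fun s _ => fun x => xor (s x) (s₀ x)) ?_ ?_ ?_ ?_
    · intro s hs
      rw [mem_filter] at hs ⊢
      refine ⟨mem_univ _, ?_⟩
      rw [← sw_mul, mul_assoc, hs₀]
      rw [← hs.2, ← mul_assoc, sw_mul]
      have : (fun x => xor (s x) (s x)) = fun _ : I → Bool => false := by
        funext x; simp
      rw [this]
      ext1 c
      rw [Equiv.Perm.mul_apply, sw_apply]; simp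
    · intro s hs
      rw [mem_filter] at hs ⊢
      refine ⟨mem_univ _, ?_⟩
      rw [← sw_mul, mul_assoc, hs₀]
      have e1 : sw j s * Z = sw j s₀ * (sw j s * Y) := by
        rw [← hs₀, ← mul_assoc, ← mul_assoc, sw_mul, sw_mul]
        congr 3
        funext x
        exact Bool.xor_comm _ _
      rw [e1, hs.2, hs₀]
    · intro s _
      funext x
      simp
    · intro s _
      funext x
      simp
  have hsum : ∀ g : Equiv.Perm (I → Bool) → ℝ,
      ∑ s : (I → Bool) → Bool, g (sw j s * Y) = (N Y : ℝ) * ∑ Z ∈ F, g Z := by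
    intro g
    have hmap : ∀ s ∈ (univ : Finset ((I → Bool) → Bool)), sw j s * Y ∈ F :=
      fun s _ => (hF _).2 ⟨s, rfl⟩
    rw [← sum_fiberwise_of_maps_to hmap, mul_sum]
    refine sum_congr rfl fun Z hZ => ?_
    rw [← hconst Z hZ, hN]
    simp only
    rw [sum_congr rfl (g := fun _ => g Z) (fun s hs => by rw [(mem_filter.1 hs).2]), sum_const,
      nsmul_eq_mul]
  have h1 := hsum (fun _ => 1)
  rw [sum_const, sum_const, nsmul_eq_mul, nsmul_eq_mul, mul_one, mul_one, card_univ] at h1
  unfold avg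
  rw [hsum f, h1]
  have hY : Y ∈ F := (hF Y).2 ⟨fun _ => false, by
    ext1 c
    rw [Equiv.Perm.mul_apply, sw_apply]; simp⟩
  have hN0 : (N Y : ℝ) ≠ 0 := by
    have : 0 < N Y := by
      refine card_pos.2 ⟨fun _ => false, ?_⟩
      rw [mem_filter]
      refine ⟨mem_univ _, ?_⟩
      ext1 c
      rw [Equiv.Perm.mul_apply, sw_apply]; simp
    exact_mod_cast this.ne'
  rw [mul_div_mul_left _ _ hN0]

end layer

lemma Pm_mulVec {I : Type} [Fintype I] [DecidableEq I] (Y : Type) [Fintype Y] [DecidableEq Y]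
    [MulAction (Equiv.Perm (I → Bool)) Y] (j : I) (f : Y → ℝ) (y : Y) :
    (Pm Y j).mulVec f y = avg (fun s : (I → Bool) → Bool => f (sw j s • y)) := by
  unfold Matrix.mulVec Pm avg dotProduct
  simp only
  simp_rw [div_mul_eq_mul_div, sum_mul]
  rw [← sum_div, sum_comm]
  congr 1
  refine sum_congr rfl fun s _ => ?_
  simp_rw [ite_mul, one_mul, zero_mul]
  rw [sum_ite_eq]
  simp

lemma layer_eq {d : ℕ} (j : Fin d) (f : Equiv.Perm (Fin d → Bool) → ℝ) :
    (Pm (Equiv.Perm (Fin d → Bool)) j).mulVec f = cavg (lab (univ.erase j)) f := by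
  funext Y
  rw [Pm_mulVec]
  simp only [smul_eq_mul]
  unfold cavg
  refine sum_sw j Y _ (fun Z => ?_) f
  unfold fib
  simp only [mem_filter, mem_univ, true_and]
  rw [lab_eq_iff]
  constructor
  · intro h
    obtain ⟨s, hs⟩ := exists_sw j (Z * Y⁻¹) (fun x i hi => by
      rw [Equiv.Perm.mul_apply, h (Y⁻¹ x) i (mem_erase.2 ⟨hi, mem_univ _⟩), perm_apply_inv])
    exact ⟨s, by rw [hs, inv_mul_cancel_right]⟩
  · rintro ⟨s, rfl⟩
    intro c i hi
    rw [Equiv.Perm.mul_apply, sw_other _ _ _ (mem_erase.1 hi).1]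

lemma Tm_mulVec {I : Type} [Fintype I] [DecidableEq I] (Y : Type) [Fintype Y] [DecidableEq Y]
    [MulAction (Equiv.Perm (I → Bool)) Y] : ∀ (l : List I) (f : Y → ℝ),
    (Tm Y l).mulVec f = l.foldl (fun g j => (Pm Y j).mulVec g) f
  | [], f => by simp [Tm]
  | j :: l, f => by
    rw [Tm, ← Matrix.mulVec_mulVec, Tm_mulVec Y l, List.foldl_cons]

lemma law_take {d : ℕ} (f : Equiv.Perm (Fin d → Bool) → ℝ) : ∀ t : ℕ, t ≤ d →
    ((List.finRange d).take t).foldl
      (fun g j => (Pm (Equiv.Perm (Fin d → Bool)) j).mulVec g) f = law f t := by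
  intro t
  induction t with
  | zero => intro _; rfl
  | succ t ih =>
    intro ht
    have ht' : t < d := by omega
    have hl : t < (List.finRange d).length := by simpa using ht'
    rw [List.take_succ_eq_append_getElem hl, List.foldl_append, ih (by omega)]
    simp only [List.getElem_finRange, List.foldl_cons, List.foldl_nil]
    have e : law f (t + 1) = cavg (lab (univ.erase ⟨t, ht'⟩)) (law f t) := by
      simp only [law, dif_pos ht']
    rw [layer_eq, e]
    rfl

lemma law_eq {d : ℕ} (f : Equiv.Perm (Fin d → Bool) → ℝ) :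
    law f d = (Tm (Equiv.Perm (Fin d → Bool)) (List.finRange d)).mulVec f := by
  rw [Tm_mulVec, ← law_take f d le_rfl, List.take_of_length_le (by simp)]

lemma dens_pow (n K : ℕ) : dens n (K * (n + 1)) =
    ((Tm (Equiv.Perm (Fin (n + 1) → Bool)) (List.finRange (n + 1))) ^ K).mulVec (dens n 0) := by
  induction K with
  | zero => simp
  | succ K ih =>
    have e : (K + 1) * (n + 1) = K * (n + 1) + (n + 1) := by ring
    rw [e, ← law_dens n K (n + 1) le_rfl, law_eq, ih, pow_succ', Matrix.mulVec_mulVec]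

lemma dens_zero (n : ℕ) (Y : Equiv.Perm (Fin (n + 1) → Bool)) :
    dens n 0 Y = if Y = 1 then ((2 * 2 ^ n).factorial : ℝ) else 0 := by
  unfold Vale.Agent.P162.dens
  have h0 : rotV n (tf n 0) = 1 := by
    ext1 x
    funext i
    rw [rotV_apply]
    have : tf n 0 = 0 := by
      apply Fin.ext
      simp [tf]
    rw [this, add_zero]
    rfl
  rw [h0, one_mul]
  simp only [thorpPow]
  by_cases h : Y = 1
  · subst h
    rw [if_pos rfl, if_pos, mul_one]
    ext1 x
    simp [Equiv.permCongr_apply]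
  · rw [if_neg h, if_neg, mul_zero]
    intro e
    apply h
    have := congrArg (crdEquiv n).symm.permCongr.symm e
    rw [Equiv.symm_apply_apply] at this
    rw [this]
    ext1 x
    simp [Equiv.permCongr_symm, Equiv.permCongr_apply]

/-! ### right invariance -/

section inv

variable {I : Type} [Fintype I] [DecidableEq I]

lemma Pm_right (j : I) (y y' g : Equiv.Perm (I → Bool)) :
    Pm (Equiv.Perm (I → Bool)) j (y * g) (y' * g) = Pm (Equiv.Perm (I → Bool)) j y y' := by
  unfold Pm
  congr 1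
  funext s
  simp only [smul_eq_mul, ← mul_assoc, mul_left_inj]

lemma mul_right_inv (A B : Matrix (Equiv.Perm (I → Bool)) (Equiv.Perm (I → Bool)) ℝ)
    (hA : ∀ y y' g, A (y * g) (y' * g) = A y y') (hB : ∀ y y' g, B (y * g) (y' * g) = B y y')
    (y y' g : Equiv.Perm (I → Bool)) : (A * B) (y * g) (y' * g) = (A * B) y y' := by
  rw [Matrix.mul_apply, Matrix.mul_apply]
  rw [← Equiv.sum_comp (Equiv.mulRight g)]
  refine sum_congr rfl fun z _ => ?_
  rw [Equiv.coe_mulRight, hA, hB]

lemma Tm_right : ∀ (l : List I) (y y' g : Equiv.Perm (I → Bool)),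
    Tm (Equiv.Perm (I → Bool)) l (y * g) (y' * g) = Tm (Equiv.Perm (I → Bool)) l y y'
  | [], y, y', g => by
    simp only [Tm, Matrix.one_apply, mul_left_inj]
  | j :: l, y, y', g => by
    rw [Tm]
    exact mul_right_inv _ _ (fun y y' g => Tm_right l y y' g) (fun y y' g => Pm_right j y y' g) _ _ _

lemma pow_right (A : Matrix (Equiv.Perm (I → Bool)) (Equiv.Perm (I → Bool)) ℝ)
    (hA : ∀ y y' g, A (y * g) (y' * g) = A y y') : ∀ (K : ℕ) (y y' g : Equiv.Perm (I → Bool)),
    (A ^ K) (y * g) (y' * g) = (A ^ K) y y'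
  | 0, y, y', g => by
    simp only [pow_zero, Matrix.one_apply, mul_left_inj]
  | K + 1, y, y', g => by
    rw [pow_succ]
    exact mul_right_inv _ _ (fun y y' g => pow_right A hA K y y' g) hA _ _ _

lemma trace_right (A : Matrix (Equiv.Perm (I → Bool)) (Equiv.Perm (I → Bool)) ℝ)
    (hA : ∀ y y' g, A (y * g) (y' * g) = A y y') :
    (A.transpose * A).trace = (Fintype.card (Equiv.Perm (I → Bool)) : ℝ) * ∑ y, A y 1 ^ 2 := by
  have h1 : ∀ g, ∑ y, A y g ^ 2 = ∑ y, A y 1 ^ 2 := by
    intro g
    rw [← Equiv.sum_comp (Equiv.mulRight g)]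
    refine sum_congr rfl fun z _ => ?_
    rw [Equiv.coe_mulRight]
    have := hA z 1 g
    rw [one_mul] at this
    rw [this]
  unfold Matrix.trace
  simp only [Matrix.diag_apply, Matrix.mul_apply, Matrix.transpose_apply]
  rw [sum_congr rfl (g := fun _ => ∑ y, A y 1 ^ 2) (fun g _ => by
    rw [← h1 g]; exact sum_congr rfl fun y _ => by ring), sum_const, card_univ, nsmul_eq_mul]

end inv

/-- second moment of the density -/
lemma avg_dens_sq (n K : ℕ) : avg (fun Y => dens n (K * (n + 1)) Y ^ 2) =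
    (((Tm (Equiv.Perm (Fin (n + 1) → Bool)) (List.finRange (n + 1))) ^ K).transpose *
      (Tm (Equiv.Perm (Fin (n + 1) → Bool)) (List.finRange (n + 1))) ^ K).trace := by
  set A := (Tm (Equiv.Perm (Fin (n + 1) → Bool)) (List.finRange (n + 1))) ^ K with hA
  rw [trace_right A (pow_right _ (Tm_right _) K)]
  have h1 : ∀ Y, dens n (K * (n + 1)) Y = A Y 1 * ((2 * 2 ^ n).factorial : ℝ) := by
    intro Y
    rw [dens_pow, ← hA]
    unfold Matrix.mulVec dotProduct
    simp_rw [dens_zero, mul_ite, mul_zero]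
    rw [sum_ite_eq']
    simp
  unfold avg
  rw [card_permV]
  simp_rw [h1, mul_pow]
  rw [← sum_mul]
  have := (fact_pos n).ne'
  field_simp

lemma tv_sq (n t : ℕ) : thorpTV (2 ^ n) t ≤ (1 / 2) * Real.sqrt (avg (fun Y => dens n t Y ^ 2) - 1) := by
  have h2 := avg_dens n t (fun x => |x - 1|)
  have h3 : thorpTV (2 ^ n) t = (1 / 2) * avg (fun Y => |dens n t Y - 1|) := by
    rw [h2]
    unfold thorpTV
    congr 1
    rw [sum_div]
    refine sum_congr rfl fun g _ => ?_
    have hp := fact_pos n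
    rw [eq_div_iff hp.ne', mul_comm, ← abs_of_pos hp, ← abs_mul, abs_of_pos hp]
    congr 1
    field_simp
  rw [h3]
  refine mul_le_mul_of_nonneg_left ?_ (by norm_num)
  refine Real.le_sqrt_of_sq_le ?_
  -- Cauchy-Schwarz
  have hc : (0 : ℝ) < (Fintype.card (Equiv.Perm (Fin (n + 1) → Bool)) : ℝ) := by
    rw [card_permV]; exact fact_pos n
  have hcs : avg (fun Y => |dens n t Y - 1|) ^ 2 ≤ avg (fun Y => |dens n t Y - 1| ^ 2) := by
    unfold avg
    have h := sq_sum_le_card_mul_sum_sq (s := (univ : Finset (Equiv.Perm (Fin (n + 1) → Bool))))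
      (f := fun Y => |dens n t Y - 1|)
    rw [card_univ] at h
    rw [div_pow, div_le_div_iff₀ (by positivity) hc]
    calc (∑ Y, |dens n t Y - 1|) ^ 2 * (Fintype.card (Equiv.Perm (Fin (n + 1) → Bool)) : ℝ)
        ≤ ((Fintype.card (Equiv.Perm (Fin (n + 1) → Bool)) : ℝ) * ∑ Y, |dens n t Y - 1| ^ 2) *
          (Fintype.card (Equiv.Perm (Fin (n + 1) → Bool)) : ℝ) :=
          mul_le_mul_of_nonneg_right h hc.le
      _ = _ := by ring
  refine hcs.trans (le_of_eq ?_)
  have h1 := avg_dens_one n t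
  unfold avg at h1 ⊢
  simp_rw [sq_abs, sub_sq, one_pow, mul_one]
  rw [sum_add_distrib, sum_sub_distrib, ← mul_sum, sum_const, card_univ, nsmul_eq_mul, mul_one]
  rw [div_eq_iff hc.ne', one_mul] at h1
  rw [h1]
  field_simp
  ring

theorem tv_of_trace (n K : ℕ)
    (h : (((Tm (Equiv.Perm (Fin (n + 1) → Bool)) (List.finRange (n + 1))) ^ K).transpose *
      (Tm (Equiv.Perm (Fin (n + 1) → Bool)) (List.finRange (n + 1))) ^ K).trace ≤ 1 + 1 / 4) :
    thorpTV (2 ^ n) (K * (n + 1)) ≤ 1 / 4 := by
  refine (tv_sq n _).trans ?_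
  rw [avg_dens_sq]
  have h1 : Real.sqrt ((((Tm (Equiv.Perm (Fin (n + 1) → Bool)) (List.finRange (n + 1))) ^ K).transpose *
      (Tm (Equiv.Perm (Fin (n + 1) → Bool)) (List.finRange (n + 1))) ^ K).trace - 1) ≤ 1 / 2 := by
    rw [Real.sqrt_le_left (by norm_num)]
    linarith
  linarith

end Link

open Link in
theorem link : S_HS → S_GOALC := by
  rintro ⟨K, d₀, hK⟩
  obtain ⟨C, hC⟩ := thorp (butterfly tensor triangle (table hyper soft))
  have hC0 : ∀ d : ℕ, 1 ≤ d → (tmix (2 ^ (d - 1)) : ℝ) ≤ C * (d : ℝ) ^ 2 := fun d hd => (hC d hd).2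
  set C' : ℝ := max (K : ℝ) (|C| * d₀) with hC'
  have hKC : (K : ℝ) ≤ C' := le_max_left _ _
  have hCC : |C| * d₀ ≤ C' := le_max_right _ _
  refine ⟨C', fun d hd => ?_⟩
  obtain ⟨n, rfl⟩ : ∃ n, d = n + 1 := ⟨d - 1, by omega⟩
  rcases le_or_gt d₀ (n + 1) with hd0 | hd0
  · have main := tv_of_trace n K (hK (n + 1) hd0)
    rw [Nat.add_sub_cancel]
    constructor
    · intro t ht
      have h1 : K * (n + 1) ≤ t := by
        have : ((K * (n + 1) : ℕ) : ℝ) ≤ t := by
          push_cast at ht ⊢
          have h2 : (0 : ℝ) ≤ (n : ℝ) + 1 := by positivity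
          nlinarith
        exact_mod_cast this
      exact (thorpTV_anti h1).trans main
    · have h1 : tmix (2 ^ n) ≤ K * (n + 1) := Nat.sInf_le main
      calc (tmix (2 ^ n) : ℝ) ≤ ((K * (n + 1) : ℕ) : ℝ) := by exact_mod_cast h1
        _ = K * ((n + 1 : ℕ) : ℝ) := by push_cast; ring
        _ ≤ C' * ((n + 1 : ℕ) : ℝ) := mul_le_mul_of_nonneg_right hKC (by positivity)
  · have hb : C * ((n + 1 : ℕ) : ℝ) ^ 2 ≤ C' * ((n + 1 : ℕ) : ℝ) := by
      have h1 : ((n + 1 : ℕ) : ℝ) ≤ d₀ := by exact_mod_cast hd0.le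
      have h2 : (0 : ℝ) ≤ ((n + 1 : ℕ) : ℝ) := by positivity
      calc C * ((n + 1 : ℕ) : ℝ) ^ 2 ≤ |C| * ((n + 1 : ℕ) : ℝ) ^ 2 :=
            mul_le_mul_of_nonneg_right (le_abs_self C) (by positivity)
        _ = (|C| * ((n + 1 : ℕ) : ℝ)) * ((n + 1 : ℕ) : ℝ) := by ring
        _ ≤ (|C| * d₀) * ((n + 1 : ℕ) : ℝ) := by
            refine mul_le_mul_of_nonneg_right ?_ h2
            exact mul_le_mul_of_nonneg_left h1 (abs_nonneg C)
        _ ≤ C' * ((n + 1 : ℕ) : ℝ) := mul_le_mul_of_nonneg_right hCC h2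
    have h3 := hC (n + 1) hd
    exact ⟨fun t ht => h3.1 t (hb.trans ht), h3.2.trans hb⟩

end Vale.Agent.P162c
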