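import Mathlib
import Vale.Agent.P162c.Defs2
import Vale.Agent.P162c.Link

/-!
P162, module FINAL: assembly of the Hilbert-Schmidt bound for `K` butterflies.
-/

namespace Vale.Agent.P162c

open Finset Vale.Agent.P162

namespace FinalX

variable {d : ℕ}

/-- the matrix of the butterfly -/
noncomputable abbrev A (d : ℕ) : Matrix (Equiv.Perm (Fin d → Bool)) (Equiv.Perm (Fin d → Bool)) ℝ :=
  Tm (Equiv.Perm (Fin d → Bool)) (List.finRange d)

lemma TT_pow (K : ℕ) : TT d ^ K = Matrix.toEuclideanLin (A d ^ K) := by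
  unfold TT
  exact (Matrix.toLpLin_pow 2 _ K).symm

lemma adj_eq (B : Matrix (Equiv.Perm (Fin d → Bool)) (Equiv.Perm (Fin d → Bool)) ℝ) :
    LinearMap.adjoint (Matrix.toEuclideanLin B : HH d →ₗ[ℝ] HH d) =
      Matrix.toEuclideanLin B.transpose := by
  rw [← Matrix.toEuclideanLin_conjTranspose_eq_adjoint, Matrix.conjTranspose_eq_transpose_of_trivial]

lemma trace_toE (B : Matrix (Equiv.Perm (Fin d → Bool)) (Equiv.Perm (Fin d → Bool)) ℝ) :
    LinearMap.trace ℝ (HH d) (Matrix.toEuclideanLin B) = B.trace := by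
  rw [LinearMap.trace_eq_matrix_trace ℝ
    (EuclideanSpace.basisFun (Equiv.Perm (Fin d → Bool)) ℝ).toBasis,
    Matrix.toEuclideanLin_eq_toLin_orthonormal, LinearMap.toMatrix_toLin]

lemma trace_eq (K : ℕ) : LinearMap.trace ℝ (HH d)
    (LinearMap.adjoint (TT d ^ K) ∘ₗ (TT d ^ K)) = ((A d ^ K).transpose * A d ^ K).trace := by
  rw [TT_pow, adj_eq, ← trace_toE]
  congr 1
  exact (Matrix.toLpLin_mul_same 2 _ _).symm

/-! ### invariance of the levels -/

/-- the function depends only on the positions of the cards in `R` -/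
def Dep (R : Finset (Fin d → Bool)) (f : Equiv.Perm (Fin d → Bool) → ℝ) : Prop :=
  ∀ X X' : Equiv.Perm (Fin d → Bool), (∀ c ∈ R, X c = X' c) → f X = f X'

lemma dep_Pm (R : Finset (Fin d → Bool)) (j : Fin d) (f : Equiv.Perm (Fin d → Bool) → ℝ)
    (hf : Dep R f) : Dep R ((Pm (Equiv.Perm (Fin d → Bool)) j).mulVec f) := by
  intro X X' h
  rw [Link.Pm_mulVec, Link.Pm_mulVec]
  congr 1
  funext s
  refine hf _ _ fun c hc => ?_
  simp only [smul_eq_mul, Equiv.Perm.mul_apply, h c hc]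

lemma dep_Tm (R : Finset (Fin d → Bool)) : ∀ (l : List (Fin d))
    (f : Equiv.Perm (Fin d → Bool) → ℝ), Dep R f →
    Dep R ((Tm (Equiv.Perm (Fin d → Bool)) l).mulVec f)
  | [], f, hf => by simpa [Tm] using hf
  | j :: l, f, hf => by
    rw [Tm, ← Matrix.mulVec_mulVec]
    exact dep_Tm R l _ (dep_Pm R j f hf)

lemma sw_self {I : Type} [Fintype I] [DecidableEq I] (j : I) (s : (I → Bool) → Bool) :
    sw j s * sw j s = 1 := by
  ext1 x
  exact swFun_swFun j s x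

lemma Pm_symm {I : Type} [Fintype I] [DecidableEq I] (Y : Type) [Fintype Y] [DecidableEq Y]
    [MulAction (Equiv.Perm (I → Bool)) Y] (j : I) : (Pm Y j).transpose = Pm Y j := by
  ext y y'
  rw [Matrix.transpose_apply]
  unfold Pm
  congr 1
  funext s
  have : (sw j s • y' = y) ↔ (sw j s • y = y') := by
    constructor
    · intro h; rw [← h, ← mul_smul, sw_self, one_smul]
    · intro h; rw [← h, ← mul_smul, sw_self, one_smul]
  simp only [this]

lemma dep_TmT (R : Finset (Fin d → Bool)) : ∀ (l : List (Fin d))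
    (f : Equiv.Perm (Fin d → Bool) → ℝ), Dep R f →
    Dep R ((Tm (Equiv.Perm (Fin d → Bool)) l).transpose.mulVec f)
  | [], f, hf => by simpa [Tm] using hf
  | j :: l, f, hf => by
    rw [Tm, Matrix.transpose_mul, Pm_symm, ← Matrix.mulVec_mulVec]
    exact dep_Pm R j _ (dep_TmT R l f hf)

lemma VR_TT (R : Finset (Fin d → Bool)) (f : HH d) (hf : f ∈ VR R) : TT d f ∈ VR R := by
  intro X X' h
  exact dep_Tm R (List.finRange d) (fun Y => f Y) (fun X X' h => hf X X' h) X X' h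

lemma VR_TTa (R : Finset (Fin d → Bool)) (f : HH d) (hf : f ∈ VR R) :
    LinearMap.adjoint (TT d) f ∈ VR R := by
  intro X X' h
  unfold TT
  rw [adj_eq]
  exact dep_TmT R (List.finRange d) (fun Y => f Y) (fun X X' h => hf X X' h) X X' h

lemma Vlev_inv (j : ℕ) (S : HH d →ₗ[ℝ] HH d) (hS : ∀ R, ∀ f ∈ VR R, S f ∈ VR R) (f : HH d)
    (hf : f ∈ Vlev d j) : S f ∈ Vlev d j := by
  have h1 : S f ∈ (Vlev d j).map S := Submodule.mem_map_of_mem hf
  refine (?_ : (Vlev d j).map S ≤ Vlev d j) h1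
  unfold Vlev
  rw [Submodule.map_iSup]
  refine iSup_mono fun R => ?_
  rintro _ ⟨g, hg, rfl⟩
  exact hS R.1 g hg

lemma VR_mono {R R' : Finset (Fin d → Bool)} (h : R ⊆ R') : VR R ≤ VR R' :=
  fun _ hf X X' hX => hf X X' fun c hc => hX c (h hc)

lemma Vlev_mono {j j' : ℕ} (h : j ≤ j') (h' : j' ≤ 2 ^ d) : Vlev d j ≤ Vlev d j' := by
  unfold Vlev
  refine iSup_le fun R => ?_
  obtain ⟨R', h1, h2⟩ := Finset.exists_superset_card_eq (s := R.1) (n := j')
    (by rw [R.2]; exact h) (by simpa using h')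
  exact (VR_mono h1).trans (le_iSup (fun R : {R : Finset (Fin d → Bool) // R.card = j'} => VR R.1)
    ⟨R', h2⟩)

lemma Vlev_top : Vlev d (2 ^ d) = ⊤ := by
  rw [eq_top_iff]
  have h : (univ : Finset (Fin d → Bool)).card = 2 ^ d := by simp
  refine le_trans ?_ (le_iSup (fun R : {R : Finset (Fin d → Bool) // R.card = 2 ^ d} => VR R.1)
    ⟨univ, h⟩)
  intro f _ X X' hX
  have : X = X' := by
    ext1 c
    exact hX c (mem_univ c)
  rw [this]

/-- the normalised constant function -/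
noncomputable def cst (d : ℕ) : HH d :=
  WithLp.toLp 2 fun _ => (1 / Real.sqrt (Fintype.card (Equiv.Perm (Fin d → Bool)) : ℝ))

lemma cst_apply (X : Equiv.Perm (Fin d → Bool)) :
    cst d X = 1 / Real.sqrt (Fintype.card (Equiv.Perm (Fin d → Bool)) : ℝ) := rfl

lemma card_pos' : (0 : ℝ) < (Fintype.card (Equiv.Perm (Fin d → Bool)) : ℝ) := by
  exact_mod_cast Fintype.card_pos

lemma cst_norm : ‖cst d‖ = 1 := by
  rw [EuclideanSpace.norm_eq]
  simp only [cst_apply, Real.norm_eq_abs, sq_abs, div_pow, one_pow]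
  rw [Real.sq_sqrt card_pos'.le, sum_const, card_univ, nsmul_eq_mul,
    mul_one_div_cancel card_pos'.ne', Real.sqrt_one]

lemma Vlev_zero : Vlev d 0 = Submodule.span ℝ {cst d} := by
  have hs : (0 : ℝ) < Real.sqrt (Fintype.card (Equiv.Perm (Fin d → Bool)) : ℝ) :=
    Real.sqrt_pos.2 card_pos'
  apply le_antisymm
  · unfold Vlev
    refine iSup_le fun R => ?_
    have hR : R.1 = ∅ := card_eq_zero.1 R.2
    intro f hf
    rw [Submodule.mem_span_singleton]
    refine ⟨f 1 * Real.sqrt (Fintype.card (Equiv.Perm (Fin d → Bool)) : ℝ), ?_⟩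
    ext X
    rw [PiLp.smul_apply, cst_apply, smul_eq_mul]
    have : f X = f 1 := hf X 1 (by rw [hR]; simp)
    rw [this]
    field_simp
  · rw [Submodule.span_singleton_le_iff_mem]
    refine (le_iSup (fun R : {R : Finset (Fin d → Bool) // R.card = 0} => VR R.1)
      ⟨∅, rfl⟩) ?_
    intro X X' _
    rfl

lemma avg_const {Ω : Type} [Fintype Ω] [Nonempty Ω] (a : ℝ) : avg (fun _ : Ω => a) = a := by
  unfold avg
  rw [sum_const, card_univ, nsmul_eq_mul]
  have : (Fintype.card Ω : ℝ) ≠ 0 := by exact_mod_cast Fintype.card_ne_zero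
  field_simp

lemma Tm_const (a : ℝ) : ∀ (l : List (Fin d)),
    (Tm (Equiv.Perm (Fin d → Bool)) l).mulVec (fun _ => a) = fun _ => a
  | [] => by simp [Tm]
  | j :: l => by
    rw [Tm, ← Matrix.mulVec_mulVec]
    have : (Pm (Equiv.Perm (Fin d → Bool)) j).mulVec (fun _ => a) = fun _ => a := by
      funext y
      rw [Link.Pm_mulVec]
      exact avg_const a
    rw [this, Tm_const a l]

lemma TT_cst : TT d (cst d) = cst d := by
  ext X
  exact congrFun (Tm_const (1 / Real.sqrt (Fintype.card (Equiv.Perm (Fin d → Bool)) : ℝ))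
    (List.finRange d)) X

lemma TT_pow_cst (K : ℕ) : (TT d ^ K) (cst d) = cst d := by
  induction K with
  | zero => simp
  | succ K ih => rw [pow_succ, Module.End.mul_apply, TT_cst, ih]

lemma trace_zero (K : ℕ) : LinearMap.trace ℝ (HH d)
    ((LinearMap.adjoint (TT d ^ K) ∘ₗ (TT d ^ K)) ∘ₗ
      ((Vlev d 0).starProjection : HH d →L[ℝ] HH d)) = 1 := by
  set M : HH d →ₗ[ℝ] HH d := LinearMap.adjoint (TT d ^ K) ∘ₗ (TT d ^ K) with hM
  have e : (M ∘ₗ ((Vlev d 0).starProjection : HH d →L[ℝ] HH d)) =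
      ((InnerProductSpace.rankOne ℝ (M (cst d)) (cst d) : HH d →L[ℝ] HH d) : HH d →ₗ[ℝ] HH d) := by
    ext1 w
    rw [LinearMap.comp_apply]
    have h1 : ((Vlev d 0).starProjection : HH d →L[ℝ] HH d) w = (inner ℝ (cst d) w) • cst d := by
      have : Vlev d 0 = Submodule.span ℝ {cst d} := Vlev_zero
      simp only [this]
      exact Submodule.starProjection_unit_singleton ℝ cst_norm w
    rw [ContinuousLinearMap.coe_coe, h1, map_smul]
    simp [InnerProductSpace.rankOne_apply]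
  rw [e, InnerProductSpace.trace_rankOne, hM, LinearMap.comp_apply, LinearMap.adjoint_inner_right,
    TT_pow_cst, real_inner_self_eq_norm_sq, cst_norm, one_pow]

/-! ### traces -/

lemma tr_bound (hRET : S_RETURN) (hEXPK : S_EXPK) : ∃ (p₀ : ℕ) (C β : ℝ), 0 < C ∧ 0 < β ∧ β ≤ 1 ∧
    ∀ (d : ℕ) (ι : Type) [Fintype ι] [DecidableEq ι] (p : ℕ), p₀ ≤ p →
      ((Qm (ι ↪ (Fin d → Bool)) (List.finRange d)) ^ p).trace ≤
        Real.exp (C * p * (Fintype.card ι : ℝ) * ((Fintype.card ι : ℝ) / 2 ^ d) ^ β) := by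
  obtain ⟨p₀, hp₀⟩ := hRET
  obtain ⟨C, β, hC, hβ, hβ1, hE⟩ := hEXPK
  refine ⟨p₀, C, β, hC, hβ, hβ1, fun d ι _ _ p hp => ?_⟩
  set k : ℝ := (Fintype.card ι : ℝ) with hk
  have hk0 : 0 ≤ k := Nat.cast_nonneg _
  set E : ℝ := Real.exp (C * k * (k / 2 ^ d) ^ β) with hEdef
  have hE1 : 1 ≤ E := by
    rw [hEdef]
    refine Real.one_le_exp ?_
    have : 0 ≤ (k / 2 ^ d) ^ β := Real.rpow_nonneg (by positivity) _
    positivity
  have h1 := hp₀ d ι p E hp (fun U hU => by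
    have := hE d U
    rw [hU] at this
    exact this) hE1
  refine h1.trans ((pow_le_pow_right₀ hE1 (Nat.sub_le p 1)).trans (le_of_eq ?_))
  rw [hEdef, ← Real.exp_nat_mul]
  congr 1
  ring

end FinalX

open FinalX in
theorem final (hTRLEV : S_TRLEV) (hDECOMP : S_DECOMP) (hLEVEL : S_LEVEL) (hGRAM : S_GRAM)
    (hHIGH : S_HIGH) (hNUM1 : S_NUM1) (hNUM2 : S_NUM2) (hRET : S_RETURN) (hEXPK : S_EXPK) :
    S_MIXTR := by
  obtain ⟨p₀, C, β, hC, hβ, hβ1, htr⟩ := tr_bound hRET hEXPK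
  -- the power of two
  obtain ⟨l, hl⟩ : ∃ l : ℕ, p₀ ≤ 2 ^ l := ⟨p₀, Nat.lt_two_pow_self.le⟩
  set p : ℕ := 2 ^ l with hp
  have hp1 : 1 ≤ p := Nat.one_le_two_pow
  obtain ⟨ε, δ, hε, hε4, hδ, hnum⟩ := hNUM1 C β p hC hβ hβ1 hp1
  obtain ⟨c, hc, hhigh⟩ := hHIGH (ε / 2) (by positivity)
  have hCp : 0 < C * p := by positivity
  obtain ⟨K₂, n₀, hnum2⟩ := hNUM2 δ (C * p) c hδ hCp hc
  -- large d
  obtain ⟨n₁, hn₁⟩ := exists_nat_gt (2 / ε)
  refine ⟨K₂ + p, n₀ + n₁, fun d hd => ?_⟩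
  have hdn : d ≤ 2 ^ d := Nat.lt_two_pow_self.le
  have hn0 : n₀ ≤ 2 ^ d := by omega
  have hn1 : (2 / ε : ℝ) ≤ 2 ^ d := by
    have h1 : n₁ ≤ 2 ^ d := by omega
    have h2 : (n₁ : ℝ) ≤ ((2 ^ d : ℕ) : ℝ) := by exact_mod_cast h1
    push_cast at h2
    linarith
  have hN : (0 : ℝ) < 2 ^ d := by positivity
  set J : ℕ := ⌊ε * 2 ^ d⌋₊ with hJ
  have hJ1 : (J : ℝ) ≤ ε * 2 ^ d := Nat.floor_le (by positivity)
  have hJ2 : ε * 2 ^ d < J + 1 := Nat.lt_floor_add_one _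
  have hJ3 : ε / 2 * 2 ^ d ≤ J := by
    have : 2 ≤ ε * 2 ^ d := by
      rw [div_le_iff₀ hε] at hn1
      linarith
    linarith
  have hJ4 : (J : ℝ) ≤ ((2 ^ d : ℕ) : ℝ) / 4 := by
    push_cast
    have : ε * 2 ^ d ≤ 1 / 4 * 2 ^ d := mul_le_mul_of_nonneg_right hε4 hN.le
    linarith
  have hJ5 : J ≤ 2 ^ d := by
    have : (J : ℝ) ≤ ((2 ^ d : ℕ) : ℝ) := by
      have h0 : (0 : ℝ) ≤ ((2 ^ d : ℕ) : ℝ) := Nat.cast_nonneg _
      linarith
    exact_mod_cast this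
  set b : ℕ → ℝ := fun j => (((j : ℝ) / ((2 ^ d : ℕ) : ℝ)) ^ δ) ^ j with hb
  have hb0 : ∀ j, 0 ≤ b j := fun j => pow_nonneg (Real.rpow_nonneg (by positivity) _) _
  set V : ℕ → Submodule ℝ (HH d) := fun j => Vlev d (min j (2 ^ d)) with hV
  have hVj : ∀ j, j ≤ 2 ^ d → V j = Vlev d j := fun j hj => by rw [hV]; simp only [min_eq_left hj]
  -- level bound
  have hlev : ∀ j, 1 ≤ j → j ≤ J → ∀ v ∈ V j, v ∈ (V (j - 1))ᗮ →
      ‖TT d v‖ ^ 2 ≤ b j * ‖v‖ ^ 2 := by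
    intro j hj1 hjJ v hv hv'
    rw [hVj j (hjJ.trans hJ5)] at hv
    rw [hVj (j - 1) ((Nat.sub_le j 1).trans (hjJ.trans hJ5))] at hv'
    have hjn : (j : ℝ) ≤ ε * ((2 ^ d : ℕ) : ℝ) := by
      push_cast
      have : (j : ℝ) ≤ J := by exact_mod_cast hjJ
      linarith
    obtain ⟨m, hm1, hm4, hx⟩ := hnum (2 ^ d) j hj1 hjn
    refine hLEVEL d j (b j) hj1 (hb0 j) (fun x φ hφ hNew hx0 heig => ?_) v hv hv'
    refine hx x hx0 ?_
    refine (hGRAM d j m p x φ hj1 hm1 hm4 hφ hNew hx0 heig).trans ?_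
    refine mul_le_mul_of_nonneg_left ?_ (by positivity)
    have := htr d (Fin j × Fin m) p hl
    rw [Fintype.card_prod, Fintype.card_fin, Fintype.card_fin] at this
    push_cast at this ⊢
    exact this
  have hhi : ∀ v ∈ (V J)ᗮ, ‖TT d v‖ ^ 2 ≤ Real.exp (-c * 2 ^ d) * ‖v‖ ^ 2 := by
    intro v hv
    rw [hVj J hJ5] at hv
    exact hhigh d J hJ3 hJ5 v hv
  have hmono : Monotone V := by
    intro j j' h
    exact Vlev_mono (min_le_min_right _ h) (min_le_right _ _)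
  have hinv : ∀ j, ∀ v ∈ V j, TT d v ∈ V j := fun j v hv =>
    Vlev_inv _ (TT d) (fun R f hf => VR_TT R f hf) v hv
  have hinva : ∀ j, ∀ v ∈ V j, LinearMap.adjoint (TT d) v ∈ V j := fun j v hv =>
    Vlev_inv _ (LinearMap.adjoint (TT d)) (fun R f hf => VR_TTa R f hf) v hv
  have hdec := hDECOMP (HH d) (TT d) V J p K₂ b (Real.exp (-c * 2 ^ d)) hmono hinv hinva hb0
    (Real.exp_pos _).le hlev hhi
  -- the level 0
  have h0 : V 0 = Vlev d 0 := hVj 0 (Nat.zero_le _)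
  have htr0 : LinearMap.trace ℝ (HH d)
      ((LinearMap.adjoint (TT d ^ (K₂ + p)) ∘ₗ (TT d ^ (K₂ + p))) ∘ₗ
        ((V 0).starProjection : HH d →L[ℝ] HH d)) = 1 := by
    have := trace_zero (d := d) (K₂ + p)
    simp only [h0]
    exact this
  -- token traces
  have hlevtr : ∀ j, j ≤ 2 ^ d → LinearMap.trace ℝ (HH d)
      ((LinearMap.adjoint (TT d ^ p) ∘ₗ (TT d ^ p)) ∘ₗ
        ((Vlev d j).starProjection : HH d →L[ℝ] HH d)) ≤
      ((2 ^ d).choose j : ℝ) * Real.exp (C * p * j) := by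
    intro j hj
    refine (hTRLEV d j l hj).trans ?_
    refine mul_le_mul_of_nonneg_left ?_ (Nat.cast_nonneg _)
    refine (htr d (Fin j) p hl).trans ?_
    rw [Fintype.card_fin]
    refine Real.exp_le_exp.2 ?_
    have h1 : ((j : ℝ) / 2 ^ d) ^ β ≤ 1 := by
      refine Real.rpow_le_one (by positivity) ?_ hβ.le
      rw [div_le_one hN]
      have : (j : ℝ) ≤ ((2 ^ d : ℕ) : ℝ) := by exact_mod_cast hj
      simpa using this
    have h2 : (0 : ℝ) ≤ C * p * j := by positivity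
    calc C * p * j * ((j : ℝ) / 2 ^ d) ^ β ≤ C * p * j * 1 := mul_le_mul_of_nonneg_left h1 h2
      _ = C * p * j := mul_one _
  have hfull : LinearMap.trace ℝ (HH d) (LinearMap.adjoint (TT d ^ p) ∘ₗ (TT d ^ p)) ≤
      Real.exp (C * p * ((2 ^ d : ℕ) : ℝ)) := by
    have h1 := hlevtr (2 ^ d) le_rfl
    have h2 : ((LinearMap.adjoint (TT d ^ p) ∘ₗ (TT d ^ p)) ∘ₗ
        ((Vlev d (2 ^ d)).starProjection : HH d →L[ℝ] HH d)) =
        LinearMap.adjoint (TT d ^ p) ∘ₗ (TT d ^ p) := by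
      have h3 : ∀ w : HH d, (Vlev d (2 ^ d)).starProjection w = w := fun w =>
        Submodule.starProjection_eq_self_iff.2 (by rw [Vlev_top]; exact Submodule.mem_top)
      refine LinearMap.ext fun w => ?_
      rw [LinearMap.comp_apply, ContinuousLinearMap.coe_coe, h3]
    rw [h2, Nat.choose_self, Nat.cast_one, one_mul] at h1
    exact h1
  have hmain : ((A d ^ (K₂ + p)).transpose * A d ^ (K₂ + p)).trace ≤ 1 +
      (∑ j ∈ Finset.Icc 1 J, b j ^ K₂ * (((2 ^ d).choose j : ℝ) * Real.exp (C * p * j)) +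
        Real.exp (-c * ((2 ^ d : ℕ) : ℝ)) ^ K₂ * Real.exp (C * p * ((2 ^ d : ℕ) : ℝ))) := by
    rw [← trace_eq]
    refine hdec.trans ?_
    rw [htr0, add_assoc]
    refine add_le_add le_rfl (add_le_add ?_ ?_)
    · refine sum_le_sum fun j hj => ?_
      rw [mem_Icc] at hj
      refine mul_le_mul_of_nonneg_left ?_ (pow_nonneg (hb0 j) _)
      have hj' : j ≤ 2 ^ d := hj.2.trans hJ5
      have h1 := hlevtr j hj'
      have h2 := hVj j hj'
      simp only [h2]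
      exact h1
    · have e : Real.exp (-c * 2 ^ d) = Real.exp (-c * ((2 ^ d : ℕ) : ℝ)) := by push_cast; rfl
      rw [e]
      exact mul_le_mul_of_nonneg_left hfull (pow_nonneg (Real.exp_pos _).le _)
  have hn2 := hnum2 (2 ^ d) J hn0 hJ4
  have hfin : ((A d ^ (K₂ + p)).transpose * A d ^ (K₂ + p)).trace ≤ 1 + 1 / 4 :=
    hmain.trans (add_le_add le_rfl hn2)
  exact hfin

end Vale.Agent.P162c
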