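import Mathlib
import Vale.Agent.P162c.Defs
import Vale.Agent.P162c.Defs2
import Vale.Agent.P162.Basic

/-!
P162c, module GRAM.
-/

namespace Vale.Agent.P162c

open Finset Vale.Agent.P162

namespace GramAux

/-! ### intertwining -/

section Intertwine

variable {I : Type} [Fintype I] [DecidableEq I]
variable {Y : Type} [Fintype Y] [DecidableEq Y] [MulAction (Equiv.Perm (I → Bool)) Y]
variable {Y' : Type} [Fintype Y'] [DecidableEq Y'] [MulAction (Equiv.Perm (I → Bool)) Y']

lemma sw_mul_self (j : I) (s : (I → Bool) → Bool) : sw j s * sw j s = 1 := by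
  ext x : 1
  exact swFun_swFun j s x

lemma pm_mulVec (j : I) (ψ : Y → ℝ) (y : Y) :
    (Pm Y j).mulVec ψ y = avg (fun s : (I → Bool) → Bool => ψ (sw j s • y)) := by
  simp only [Matrix.mulVec, dotProduct, Pm, avg]
  simp_rw [div_mul_eq_mul_div, Finset.sum_mul]
  rw [← Finset.sum_div, Finset.sum_comm]
  congr 1
  refine Finset.sum_congr rfl fun s _ => ?_
  simp [ite_mul]

lemma pm_transpose (j : I) : (Pm Y j).transpose = Pm Y j := by
  ext y y'
  simp only [Matrix.transpose_apply, Pm]
  congr 1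
  funext s
  congr 1
  have h1 : sw j s • (sw j s • y) = y := by rw [← mul_smul, sw_mul_self, one_smul]
  have h2 : sw j s • (sw j s • y') = y' := by rw [← mul_smul, sw_mul_self, one_smul]
  apply propext
  constructor
  · intro h; rw [← h, h2]
  · intro h; rw [← h, h1]

lemma pm_comp (π : Y → Y') (hπ : ∀ (g : Equiv.Perm (I → Bool)) y, π (g • y) = g • π y)
    (j : I) (ψ : Y' → ℝ) :
    (Pm Y j).mulVec (ψ ∘ π) = ((Pm Y' j).mulVec ψ) ∘ π := by
  funext y
  rw [Function.comp_apply, pm_mulVec, pm_mulVec]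
  simp [hπ]

lemma tm_comp (π : Y → Y') (hπ : ∀ (g : Equiv.Perm (I → Bool)) y, π (g • y) = g • π y)
    (l : List I) (ψ : Y' → ℝ) :
    (Tm Y l).mulVec (ψ ∘ π) = ((Tm Y' l).mulVec ψ) ∘ π := by
  induction l generalizing ψ with
  | nil => simp [Tm]
  | cons j l ih =>
    simp only [Tm]
    rw [← Matrix.mulVec_mulVec, pm_comp π hπ, ih, Matrix.mulVec_mulVec]

lemma tmT_comp (π : Y → Y') (hπ : ∀ (g : Equiv.Perm (I → Bool)) y, π (g • y) = g • π y)
    (l : List I) (ψ : Y' → ℝ) :
    (Tm Y l).transpose.mulVec (ψ ∘ π) = ((Tm Y' l).transpose.mulVec ψ) ∘ π := by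
  induction l generalizing ψ with
  | nil => simp [Tm]
  | cons j l ih =>
    simp only [Tm]
    rw [Matrix.transpose_mul, ← Matrix.mulVec_mulVec, ih, pm_transpose, pm_comp π hπ,
      Matrix.transpose_mul, pm_transpose, Matrix.mulVec_mulVec]

lemma qm_comp (π : Y → Y') (hπ : ∀ (g : Equiv.Perm (I → Bool)) y, π (g • y) = g • π y)
    (l : List I) (ψ : Y' → ℝ) :
    (Qm Y l).mulVec (ψ ∘ π) = ((Qm Y' l).mulVec ψ) ∘ π := by
  simp only [Qm]
  rw [← Matrix.mulVec_mulVec, tm_comp π hπ, tmT_comp π hπ, Matrix.mulVec_mulVec]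

end Intertwine

/-! ### linear algebra -/

section LinAlg

variable {Y : Type} [Fintype Y] [DecidableEq Y] {R : Type} [Fintype R]

/-- frame bound from a Gram bound (Schur test) -/
lemma frame_bound (f : R → Y → ℝ) (Λ : ℝ) (hΛ : 0 ≤ Λ)
    (hG : ∀ r, ∑ r', |∑ y, f r y * f r' y| ≤ Λ) (v : Y → ℝ) :
    ∑ r, (∑ y, f r y * v y) ^ 2 ≤ Λ * ∑ y, v y ^ 2 := by
  set c : R → ℝ := fun r => ∑ y, f r y * v y with hc
  set S : ℝ := ∑ r, c r ^ 2 with hS
  have hS0 : 0 ≤ S := Finset.sum_nonneg fun r _ => sq_nonneg _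
  have hV0 : 0 ≤ ∑ y, v y ^ 2 := Finset.sum_nonneg fun r _ => sq_nonneg _
  set w : Y → ℝ := fun y => ∑ r, c r * f r y with hw
  have h1 : S = ∑ y, w y * v y := by
    simp only [hw, hS, Finset.sum_mul]
    rw [Finset.sum_comm]
    refine Finset.sum_congr rfl fun r _ => ?_
    rw [pow_two]
    nth_rewrite 2 [hc]
    simp only
    rw [Finset.mul_sum]
    refine Finset.sum_congr rfl fun y _ => by ring
  have h2 : ∑ y, w y ^ 2 ≤ Λ * S := by
    have e1 : ∑ y, w y ^ 2 = ∑ r, ∑ r', c r * c r' * (∑ y, f r y * f r' y) := by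
      simp only [hw, pow_two, Finset.sum_mul_sum]
      rw [Finset.sum_comm]
      refine Finset.sum_congr rfl fun r _ => ?_
      rw [Finset.sum_comm]
      refine Finset.sum_congr rfl fun r' _ => ?_
      rw [Finset.mul_sum]
      refine Finset.sum_congr rfl fun y _ => by ring
    rw [e1]
    have e2 : ∀ r r', c r * c r' * (∑ y, f r y * f r' y) ≤
        (1 / 2) * (c r ^ 2 * |∑ y, f r y * f r' y|) +
          (1 / 2) * (c r' ^ 2 * |∑ y, f r' y * f r y|) := by
      intro r r'
      have hs : (∑ y, f r' y * f r y) = ∑ y, f r y * f r' y :=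
        Finset.sum_congr rfl fun y _ => mul_comm _ _
      rw [hs]
      set g := ∑ y, f r y * f r' y
      have h3 : c r * c r' * g ≤ |c r| * |c r'| * |g| := by
        rw [← abs_mul, ← abs_mul]; exact le_abs_self _
      have h4 : |c r| * |c r'| ≤ (1 / 2) * c r ^ 2 + (1 / 2) * c r' ^ 2 := by
        have := sq_nonneg (|c r| - |c r'|)
        have a1 := sq_abs (c r)
        have a2 := sq_abs (c r')
        nlinarith
      have h5 := mul_le_mul_of_nonneg_right h4 (abs_nonneg g)
      linarith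
    calc ∑ r, ∑ r', c r * c r' * (∑ y, f r y * f r' y)
        ≤ ∑ r, ∑ r', ((1 / 2) * (c r ^ 2 * |∑ y, f r y * f r' y|) +
          (1 / 2) * (c r' ^ 2 * |∑ y, f r' y * f r y|)) :=
          Finset.sum_le_sum fun r _ => Finset.sum_le_sum fun r' _ => e2 r r'
      _ = ∑ r, c r ^ 2 * ∑ r', |∑ y, f r y * f r' y| := by
          simp_rw [Finset.sum_add_distrib]
          have : ∑ r, ∑ r', (1 / 2) * (c r' ^ 2 * |∑ y, f r' y * f r y|) =
              ∑ r, ∑ r', (1 / 2) * (c r ^ 2 * |∑ y, f r y * f r' y|) := by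
            rw [Finset.sum_comm]
          rw [this, ← Finset.sum_add_distrib]
          refine Finset.sum_congr rfl fun r _ => ?_
          rw [← Finset.sum_add_distrib, Finset.mul_sum]
          refine Finset.sum_congr rfl fun r' _ => by ring
      _ ≤ ∑ r, c r ^ 2 * Λ :=
          Finset.sum_le_sum fun r _ => mul_le_mul_of_nonneg_left (hG r) (sq_nonneg _)
      _ = Λ * S := by rw [← Finset.sum_mul]; ring
  have h3 : S ^ 2 ≤ (∑ y, w y ^ 2) * ∑ y, v y ^ 2 := by
    rw [h1]
    exact Finset.sum_mul_sq_le_sq_mul_sq _ _ _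
  have h4 : S ^ 2 ≤ (Λ * S) * ∑ y, v y ^ 2 :=
    h3.trans (mul_le_mul_of_nonneg_right h2 hV0)
  rcases hS0.lt_or_eq with h | h
  · have : S * S ≤ S * (Λ * ∑ y, v y ^ 2) := by nlinarith
    exact le_of_mul_le_mul_left this h
  · rw [← h]; positivity

/-- trace bound for a PSD matrix against a frame -/
lemma trace_bound (M : Matrix Y Y ℝ) (hM : ∃ B : Matrix Y Y ℝ, M = B.transpose * B)
    (f : R → Y → ℝ) (Λ : ℝ) (hΛ : 0 ≤ Λ)
    (hG : ∀ r, ∑ r', |∑ y, f r y * f r' y| ≤ Λ) :
    ∑ r, ∑ y, f r y * (M.mulVec (f r)) y ≤ Λ * M.trace := by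
  obtain ⟨B, hBt⟩ := hM
  have e1 : ∀ r, ∑ y, f r y * (M.mulVec (f r)) y = ∑ z, (∑ y, f r y * B z y) ^ 2 := by
    intro r
    have : ∑ y, f r y * (M.mulVec (f r)) y = dotProduct (f r) (M.mulVec (f r)) := rfl
    rw [this, hBt, ← Matrix.mulVec_mulVec, Matrix.dotProduct_mulVec, Matrix.vecMul_transpose]
    simp only [dotProduct, Matrix.mulVec]
    refine Finset.sum_congr rfl fun z _ => ?_
    rw [pow_two]
    congr 1 <;> exact Finset.sum_congr rfl fun y _ => mul_comm _ _
  have e2 : M.trace = ∑ z, ∑ y, B z y ^ 2 := by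
    rw [hBt, Matrix.trace]
    simp only [Matrix.diag_apply, Matrix.mul_apply, Matrix.transpose_apply]
    rw [Finset.sum_comm]
    refine Finset.sum_congr rfl fun z _ => Finset.sum_congr rfl fun y _ => by ring
  simp_rw [e1]
  rw [Finset.sum_comm, e2, Finset.mul_sum]
  exact Finset.sum_le_sum fun z _ => frame_bound f Λ hΛ hG (fun y => B z y)

lemma pow_factor (T : Matrix Y Y ℝ) (p : ℕ) :
    ∃ B : Matrix Y Y ℝ, (T.transpose * T) ^ p = B.transpose * B := by
  have hs : ∀ k : ℕ, ((T.transpose * T) ^ k).transpose = (T.transpose * T) ^ k := by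
    intro k
    rw [Matrix.transpose_pow, Matrix.transpose_mul, Matrix.transpose_transpose]
  rcases Nat.even_or_odd p with ⟨k, hk⟩ | ⟨k, hk⟩
  · exact ⟨(T.transpose * T) ^ k, by rw [hs, hk, pow_add]⟩
  · refine ⟨T * (T.transpose * T) ^ k, ?_⟩
    rw [Matrix.transpose_mul, hs, hk, pow_succ, two_mul, pow_add]
    have hc : (T.transpose * T) ^ k * (T.transpose * T) = (T.transpose * T) * (T.transpose * T) ^ k :=
      (Commute.pow_self _ k).eq
    simp only [Matrix.mul_assoc] at hc ⊢
    rw [hc]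

end LinAlg

/-! ### the embeddings `i ↦ (i, r i)` -/

/-- section of the projection -/
def er {j m : ℕ} (r : Fin j → Fin m) : Fin j ↪ (Fin j × Fin m) where
  toFun i := (i, r i)
  inj' := fun a b h => (Prod.mk.inj h).1

lemma er_mem {j m : ℕ} (r r' : Fin j → Fin m) (i : Fin j) :
    er r' i ∉ Set.range (er r) ↔ r' i ≠ r i := by
  rw [not_iff_not]
  constructor
  · rintro ⟨i', h⟩
    have h1 : i' = i := congrArg Prod.fst h
    subst h1
    exact (congrArg Prod.snd h).symm
  · intro h
    exact ⟨i, by show (i, r i) = (i, r' i); rw [h]⟩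

lemma sum_pow_diff {j m : ℕ} (hm : 1 ≤ m) (r : Fin j → Fin m) (B : ℝ) :
    ∑ r' : Fin j → Fin m, B ^ (univ.filter (fun i => r' i ≠ r i)).card =
      (1 + (m - 1) * B) ^ j := by
  have h1 : ∀ r' : Fin j → Fin m, B ^ (univ.filter (fun i => r' i ≠ r i)).card =
      ∏ i, (if r' i ≠ r i then B else 1) := by
    intro r'
    rw [Finset.prod_ite]
    simp
  simp_rw [h1]
  have h2 := (Finset.prod_univ_sum (fun _ : Fin j => (univ : Finset (Fin m)))
    (fun i a => if a ≠ r i then B else 1)).symm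
  rw [Fintype.piFinset_univ] at h2
  rw [h2]
  have h3 : ∀ i : Fin j, ∑ a : Fin m, (if a ≠ r i then B else 1) = 1 + (m - 1) * B := by
    intro i
    rw [← Finset.add_sum_erase _ _ (Finset.mem_univ (r i))]
    rw [if_neg (by simp)]
    congr 1
    rw [Finset.sum_congr rfl (g := fun _ => B)]
    · rw [Finset.sum_const, Finset.card_erase_of_mem (Finset.mem_univ _), Finset.card_univ,
        Fintype.card_fin, nsmul_eq_mul, Nat.cast_sub hm]
      simp
    · intro a ha
      rw [if_pos (Finset.ne_of_mem_erase ha)]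
  simp_rw [h3]
  simp

end GramAux

open GramAux

theorem gram (hG1 : S_GRAM1) : S_GRAM := by
  intro d j m p x φ hj hm hk hφ hnew hx heig
  have hcardO : Fintype.card (Fin d → Bool) = 2 ^ d := by simp
  have hcardι : Fintype.card (Fin j × Fin m) = j * m := by simp
  have hk' : 4 * Fintype.card (Fin j × Fin m) ≤ Fintype.card (Fin d → Bool) := by
    rw [hcardO, hcardι]; exact hk
  -- the functions
  let f : (Fin j → Fin m) → ((Fin j × Fin m) ↪ (Fin d → Bool)) → ℝ := fun r X => φ ((er r).trans X)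
  have hf : ∀ r, f r = φ ∘ (fun X : (Fin j × Fin m) ↪ (Fin d → Bool) => (er r).trans X) := fun r => rfl
  set Q := Qm ((Fin j × Fin m) ↪ (Fin d → Bool)) (List.finRange d) with hQ
  have hQf : ∀ r, Q.mulVec (f r) = x • f r := by
    intro r
    rw [hf, hQ, qm_comp (fun X : (Fin j × Fin m) ↪ (Fin d → Bool) => (er r).trans X) (fun g X => rfl), heig]
    rfl
  have hQp : ∀ r, (Q ^ p).mulVec (f r) = x ^ p • f r := by
    intro r
    induction p with
    | zero => simp
    | succ p ih =>
      rw [pow_succ, ← Matrix.mulVec_mulVec, hQf, Matrix.mulVec_smul, ih, smul_smul, pow_succ,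
        mul_comm]
  have hQppsd : ∃ B, Q ^ p = Matrix.transpose B * B := pow_factor _ p
  -- norms
  let r0 : Fin j → Fin m := fun _ => ⟨0, hm⟩
  set N : ℝ := ∑ X : (Fin j × Fin m) ↪ (Fin d → Bool), f r0 X ^ 2 with hN
  have hNr : ∀ r, ∑ X : (Fin j × Fin m) ↪ (Fin d → Bool), f r X ^ 2 = N := by
    intro r
    let σ : Equiv.Perm (Fin j × Fin m) :=
      { toFun := fun q => (q.1, Equiv.swap (r q.1) (r0 q.1) q.2)
        invFun := fun q => (q.1, Equiv.swap (r q.1) (r0 q.1) q.2)
        left_inv := fun q => by simp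
        right_inv := fun q => by simp }
    let e : ((Fin j × Fin m) ↪ (Fin d → Bool)) ≃ ((Fin j × Fin m) ↪ (Fin d → Bool)) :=
      Equiv.embeddingCongr σ (Equiv.refl _)
    rw [hN, ← Equiv.sum_comp e (fun X => f r0 X ^ 2)]
    refine Finset.sum_congr rfl fun X _ => ?_
    have : (er r).trans X = (er r0).trans (e X) := by
      ext i : 1
      show X (i, r i) = (e X) (i, r0 i)
      have h1 : (e X) (i, r0 i) = X (σ.symm (i, r0 i)) := rfl
      rw [h1]
      congr 1
      show (i, r i) = (i, Equiv.swap (r i) (r0 i) (r0 i))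
      rw [Equiv.swap_apply_right]
    show φ ((er r).trans X) ^ 2 = φ ((er r0).trans (e X)) ^ 2
    rw [this]
  have hNpos : 0 < N := by
    obtain ⟨Z, hZ⟩ := Function.ne_iff.1 hφ
    have hne : Nonempty ((Fin j × Fin m) ↪ (Fin d → Bool)) := by
      apply Function.Embedding.nonempty_of_card_le
      omega
    obtain ⟨X0⟩ := hne
    obtain ⟨g, hg⟩ := (MulAction.isMultiplyPretransitive_iff (G := Equiv.Perm (Fin d → Bool))).1
      (Equiv.Perm.isMultiplyPretransitive (Fin d → Bool) j) ((er r0).trans X0) Z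
    rw [hN]
    apply Finset.sum_pos' (fun _ _ => sq_nonneg _)
    refine ⟨g • X0, Finset.mem_univ _, ?_⟩
    have : f r0 (g • X0) = φ Z := by
      show φ ((er r0).trans (g • X0)) = φ Z
      rw [← hg]; rfl
    rw [this]
    have : φ Z ≠ 0 := hZ
    positivity
  set B : ℝ := 2 * (j : ℝ) / Fintype.card (Fin d → Bool) with hB
  have hOpos : (0 : ℝ) < Fintype.card (Fin d → Bool) := by
    rw [hcardO]; positivity
  have hB0 : 0 ≤ B := by positivity
  have hrow : ∀ r, ∑ r', |∑ X, f r X * f r' X| ≤ 2 ^ j * N := by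
    intro r
    have h1 : ∀ r', |∑ X, f r X * f r' X| ≤
        B ^ (univ.filter (fun i => r' i ≠ r i)).card * N := by
      intro r'
      have h := hG1 (Fin d → Bool) (Fin j × Fin m) j φ hnew (er r) (er r') hk'
      have h2 : (univ.filter (fun i => er r' i ∉ Set.range (er r))) =
          univ.filter (fun i => r' i ≠ r i) := by
        ext i
        simp only [Finset.mem_filter, Finset.mem_univ, true_and]
        exact er_mem r r' i
      rw [h2] at h
      rw [← hNr r]
      exact h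
    calc ∑ r', |∑ X, f r X * f r' X|
        ≤ ∑ r' : Fin j → Fin m, B ^ (univ.filter (fun i => r' i ≠ r i)).card * N :=
          Finset.sum_le_sum fun r' _ => h1 r'
      _ = (1 + (m - 1) * B) ^ j * N := by rw [← Finset.sum_mul, sum_pow_diff hm]
      _ ≤ 2 ^ j * N := by
          apply mul_le_mul_of_nonneg_right _ hNpos.le
          have hm1 : (1 : ℝ) ≤ m := by exact_mod_cast hm
          apply pow_le_pow_left₀
          · have : 0 ≤ ((m : ℝ) - 1) * B := mul_nonneg (by linarith) hB0
            linarith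
          · have h5 : ((m : ℝ) - 1) * B ≤ m * B := by nlinarith
            have h6 : (m : ℝ) * B ≤ 1 := by
              rw [hB, ← mul_div_assoc, div_le_one hOpos, hcardO]
              have : (4 * (j * m) : ℝ) ≤ 2 ^ d := by exact_mod_cast hk
              push_cast
              have hjm : (0 : ℝ) ≤ (j : ℝ) * m := by positivity
              nlinarith
            linarith
  have key := trace_bound (Q ^ p) hQppsd f (2 ^ j * N) (by positivity) hrow
  have hlhs : ∑ r, ∑ X, f r X * ((Q ^ p).mulVec (f r)) X = x ^ p * (m : ℝ) ^ j * N := by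
    have : ∀ r, ∑ X, f r X * ((Q ^ p).mulVec (f r)) X = x ^ p * N := by
      intro r
      rw [hQp, ← hNr r, Finset.mul_sum]
      refine Finset.sum_congr rfl fun X _ => ?_
      simp only [Pi.smul_apply, smul_eq_mul]
      ring
    simp_rw [this]
    rw [Finset.sum_const, Finset.card_univ, Fintype.card_fun, Fintype.card_fin, Fintype.card_fin,
      nsmul_eq_mul]
    push_cast
    ring
  rw [hlhs] at key
  have : x ^ p * (m : ℝ) ^ j * N ≤ (2 ^ j * (Q ^ p).trace) * N := by
    calc _ ≤ _ := key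
      _ = _ := by ring
  exact le_of_mul_le_mul_right this hNpos

end Vale.Agent.P162c

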