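import Mathlib
import Vale.Agent.P162c.Defs2

/-!
P162 (Thorp shuffle), module GRAM1: entry bound for the Gram matrix of new token functions.
-/

namespace Vale.Agent.P162c

open Finset Vale.Agent.P162

namespace Gram1

set_option linter.unusedSectionVars false

variable {Ω : Type} [Fintype Ω] [DecidableEq Ω] {j : ℕ}

/-- extension by zero to all functions -/
noncomputable def ex (φ : (Fin j ↪ Ω) → ℝ) (y : Fin j → Ω) : ℝ :=
  open Classical in if h : Function.Injective y then φ ⟨y, h⟩ else 0

theorem ex_inj (φ : (Fin j ↪ Ω) → ℝ) {y : Fin j → Ω} (h : Function.Injective y) :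
    ex φ y = φ ⟨y, h⟩ := by
  unfold ex; rw [dif_pos h]

theorem ex_not (φ : (Fin j ↪ Ω) → ℝ) {y : Fin j → Ω} (h : ¬ Function.Injective y) :
    ex φ y = 0 := by
  unfold ex; rw [dif_neg h]

theorem new_sum {φ : (Fin j ↪ Ω) → ℝ} (hφ : New φ) (i0 : Fin j) (y : Fin j → Ω) :
    ∑ x, ex φ (Function.update y i0 x) = 0 := by
  classical
  by_cases h : ∃ x0, Function.Injective (Function.update y i0 x0)
  · obtain ⟨x0, h0⟩ := h
    have h1 := hφ i0 ⟨Function.update y i0 x0, h0⟩
    rw [← h1]
    have h2 : ∑ x, ex φ (Function.update y i0 x) =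
        ∑ x ∈ univ.filter (fun x => Function.Injective (Function.update y i0 x)),
          ex φ (Function.update y i0 x) := by
      symm
      refine Finset.sum_filter_of_ne fun x _ hne => ?_
      by_contra hinj
      exact hne (ex_not φ hinj)
    rw [h2]
    refine Finset.sum_bij (fun x hx => ⟨Function.update y i0 x, (mem_filter.mp hx).2⟩) ?_ ?_ ?_ ?_
    · intro x hx
      rw [mem_filter]
      refine ⟨mem_univ _, fun i' hi' => ?_⟩
      simp only [Function.Embedding.coeFn_mk]
      rw [Function.update_of_ne hi', Function.update_of_ne hi']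
    · intro x hx x' hx' he
      have := congrArg (fun Y : Fin j ↪ Ω => Y i0) he
      simpa using this
    · intro Y hY
      have hY2 := (mem_filter.mp hY).2
      simp only [Function.Embedding.coeFn_mk] at hY2
      have e : Function.update y i0 (Y i0) = Y := by
        funext i
        by_cases hi : i = i0
        · subst hi; simp
        · rw [Function.update_of_ne hi, hY2 i hi, Function.update_of_ne hi]
      refine ⟨Y i0, ?_, ?_⟩
      · rw [mem_filter]
        exact ⟨mem_univ _, by rw [e]; exact Y.injective⟩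
      · ext i
        simp only [Function.Embedding.coeFn_mk]
        rw [e]
    · intro x hx
      rw [ex_inj]
  · refine Finset.sum_eq_zero fun x _ => ?_
    exact ex_not φ fun hx => h ⟨x, hx⟩

/-- the correlation -/
noncomputable def SS (φ : (Fin j ↪ Ω) → ℝ) {ι : Type} [Fintype ι] [DecidableEq ι]
    (e e' : Fin j → ι) : ℝ :=
  ∑ X : ι ↪ Ω, ex φ (X ∘ e) * ex φ (X ∘ e')

theorem SS_equiv (φ : (Fin j ↪ Ω) → ℝ) {ι κ : Type} [Fintype ι] [DecidableEq ι] [Fintype κ]
    [DecidableEq κ] (E : ι ≃ κ) (e e' : Fin j → ι) :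
    SS φ (E ∘ e) (E ∘ e') = SS φ e e' := by
  unfold SS
  refine (Fintype.sum_equiv (E.embeddingCongr (Equiv.refl Ω)) _ _ fun X => ?_).symm
  have h : ∀ g : Fin j → ι, ((E.embeddingCongr (Equiv.refl Ω)) X : κ → Ω) ∘ (E ∘ g) = X ∘ g := by
    intro g
    funext i
    simp
  rw [h, h]

/-- number of indices of `e'` outside the range of `e` -/
def uu {ι : Type} [Fintype ι] [DecidableEq ι] (e e' : Fin j → ι) : ℕ :=
  (univ.filter (fun i => ∀ i', e i' ≠ e' i)).card

theorem SS_option {κ : Type} [Fintype κ] [DecidableEq κ]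
    (F : (κ ↪ Ω) → Ω → ℝ) :
    ∑ X : Option κ ↪ Ω, F (Function.Embedding.some.trans X) (X none) =
      ∑ f : κ ↪ Ω, ((∑ x, F f x) - ∑ τ, F f (f τ)) := by
  classical
  have h1 : ∑ X : Option κ ↪ Ω, F (Function.Embedding.some.trans X) (X none) =
      ∑ p : (Σ f : κ ↪ Ω, ↥(Set.range f)ᶜ), F p.1 (p.2 : Ω) :=
    Fintype.sum_equiv (Function.Embedding.optionEmbeddingEquiv κ Ω) _ _ fun X => rfl
  rw [h1, Fintype.sum_sigma]
  refine Finset.sum_congr rfl fun f _ => ?_
  have h2 : ∑ x : ↥(Set.range f)ᶜ, F f (x : Ω) = ∑ x ∈ univ.filter (fun x => x ∉ Set.range f), F f x := by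
    rw [Finset.sum_subtype (univ.filter (fun x => x ∉ Set.range f)) (p := fun x => x ∈ (Set.range f)ᶜ)
      (fun x => by simp)]
  have h3 : ∑ τ, F f (f τ) = ∑ x ∈ univ.filter (fun x => x ∈ Set.range f), F f x := by
    rw [← Finset.sum_map univ f (fun x => F f x)]
    refine Finset.sum_congr ?_ fun _ _ => rfl
    ext x
    simp
  rw [h2, h3, eq_sub_iff_add_eq, add_comm]
  exact Finset.sum_filter_add_sum_filter_not univ (fun x => x ∈ Set.range f) (F f)

/-- the recursion over the position of a token outside the range of `e` -/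
theorem SS_rec {φ : (Fin j ↪ Ω) → ℝ} (hφ : New φ) {κ : Type} [Fintype κ] [DecidableEq κ]
    (e : Fin j → κ) (e' : Fin j → Option κ) (he' : Function.Injective e') (i0 : Fin j)
    (h0 : e' i0 = none) :
    SS φ (some ∘ e) e' = - ∑ τ, SS φ e (fun i => (e' i).getD τ) := by
  classical
  have h1 := SS_option (Ω := Ω) (κ := κ) (fun f x =>
    ex φ (f ∘ e) * ex φ (fun i => ((e' i).map f).getD x))
  have h2 : SS φ (some ∘ e) e' = ∑ X : Option κ ↪ Ω,
      ex φ (Function.Embedding.some.trans X ∘ e) *
        ex φ (fun i => ((e' i).map (Function.Embedding.some.trans X)).getD (X none)) := by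
    unfold SS
    refine Finset.sum_congr rfl fun X _ => ?_
    have a : (X ∘ (some ∘ e) : Fin j → Ω) = Function.Embedding.some.trans X ∘ e := rfl
    have b : (X ∘ e' : Fin j → Ω) =
        fun i => ((e' i).map (Function.Embedding.some.trans X)).getD (X none) := by
      funext i
      rcases h : e' i with _ | t
      · simp [h]
      · simp [h]
    rw [a, b]
  rw [h2, h1]
  have h3 : ∀ f : κ ↪ Ω, ∑ x, ex φ (fun i => ((e' i).map f).getD x) = 0 := by
    intro f
    rcases isEmpty_or_nonempty Ω with hΩ | ⟨⟨x0⟩⟩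
    · simp
    · have := new_sum hφ i0 (fun i => ((e' i).map f).getD x0)
      rw [← this]
      refine Finset.sum_congr rfl fun x _ => ?_
      congr 1
      funext i
      by_cases hi : i = i0
      · subst hi; simp [h0]
      · rw [Function.update_of_ne hi]
        rcases h : e' i with _ | t
        · exact absurd (he' (h.trans h0.symm)) hi
        · simp
  have h4 : ∀ f : κ ↪ Ω, (∑ x, ex φ (f ∘ e) * ex φ (fun i => ((e' i).map f).getD x)) = 0 := by
    intro f
    rw [← Finset.mul_sum, h3, mul_zero]
  simp_rw [h4, zero_sub]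
  rw [Finset.sum_neg_distrib, Finset.sum_comm]
  congr 1
  refine Finset.sum_congr rfl fun τ _ => ?_
  unfold SS
  refine Finset.sum_congr rfl fun f _ => ?_
  congr 2
  funext i
  rcases h : e' i with _ | t <;> simp [h]

theorem SS_norm_option (φ : (Fin j ↪ Ω) → ℝ) {κ : Type} [Fintype κ] [DecidableEq κ]
    (e : Fin j → κ) :
    SS φ (some ∘ e) (some ∘ e) = ((Fintype.card Ω : ℝ) - Fintype.card κ) * SS φ e e := by
  have h1 := SS_option (Ω := Ω) (κ := κ) (fun f _ => ex φ (f ∘ e) * ex φ (f ∘ e))
  have h2 : SS φ (some ∘ e) (some ∘ e) = ∑ X : Option κ ↪ Ω,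
      ex φ (Function.Embedding.some.trans X ∘ e) * ex φ (Function.Embedding.some.trans X ∘ e) := rfl
  rw [h2, h1]
  unfold SS
  rw [Finset.mul_sum]
  refine Finset.sum_congr rfl fun f _ => ?_
  simp only [Finset.sum_const, Finset.card_univ, nsmul_eq_mul]
  ring

theorem SS_not_left (φ : (Fin j ↪ Ω) → ℝ) {ι : Type} [Fintype ι] [DecidableEq ι]
    {e : Fin j → ι} (e' : Fin j → ι) (he : ¬ Function.Injective e) : SS φ e e' = 0 := by
  refine Finset.sum_eq_zero fun X _ => ?_
  rw [ex_not φ (fun h => he h.of_comp), zero_mul]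

theorem SS_not_right (φ : (Fin j ↪ Ω) → ℝ) {ι : Type} [Fintype ι] [DecidableEq ι]
    (e : Fin j → ι) {e' : Fin j → ι} (he : ¬ Function.Injective e') : SS φ e e' = 0 := by
  refine Finset.sum_eq_zero fun X _ => ?_
  rw [ex_not φ (fun h => he h.of_comp), mul_zero]

theorem SS_self_nonneg (φ : (Fin j ↪ Ω) → ℝ) {ι : Type} [Fintype ι] [DecidableEq ι]
    (e : Fin j → ι) : 0 ≤ SS φ e e :=
  Finset.sum_nonneg fun X _ => mul_self_nonneg _

theorem SS_self_eq (φ : (Fin j ↪ Ω) → ℝ) {ι : Type} [Fintype ι] [DecidableEq ι]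
    {e e' : Fin j → ι} (he : Function.Injective e) (he' : Function.Injective e') :
    SS φ e' e' = SS φ e e := by
  obtain ⟨σ, hσ⟩ := Equiv.Perm.exists_extending_pair e e' he he'
  have h : e' = σ ∘ e := by funext i; exact (hσ i).symm
  rw [h]
  exact SS_equiv φ σ e e

theorem SS_zero (φ : (Fin j ↪ Ω) → ℝ) {ι : Type} [Fintype ι] [DecidableEq ι]
    (e e' : Fin j → ι) : |SS φ e e'| ≤ SS φ e e := by
  by_cases he : Function.Injective e
  · by_cases he' : Function.Injective e'
    · have h1 := SS_self_eq φ he he'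
      have h2 : ∀ X : ι ↪ Ω, |ex φ (X ∘ e) * ex φ (X ∘ e')| ≤
          (ex φ (X ∘ e) * ex φ (X ∘ e) + ex φ (X ∘ e') * ex φ (X ∘ e')) / 2 := by
        intro X
        rw [abs_le]
        constructor <;> nlinarith [sq_nonneg (ex φ (X ∘ e) + ex φ (X ∘ e')),
          sq_nonneg (ex φ (X ∘ e) - ex φ (X ∘ e'))]
      calc |SS φ e e'| ≤ ∑ X : ι ↪ Ω, |ex φ (X ∘ e) * ex φ (X ∘ e')| :=
            Finset.abs_sum_le_sum_abs _ _
        _ ≤ ∑ X : ι ↪ Ω, (ex φ (X ∘ e) * ex φ (X ∘ e) + ex φ (X ∘ e') * ex φ (X ∘ e')) / 2 :=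
            Finset.sum_le_sum fun X _ => h2 X
        _ = (SS φ e e + SS φ e' e') / 2 := by
            rw [← Finset.sum_div, Finset.sum_add_distrib]
            rfl
        _ = SS φ e e := by rw [h1]; ring
    · rw [SS_not_right φ e he', abs_zero]
      exact SS_self_nonneg φ e
  · rw [SS_not_left φ e' he, abs_zero]
    exact SS_self_nonneg φ e

/-- indices of `e` outside the range of `e'` are as many as those of `e'` outside the range of `e` -/
theorem card_comm {ι : Type} [Fintype ι] [DecidableEq ι] {e e' : Fin j → ι}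
    (he : Function.Injective e) (he' : Function.Injective e') :
    (univ.filter (fun i => ∀ i', e' i' ≠ e i)).card = uu e e' := by
  classical
  have key : ∀ a b : Fin j → ι, Function.Injective b →
      (univ.filter (fun i => ∀ i', a i' ≠ b i)).card = (univ.image b \ univ.image a).card := by
    intro a b hb
    rw [← Finset.card_image_of_injective _ hb]
    congr 1
    ext t
    simp only [mem_image, mem_filter, mem_univ, true_and, mem_sdiff]
    constructor
    · rintro ⟨i, hi, rfl⟩
      exact ⟨⟨i, rfl⟩, fun ⟨i', hi'⟩ => hi i' hi'⟩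
    · rintro ⟨⟨i, rfl⟩, h⟩
      exact ⟨i, fun i' hi' => h ⟨i', hi'⟩, rfl⟩
  rw [key e' e he]
  unfold uu
  rw [key e e' he']
  refine Finset.card_sdiff_comm ?_
  rw [Finset.card_image_of_injective _ he, Finset.card_image_of_injective _ he']

theorem main {φ : (Fin j ↪ Ω) → ℝ} (hφ : New φ) : ∀ (k : ℕ) (ι : Type) [Fintype ι] [DecidableEq ι],
    Fintype.card ι = k → 4 * k ≤ Fintype.card Ω → ∀ e e' : Fin j → ι,
      |SS φ e e'| ≤ (2 * (j : ℝ) / Fintype.card Ω) ^ (uu e e') * SS φ e e := by
  classical
  intro k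
  induction k with
  | zero =>
    intro ι _ _ hk _ e e'
    have : IsEmpty ι := Fintype.card_eq_zero_iff.mp hk
    have hu : uu e e' = 0 := by
      unfold uu
      rw [Finset.card_eq_zero, Finset.filter_eq_empty_iff]
      intro i _
      exact (this.false (e i)).elim
    rw [hu, pow_zero, one_mul]
    exact SS_zero φ e e'
  | succ k ih =>
    intro ι _ _ hk hn e e'
    set B : ℝ := 2 * (j : ℝ) / Fintype.card Ω with hB
    have hB0 : 0 ≤ B := by positivity
    rcases Nat.eq_zero_or_pos (uu e e') with hu | hu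
    · rw [hu, pow_zero, one_mul]
      exact SS_zero φ e e'
    by_cases he : Function.Injective e
    swap
    · rw [SS_not_left φ e' he, abs_zero]
      exact mul_nonneg (pow_nonneg hB0 _) (SS_self_nonneg φ e)
    by_cases he' : Function.Injective e'
    swap
    · rw [SS_not_right φ e he', abs_zero]
      exact mul_nonneg (pow_nonneg hB0 _) (SS_self_nonneg φ e)
    obtain ⟨i0, hi0⟩ := Finset.card_pos.mp hu
    have hi0 : ∀ i', e i' ≠ e' i0 := (mem_filter.mp hi0).2
    let κ : Type := {τ : ι // τ ≠ e' i0}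
    let E : Option κ ≃ ι := Equiv.optionSubtypeNe (e' i0)
    let eκ : Fin j → κ := fun i => ⟨e i, hi0 i⟩
    let e'' : Fin j → Option κ := E.symm ∘ e'
    have hκ : Fintype.card κ = k := by
      have := Fintype.card_congr E
      rw [Fintype.card_option, hk] at this
      omega
    have he1 : e = E ∘ (some ∘ eκ) := by
      funext i
      exact (Equiv.optionSubtypeNe_some (e' i0) (eκ i)).symm
    have he2 : e' = E ∘ e'' := by
      funext i
      simp [e'']
    have h0 : e'' i0 = none := Equiv.optionSubtypeNe_symm_self (e' i0)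
    have hsome : ∀ i, i ≠ i0 → ∃ h : e' i ≠ e' i0, e'' i = some ⟨e' i, h⟩ := by
      intro i hi
      refine ⟨fun h => hi (he' h), ?_⟩
      simp only [e'', E, Function.comp]
      exact Equiv.optionSubtypeNe_symm_of_ne _
    have he'' : Function.Injective e'' := E.symm.injective.comp he'
    have heκ : Function.Injective eκ := fun a b h => he (congrArg Subtype.val h)
    have hrec : SS φ e e' = - ∑ τ, SS φ eκ (fun i => (e'' i).getD τ) := by
      rw [← SS_rec hφ eκ e'' he'' i0 h0, ← SS_equiv φ E, ← he1, ← he2]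
    have hnorm : SS φ e e = ((Fintype.card Ω : ℝ) - k) * SS φ eκ eκ := by
      rw [← hκ, ← SS_norm_option φ eκ]
      conv_lhs => rw [he1]
      exact SS_equiv φ E _ _
    set N := SS φ eκ eκ with hN
    have hN0 : 0 ≤ N := SS_self_nonneg φ eκ
    -- the exponent
    obtain ⟨u1, hu1⟩ : ∃ u1, uu e e' = u1 + 1 := ⟨uu e e' - 1, by omega⟩
    have hu1' : (univ.filter (fun i => i ≠ i0 ∧ ∀ i', e i' ≠ e' i)).card = u1 := by
      have h1 : univ.filter (fun i => ∀ i', e i' ≠ e' i) =
          insert i0 (univ.filter (fun i => i ≠ i0 ∧ ∀ i', e i' ≠ e' i)) := by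
        ext i
        simp only [mem_filter, mem_univ, true_and, mem_insert]
        constructor
        · intro h
          by_cases hi : i = i0
          · exact Or.inl hi
          · exact Or.inr ⟨hi, h⟩
        · rintro (rfl | h)
          · exact hi0
          · exact h.2
      have h2 : uu e e' = (univ.filter (fun i => i ≠ i0 ∧ ∀ i', e i' ≠ e' i)).card + 1 := by
        unfold uu
        rw [h1, Finset.card_insert_of_notMem (by simp)]
      omega
    have hexp : ∀ τ : κ, uu eκ (fun i => (e'' i).getD τ) =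
        u1 + if (∀ i', eκ i' ≠ τ) then 1 else 0 := by
      intro τ
      unfold uu
      have hg : ∀ i, i ≠ i0 → ((∀ i', eκ i' ≠ (e'' i).getD τ) ↔ ∀ i', e i' ≠ e' i) := by
        intro i hi
        obtain ⟨h, hs⟩ := hsome i hi
        rw [hs]
        refine forall_congr' fun i' => ⟨fun hh hc => hh (Subtype.ext hc),
          fun hh hc => hh (congrArg Subtype.val hc)⟩
      have hg0 : (∀ i', eκ i' ≠ (e'' i0).getD τ) ↔ ∀ i', eκ i' ≠ τ := by
        rw [h0]; rfl
      split_ifs with hτ
      · have h1 : univ.filter (fun i => ∀ i', eκ i' ≠ (e'' i).getD τ) =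
            insert i0 (univ.filter (fun i => i ≠ i0 ∧ ∀ i', e i' ≠ e' i)) := by
          ext i
          simp only [mem_filter, mem_univ, true_and, mem_insert]
          by_cases hi : i = i0
          · subst hi
            simp only [true_or, iff_true]
            exact hg0.mpr hτ
          · rw [hg i hi]
            simp [hi]
        rw [h1, Finset.card_insert_of_notMem (by simp), hu1']
      · have h1 : univ.filter (fun i => ∀ i', eκ i' ≠ (e'' i).getD τ) =
            (univ.filter (fun i => i ≠ i0 ∧ ∀ i', e i' ≠ e' i)) := by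
          ext i
          simp only [mem_filter, mem_univ, true_and]
          by_cases hi : i = i0
          · subst hi
            simp only [ne_eq, not_true_eq_false, false_and, iff_false]
            exact fun h => hτ (hg0.mp h)
          · rw [hg i hi]
            simp [hi]
        rw [h1, hu1', add_zero]
    -- the number of bad positions
    have hcount : (univ.filter (fun τ : κ => ¬ (∀ i', eκ i' ≠ τ) ∧
        Function.Injective (fun i => (e'' i).getD τ))).card ≤ u1 + 1 := by
      rw [← hu1, ← card_comm he he']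
      refine le_trans (Finset.card_le_card (t := (univ.filter (fun i => ∀ i', e' i' ≠ e i)).image eκ)
        ?_) Finset.card_image_le
      intro τ hτ
      obtain ⟨hτ1, hτ2⟩ := (mem_filter.mp hτ).2
      push Not at hτ1
      obtain ⟨i', hi'⟩ := hτ1
      rw [mem_image]
      refine ⟨i', ?_, hi'⟩
      rw [mem_filter]
      refine ⟨mem_univ _, fun i => ?_⟩
      intro hcon
      by_cases hi : i = i0
      · subst hi
        exact hi0 i' hcon.symm
      · obtain ⟨h, hs⟩ := hsome i hi
        have h1 : (e'' i).getD τ = (e'' i0).getD τ := by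
          rw [hs, h0, Option.getD_some, Option.getD_none, ← hi']
          exact Subtype.ext hcon
        exact hi (hτ2 h1)
    -- the bound of each term
    have hterm : ∀ τ : κ, |SS φ eκ (fun i => (e'' i).getD τ)| ≤
        (B ^ u1 * (if (¬ (∀ i', eκ i' ≠ τ) ∧ Function.Injective (fun i => (e'' i).getD τ))
          then 1 else 0) + B ^ (u1 + 1)) * N := by
      intro τ
      have h1 := ih κ hκ (by omega) eκ (fun i => (e'' i).getD τ)
      have hp0 : 0 ≤ B ^ u1 := pow_nonneg hB0 _
      have hp1 : 0 ≤ B ^ (u1 + 1) := pow_nonneg hB0 _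
      by_cases hτ2 : Function.Injective (fun i => (e'' i).getD τ)
      · rw [hexp] at h1
        by_cases hτ1 : ∀ i', eκ i' ≠ τ
        · rw [if_pos hτ1] at h1
          refine h1.trans ?_
          refine mul_le_mul_of_nonneg_right ?_ hN0
          have : 0 ≤ B ^ u1 * (if (¬ (∀ i', eκ i' ≠ τ) ∧
              Function.Injective (fun i => (e'' i).getD τ)) then (1 : ℝ) else 0) := by
            refine mul_nonneg hp0 ?_
            split_ifs <;> norm_num
          linarith
        · rw [if_neg hτ1, add_zero] at h1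
          rw [if_pos ⟨hτ1, hτ2⟩, mul_one]
          refine h1.trans (mul_le_mul_of_nonneg_right ?_ hN0)
          linarith
      · rw [SS_not_right φ eκ hτ2, abs_zero]
        refine mul_nonneg ?_ hN0
        refine add_nonneg (mul_nonneg hp0 ?_) hp1
        split_ifs <;> norm_num
    have hsum : |SS φ e e'| ≤ (B ^ u1 * ((u1 : ℝ) + 1) + (k : ℝ) * B ^ (u1 + 1)) * N := by
      rw [hrec, abs_neg]
      refine (Finset.abs_sum_le_sum_abs _ _).trans ((Finset.sum_le_sum fun τ _ => hterm τ).trans ?_)
      rw [← Finset.sum_mul]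
      refine mul_le_mul_of_nonneg_right ?_ hN0
      rw [Finset.sum_add_distrib, ← Finset.mul_sum, Finset.sum_boole, Finset.sum_const,
        Finset.card_univ, hκ, nsmul_eq_mul]
      have : ((univ.filter (fun τ : κ => ¬ (∀ i', eκ i' ≠ τ) ∧
          Function.Injective (fun i => (e'' i).getD τ))).card : ℝ) ≤ (u1 : ℝ) + 1 := by
        exact_mod_cast hcount
      have h2 := mul_le_mul_of_nonneg_left this (pow_nonneg hB0 u1)
      linarith
    rw [hu1, hnorm]
    refine hsum.trans ?_
    rw [← mul_assoc]
    refine mul_le_mul_of_nonneg_right ?_ hN0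
    have hj : (u1 : ℝ) + 1 ≤ j := by
      have h1 : uu e e' ≤ j := by
        unfold uu
        exact (Finset.card_le_univ _).trans (by simp)
      rw [hu1] at h1
      exact_mod_cast h1
    have hnpos : (0 : ℝ) < Fintype.card Ω := by
      have : 0 < Fintype.card Ω := by omega
      exact_mod_cast this
    have hn' : 4 * ((k : ℝ) + 1) ≤ Fintype.card Ω := by exact_mod_cast hn
    have hBn : B * Fintype.card Ω = 2 * j := by
      rw [hB]; field_simp
    have hkey : (u1 : ℝ) + 1 ≤ B * ((Fintype.card Ω : ℝ) - 2 * k) := by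
      nlinarith
    have hp0 : 0 ≤ B ^ u1 := pow_nonneg hB0 _
    rw [pow_succ]
    nlinarith [mul_le_mul_of_nonneg_left hkey hp0]

end Gram1

theorem gram1 : S_GRAM1 := by
  classical
  intro Ω _ _ ι _ _ j φ hφ e e' hn
  have h := Gram1.main hφ (Fintype.card ι) ι rfl hn e e'
  have e1 : Gram1.SS φ e e' = ∑ X : ι ↪ Ω, φ (e.trans X) * φ (e'.trans X) := by
    unfold Gram1.SS
    refine Finset.sum_congr rfl fun X _ => ?_
    rw [Gram1.ex_inj φ (X.injective.comp e.injective), Gram1.ex_inj φ (X.injective.comp e'.injective)]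
    rfl
  have e2 : Gram1.SS φ e e = ∑ X : ι ↪ Ω, φ (e.trans X) ^ 2 := by
    unfold Gram1.SS
    refine Finset.sum_congr rfl fun X _ => ?_
    rw [Gram1.ex_inj φ (X.injective.comp e.injective), pow_two]
    rfl
  have e3 : Gram1.uu e e' = (univ.filter (fun i => e' i ∉ Set.range e)).card := by
    unfold Gram1.uu
    congr 1
    ext i
    simp only [mem_filter, mem_univ, true_and, Set.mem_range, not_exists, ne_eq]
  rw [e1, e2, e3] at h
  convert h using 3

end Vale.Agent.P162c
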