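import Mathlib
import Vale.Agent.P162c.Defs2
import Vale.Agent.P162.Basic

/-!
# P162c, module HIGH: contraction of the butterfly on the high levels
-/

namespace Vale.Agent.P162c

open Finset Vale.Agent.P162

section Spectral

variable {V : Type} [NormedAddCommGroup V] [InnerProductSpace ℝ V] [FiniteDimensional ℝ V]

lemma exp_apply_eigen (A : V →L[ℝ] V) (v : V) (lam : ℝ) (h : A v = lam • v) :
    NormedSpace.exp A v = Real.exp lam • v := by
  have _ : CompleteSpace V := FiniteDimensional.complete ℝ V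
  have h1 : HasSum (fun n : ℕ => ((n.factorial : ℝ)⁻¹) • A ^ n) (NormedSpace.exp A) :=
    NormedSpace.exp_series_hasSum_exp' (𝕂 := ℝ) A
  have h2 := (ContinuousLinearMap.apply ℝ V v).hasSum h1
  have hp : ∀ n : ℕ, (A ^ n) v = lam ^ n • v := by
    intro n
    induction n with
    | zero => simp
    | succ n ih =>
      rw [pow_succ, mul_apply_eq_comp, h, map_smul, ih, smul_smul, pow_succ]
      rw [mul_comm]
  have h3 : HasSum (fun n : ℕ => ((n.factorial : ℝ)⁻¹) • lam ^ n) (Real.exp lam) := by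
    rw [Real.exp_eq_exp_ℝ]
    exact NormedSpace.exp_series_hasSum_exp' (𝕂 := ℝ) lam
  have h4 := h3.smul_const v
  refine h2.unique ?_
  convert h4 using 1
  ext n
  simp [hp, smul_smul]

lemma inner_exp_le (A : V →L[ℝ] V) (hA : ∀ u v, inner ℝ (A u) v = inner ℝ u (A v)) (μ t : ℝ)
    (ht : 0 ≤ t) (hμ : ∀ v, μ * ‖v‖ ^ 2 ≤ inner ℝ v (A v)) (v : V) :
    inner ℝ v (NormedSpace.exp (-t • A) v) ≤ Real.exp (-(t * μ)) * ‖v‖ ^ 2 := by
  have hS : (A : V →ₗ[ℝ] V).IsSymmetric := fun u v => hA u v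
  set b := hS.eigenvectorBasis rfl with hb
  set ev := hS.eigenvalues rfl with hev
  have h1 : ∀ i, A (b i) = ev i • b i := by
    intro i
    exact hS.apply_eigenvectorBasis rfl i
  have h2 : ∀ i, μ ≤ ev i := by
    intro i
    have := hμ (b i)
    rw [h1 i, inner_smul_right, real_inner_self_eq_norm_sq, b.orthonormal.1 i] at this
    linarith
  have h3 : ∀ i, NormedSpace.exp (-t • A) (b i) = Real.exp (-t * ev i) • b i := by
    intro i
    apply exp_apply_eigen
    rw [smul_apply, h1, smul_smul]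
  have h4 : inner ℝ v (NormedSpace.exp (-t • A) v)
      = ∑ i, Real.exp (-t * ev i) * (inner ℝ (b i) v) ^ 2 := by
    conv_lhs => rw [← b.sum_repr' v]
    rw [map_sum, b.sum_repr' v, inner_sum]
    refine Finset.sum_congr rfl fun i _ => ?_
    rw [map_smul, h3, inner_smul_right, inner_smul_right, real_inner_comm]
    ring
  have h5 : ‖v‖ ^ 2 = ∑ i, (inner ℝ (b i) v) ^ 2 := by
    rw [← b.sum_sq_norm_inner_right v]
    simp
  rw [h4, h5, Finset.mul_sum]
  refine Finset.sum_le_sum fun i _ => ?_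
  refine mul_le_mul_of_nonneg_right ?_ (sq_nonneg _)
  apply Real.exp_le_exp.2
  nlinarith [mul_le_mul_of_nonneg_left (h2 i) ht]

end Spectral

section Rep

variable {V : Type} [NormedAddCommGroup V] [InnerProductSpace ℝ V]

lemma rep_inner {S : Type} (ρ : Equiv.Perm S →* (V →L[ℝ] V)) (hρ : ∀ g v, ‖ρ g v‖ = ‖v‖)
    (g : Equiv.Perm S) (u v : V) : inner ℝ (ρ g u) (ρ g v) = inner ℝ u v :=
  LinearIsometry.inner_map_map ⟨(ρ g : V →ₗ[ℝ] V), hρ g⟩ u v

lemma rep_inner_left {S : Type} (ρ : Equiv.Perm S →* (V →L[ℝ] V)) (hρ : ∀ g v, ‖ρ g v‖ = ‖v‖)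
    (g : Equiv.Perm S) (u v : V) : inner ℝ (ρ g u) v = inner ℝ u (ρ g⁻¹ v) := by
  rw [← rep_inner ρ hρ g u (ρ g⁻¹ v), ← mul_apply_eq_comp, ← map_mul]
  simp

lemma Lap_symm {S : Type} [Fintype S] [DecidableEq S] (ρ : Equiv.Perm S →* (V →L[ℝ] V))
    (hρ : ∀ g v, ‖ρ g v‖ = ‖v‖) (u v : V) : inner ℝ (Lap ρ u) v = inner ℝ u (Lap ρ v) := by
  unfold Lap
  simp only [smul_apply, _root_.sum_apply, sub_apply,
    inner_smul_left, inner_smul_right, sum_inner, inner_sum, inner_sub_left, inner_sub_right,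
    rep_inner_left ρ hρ, Equiv.swap_inv]
  simp

lemma inner_Lap {S : Type} [Fintype S] [DecidableEq S] (ρ : Equiv.Perm S →* (V →L[ℝ] V)) (v : V) :
    inner ℝ v (Lap ρ v) = (1 / 2) * ∑ x : S, ∑ y : S, inner ℝ v (v - ρ (Equiv.swap x y) v) := by
  unfold Lap
  simp only [smul_apply, _root_.sum_apply, sub_apply,
    inner_smul_right, inner_sum, inner_sub_right]
  simp

/-- the underlying linear representation -/
noncomputable def linRep {S : Type} (ρ : Equiv.Perm S →* (V →L[ℝ] V)) :
    Equiv.Perm S →* (V →ₗ[ℝ] V) where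
  toFun g := (ρ g : V →ₗ[ℝ] V)
  map_one' := by rw [map_one]; rfl
  map_mul' g h := by rw [map_mul]; rfl

lemma Lap_ge (hTR : S_TRLAP) {S : Type} [Fintype S] [DecidableEq S] [FiniteDimensional ℝ V]
    (ρ : Equiv.Perm S →* (V →L[ℝ] V)) (hρ : ∀ g v, ‖ρ g v‖ = ‖v‖) (s : ℕ)
    (h : ∀ (B : Finset S) (v : V), B.card = s + 1 →
      (∀ a ∈ B, ∀ b ∈ B, ρ (Equiv.swap a b) v = v) → v = 0) (v : V) :
    ((Fintype.card S : ℝ) * ((Fintype.card S : ℝ) - s) / 2) * ‖v‖ ^ 2 ≤
      inner ℝ v (Lap ρ v) := by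
  have h1 := hTR S V (linRep ρ) hρ s h v
  rw [inner_Lap]
  have h2 : ∑ x : S, ∑ y : S, inner ℝ v (v - linRep ρ (Equiv.swap x y) v)
      = ∑ x : S, ∑ y : S, inner ℝ v (v - ρ (Equiv.swap x y) v) := rfl
  rw [h2] at h1
  linarith

end Rep

/-! ### The left regular representation -/

/-- left regular representation -/
noncomputable def lreg (d : ℕ) : Equiv.Perm (Fin d → Bool) →* (HH d →L[ℝ] HH d) where
  toFun g := ((LinearIsometryEquiv.piLpCongrLeft 2 ℝ ℝ (Equiv.mulLeft g)).toContinuousLinearEquiv :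
    HH d →L[ℝ] HH d)
  map_one' := by
    ext f X
    simp only [Equiv.mulLeft_one]
    rfl
  map_mul' g h := by
    ext f X
    rfl

lemma lreg_apply {d : ℕ} (g : Equiv.Perm (Fin d → Bool)) (f : HH d) (X : Equiv.Perm (Fin d → Bool)) :
    lreg d g f X = f (g⁻¹ * X) := by
  simp [lreg, LinearIsometryEquiv.piLpCongrLeft_apply]

lemma lreg_norm {d : ℕ} (g : Equiv.Perm (Fin d → Bool)) (f : HH d) : ‖lreg d g f‖ = ‖f‖ := by
  simp [lreg]

lemma lreg_VR {d : ℕ} (g : Equiv.Perm (Fin d → Bool)) (R : Finset (Fin d → Bool)) (f : HH d)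
    (hf : f ∈ VR R) : lreg d g f ∈ VR R := by
  intro X X' h
  rw [lreg_apply, lreg_apply]
  apply hf
  intro c hc
  rw [Equiv.Perm.mul_apply, Equiv.Perm.mul_apply, h c hc]

lemma lreg_Vlev {d : ℕ} (g : Equiv.Perm (Fin d → Bool)) (j : ℕ) (f : HH d)
    (hf : f ∈ Vlev d j) : lreg d g f ∈ Vlev d j := by
  unfold Vlev at hf
  induction hf using Submodule.iSup_induction' with
  | mem R f hf => exact Submodule.mem_iSup_of_mem R (lreg_VR g R.1 f hf)
  | zero => rw [map_zero]; exact Submodule.zero_mem _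
  | add x y _ _ hx hy => rw [map_add]; exact Submodule.add_mem _ hx hy

lemma lreg_orth {d : ℕ} (g : Equiv.Perm (Fin d → Bool)) (j : ℕ) (f : HH d)
    (hf : f ∈ (Vlev d j)ᗮ) : lreg d g f ∈ (Vlev d j)ᗮ := by
  rw [Submodule.mem_orthogonal] at hf ⊢
  intro u hu
  have h := rep_inner_left (lreg d) lreg_norm g⁻¹ u f
  rw [inv_inv] at h
  rw [← h]
  exact hf _ (lreg_Vlev _ _ _ hu)

/-- the representation on the orthogonal complement of a level -/
noncomputable def wreg (d j : ℕ) :
    Equiv.Perm (Fin d → Bool) →* ((Vlev d j)ᗮ →L[ℝ] (Vlev d j)ᗮ) where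
  toFun g := ((lreg d g).comp (Vlev d j)ᗮ.subtypeL).codRestrict (Vlev d j)ᗮ
    (fun v => lreg_orth g j v.1 v.2)
  map_one' := by
    ext1 v
    apply Subtype.ext
    simp
  map_mul' g h := by
    ext1 v
    apply Subtype.ext
    simp only [map_mul]
    rfl

lemma wreg_apply {d j : ℕ} (g : Equiv.Perm (Fin d → Bool)) (v : (Vlev d j)ᗮ) :
    ((wreg d j g v : (Vlev d j)ᗮ) : HH d) = lreg d g v := rfl

lemma wreg_norm {d j : ℕ} (g : Equiv.Perm (Fin d → Bool)) (v : (Vlev d j)ᗮ) :
    ‖wreg d j g v‖ = ‖v‖ := by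
  exact lreg_norm g v.1

lemma wreg_Trep {d j : ℕ} (l : List (Fin d)) (v : (Vlev d j)ᗮ) :
    ((Trep (wreg d j) l v : (Vlev d j)ᗮ) : HH d) = Trep (lreg d) l v := by
  induction l generalizing v with
  | nil => rfl
  | cons i l ih =>
    simp only [Trep, mul_apply_eq_comp]
    rw [ih]
    congr 1
    unfold Prep
    simp only [smul_apply, _root_.sum_apply, Submodule.coe_smul, Submodule.coe_sum, wreg_apply]

lemma sw_inv {I : Type} [DecidableEq I] (j : I) (s : (I → Bool) → Bool) : (sw j s)⁻¹ = sw j s := by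
  ext x
  rfl

/-- the butterfly on `L²` is the butterfly of the left regular representation -/
lemma TT_eq {d : ℕ} (l : List (Fin d)) (f : HH d) :
    Matrix.toEuclideanLin (Tm (Equiv.Perm (Fin d → Bool)) l) f = Trep (lreg d) l f := by
  induction l generalizing f with
  | nil =>
    simp only [Tm, Trep]
    ext X
    simp [Matrix.toEuclideanLin_apply]
  | cons i l ih =>
    simp only [Trep, mul_apply_eq_comp, Tm]
    rw [← ih]
    rw [Matrix.toEuclideanLin_apply, Matrix.toEuclideanLin_apply, ← Matrix.mulVec_mulVec]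
    congr 2
    ext X
    unfold Prep
    simp only [smul_apply, _root_.sum_apply, PiLp.smul_apply,
      Matrix.mulVec, dotProduct, Pm, avg]
    rw [WithLp.ofLp_sum, Finset.sum_apply]
    simp only [lreg_apply, sw_inv]
    rw [smul_eq_mul, Finset.mul_sum]
    simp only [div_eq_mul_inv, Finset.sum_mul]
    rw [Finset.sum_comm]
    refine Finset.sum_congr rfl fun s _ => ?_
    simp only [ite_mul, zero_mul, one_mul]
    rw [Finset.sum_ite_eq]
    simp

/-! ### Invariant vectors -/

lemma perm_inv_of_swap {d : ℕ} (f : HH d) (B : Finset (Fin d → Bool))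
    (hinv : ∀ a ∈ B, ∀ b ∈ B, lreg d (Equiv.swap a b) f = f)
    (σ : Equiv.Perm (Fin d → Bool)) (hσ : ∀ p, p ∉ B → σ p = p)
    (X : Equiv.Perm (Fin d → Bool)) : f (σ * X) = f X := by
  have h1 : ∀ (τ : Equiv.Perm {x // x ∈ B}) (X : Equiv.Perm (Fin d → Bool)),
      f (Equiv.Perm.ofSubtype τ * X) = f X := by
    intro τ
    induction τ using Equiv.Perm.swap_induction_on with
    | one => intro X; simp
    | swap_mul τ a b hab ih =>
      intro X
      rw [map_mul, mul_assoc]
      rw [← ih X]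
      have h2 := hinv a.1 a.2 b.1 b.2
      have h3 := congrArg (fun g : HH d => g (Equiv.Perm.ofSubtype τ * X)) h2
      simp only [lreg_apply, Equiv.swap_inv] at h3
      rw [Equiv.Perm.ofSubtype_swap_eq]
      exact h3
  have h2 : ∀ x, x ∈ B ↔ σ x ∈ B := by
    intro x
    constructor
    · intro hx
      by_contra hcon
      have := hσ _ hcon
      have := σ.injective this
      rw [this] at hcon
      exact hcon hx
    · intro hx
      by_contra hcon
      rw [hσ _ hcon] at hx
      exact hcon hx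
  have h3 : Equiv.Perm.ofSubtype (σ.subtypePerm (p := fun x => x ∈ B) (fun x => (h2 x).symm)) = σ := by
    apply Equiv.Perm.ofSubtype_subtypePerm
    intro x hx
    by_contra hcon
    exact hx (hσ x hcon)
  have h4 := h1 (σ.subtypePerm (p := fun x => x ∈ B) (fun x => (h2 x).symm)) X
  rwa [h3] at h4

lemma image_inv_image {Ω : Type} [DecidableEq Ω] (R : Finset Ω) (X : Equiv.Perm Ω) :
    (R.image X).image (X⁻¹ : Equiv.Perm Ω) = R := by
  ext x
  simp

lemma image_image_inv {Ω : Type} [DecidableEq Ω] (R : Finset Ω) (X : Equiv.Perm Ω) :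
    (R.image (X⁻¹ : Equiv.Perm Ω)).image X = R := by
  ext x
  simp

lemma mem_Vlev_of_inv {d J : ℕ} (f : HH d) (B : Finset (Fin d → Bool))
    (hB : B.card + J = 2 ^ d)
    (hinv : ∀ a ∈ B, ∀ b ∈ B, lreg d (Equiv.swap a b) f = f) : f ∈ Vlev d J := by
  classical
  have hbc : (univ \ B).card = J := by
    rw [Finset.card_sdiff_of_subset (Finset.subset_univ _)]
    have : (univ : Finset (Fin d → Bool)).card = 2 ^ d := by simp
    omega
  have key : ∀ X X' : Equiv.Perm (Fin d → Bool), (∀ p, p ∉ B → X⁻¹ p = X'⁻¹ p) → f X = f X' := by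
    intro X X' h
    have h1 := perm_inv_of_swap f B hinv (X' * X⁻¹) (fun p hp => by
      rw [Equiv.Perm.mul_apply, h p hp]; simp) X
    rw [inv_mul_cancel_right] at h1
    exact h1.symm
  let fR : Finset (Fin d → Bool) → HH d := fun R =>
    WithLp.toLp 2 (fun X => if R.image X = univ \ B then f X else 0)
  have hfR : ∀ R, fR R ∈ VR R := by
    intro R X X' h
    have h1 : R.image X = R.image X' := Finset.image_congr (fun c hc => h c hc)
    change (if R.image X = univ \ B then f X else 0) = (if R.image X' = univ \ B then f X' else 0)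
    rw [← h1]
    by_cases hR : R.image X = univ \ B
    · rw [if_pos hR, if_pos hR]
      apply key
      intro p hp
      have hp' : p ∈ R.image X := by rw [hR]; simp [hp]
      obtain ⟨c, hc, rfl⟩ := Finset.mem_image.1 hp'
      rw [h c hc]
      nth_rewrite 1 [← h c hc]
      simp
    · rw [if_neg hR, if_neg hR]
  have hsum : f = ∑ R : {R : Finset (Fin d → Bool) // R.card = J}, fR R.1 := by
    ext X
    rw [WithLp.ofLp_sum, Finset.sum_apply]
    have hc : ((univ \ B).image (X⁻¹ : Equiv.Perm (Fin d → Bool))).card = J := by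
      rw [Finset.card_image_of_injective _ (Equiv.injective _), hbc]
    rw [Finset.sum_eq_single (⟨(univ \ B).image (X⁻¹ : Equiv.Perm (Fin d → Bool)), hc⟩ :
      {R : Finset (Fin d → Bool) // R.card = J})]
    · change f X = if _ then f X else 0
      rw [if_pos]
      exact image_image_inv (univ \ B) X
    · intro R _ hR
      change (if R.1.image X = univ \ B then f X else 0) = 0
      rw [if_neg]
      intro h
      apply hR
      apply Subtype.ext
      change R.1 = (univ \ B).image (X⁻¹ : Equiv.Perm (Fin d → Bool))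
      rw [← h]
      exact (image_inv_image R.1 X).symm
    · intro h; exact absurd (Finset.mem_univ _) h
  rw [hsum]
  exact Submodule.sum_mem _ fun R _ => Submodule.mem_iSup_of_mem R (hfR R.1)

lemma eq_zero_of_inv {d J : ℕ} (B : Finset (Fin d → Bool)) (hB : B.card + J = 2 ^ d)
    (v : (Vlev d J)ᗮ) (hinv : ∀ a ∈ B, ∀ b ∈ B, wreg d J (Equiv.swap a b) v = v) : v = 0 := by
  have h1 : (v : HH d) ∈ Vlev d J := by
    refine mem_Vlev_of_inv v.1 B hB fun a ha b hb => ?_
    have := congrArg Subtype.val (hinv a ha b hb)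
    exact this
  have h2 := (Submodule.mem_orthogonal _ _).1 v.2 v.1 h1
  apply Subtype.ext
  exact inner_self_eq_zero.1 h2

lemma Vlev_top {d : ℕ} (f : HH d) : f ∈ Vlev d (2 ^ d) := by
  refine Submodule.mem_iSup_of_mem (⟨univ, by simp⟩ :
    {R : Finset (Fin d → Bool) // R.card = 2 ^ d}) ?_
  intro X X' h
  have : X = X' := Equiv.ext fun c => h c (Finset.mem_univ c)
  rw [this]

theorem high (hTR : S_TRLAP) (hEN : S_ENERGY) : S_HIGH := by
  obtain ⟨C, c₀, hC, hc₀, hEN⟩ := hEN
  intro ε hε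
  set c₁ : ℝ := min c₀ (ε / (4 * C)) with hc₁
  have hc₁pos : 0 < c₁ := lt_min hc₀ (by positivity)
  refine ⟨c₁ * ε / 4, by positivity, ?_⟩
  intro d J hJ1 hJ2 f hf
  rcases hJ2.lt_or_eq with hlt | heq
  swap
  · have h1 : f ∈ Vlev d J := by rw [heq]; exact Vlev_top f
    have h2 := inner_self_eq_zero.1 ((Submodule.mem_orthogonal _ _).1 hf f h1)
    rw [h2]
    simp
  · set n : ℝ := (2 : ℝ) ^ d with hn
    have hnpos : 0 < n := by positivity
    -- lower bound of the Laplacian
    have hLap : ∀ v : (Vlev d J)ᗮ,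
        (n * J / 2) * ‖v‖ ^ 2 ≤ inner ℝ v (Lap (wreg d J) v) := by
      intro v
      have h1 := Lap_ge hTR (wreg d J) wreg_norm (2 ^ d - 1 - J)
        (fun B v hB hinv => eq_zero_of_inv B (by omega) v hinv) v
      refine le_trans ?_ h1
      have h2 : (Fintype.card (Fin d → Bool) : ℝ) = n := by simp [hn]
      have h3 : (((2 ^ d - 1 - J : ℕ)) : ℝ) = n - 1 - J := by
        rw [Nat.cast_sub (by omega), Nat.cast_sub (Nat.one_le_two_pow)]
        simp [hn]
      rw [h2, h3]
      gcongr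
      linarith
    have h6 := hEN d ((Vlev d J)ᗮ) (wreg d J) wreg_norm c₁ hc₁pos.le (min_le_left _ _) ⟨f, hf⟩
    have h7 := inner_exp_le (Lap (wreg d J)) (Lap_symm _ wreg_norm) (n * J / 2) (c₁ / n)
      (by positivity) hLap ⟨f, hf⟩
    have h8 : ‖Trep (wreg d J) (List.finRange d) ⟨f, hf⟩‖ = ‖TT d f‖ := by
      change ‖((Trep (wreg d J) (List.finRange d) ⟨f, hf⟩ : (Vlev d J)ᗮ) : HH d)‖ = _
      rw [wreg_Trep]
      unfold TT
      rw [TT_eq]
    rw [h8] at h6
    refine h6.trans ?_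
    calc _ ≤ Real.exp (C * c₁ ^ 2 * 2 ^ d) *
          (Real.exp (-(c₁ / n * (n * J / 2))) * ‖f‖ ^ 2) := by
          refine mul_le_mul_of_nonneg_left ?_ (Real.exp_nonneg _)
          exact h7
      _ = Real.exp (C * c₁ ^ 2 * n - c₁ * J / 2) * ‖f‖ ^ 2 := by
          rw [← mul_assoc, ← Real.exp_add]
          congr 2
          field_simp
          ring
      _ ≤ _ := by
          refine mul_le_mul_of_nonneg_right (Real.exp_le_exp.2 ?_) (by positivity)
          have h9 : C * c₁ ≤ ε / 4 := by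
            have : c₁ ≤ ε / (4 * C) := min_le_right _ _
            calc C * c₁ ≤ C * (ε / (4 * C)) := by gcongr
              _ = _ := by field_simp
          have h10 : C * c₁ ^ 2 * n ≤ ε / 4 * c₁ * n := by
            calc C * c₁ ^ 2 * n = (C * c₁) * c₁ * n := by ring
              _ ≤ _ := by gcongr
          have h11 : c₁ * (ε * n) ≤ c₁ * J := by gcongr
          nlinarith

end Vale.Agent.P162c
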