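import Vale.Agent.P162c.Defs
import Vale.Agent.P162.Basic

/-!
P162 (Thorp shuffle): KER, the kernel of `Tᵀ T` is the law of the Benes network (helper28).
-/

namespace Vale.Agent.P162c

namespace KER

open Finset Vale.Agent.P162

lemma avg_prod {A B : Type} [Fintype A] [Fintype B] (F : A → B → ℝ) :
    avg (fun p : A × B => F p.1 p.2) = avg (fun a => avg (fun b => F a b)) := by
  simp only [avg, Fintype.sum_prod_type, Fintype.card_prod, Nat.cast_mul, ← Finset.sum_div]
  rw [div_div, mul_comm (Fintype.card B : ℝ)]

lemma avg_comm {A B : Type} [Fintype A] [Fintype B] (F : A → B → ℝ) :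
    avg (fun a => avg (fun b => F a b)) = avg (fun b => avg (fun a => F a b)) := by
  simp only [avg, ← Finset.sum_div]
  rw [Finset.sum_comm, div_div, div_div, mul_comm (Fintype.card B : ℝ)]

/-- the exchange involution -/
def exch {I X : Type} [DecidableEq I] (j : I) : X × (I → X) ≃ X × (I → X) where
  toFun p := (p.2 j, Function.update p.2 j p.1)
  invFun p := (p.2 j, Function.update p.2 j p.1)
  left_inv p := by simp
  right_inv p := by simp

lemma avg_split {I X : Type} [Fintype I] [DecidableEq I] [Fintype X] [Nonempty X] (j : I)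
    (F : (I → X) → ℝ) :
    avg F = avg (fun x : X => avg (fun s : I → X => F (Function.update s j x))) := by
  rw [← avg_prod (fun (x : X) (s : I → X) => F (Function.update s j x))]
  have h := avg_equiv (exch (X := X) j) (fun p : X × (I → X) => F p.2)
  have h2 : avg (fun p : X × (I → X) => F p.2) = avg F := by
    rw [avg_prod (fun (_ : X) (s : I → X) => F s)]
    exact avg_const _
  rw [← h2, ← h]
  rfl

variable {I : Type} [Fintype I] [DecidableEq I]

lemma net_congr (s t s' t' : I → (I → Bool) → Bool) (l : List I) (hs : ∀ i ∈ l, s i = s' i)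
    (ht : ∀ i ∈ l, t i = t' i) : net s t l = net s' t' l := by
  induction l with
  | nil => rfl
  | cons j l ih =>
    simp only [net]
    rw [ih (fun i hi => hs i (List.mem_cons_of_mem _ hi))
      (fun i hi => ht i (List.mem_cons_of_mem _ hi)), hs j List.mem_cons_self,
      ht j List.mem_cons_self]

lemma sw_inv (j : I) (s : (I → Bool) → Bool) : (sw j s)⁻¹ = sw j s := by
  ext x : 1
  rfl

variable {Y : Type} [Fintype Y] [DecidableEq Y] [MulAction (Equiv.Perm (I → Bool)) Y]

lemma sw_smul_eq_iff (j : I) (s : (I → Bool) → Bool) (a y : Y) :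
    sw j s • a = y ↔ a = sw j s • y := by
  rw [← inv_smul_eq_iff (g := sw j s), sw_inv]

lemma sum_Pm_left (j : I) (y : Y) (X : Y → ℝ) :
    ∑ a, Pm Y j a y * X a = avg (fun s : (I → Bool) → Bool => X (sw j s • y)) := by
  unfold Pm avg
  simp_rw [div_mul_eq_mul_div, ← Finset.sum_div, Finset.sum_mul]
  rw [Finset.sum_comm]
  congr 1
  apply Finset.sum_congr rfl
  intro s _
  simp_rw [sw_smul_eq_iff]
  simp

lemma sum_Pm_right (j : I) (y' : Y) {Ω : Type} [Fintype Ω] (g : Ω → Equiv.Perm (I → Bool))
    (a : Y) :
    ∑ b, avg (fun T : Ω => if g T • a = b then (1 : ℝ) else 0) * Pm Y j b y'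
      = avg (fun t : (I → Bool) → Bool => avg (fun T : Ω =>
        if sw j t • (g T • a) = y' then (1 : ℝ) else 0)) := by
  unfold Pm avg
  simp_rw [← Finset.sum_div, div_mul_div_comm, ← Finset.sum_div, Finset.sum_mul_sum]
  rw [div_div]
  congr 1
  rw [Finset.sum_comm]
  simp_rw [Finset.sum_comm (s := (univ : Finset Y))]
  rw [Finset.sum_comm]
  apply Finset.sum_congr rfl
  intro t _
  apply Finset.sum_congr rfl
  intro T _
  simp only [ite_mul, one_mul, zero_mul, Finset.sum_ite_eq, Finset.mem_univ, if_true]

end KER

open Finset Vale.Agent.P162 KER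

/-- KER -/
theorem ker : S_KER := by
  intro I _ _ Y _ _ _ l
  induction l with
  | nil =>
    intro _ y y'
    simp only [Qm, Tm, net, Matrix.transpose_one, one_mul, one_smul]
    rw [avg_const, Matrix.one_apply]
  | cons j l ih =>
    intro hl y y'
    have hj : j ∉ l := (List.nodup_cons.1 hl).1
    have hl' : l.Nodup := (List.nodup_cons.1 hl).2
    have h1 : Qm Y (j :: l) y y' = ∑ a, Pm Y j a y * ∑ b, Qm Y l a b * Pm Y j b y' := by
      have e : Qm Y (j :: l) = (Pm Y j).transpose * (Qm Y l * Pm Y j) := by
        simp only [Qm, Tm, Matrix.transpose_mul, Matrix.mul_assoc]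
      rw [e, Matrix.mul_apply]
      simp only [Matrix.transpose_apply, Matrix.mul_apply]
    rw [h1, sum_Pm_left j y (fun a => ∑ b, Qm Y l a b * Pm Y j b y')]
    simp_rw [ih hl', sum_Pm_right]
    -- right-hand side
    rw [avg_prod (fun s t : I → (I → Bool) → Bool =>
      if net s t (j :: l) • y = y' then (1 : ℝ) else 0)]
    rw [avg_split j]
    apply avg_congr
    intro s0
    have h2 : ∀ s : I → (I → Bool) → Bool,
        avg (fun t : I → (I → Bool) → Bool =>
          if net (Function.update s j s0) t (j :: l) • y = y' then (1 : ℝ) else 0)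
        = avg (fun t0 : (I → Bool) → Bool => avg (fun t : I → (I → Bool) → Bool =>
          if sw j t0 • (net s t l • (sw j s0 • y)) = y' then (1 : ℝ) else 0)) := by
      intro s
      rw [avg_split j]
      apply avg_congr
      intro t0
      apply avg_congr
      intro t
      have h3 : net (Function.update s j s0) (Function.update t j t0) (j :: l)
          = sw j t0 * net s t l * sw j s0 := by
        simp only [net, Function.update_self]
        rw [net_congr (Function.update s j s0) (Function.update t j t0) s t l
          (fun i hi => Function.update_of_ne (by rintro rfl; exact hj hi) _ _)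
          (fun i hi => Function.update_of_ne (by rintro rfl; exact hj hi) _ _)]
      rw [h3, mul_smul, mul_smul]
    simp_rw [h2]
    conv_rhs => rw [avg_comm]
    apply avg_congr
    intro t0
    rw [avg_prod (fun s t : I → (I → Bool) → Bool =>
      if sw j t0 • (net s t l • (sw j s0 • y)) = y' then (1 : ℝ) else 0)]

end Vale.Agent.P162c
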