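import Mathlib
import Vale.Agent.P162c.Defs2

namespace Vale.Agent.P162c
namespace LevelA

open Finset Vale.Agent.P162

/-- spectral reduction -/
theorem spec {H : Type*} [NormedAddCommGroup H] [InnerProductSpace ℝ H] [FiniteDimensional ℝ H]
    (Q : H →ₗ[ℝ] H) (hQ : Q.IsSymmetric) (E : Submodule ℝ H) (hE : ∀ v ∈ E, Q v ∈ E) (b : ℝ)
    (h : ∀ (x : ℝ) (f : H), f ∈ E → f ≠ 0 → Q f = x • f → x ≤ b) :
    ∀ f ∈ E, inner ℝ (Q f) f ≤ b * ‖f‖ ^ 2 := by
  intro f hf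
  have hS : (Q.restrict hE).IsSymmetric := hQ.restrict_invariant hE
  set B := hS.eigenvectorBasis rfl with hB
  have key : ∀ i, hS.eigenvalues rfl i ≤ b := by
    intro i
    refine h _ (B i : H) (B i).2 ?_ ?_
    · intro h0
      have h1 : B i = 0 := by exact_mod_cast h0
      have h2 := B.orthonormal.1 i
      rw [h1, norm_zero] at h2
      exact zero_ne_one h2
    · have h1 := hS.apply_eigenvectorBasis rfl i
      exact congrArg (Subtype.val) h1
  have h1 : inner ℝ (Q f) f = inner ℝ ((Q.restrict hE) ⟨f, hf⟩) (⟨f, hf⟩ : E) := rfl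
  have h2 : inner ℝ ((Q.restrict hE) ⟨f, hf⟩) (⟨f, hf⟩ : E) =
      ∑ i, inner ℝ ((Q.restrict hE) ⟨f, hf⟩) (B i) * inner ℝ (B i) (⟨f, hf⟩ : E) :=
    (B.sum_inner_mul_inner _ _).symm
  have h3 : ‖f‖ ^ 2 = ∑ i, inner ℝ (B i) (⟨f, hf⟩ : E) ^ 2 := by
    have := B.sum_sq_norm_inner_right (⟨f, hf⟩ : E)
    simp only [Real.norm_eq_abs, sq_abs] at this
    rw [this]; rfl
  rw [h1, h2, h3, Finset.mul_sum]
  refine Finset.sum_le_sum fun i _ => ?_
  rw [hS, hS.apply_eigenvectorBasis rfl i, inner_smul_right, real_inner_comm]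
  have e : inner ℝ (B i) (⟨f, hf⟩ : E) = inner ℝ (⟨f, hf⟩ : E) (B i) := real_inner_comm _ _
  have := mul_le_mul_of_nonneg_right (key i) (sq_nonneg (inner ℝ (B i) (⟨f, hf⟩ : E)))
  refine le_trans (le_of_eq ?_) this
  rw [← hB, sq, ← mul_assoc]
  rfl

end LevelA
end Vale.Agent.P162c
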