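import Mathlib
import Vale.Agent.P162c.LevelA

namespace Vale.Agent.P162c
namespace LevelB

open Finset Vale.Agent.P162 LevelA

variable {d : ℕ}

/-- positions -/
abbrev Om (d : ℕ) : Type := Fin d → Bool

/-- right translation on `L²` of the deck orders -/
noncomputable def rr (π : Equiv.Perm (Om d)) : HH d →ₗ[ℝ] HH d where
  toFun f := WithLp.toLp 2 (fun X => f (X * π))
  map_add' f g := by ext X; simp
  map_smul' c f := by ext X; simp

lemma rr_apply (π : Equiv.Perm (Om d)) (f : HH d) (X : Equiv.Perm (Om d)) :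
    rr π f X = f (X * π) := rfl

lemma inner_eq (f g : HH d) : inner ℝ f g = ∑ X, f X * g X := by
  rw [PiLp.inner_apply]
  refine Finset.sum_congr rfl fun X _ => ?_
  simp [mul_comm]

lemma inner_rr (π : Equiv.Perm (Om d)) (f g : HH d) :
    inner ℝ (rr π f) g = inner ℝ f (rr π⁻¹ g) := by
  rw [inner_eq, inner_eq, ← Equiv.sum_comp (Equiv.mulRight π⁻¹)]
  refine Finset.sum_congr rfl fun X _ => ?_
  simp only [rr_apply, Equiv.coe_mulRight, inv_mul_cancel_right]

lemma TT_apply (f : HH d) (X : Equiv.Perm (Om d)) :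
    TT d f X = ∑ X', Tm (Equiv.Perm (Om d)) (List.finRange d) X X' * f X' := by
  simp [TT, Matrix.toEuclideanLin_apply, Matrix.mulVec, dotProduct]

lemma Pm_right (j : Fin d) (π X X' : Equiv.Perm (Om d)) :
    Pm (Equiv.Perm (Om d)) j (X * π) (X' * π) = Pm (Equiv.Perm (Om d)) j X X' := by
  unfold Pm
  congr 1
  funext s
  refine if_congr ?_ rfl rfl
  rw [smul_eq_mul, smul_eq_mul, ← mul_assoc]
  exact mul_left_inj π

lemma Tm_right (l : List (Fin d)) (π X X' : Equiv.Perm (Om d)) :
    Tm (Equiv.Perm (Om d)) l (X * π) (X' * π) = Tm (Equiv.Perm (Om d)) l X X' := by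
  induction l generalizing X X' with
  | nil => simp [Tm, Matrix.one_apply]
  | cons j l ih =>
    simp only [Tm, Matrix.mul_apply]
    rw [← Equiv.sum_comp (Equiv.mulRight π)]
    refine Finset.sum_congr rfl fun Y _ => ?_
    simp only [Equiv.coe_mulRight]
    rw [ih, Pm_right]

lemma TT_rr (π : Equiv.Perm (Om d)) (f : HH d) : TT d (rr π f) = rr π (TT d f) := by
  ext X
  rw [rr_apply, TT_apply, TT_apply]
  symm
  rw [← Equiv.sum_comp (Equiv.mulRight π)]
  refine Finset.sum_congr rfl fun Y _ => ?_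
  simp only [rr_apply, Equiv.coe_mulRight, Tm_right]

lemma adj_rr (π : Equiv.Perm (Om d)) (f : HH d) :
    LinearMap.adjoint (TT d) (rr π f) = rr π (LinearMap.adjoint (TT d) f) := by
  refine ext_inner_right ℝ fun g => ?_
  rw [LinearMap.adjoint_inner_left, inner_rr, inner_rr, LinearMap.adjoint_inner_left, TT_rr]

/-- `Q = Tᵀ T` -/
noncomputable def QQ (d : ℕ) : HH d →ₗ[ℝ] HH d := LinearMap.adjoint (TT d) ∘ₗ TT d

lemma QQ_rr (π : Equiv.Perm (Om d)) (f : HH d) : QQ d (rr π f) = rr π (QQ d f) := by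
  simp only [QQ, LinearMap.comp_apply, TT_rr, adj_rr]

lemma QQ_symm : (QQ d).IsSymmetric := by
  intro f g
  simp only [QQ, LinearMap.comp_apply]
  rw [LinearMap.adjoint_inner_left, LinearMap.adjoint_inner_right]

/-- permutations fixing `R` pointwise -/
def St (R : Finset (Om d)) : Finset (Equiv.Perm (Om d)) :=
  univ.filter (fun π => ∀ c ∈ R, π c = c)

lemma St_inv (R : Finset (Om d)) (π : Equiv.Perm (Om d)) (h : π ∈ St R) : π⁻¹ ∈ St R := by
  simp only [St, mem_filter, mem_univ, true_and] at h ⊢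
  intro c hc
  have := h c hc
  rw [Equiv.Perm.inv_eq_iff_eq]
  exact this.symm

/-- sum of the right translations over the stabiliser of `R` -/
noncomputable def ES (R : Finset (Om d)) : HH d →ₗ[ℝ] HH d := ∑ π ∈ St R, rr π

lemma ES_apply (R : Finset (Om d)) (f : HH d) (X : Equiv.Perm (Om d)) :
    ES R f X = ∑ π ∈ St R, f (X * π) := by
  simp [ES, LinearMap.sum_apply, rr_apply]

lemma ES_mem (R : Finset (Om d)) (f : HH d) : ES R f ∈ VR R := by
  intro X X' h
  rw [ES_apply, ES_apply]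
  refine Finset.sum_bij' (fun π _ => X'⁻¹ * X * π) (fun π _ => X⁻¹ * X' * π) ?_ ?_ ?_ ?_ ?_
  · intro π hπ
    simp only [St, mem_filter, mem_univ, true_and] at hπ ⊢
    intro c hc
    simp only [Equiv.Perm.mul_apply]
    rw [hπ c hc, h c hc]; simp
  · intro π hπ
    simp only [St, mem_filter, mem_univ, true_and] at hπ ⊢
    intro c hc
    simp only [Equiv.Perm.mul_apply]
    rw [hπ c hc, ← h c hc]; simp
  · intro π _; group
  · intro π _; group
  · intro π _
    rw [show X' * (X'⁻¹ * X * π) = X * π by group]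

lemma ES_of_mem (R : Finset (Om d)) (f : HH d) (hf : f ∈ VR R) :
    ES R f = ((St R).card : ℝ) • f := by
  ext X
  rw [ES_apply, Finset.sum_congr rfl (g := fun _ => f X)]
  · simp
  · intro π hπ
    simp only [St, mem_filter, mem_univ, true_and] at hπ
    refine hf _ _ ?_
    intro c hc
    simp [Equiv.Perm.mul_apply, hπ c hc]

lemma inner_ES (R : Finset (Om d)) (f g : HH d) : inner ℝ (ES R f) g = inner ℝ f (ES R g) := by
  simp only [ES, LinearMap.sum_apply, sum_inner, inner_sum, inner_rr]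
  refine Finset.sum_bij' (fun π _ => π⁻¹) (fun π _ => π⁻¹) ?_ ?_ ?_ ?_ ?_
  · intro π h; exact St_inv R π h
  · intro π h; exact St_inv R π h
  · intro π _; simp
  · intro π _; simp
  · intro π _; rfl

lemma QQ_ES (R : Finset (Om d)) (f : HH d) : QQ d (ES R f) = ES R (QQ d f) := by
  simp only [ES, LinearMap.sum_apply, map_sum, QQ_rr]

lemma St_card_pos (R : Finset (Om d)) : 0 < (St R).card := by
  refine Finset.card_pos.mpr ⟨1, ?_⟩
  simp [St]

lemma rr_mem (R : Finset (Om d)) (π : Equiv.Perm (Om d)) (f : HH d) (hf : f ∈ VR R) :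
    rr π f ∈ VR (R.map π.toEmbedding) := by
  intro X X' h
  rw [rr_apply, rr_apply]
  refine hf _ _ ?_
  intro c hc
  exact h (π c) (by simpa using hc)

lemma rr_Vlev (j : ℕ) (π : Equiv.Perm (Om d)) (f : HH d) (hf : f ∈ Vlev d j) :
    rr π f ∈ Vlev d j := by
  have : Vlev d j ≤ (Vlev d j).comap (rr π) := by
    unfold Vlev
    refine iSup_le fun R => ?_
    intro g hg
    rw [Submodule.mem_comap]
    have h1 := rr_mem R.1 π g hg
    exact Submodule.mem_iSup_of_mem (⟨R.1.map π.toEmbedding, by simp [R.2]⟩ :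
      {R : Finset (Fin d → Bool) // R.card = j}) h1
  exact this hf

lemma ES_Vlev (j : ℕ) (R : Finset (Om d)) (f : HH d) (hf : f ∈ Vlev d j) :
    ES R f ∈ Vlev d j := by
  simp only [ES, LinearMap.sum_apply]
  exact Submodule.sum_mem _ fun π _ => rr_Vlev j π f hf

/-- the reduction to one set of cards -/
theorem levelB (j : ℕ) (x : ℝ) (f : HH d) (hf : f ∈ Vlev d j) (hf' : f ∈ (Vlev d (j - 1))ᗮ)
    (h0 : f ≠ 0) (hx : QQ d f = x • f) :
    ∃ (R : Finset (Om d)) (g : HH d), R.card = j ∧ g ∈ VR R ∧ g ≠ 0 ∧ g ∈ (Vlev d (j - 1))ᗮ ∧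
      QQ d g = x • g := by
  have hex : ∃ R : Finset (Om d), R.card = j ∧ ES R f ≠ 0 := by
    by_contra hne
    push Not at hne
    have h1 : Vlev d j ≤ (Submodule.span ℝ {f})ᗮ := by
      unfold Vlev
      refine iSup_le fun R => ?_
      intro g hg
      rw [Submodule.mem_orthogonal_singleton_iff_inner_right]
      have h2 : inner ℝ (ES R.1 f) g = 0 := by rw [hne R.1 R.2, inner_zero_left]
      rw [inner_ES, ES_of_mem R.1 g hg, inner_smul_right] at h2
      have h3 : ((St R.1).card : ℝ) ≠ 0 := by exact_mod_cast (St_card_pos R.1).ne'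
      exact (mul_eq_zero.mp h2).resolve_left h3
    have h2 := h1 hf
    rw [Submodule.mem_orthogonal_singleton_iff_inner_right] at h2
    exact h0 (inner_self_eq_zero.mp h2)
  obtain ⟨R, hR, hne⟩ := hex
  refine ⟨R, ES R f, hR, ES_mem R f, hne, ?_, ?_⟩
  · rw [Submodule.mem_orthogonal]
    intro u hu
    rw [← inner_ES]
    exact (Submodule.mem_orthogonal _ _).mp hf' _ (ES_Vlev (j - 1) R u hu)
  · rw [QQ_ES, hx, map_smul]

end LevelB
end Vale.Agent.P162c
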