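import Mathlib
import Vale.Agent.P162c.LevelB
import Vale.Agent.P162c.Gram

/-!
P162c, module LEVEL: part (C) (transfer to token functions) and assembly.
-/

namespace Vale.Agent.P162c
namespace LevelC

open Finset Vale.Agent.P162 LevelA LevelB GramAux

variable {d j : ℕ}

/-- restriction of a deck order to the enumerated cards -/
def pr (E : Fin j ↪ Om d) (X : Equiv.Perm (Om d)) : Fin j ↪ Om d := X • E

lemma pr_apply (E : Fin j ↪ Om d) (X : Equiv.Perm (Om d)) (i : Fin j) : pr E X i = X (E i) := rfl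

lemma pr_smul (E : Fin j ↪ Om d) (g X : Equiv.Perm (Om d)) : pr E (g • X) = g • pr E X := by
  ext i : 1
  rfl

lemma pr_surj (E : Fin j ↪ Om d) (Z : Fin j ↪ Om d) : ∃ X, pr E X = Z :=
  Equiv.Perm.exists_smul_eq_embedding E Z

/-- the fibres of `pr` have the same cardinality -/
lemma fibre_card (E : Fin j ↪ Om d) (Z : Fin j ↪ Om d) :
    (univ.filter (fun X => pr E X = Z)).card = (univ.filter (fun X => pr E X = E)).card := by
  obtain ⟨σ, hσ⟩ := pr_surj E Z
  refine Finset.card_bij' (fun X _ => σ⁻¹ * X) (fun X _ => σ * X) ?_ ?_ ?_ ?_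
  · intro X hX
    simp only [mem_filter, mem_univ, true_and] at hX ⊢
    ext i : 1
    rw [pr_apply, Equiv.Perm.mul_apply, Equiv.Perm.inv_eq_iff_eq]
    have h1 := DFunLike.congr_fun hX i
    have h2 := DFunLike.congr_fun hσ i
    rw [pr_apply] at h1 h2
    rw [h1, ← h2]
  · intro X hX
    simp only [mem_filter, mem_univ, true_and] at hX ⊢
    ext i : 1
    rw [pr_apply, Equiv.Perm.mul_apply]
    have h1 := DFunLike.congr_fun hX i
    have h2 := DFunLike.congr_fun hσ i
    rw [pr_apply] at h1 h2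
    rw [h1, h2]
  · intro X _; simp
  · intro X _; simp

lemma sum_pr (E : Fin j ↪ Om d) (F : (Fin j ↪ Om d) → ℝ) :
    ∑ X, F (pr E X) = ((univ.filter (fun X => pr E X = E)).card : ℝ) * ∑ Z, F Z := by
  rw [← Finset.sum_fiberwise univ (fun X => pr E X), Finset.mul_sum]
  refine Finset.sum_congr rfl fun Z _ => ?_
  rw [← fibre_card E Z]
  rw [Finset.sum_congr rfl (g := fun _ => F Z)]
  · rw [Finset.sum_const, nsmul_eq_mul]
  · intro X hX
    rw [(Finset.mem_filter.1 hX).2]

lemma QQ_apply (g : HH d) :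
    (QQ d g : Equiv.Perm (Om d) → ℝ) =
      (Qm (Equiv.Perm (Om d)) (List.finRange d)).mulVec (g : Equiv.Perm (Om d) → ℝ) := by
  have h1 : LinearMap.adjoint (TT d) =
      Matrix.toEuclideanLin ((Tm (Equiv.Perm (Om d)) (List.finRange d)).transpose) := by
    rw [TT, ← Matrix.toEuclideanLin_conjTranspose_eq_adjoint,
      Matrix.conjTranspose_eq_transpose_of_trivial]
  rw [QQ, LinearMap.comp_apply, h1, Qm, ← Matrix.mulVec_mulVec]
  simp [TT, Matrix.toEuclideanLin_apply]

/-- transfer -/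
theorem levelC (hj : 1 ≤ j) (x : ℝ) (R : Finset (Om d)) (g : HH d) (hR : R.card = j)
    (hg : g ∈ VR R) (h0 : g ≠ 0) (horth : g ∈ (Vlev d (j - 1))ᗮ) (hx : QQ d g = x • g) :
    ∃ φ : (Fin j ↪ Om d) → ℝ, φ ≠ 0 ∧ New φ ∧
      (Qm (Fin j ↪ Om d) (List.finRange d)).mulVec φ = x • φ := by
  let E' : Fin j ≃ R := (R.equivFinOfCardEq hR).symm
  let E : Fin j ↪ Om d := E'.toEmbedding.trans (Function.Embedding.subtype _)
  have hE : ∀ i, E i ∈ R := fun i => (E' i).2
  have hE' : ∀ c ∈ R, ∃ i, E i = c := by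
    intro c hc
    refine ⟨E'.symm ⟨c, hc⟩, ?_⟩
    show ((E' (E'.symm ⟨c, hc⟩) : R) : Om d) = c
    rw [Equiv.apply_symm_apply]
  choose sec hsec using pr_surj (d := d) E
  let φ : (Fin j ↪ Om d) → ℝ := fun Z => g (sec Z)
  have hφ : (g : Equiv.Perm (Om d) → ℝ) = φ ∘ pr E := by
    funext X
    show g X = g (sec (pr E X))
    apply hg
    intro c hc
    obtain ⟨i, rfl⟩ := hE' c hc
    have := DFunLike.congr_fun (hsec (pr E X)) i
    rw [pr_apply, pr_apply] at this
    exact this.symm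
  refine ⟨φ, ?_, ?_, ?_⟩
  · intro h
    apply h0
    ext X
    have := congrFun hφ X
    rw [this, h]
    rfl
  · intro i X
    -- test function
    let t : HH d := WithLp.toLp 2 (fun X' => if (∀ i', i' ≠ i → X' (E i') = X i') then (1 : ℝ) else 0)
    have ht : t ∈ VR (R.erase (E i)) := by
      intro Y Y' h
      show (if (∀ i', i' ≠ i → Y (E i') = X i') then (1 : ℝ) else 0) =
        (if (∀ i', i' ≠ i → Y' (E i') = X i') then (1 : ℝ) else 0)
      congr 1
      apply propext
      refine forall_congr' fun i' => forall_congr' fun hi' => ?_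
      rw [h (E i') (Finset.mem_erase.2 ⟨fun he => hi' (E.injective he), hE i'⟩)]
    have htlev : t ∈ Vlev d (j - 1) :=
      Submodule.mem_iSup_of_mem (⟨R.erase (E i), by rw [Finset.card_erase_of_mem (hE i), hR]⟩ :
        {R : Finset (Fin d → Bool) // R.card = j - 1}) ht
    have h1 := (Submodule.mem_orthogonal _ _).1 horth t htlev
    rw [inner_eq] at h1
    have h2 : ∑ X', t X' * g X' = ∑ X', (fun Z : Fin j ↪ Om d =>
        (if (∀ i', i' ≠ i → Z i' = X i') then (1 : ℝ) else 0) * φ Z) (pr E X') := by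
      refine Finset.sum_congr rfl fun X' _ => ?_
      rw [hφ]
      rfl
    have h2' := sum_pr E (fun Z : Fin j ↪ Om d =>
        (if (∀ i', i' ≠ i → Z i' = X i') then (1 : ℝ) else 0) * φ Z)
    rw [h2, h2'] at h1
    have hc : ((univ.filter (fun X => pr E X = E)).card : ℝ) ≠ 0 := by
      have : 0 < (univ.filter (fun X => pr E X = E)).card := by
        apply Finset.card_pos.2
        refine ⟨1, ?_⟩
        simp only [mem_filter, mem_univ, true_and]
        ext i : 1
        rfl
      exact_mod_cast this.ne'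
    have h3 := (mul_eq_zero.1 h1).resolve_left hc
    rw [Finset.sum_filter]
    refine Eq.trans ?_ h3
    refine Finset.sum_congr rfl fun Z _ => ?_
    by_cases hZ : ∀ i', i' ≠ i → Z i' = X i'
    · rw [if_pos hZ, if_pos hZ, one_mul]
    · rw [if_neg hZ, if_neg hZ, zero_mul]
  · have h1 := qm_comp (pr E) (pr_smul E) (List.finRange d) φ
    rw [← hφ, ← QQ_apply, hx] at h1
    funext Z
    obtain ⟨X, hX⟩ := pr_surj E Z
    have h2 := congrFun h1 X
    rw [Function.comp_apply, hX] at h2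
    rw [← h2]
    show x * g X = x * φ Z
    rw [hφ, Function.comp_apply, hX]

lemma QQ_VR (R : Finset (Om d)) (f : HH d) (hf : f ∈ VR R) : QQ d f ∈ VR R := by
  have h1 := QQ_ES R f
  rw [ES_of_mem R f hf, map_smul] at h1
  have hc : ((St R).card : ℝ) ≠ 0 := by exact_mod_cast (St_card_pos R).ne'
  have h2 : QQ d f = ((St R).card : ℝ)⁻¹ • ES R (QQ d f) := by
    rw [← h1, smul_smul, inv_mul_cancel₀ hc, one_smul]
  rw [h2]
  exact Submodule.smul_mem _ _ (ES_mem R _)

lemma QQ_Vlev (j : ℕ) (f : HH d) (hf : f ∈ Vlev d j) : QQ d f ∈ Vlev d j := by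
  have : Vlev d j ≤ (Vlev d j).comap (QQ d) := by
    conv_lhs => unfold Vlev
    refine iSup_le fun R => ?_
    intro g hg
    rw [Submodule.mem_comap]
    exact Submodule.mem_iSup_of_mem R (QQ_VR R.1 g hg)
  exact this hf

end LevelC

open LevelA LevelB LevelC

theorem level : S_LEVEL := by
  intro d j b hj hb H f hf hf'
  set E : Submodule ℝ (HH d) := Vlev d j ⊓ (Vlev d (j - 1))ᗮ with hE
  have hinv : ∀ v ∈ E, QQ d v ∈ E := by
    intro v hv
    refine ⟨QQ_Vlev j v hv.1, ?_⟩
    have hv2 := (Submodule.mem_orthogonal _ _).1 hv.2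
    apply (Submodule.mem_orthogonal _ _).2
    intro u hu
    rw [← QQ_symm u v]
    exact hv2 _ (QQ_Vlev (j - 1) u hu)
  have key := spec (QQ d) QQ_symm E hinv b (by
    intro x g hg h0 hx
    rcases le_or_gt x 0 with hx0 | hx0
    · exact hx0.trans hb
    · obtain ⟨R, g', hR, hg', h0', horth, hx'⟩ := levelB j x g hg.1 hg.2 h0 hx
      obtain ⟨φ, h1, h2, h3⟩ := levelC hj x R g' hR hg' h0' horth hx'
      exact H x φ h1 h2 hx0.le h3)
  have h1 := key f ⟨hf, hf'⟩
  have h2 : inner ℝ (QQ d f) f = ‖TT d f‖ ^ 2 := by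
    rw [QQ, LinearMap.comp_apply, LinearMap.adjoint_inner_left, real_inner_self_eq_norm_sq]
  rw [h2] at h1
  exact h1

end Vale.Agent.P162c

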