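import Vale.Agent.P162c.Defs

/-!
P162 (Thorp shuffle), module LOOP: the loop identity (as an inequality).
-/

namespace Vale.Agent.P162c

open Finset Vale.Agent.P162

namespace LOOP

set_option linter.unusedSectionVars false

variable {I : Type} [Fintype I] [DecidableEq I]

/-! ### averages -/

lemma avg_mono {Ω : Type} [Fintype Ω] {F G : Ω → ℝ} (h : ∀ ω, F ω ≤ G ω) : avg F ≤ avg G := by
  unfold avg
  apply div_le_div_of_nonneg_right (Finset.sum_le_sum fun ω _ => h ω) (Nat.cast_nonneg _)

lemma avg_const {Ω : Type} [Fintype Ω] [Nonempty Ω] (c : ℝ) : avg (fun _ : Ω => c) = c := by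
  unfold avg
  rw [Finset.sum_const, Finset.card_univ, nsmul_eq_mul]
  have : (Fintype.card Ω : ℝ) ≠ 0 := by exact_mod_cast Fintype.card_ne_zero
  field_simp

lemma avg_mul_left {Ω : Type} [Fintype Ω] (c : ℝ) (F : Ω → ℝ) :
    avg (fun ω => c * F ω) = c * avg F := by
  unfold avg
  rw [← Finset.mul_sum]
  ring

lemma sum_update {A : Type} [Fintype A] (j : I) (f : (I → A) → ℝ) :
    ∑ a : A, ∑ s : I → A, f (Function.update s j a) = (Fintype.card A : ℝ) * ∑ s, f s := by
  rw [← Fintype.sum_prod_type' (f := fun (a : A) (s : I → A) => f (Function.update s j a))]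
  let e : (A × (I → A)) ≃ (A × (I → A)) :=
    { toFun := fun p => (p.2 j, Function.update p.2 j p.1)
      invFun := fun p => (p.2 j, Function.update p.2 j p.1)
      left_inv := fun p => by
        ext i
        · simp
        · by_cases h : i = j
          · subst h; simp
          · simp
      right_inv := fun p => by
        ext i
        · simp
        · by_cases h : i = j
          · subst h; simp
          · simp }
  have h := e.sum_comp (fun p : A × (I → A) => f p.2)
  have h2 : ∀ p : A × (I → A), f (Function.update p.2 j p.1) = f (e p).2 := fun p => rfl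
  simp only [h2]
  rw [h, Fintype.sum_prod_type]
  simp

lemma avg_update {A : Type} [Fintype A] [Nonempty A] (j : I)
    (G : (I → A) × (I → A) → ℝ) :
    avg G = avg (fun P : A × A => avg (fun T : (I → A) × (I → A) =>
      G (Function.update T.1 j P.1, Function.update T.2 j P.2))) := by
  have hA : (Fintype.card A : ℝ) ≠ 0 := by exact_mod_cast Fintype.card_ne_zero
  have key : ∑ P : A × A, ∑ T : (I → A) × (I → A),
      G (Function.update T.1 j P.1, Function.update T.2 j P.2)
      = (Fintype.card A : ℝ) * (Fintype.card A : ℝ) * ∑ T, G T := by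
    rw [Fintype.sum_prod_type]
    have h1 : ∀ a b : A, ∑ T : (I → A) × (I → A),
        G (Function.update T.1 j a, Function.update T.2 j b)
        = ∑ s : I → A, ∑ t : I → A, G (Function.update s j a, Function.update t j b) := by
      intro a b
      rw [Fintype.sum_prod_type]
    simp only [h1]
    have h2 : ∀ a : A, ∑ b : A, ∑ s : I → A, ∑ t : I → A,
        G (Function.update s j a, Function.update t j b)
        = (Fintype.card A : ℝ) * ∑ s : I → A, ∑ t : I → A, G (Function.update s j a, t) := by
      intro a
      rw [Finset.sum_comm, Finset.mul_sum]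
      refine Finset.sum_congr rfl fun s _ => ?_
      exact sum_update j (fun t => G (Function.update s j a, t))
    simp only [h2]
    rw [← Finset.mul_sum, sum_update j (fun s => ∑ t : I → A, G (s, t)), Fintype.sum_prod_type]
    ring
  unfold avg
  rw [← Finset.sum_div, key]
  have hcA : (Fintype.card (A × A) : ℝ) = (Fintype.card A : ℝ) * Fintype.card A := by
    rw [Fintype.card_prod]
    push_cast
    ring
  rw [hcA]
  field_simp

/-! ### layers -/

variable {j : I}

lemma e_flip (x : I → Bool) : Function.update (flip j x) j false = Function.update x j false :=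
  update_flip j x false

lemma swFun_flip (σ : (I → Bool) → Bool) (x : I → Bool) :
    sw j σ (flip j x) = flip j (sw j σ x) := by
  show swFun j σ (flip j x) = flip j (swFun j σ x)
  unfold swFun
  rw [e_flip]
  split_ifs <;> rfl

lemma sw_or (σ : (I → Bool) → Bool) (x : I → Bool) : sw j σ x = x ∨ sw j σ x = flip j x := by
  show swFun j σ x = x ∨ swFun j σ x = flip j x
  unfold swFun
  split_ifs
  · exact Or.inr rfl
  · exact Or.inl rfl

lemma sw_sw (σ : (I → Bool) → Bool) (x : I → Bool) : sw j σ (sw j σ x) = x :=
  swFun_swFun j σ x

lemma sw_j (σ : (I → Bool) → Bool) (x : I → Bool) :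
    sw j σ x j = xor (x j) (σ (Function.update x j false)) := by
  show swFun j σ x j = _
  unfold swFun
  by_cases h : σ (Function.update x j false) = true
  · rw [if_pos h, h]
    simp [flip]
  · rw [if_neg h]
    simp only [Bool.not_eq_true] at h
    rw [h]
    simp

lemma sw_ne (σ : (I → Bool) → Bool) (x : I → Bool) {i : I} (hi : i ≠ j) : sw j σ x i = x i := by
  rcases sw_or (j := j) σ x with h | h
  · rw [h]
  · rw [h]
    unfold flip
    rw [Function.update_of_ne hi]

lemma net_j (s t : I → (I → Bool) → Bool) (l : List I) (hj : j ∉ l) (x : I → Bool) :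
    net s t l x j = x j := by
  induction l generalizing x with
  | nil => rfl
  | cons i l ih =>
    simp only [List.mem_cons, not_or] at hj
    show sw i (t i) (net s t l (sw i (s i) x)) j = x j
    rw [sw_ne _ _ hj.1, ih hj.2, sw_ne _ _ hj.1]

lemma net_congr (s t s' t' : I → (I → Bool) → Bool) (l : List I) (hs : ∀ i ∈ l, s i = s' i)
    (ht : ∀ i ∈ l, t i = t' i) : net s t l = net s' t' l := by
  induction l with
  | nil => rfl
  | cons i l ih =>
    show sw i (t i) * net s t l * sw i (s i) = sw i (t' i) * net s' t' l * sw i (s' i)
    rw [ih (fun k hk => hs k (List.mem_cons_of_mem _ hk)) (fun k hk => ht k (List.mem_cons_of_mem _ hk)),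
      hs i List.mem_cons_self, ht i List.mem_cons_self]

lemma Wt_congr (s t s' t' : I → (I → Bool) → Bool) (l : List I) (hs : ∀ i ∈ l, s i = s' i)
    (ht : ∀ i ∈ l, t i = t' i) (U : Finset (I → Bool)) : Wt s t l U = Wt s' t' l U := by
  induction l generalizing U with
  | nil => rfl
  | cons i l ih =>
    have hs' := fun k hk => hs k (List.mem_cons_of_mem i hk)
    have ht' := fun k hk => ht k (List.mem_cons_of_mem i hk)
    show (cnt i (net s t l) U : ℝ) * Wt s t l (U.image (sw i (s i)))
      = (cnt i (net s' t' l) U : ℝ) * Wt s' t' l (U.image (sw i (s' i)))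
    rw [net_congr s t s' t' l hs' ht', ih hs' ht', hs i List.mem_cons_self]

/-- the deterministic version of `cnt` -/
def cy (j : I) (y : (I → Bool) → (I → Bool)) (U : Finset (I → Bool)) : ℕ :=
  (U.powerset.filter (fun b => b.image (flip j) = b ∧
    (b.image y).image (flip j) = b.image y)).card

lemma cy_pos (y : (I → Bool) → (I → Bool)) (U : Finset (I → Bool)) : 0 < cy j y U := by
  unfold cy
  apply Finset.card_pos.2
  refine ⟨∅, ?_⟩
  simp

lemma image_sw (σ : (I → Bool) → Bool) (b : Finset (I → Bool)) (hb : b.image (flip j) = b) :
    b.image (sw j σ) = b := by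
  apply Finset.eq_of_subset_of_card_le
  · intro z hz
    rw [Finset.mem_image] at hz
    obtain ⟨x, hx, rfl⟩ := hz
    rcases sw_or (j := j) σ x with h | h
    · rw [h]; exact hx
    · rw [h, ← hb]
      exact Finset.mem_image_of_mem _ hx
  · rw [Finset.card_image_of_injective _ (sw j σ).injective]

lemma inv_image_sw (σ : (I → Bool) → Bool) (c : Finset (I → Bool)) :
    (c.image (sw j σ)).image (flip j) = c.image (sw j σ) ↔ c.image (flip j) = c := by
  have h : (c.image (sw j σ)).image (flip j) = (c.image (flip j)).image (sw j σ) := by
    rw [Finset.image_image, Finset.image_image]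
    apply Finset.image_congr
    intro x _
    exact (swFun_flip σ x).symm
  rw [h]
  exact (Finset.image_injective (sw j σ).injective).eq_iff

lemma cnt_eq (B : Equiv.Perm (I → Bool)) (σ τ : (I → Bool) → Bool) (y : (I → Bool) → (I → Bool))
    (U : Finset (I → Bool)) (h : ∀ x ∈ U, B (sw j σ x) = sw j τ (y x)) :
    cnt j B U = cy j y U := by
  unfold cnt cy
  congr 1
  apply Finset.filter_congr
  intro b hb
  rw [Finset.mem_powerset] at hb
  constructor
  · rintro ⟨h1, h2⟩
    refine ⟨h1, ?_⟩
    have e : b.image B = (b.image y).image (sw j τ) := by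
      conv_lhs => rw [← image_sw σ b h1]
      rw [Finset.image_image, Finset.image_image]
      apply Finset.image_congr
      intro x hx
      exact h x (hb hx)
    rw [e, inv_image_sw] at h2
    exact h2
  · rintro ⟨h1, h2⟩
    refine ⟨h1, ?_⟩
    have e : b.image B = (b.image y).image (sw j τ) := by
      conv_lhs => rw [← image_sw σ b h1]
      rw [Finset.image_image, Finset.image_image]
      apply Finset.image_congr
      intro x hx
      exact h x (hb hx)
    rw [e, inv_image_sw]
    exact h2

/-! ### Fourier -/

/-- sign -/
def sg (b : Bool) : ℝ := if b then -1 else 1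

lemma sg_sq (b : Bool) : sg b * sg b = 1 := by
  unfold sg; cases b <;> simp

lemma sg_xor (a b : Bool) : sg (xor a b) = sg a * sg b := by
  unfold sg; cases a <;> cases b <;> simp

lemma ind_eq (a b : Bool) : (if a = b then (1 : ℝ) else 0) = (1 + sg a * sg b) / 2 := by
  unfold sg; cases a <;> cases b <;> norm_num

lemma abs_sg (b : Bool) : |sg b| = 1 := by
  unfold sg; cases b <;> simp

/-- sum over switches of a product of signs vanishes -/
lemma sum_sg_zero {W X : Type} [Fintype W] [DecidableEq W] [DecidableEq X] (A : Finset X)
    (f : X → W) (x0 : X) (h0 : x0 ∈ A) (h : ∀ x ∈ A, f x = f x0 → x = x0) :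
    ∑ σ : W → Bool, ∏ x ∈ A, sg (σ (f x)) = 0 := by
  let e : (W → Bool) ≃ (W → Bool) :=
    { toFun := fun σ => Function.update σ (f x0) (!σ (f x0))
      invFun := fun σ => Function.update σ (f x0) (!σ (f x0))
      left_inv := fun σ => by simp
      right_inv := fun σ => by simp }
  have h1 := e.sum_comp (fun σ : W → Bool => ∏ x ∈ A, sg (σ (f x)))
  have h2 : ∀ σ : W → Bool, ∏ x ∈ A, sg (e σ (f x)) = - ∏ x ∈ A, sg (σ (f x)) := by
    intro σ
    rw [← Finset.mul_prod_erase A _ h0, ← Finset.mul_prod_erase A (fun x => sg (σ (f x))) h0]
    have e1 : sg (e σ (f x0)) = - sg (σ (f x0)) := by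
      show sg (Function.update σ (f x0) (!σ (f x0)) (f x0)) = _
      rw [Function.update_self]
      unfold sg
      cases σ (f x0) <;> simp
    have e2 : ∏ x ∈ A.erase x0, sg (e σ (f x)) = ∏ x ∈ A.erase x0, sg (σ (f x)) := by
      refine Finset.prod_congr rfl fun x hx => ?_
      rw [Finset.mem_erase] at hx
      have : f x ≠ f x0 := fun he => hx.1 (h x hx.2 he)
      show sg (Function.update σ (f x0) (!σ (f x0)) (f x)) = _
      rw [Function.update_of_ne this]
    rw [e1, e2]
    ring
  simp only [h2] at h1
  rw [Finset.sum_neg_distrib] at h1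
  linarith

lemma sum_sg_abs {W X : Type} [Fintype W] (A : Finset X) (f : X → W) [DecidableEq W] :
    |∑ σ : W → Bool, ∏ x ∈ A, sg (σ (f x))| ≤ Fintype.card (W → Bool) := by
  refine (Finset.abs_sum_le_sum_abs _ _).trans ?_
  have : ∀ σ : W → Bool, |∏ x ∈ A, sg (σ (f x))| = 1 := by
    intro σ
    rw [Finset.abs_prod]
    simp [abs_sg]
  simp only [this]
  simp

lemma flip_ne (x : I → Bool) : flip j x ≠ x := by
  intro h
  have := congrFun h j
  unfold flip at this
  simp at this

lemma e_eq {x z : I → Bool} (h : Function.update x j false = Function.update z j false) :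
    x = z ∨ x = flip j z := by
  have h1 : ∀ i, i ≠ j → x i = z i := by
    intro i hi
    have := congrFun h i
    rwa [Function.update_of_ne hi, Function.update_of_ne hi] at this
  by_cases hj : x j = z j
  · left
    funext i
    by_cases hi : i = j
    · rw [hi, hj]
    · exact h1 i hi
  · right
    funext i
    unfold flip
    by_cases hi : i = j
    · rw [hi, Function.update_self]
      cases hx : x j <;> cases hz : z j <;> simp_all
    · rw [Function.update_of_ne hi]
      exact h1 i hi

lemma not_inv (A : Finset (I → Bool)) (h : A.image (flip j) ≠ A) :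
    ∃ x ∈ A, flip j x ∉ A := by
  by_contra hc
  push Not at hc
  apply h
  apply Finset.eq_of_subset_of_card_le
  · intro z hz
    rw [Finset.mem_image] at hz
    obtain ⟨x, hx, rfl⟩ := hz
    exact hc x hx
  · rw [Finset.card_image_of_injective]
    intro a b hab
    rw [← flip_flip j a, ← flip_flip j b]
    exact congrArg _ hab

/-- the probability that the coordinates match -/
lemma match_prob (U : Finset (I → Bool)) (y : (I → Bool) → (I → Bool)) (hy : Set.InjOn y U) :
    avg (fun P : ((I → Bool) → Bool) × ((I → Bool) → Bool) =>
      if (∀ x ∈ U, sw j P.1 x j = sw j P.2 (y x) j) then (1 : ℝ) else 0)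
      ≤ (1 / 2) ^ U.card * cy j y U := by
  have e1 : ∀ P : ((I → Bool) → Bool) × ((I → Bool) → Bool),
      (if (∀ x ∈ U, sw j P.1 x j = sw j P.2 (y x) j) then (1 : ℝ) else 0)
        = (1 / 2) ^ U.card * ∑ A ∈ U.powerset, (∏ x ∈ A, (sg (x j) * sg (y x j))) *
          ((∏ x ∈ A, sg (P.1 (Function.update x j false))) *
            ∏ x ∈ A, sg (P.2 (Function.update (y x) j false))) := by
    intro P
    have h1 : (if (∀ x ∈ U, sw j P.1 x j = sw j P.2 (y x) j) then (1 : ℝ) else 0)
        = ∏ x ∈ U, (if sw j P.1 x j = sw j P.2 (y x) j then (1 : ℝ) else 0) := by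
      rw [Finset.prod_ite_zero]
      simp
    rw [h1]
    have h2 : ∀ x ∈ U, (if sw j P.1 x j = sw j P.2 (y x) j then (1 : ℝ) else 0)
        = (1 / 2) * (1 + (sg (x j) * sg (y x j)) * (sg (P.1 (Function.update x j false)) *
          sg (P.2 (Function.update (y x) j false)))) := by
      intro x _
      rw [ind_eq, sw_j, sw_j, sg_xor, sg_xor]
      ring
    rw [Finset.prod_congr rfl h2, Finset.prod_mul_distrib, Finset.prod_const, Finset.prod_one_add]
    congr 1
    refine Finset.sum_congr rfl fun A _ => ?_
    rw [Finset.prod_mul_distrib]
    congr 1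
    rw [Finset.prod_mul_distrib]
  simp only [e1]
  rw [avg_mul_left]
  apply mul_le_mul_of_nonneg_left _ (by positivity)
  unfold avg
  have hW : (0 : ℝ) < Fintype.card (((I → Bool) → Bool) × ((I → Bool) → Bool)) := by
    exact_mod_cast Fintype.card_pos
  rw [div_le_iff₀ hW, Finset.sum_comm]
  have e2 : ∀ A ∈ U.powerset, ∑ P : ((I → Bool) → Bool) × ((I → Bool) → Bool),
      (∏ x ∈ A, (sg (x j) * sg (y x j))) *
          ((∏ x ∈ A, sg (P.1 (Function.update x j false))) *
            ∏ x ∈ A, sg (P.2 (Function.update (y x) j false)))
      ≤ if (A.image (flip j) = A ∧ (A.image y).image (flip j) = A.image y) then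
        (Fintype.card (((I → Bool) → Bool) × ((I → Bool) → Bool)) : ℝ) else 0 := by
    intro A hA
    rw [Finset.mem_powerset] at hA
    have e3 : ∑ P : ((I → Bool) → Bool) × ((I → Bool) → Bool),
        (∏ x ∈ A, (sg (x j) * sg (y x j))) *
          ((∏ x ∈ A, sg (P.1 (Function.update x j false))) *
            ∏ x ∈ A, sg (P.2 (Function.update (y x) j false)))
        = (∏ x ∈ A, (sg (x j) * sg (y x j))) *
          ((∑ σ : (I → Bool) → Bool, ∏ x ∈ A, sg (σ (Function.update x j false))) *
            ∑ τ : (I → Bool) → Bool, ∏ x ∈ A, sg (τ (Function.update (y x) j false))) := by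
      rw [← Finset.mul_sum, Fintype.sum_prod_type, Finset.sum_mul_sum]
    rw [e3]
    split_ifs with h
    · refine (le_abs_self _).trans ?_
      rw [abs_mul, abs_mul, Finset.abs_prod]
      have e4 : ∏ x ∈ A, |sg (x j) * sg (y x j)| = 1 := by
        apply Finset.prod_eq_one
        intro x _
        rw [abs_mul, abs_sg, abs_sg, one_mul]
      rw [e4, one_mul, Fintype.card_prod]
      push_cast
      apply mul_le_mul
      · have := sum_sg_abs A (fun x : I → Bool => Function.update x j false)
        exact_mod_cast this
      · have := sum_sg_abs A (fun x : I → Bool => Function.update (y x) j false)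
        exact_mod_cast this
      · exact abs_nonneg _
      · exact Nat.cast_nonneg _
    · rw [not_and_or] at h
      apply le_of_eq
      rcases h with h | h
      · obtain ⟨x0, hx0, hx1⟩ := not_inv A h
        rw [sum_sg_zero A (fun x : I → Bool => Function.update x j false) x0 hx0]
        · ring
        · intro x hx hxe
          rcases e_eq hxe with h2 | h2
          · exact h2
          · exact absurd (h2 ▸ hx) hx1
      · obtain ⟨z, hz, hz1⟩ := not_inv (A.image y) h
        rw [Finset.mem_image] at hz
        obtain ⟨x0, hx0, rfl⟩ := hz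
        rw [sum_sg_zero A (fun x : I → Bool => Function.update (y x) j false) x0 hx0]
        · ring
        · intro x hx hxe
          rcases e_eq hxe with h2 | h2
          · exact hy (hA hx) (hA hx0) h2
          · exact absurd (h2 ▸ Finset.mem_image_of_mem y hx) hz1
  refine (Finset.sum_le_sum e2).trans ?_
  rw [← Finset.sum_filter, Finset.sum_const, nsmul_eq_mul]
  rfl

end LOOP

open LOOP in
theorem loop : S_LOOP := by
  intro I _ _ l hl
  induction l with
  | nil =>
    intro U y
    refine (avg_mono (G := fun _ => 1) fun T => ?_).trans (le_of_eq ?_)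
    · split_ifs
      · simp [Wt]
      · exact zero_le_one
    · rw [avg_const]
      simp
  | cons j l ih =>
    intro U y
    rw [List.nodup_cons] at hl
    have ih := ih hl.2
    by_cases hy : Set.InjOn y U
    · rw [avg_update j]
      have hc : (0 : ℝ) < (cy j y U : ℝ) := by exact_mod_cast cy_pos y U
      have key : ∀ P : ((I → Bool) → Bool) × ((I → Bool) → Bool),
          avg (fun T : (I → (I → Bool) → Bool) × (I → (I → Bool) → Bool) =>
            if (∀ x ∈ U, net (Function.update T.1 j P.1) (Function.update T.2 j P.2) (j :: l) x = y x)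
            then 1 / Wt (Function.update T.1 j P.1) (Function.update T.2 j P.2) (j :: l) U else 0)
          ≤ (1 / (cy j y U : ℝ) * (1 / 2) ^ (l.length * U.card)) *
            (if (∀ x ∈ U, sw j P.1 x j = sw j P.2 (y x) j) then (1 : ℝ) else 0) := by
        intro P
        have hnet : ∀ T : (I → (I → Bool) → Bool) × (I → (I → Bool) → Bool),
            net (Function.update T.1 j P.1) (Function.update T.2 j P.2) l = net T.1 T.2 l := by
          intro T
          apply net_congr
          · intro i hi
            rw [Function.update_of_ne]
            rintro rfl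
            exact hl.1 hi
          · intro i hi
            rw [Function.update_of_ne]
            rintro rfl
            exact hl.1 hi
        have hWt : ∀ (T : (I → (I → Bool) → Bool) × (I → (I → Bool) → Bool)) (U' : Finset (I → Bool)),
            Wt (Function.update T.1 j P.1) (Function.update T.2 j P.2) l U' = Wt T.1 T.2 l U' := by
          intro T U'
          apply Wt_congr
          · intro i hi
            rw [Function.update_of_ne]
            rintro rfl
            exact hl.1 hi
          · intro i hi
            rw [Function.update_of_ne]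
            rintro rfl
            exact hl.1 hi
        have hev : ∀ T : (I → (I → Bool) → Bool) × (I → (I → Bool) → Bool),
            (∀ x ∈ U, net (Function.update T.1 j P.1) (Function.update T.2 j P.2) (j :: l) x = y x)
            ↔ ∀ x ∈ U, net T.1 T.2 l (sw j P.1 x) = sw j P.2 (y x) := by
          intro T
          apply forall₂_congr
          intro x _
          show sw j (Function.update T.2 j P.2 j)
            (net (Function.update T.1 j P.1) (Function.update T.2 j P.2) l
              (sw j (Function.update T.1 j P.1 j) x)) = y x ↔ _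
          rw [hnet, Function.update_self, Function.update_self]
          constructor
          · intro h
            rw [← h, sw_sw]
          · intro h
            rw [h, sw_sw]
        have hterm : ∀ T : (I → (I → Bool) → Bool) × (I → (I → Bool) → Bool),
            (if (∀ x ∈ U, net (Function.update T.1 j P.1) (Function.update T.2 j P.2) (j :: l) x = y x)
            then 1 / Wt (Function.update T.1 j P.1) (Function.update T.2 j P.2) (j :: l) U else 0)
            = (1 / (cy j y U : ℝ)) * (if (∀ x' ∈ U.image (sw j P.1),
                net T.1 T.2 l x' = (fun z => sw j P.2 (y (sw j P.1 z))) x')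
              then 1 / Wt T.1 T.2 l (U.image (sw j P.1)) else 0) := by
          intro T
          have hev2 : (∀ x' ∈ U.image (sw j P.1),
                net T.1 T.2 l x' = (fun z => sw j P.2 (y (sw j P.1 z))) x')
              ↔ ∀ x ∈ U, net T.1 T.2 l (sw j P.1 x) = sw j P.2 (y x) := by
            rw [Finset.forall_mem_image]
            apply forall₂_congr
            intro x _
            simp only
            rw [sw_sw]
          by_cases h : ∀ x ∈ U, net T.1 T.2 l (sw j P.1 x) = sw j P.2 (y x)
          · rw [if_pos ((hev T).2 h), if_pos (hev2.2 h)]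
            show 1 / ((cnt j (net (Function.update T.1 j P.1) (Function.update T.2 j P.2) l) U : ℝ)
              * Wt (Function.update T.1 j P.1) (Function.update T.2 j P.2) l
                (U.image (sw j (Function.update T.1 j P.1 j)))) = _
            rw [hnet, hWt, Function.update_self, cnt_eq _ P.1 P.2 y U h]
            rw [one_div_mul_one_div]
          · rw [if_neg (fun h' => h ((hev T).1 h')), if_neg (fun h' => h (hev2.1 h')), mul_zero]
        simp only [hterm]
        rw [avg_mul_left, mul_assoc]
        apply mul_le_mul_of_nonneg_left _ (by positivity)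
        by_cases hm : ∀ x ∈ U, sw j P.1 x j = sw j P.2 (y x) j
        · rw [if_pos hm, mul_one]
          have h := ih (U.image (sw j P.1)) (fun z => sw j P.2 (y (sw j P.1 z)))
          rwa [Finset.card_image_of_injective _ (sw j P.1).injective] at h
        · rw [if_neg hm, mul_zero]
          push Not at hm
          obtain ⟨x, hx, hne⟩ := hm
          apply le_of_eq
          have hz : ∀ T : (I → (I → Bool) → Bool) × (I → (I → Bool) → Bool),
              (if (∀ x' ∈ U.image (sw j P.1),
                net T.1 T.2 l x' = (fun z => sw j P.2 (y (sw j P.1 z))) x')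
              then 1 / Wt T.1 T.2 l (U.image (sw j P.1)) else 0) = 0 := by
            intro T
            rw [if_neg]
            intro h
            have h1 := h (sw j P.1 x) (Finset.mem_image_of_mem _ hx)
            simp only at h1
            rw [sw_sw] at h1
            have h2 := congrFun h1 j
            rw [net_j _ _ l hl.1] at h2
            exact hne h2
          simp only [hz]
          rw [avg_const]
      refine (avg_mono key).trans ?_
      rw [avg_mul_left]
      have hm := match_prob (j := j) U y hy
      have h1 : (1 / (cy j y U : ℝ) * (1 / 2) ^ (l.length * U.card)) *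
          avg (fun P : ((I → Bool) → Bool) × ((I → Bool) → Bool) =>
            if (∀ x ∈ U, sw j P.1 x j = sw j P.2 (y x) j) then (1 : ℝ) else 0)
          ≤ (1 / (cy j y U : ℝ) * (1 / 2) ^ (l.length * U.card)) *
            ((1 / 2) ^ U.card * cy j y U) :=
        mul_le_mul_of_nonneg_left hm (by positivity)
      refine h1.trans (le_of_eq ?_)
      rw [List.length_cons, add_mul, pow_add, one_mul]
      field_simp
    · have hz : ∀ T : (I → (I → Bool) → Bool) × (I → (I → Bool) → Bool),
          (if (∀ x ∈ U, net T.1 T.2 (j :: l) x = y x) then 1 / Wt T.1 T.2 (j :: l) U else 0) = 0 := by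
        intro T
        rw [if_neg]
        intro h
        apply hy
        intro a ha b hb hab
        rw [← h a ha, ← h b hb] at hab
        exact (net T.1 T.2 (j :: l)).injective hab
      simp only [hz]
      rw [avg_const]
      positivity

end Vale.Agent.P162c
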