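import Mathlib
import Vale.Agent.P162c.Defs2
import Vale.Agent.P162.Thorp1

/-!
P162, module LOWER: counting lower bound for the mixing time of the Thorp shuffle.
-/

namespace Vale.Agent.P162c

open Finset Vale.Agent.P162

/-- linear lower bound -/
def S_LOWER : Prop :=
  ∃ c : ℝ, 0 < c ∧ ∀ d : ℕ, 1 ≤ d → ∀ t : ℕ, thorpTV (2 ^ (d - 1)) t ≤ 1 / 4 → c * (d : ℝ) ≤ t

namespace LOWER

open Classical in
/-- at most `2 ^ (m t)` permutations are reached in `t` steps -/
lemma support_card (m : ℕ) : ∀ t : ℕ, ∃ S : Finset (Equiv.Perm (Fin (2 * m))),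
    S.card ≤ 2 ^ (m * t) ∧ ∀ g, g ∉ S → thorpPow m t g = 0 := by
  intro t
  induction t with
  | zero =>
    refine ⟨{1}, by simp, ?_⟩
    intro g hg
    have : g ≠ 1 := by simpa using hg
    simp [thorpPow, this]
  | succ t ih =>
    obtain ⟨S, hS, hz⟩ := ih
    refine ⟨(univ.filter (fun g : Equiv.Perm (Fin (2 * m)) => Good g) ×ˢ S).image
      (fun p => p.1 * p.2), ?_, ?_⟩
    · refine card_image_le.trans ?_
      rw [card_product, card_good]
      calc 2 ^ m * S.card ≤ 2 ^ m * 2 ^ (m * t) := Nat.mul_le_mul_left _ hS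
        _ = 2 ^ (m * (t + 1)) := by rw [← pow_add]; ring_nf
    · intro g hg
      change ∑ h : Equiv.Perm (Fin (2 * m)), thorpLaw m h * thorpPow m t (h⁻¹ * g) = 0
      refine sum_eq_zero fun h _ => ?_
      by_cases hG : Good h
      · rw [hz, mul_zero]
        intro hmem
        apply hg
        rw [mem_image]
        exact ⟨(h, h⁻¹ * g), by simp [hG, hmem], by simp⟩
      · rw [thorpLaw_eq, if_neg hG, zero_mul]

lemma fact_le_of_tv (m t : ℕ) (h : thorpTV m t ≤ 1 / 4) :
    3 * (2 * m).factorial ≤ 4 * 2 ^ (m * t) := by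
  classical
  obtain ⟨S, hS, hz⟩ := support_card m t
  have hF : (0 : ℝ) < ((2 * m).factorial : ℝ) := by exact_mod_cast Nat.factorial_pos _
  set u : ℝ := 1 / ((2 * m).factorial : ℝ) with hu
  have hcard : (Fintype.card (Equiv.Perm (Fin (2 * m))) : ℝ) = ((2 * m).factorial : ℝ) := by
    rw [Fintype.card_perm, Fintype.card_fin]
  have hsplit : ∀ F : Equiv.Perm (Fin (2 * m)) → ℝ, ∑ g, F g = ∑ g ∈ S, F g + ∑ g ∈ Sᶜ, F g :=
    fun F => (sum_add_sum_compl S F).symm
  have hc : ((Sᶜ.card : ℕ) : ℝ) = ((2 * m).factorial : ℝ) - S.card := by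
    rw [card_compl, Nat.cast_sub (card_le_univ S), hcard]
  have h1 : ∑ g ∈ Sᶜ, |thorpPow m t g - u| = (((2 * m).factorial : ℝ) - S.card) * u := by
    rw [← hc, ← nsmul_eq_mul, ← sum_const]
    refine sum_congr rfl fun g hg => ?_
    rw [hz g (by simpa using hg), zero_sub, abs_neg, abs_of_nonneg (by positivity)]
  have h2 : 1 - S.card * u ≤ ∑ g ∈ S, |thorpPow m t g - u| := by
    have e : ∑ g ∈ S, thorpPow m t g = 1 := by
      rw [← sum_thorpPow (m := m) t, hsplit (fun g => thorpPow m t g)]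
      rw [sum_eq_zero (s := Sᶜ) (fun g hg => hz g (by simpa using hg)), add_zero]
    calc 1 - S.card * u = ∑ g ∈ S, (thorpPow m t g - u) := by
          rw [sum_sub_distrib, e, sum_const, nsmul_eq_mul]
      _ ≤ _ := sum_le_sum fun g _ => le_abs_self _
  have h3 : (1 / 2 : ℝ) * ∑ g : Equiv.Perm (Fin (2 * m)), |thorpPow m t g - u| ≤ 1 / 4 := h
  rw [hsplit (fun g => |thorpPow m t g - u|), h1] at h3
  have hFu : ((2 * m).factorial : ℝ) * u = 1 := by rw [hu]; field_simp
  have h4 : 3 / 4 ≤ (S.card : ℝ) * u := by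
    have : (((2 * m).factorial : ℝ) - S.card) * u = 1 - S.card * u := by rw [sub_mul, hFu]
    rw [this] at h3
    linarith
  have h5 : 3 / 4 * ((2 * m).factorial : ℝ) ≤ (S.card : ℝ) := by
    calc 3 / 4 * ((2 * m).factorial : ℝ) ≤ ((S.card : ℝ) * u) * ((2 * m).factorial : ℝ) :=
          mul_le_mul_of_nonneg_right h4 hF.le
      _ = (S.card : ℝ) := by rw [mul_assoc, mul_comm u, hFu, mul_one]
  have h6 : (S.card : ℝ) ≤ 2 ^ (m * t) := by exact_mod_cast hS
  have h7 : (3 : ℝ) * ((2 * m).factorial : ℝ) ≤ 4 * 2 ^ (m * t) := by linarith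
  exact_mod_cast h7

lemma steps (m t : ℕ) (hm : 1 ≤ m) (h : 3 * (2 * m).factorial ≤ 4 * 2 ^ (m * t)) :
    1 ≤ t ∧ m ≤ 2 ^ t := by
  have hf : m.factorial * (m + 1) ^ m ≤ (2 * m).factorial := by
    have := Nat.factorial_mul_pow_le_factorial (m := m) (n := m)
    rwa [← two_mul] at this
  have hfm : 1 ≤ m.factorial := Nat.factorial_pos m
  constructor
  · by_contra ht
    have : t = 0 := by omega
    subst this
    have h2 : 2 ≤ (m + 1) ^ m := by
      calc 2 ≤ m + 1 := by omega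
        _ = (m + 1) ^ 1 := (pow_one _).symm
        _ ≤ (m + 1) ^ m := Nat.pow_le_pow_right (by omega) hm
    have h3 : 2 ≤ (2 * m).factorial := le_trans (by nlinarith) hf
    simp at h
    omega
  · have hb : 2 * m ^ m ≤ (m + 1) ^ m := by
      have h1 : (m ^ m : ℕ) + m * m ^ (m - 1) ≤ (m + 1) ^ m := by
        have hbin := add_pow m 1 m
        rw [hbin]
        simp only [one_pow, mul_one]
        rw [Finset.sum_range_succ]
        obtain ⟨k, rfl⟩ : ∃ k, m = k + 1 := ⟨m - 1, by omega⟩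
        rw [Finset.sum_range_succ]
        simp
        nlinarith [Nat.zero_le (∑ x ∈ range k, (k + 1) ^ x * (k + 1).choose x)]
      have h2 : m * m ^ (m - 1) = m ^ m := by
        rw [← pow_succ', Nat.sub_add_cancel hm]
      omega
    have h3 : m ^ m ≤ 2 ^ (m * t) := by
      have : (m + 1) ^ m ≤ (2 * m).factorial := le_trans (Nat.le_mul_of_pos_left _ hfm) hf
      omega
    rw [mul_comm, pow_mul] at h3
    exact (Nat.pow_le_pow_iff_left (by omega)).mp h3

end LOWER

theorem lower : S_LOWER := by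
  refine ⟨1 / 2, by norm_num, fun d hd t h => ?_⟩
  obtain ⟨h1, h2⟩ := LOWER.steps (2 ^ (d - 1)) t Nat.one_le_two_pow (LOWER.fact_le_of_tv _ _ h)
  have h3 : d - 1 ≤ t := (Nat.pow_le_pow_iff_right (by norm_num)).mp h2
  have h4 : d ≤ 2 * t := by omega
  have : (d : ℝ) ≤ 2 * t := by exact_mod_cast h4
  linarith

end Vale.Agent.P162c
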