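import Mathlib
import Vale.Agent.P162c.Defs3

/-! P162, module MOM : `S_RAD → S_MOM`. -/

namespace Vale.Agent.P162c

open Finset Vale.Agent.P162

namespace MOM

variable {ι : Type} [Fintype ι] [DecidableEq ι]

/-- Walsh character -/
noncomputable def wch (R : Finset ι) (σ : ι → Bool) : ℝ := ∏ i ∈ R, sgn (σ i)

lemma sgn_sq (b : Bool) : sgn b * sgn b = 1 := by cases b <;> simp [sgn]

lemma wch_symmDiff_pair (R : Finset ι) (i : ι) (σ : ι → Bool) :
    sgn (σ i) * wch R σ = wch (symmDiff R {i}) σ := by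
  unfold wch
  by_cases h : i ∈ R
  · have e : symmDiff R {i} = R.erase i := by
      ext x; simp only [Finset.mem_symmDiff, Finset.mem_singleton, Finset.mem_erase]
      constructor
      · rintro (⟨h1, h2⟩ | ⟨h1, h2⟩)
        · exact ⟨h2, h1⟩
        · subst h1; exact absurd h h2
      · rintro ⟨h1, h2⟩; exact Or.inl ⟨h2, h1⟩
    rw [e, ← Finset.mul_prod_erase R _ h, ← mul_assoc, sgn_sq, one_mul]
  · have e : symmDiff R {i} = insert i R := by
      ext x; simp only [Finset.mem_symmDiff, Finset.mem_singleton, Finset.mem_insert]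
      constructor
      · rintro (⟨h1, h2⟩ | ⟨h1, h2⟩)
        · exact Or.inr h1
        · exact Or.inl h1
      · rintro (h1 | h1)
        · subst h1; exact Or.inr ⟨rfl, h⟩
        · refine Or.inl ⟨h1, fun e => h (e ▸ h1)⟩
    rw [e, Finset.prod_insert h]

lemma wch_pair (R : Finset ι) {i j : ι} (hij : i ≠ j) (σ : ι → Bool) :
    sgn (σ i) * sgn (σ j) * wch R σ = wch (symmDiff R {i, j}) σ := by
  rw [mul_assoc, wch_symmDiff_pair, wch_symmDiff_pair, symmDiff_assoc]
  congr 2
  ext x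
  simp only [Finset.mem_symmDiff, Finset.mem_singleton, Finset.mem_insert]
  constructor
  · rintro (⟨h1, h2⟩ | ⟨h1, h2⟩)
    · exact Or.inr h1
    · exact Or.inl h1
  · rintro (h1 | h1)
    · exact Or.inr ⟨h1, fun h => hij (h1 ▸ h)⟩
    · exact Or.inl ⟨h1, fun h => hij (h ▸ h1)⟩

/-- sum over ordered pairs of signs -/
lemma sum_pairs (σ : ι → Bool) :
    ∑ i, ∑ j ∈ univ.erase i, sgn (σ i) * sgn (σ j) = (∑ i, sgn (σ i)) ^ 2 - Fintype.card ι := by
  have h : ∀ i, ∑ j ∈ univ.erase i, sgn (σ i) * sgn (σ j)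
      = sgn (σ i) * (∑ j, sgn (σ j)) - 1 := by
    intro i
    rw [← Finset.mul_sum, ← Finset.add_sum_erase univ (fun j => sgn (σ j)) (Finset.mem_univ i),
      mul_add, sgn_sq]
    ring
  rw [Finset.sum_congr rfl fun i _ => h i, Finset.sum_sub_distrib, ← Finset.sum_mul]
  simp [sq]

/-- moments -/
noncomputable def Wm (j : ℕ) (R : Finset ι) : ℝ :=
  avg (fun σ : ι → Bool =>
    wch R σ * (2 * ((∑ i, sgn (σ i)) ^ 2 - Fintype.card ι)) ^ j)

lemma avg_sum' {Ω κ : Type} [Fintype Ω] (s : Finset κ) (F : κ → Ω → ℝ) :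
    avg (fun ω => ∑ k ∈ s, F k ω) = ∑ k ∈ s, avg (F k) := by
  unfold avg
  rw [Finset.sum_comm, Finset.sum_div]

lemma avg_cmul {Ω : Type} [Fintype Ω] (c : ℝ) (F : Ω → ℝ) :
    avg (fun ω => c * F ω) = c * avg F := by
  unfold avg
  rw [← Finset.mul_sum, mul_div_assoc]

lemma Wm_succ (j : ℕ) (R : Finset ι) :
    Wm (j + 1) R = 2 * ∑ i, ∑ k ∈ univ.erase i, Wm j (symmDiff R {i, k}) := by
  unfold Wm
  have h : ∀ σ : ι → Bool, wch R σ * (2 * ((∑ i, sgn (σ i)) ^ 2 - Fintype.card ι)) ^ (j + 1)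
      = 2 * ∑ i, ∑ k ∈ univ.erase i, wch (symmDiff R {i, k}) σ *
        (2 * ((∑ i, sgn (σ i)) ^ 2 - Fintype.card ι)) ^ j := by
    intro σ
    have e : ∀ i, ∀ k ∈ univ.erase i, wch (symmDiff R {i, k}) σ *
        (2 * ((∑ i, sgn (σ i)) ^ 2 - Fintype.card ι)) ^ j
        = (wch R σ * (2 * ((∑ i, sgn (σ i)) ^ 2 - Fintype.card ι)) ^ j) *
          (sgn (σ i) * sgn (σ k)) := by
      intro i k hk
      rw [← wch_pair R (Ne.symm (Finset.ne_of_mem_erase hk)) σ]
      ring
    rw [Finset.sum_congr rfl fun i _ => Finset.sum_congr rfl (e i)]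
    have e2 : ∑ i, ∑ k ∈ univ.erase i,
        (wch R σ * (2 * ((∑ i, sgn (σ i)) ^ 2 - Fintype.card ι)) ^ j) *
          (sgn (σ i) * sgn (σ k)) =
        (wch R σ * (2 * ((∑ i, sgn (σ i)) ^ 2 - Fintype.card ι)) ^ j) *
          ∑ i, ∑ k ∈ univ.erase i, sgn (σ i) * sgn (σ k) := by
      rw [Finset.mul_sum]
      refine Finset.sum_congr rfl fun i _ => ?_
      rw [Finset.mul_sum]
    rw [e2, sum_pairs, pow_succ]
    ring
  rw [show (fun σ : ι → Bool => wch R σ *
      (2 * ((∑ i, sgn (σ i)) ^ 2 - Fintype.card ι)) ^ (j + 1)) = _ from funext h]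
  rw [avg_cmul, avg_sum']
  congr 1
  refine Finset.sum_congr rfl fun i _ => ?_
  rw [avg_sum']

lemma Wm_zero (R : Finset ι) : Wm 0 R = if R = ∅ then 1 else 0 := by
  unfold Wm
  simp only [pow_zero, mul_one]
  by_cases h : R = ∅
  · subst h
    rw [if_pos rfl]
    unfold avg wch
    simp
  · rw [if_neg h]
    obtain ⟨i, hi⟩ := Finset.nonempty_iff_ne_empty.2 h
    -- flipping σ i changes the sign
    have : avg (fun σ : ι → Bool => wch R σ) = - avg (fun σ : ι → Bool => wch R σ) := by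
      unfold avg
      rw [← neg_div]
      congr 1
      rw [← Finset.sum_neg_distrib]
      let e : (ι → Bool) ≃ (ι → Bool) :=
        { toFun := fun σ => Function.update σ i (!σ i)
          invFun := fun σ => Function.update σ i (!σ i)
          left_inv := by
            intro σ; funext k
            by_cases hk : k = i
            · subst hk; simp
            · simp [hk]
          right_inv := by
            intro σ; funext k
            by_cases hk : k = i
            · subst hk; simp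
            · simp [hk] }
      rw [← Equiv.sum_comp e]
      refine Finset.sum_congr rfl fun σ _ => ?_
      unfold wch
      rw [← Finset.mul_prod_erase R _ hi, ← Finset.mul_prod_erase R (fun k => sgn (σ k)) hi]
      have e1 : ∏ k ∈ R.erase i, sgn (e σ k) = ∏ k ∈ R.erase i, sgn (σ k) := by
        refine Finset.prod_congr rfl fun k hk => ?_
        have : k ≠ i := Finset.ne_of_mem_erase hk
        simp [e, this]
      have e2 : sgn (e σ i) = - sgn (σ i) := by
        simp only [e, Equiv.coe_fn_mk, Function.update_self]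
        cases σ i <;> simp [sgn]
      rw [e1, e2]
      ring
    linarith

lemma Wm_nonneg (j : ℕ) (R : Finset ι) : 0 ≤ Wm j R := by
  induction j generalizing R with
  | zero => rw [Wm_zero]; split_ifs <;> norm_num
  | succ j ih =>
    rw [Wm_succ]
    refine mul_nonneg (by norm_num) (Finset.sum_nonneg fun i _ => Finset.sum_nonneg fun k _ => ih _)

lemma Wm_supp (j : ℕ) (R : Finset ι) (h : 2 * j < R.card) : Wm j R = 0 := by
  induction j generalizing R with
  | zero =>
    rw [Wm_zero, if_neg]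
    rintro rfl
    simp at h
  | succ j ih =>
    rw [Wm_succ]
    rw [Finset.sum_eq_zero, mul_zero]
    intro i _
    refine Finset.sum_eq_zero fun k _ => ih _ ?_
    have h1 : R.card ≤ (symmDiff R {i, k}).card + 2 := by
      have h2 : R ⊆ symmDiff R {i, k} ∪ {i, k} := by
        intro x hx
        by_cases hx2 : x ∈ ({i, k} : Finset ι)
        · exact Finset.mem_union_right _ hx2
        · exact Finset.mem_union_left _ (Finset.mem_symmDiff.2 (Or.inl ⟨hx, hx2⟩))
      have h3 := Finset.card_le_card h2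
      have h4 := Finset.card_union_le (symmDiff R {i, k}) {i, k}
      have h5 : ({i, k} : Finset ι).card ≤ 2 := Finset.card_le_two
      omega
    omega

/-- comparison sequence -/
noncomputable def al : ℕ → Finset ι → ℝ
  | 0, R => if R = ∅ then 1 else 0
  | k + 1, R => 2 * (R.card : ℝ) * al k R +
      2 * ∑ i, ∑ j ∈ univ.erase i, al k (symmDiff R {i, j})

lemma al_le (k : ℕ) (R : Finset ι) :
    al k R ≤ ∑ j ∈ range (k + 1), (k.choose j : ℝ) * (4 * (j : ℝ)) ^ (k - j) * Wm j R := by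
  induction k generalizing R with
  | zero =>
    simp only [al, zero_add, Finset.range_one, Finset.sum_singleton, Nat.choose_self, Nat.cast_one,
      Nat.sub_self, pow_zero, one_mul, Wm_zero]
    exact le_rfl
  | succ k ih =>
    -- bound of the two terms
    have h1 : 2 * (R.card : ℝ) * al k R ≤
        ∑ j ∈ range (k + 1), (k.choose j : ℝ) * (4 * (j : ℝ)) ^ (k + 1 - j) * Wm j R := by
      refine (mul_le_mul_of_nonneg_left (ih R) (by positivity)).trans ?_
      rw [Finset.mul_sum]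
      refine Finset.sum_le_sum fun j hj => ?_
      have hjk : j ≤ k := Nat.lt_succ_iff.1 (Finset.mem_range.1 hj)
      by_cases hR : R.card ≤ 2 * j
      · have e : (4 * (j : ℝ)) ^ (k + 1 - j) = (4 * (j : ℝ)) ^ (k - j) * (4 * (j : ℝ)) := by
          rw [← pow_succ]; congr 1; omega
        rw [e]
        have hR' : 2 * (R.card : ℝ) ≤ 4 * (j : ℝ) := by
          have : (R.card : ℝ) ≤ 2 * j := by exact_mod_cast hR
          linarith
        have h0 : 0 ≤ (k.choose j : ℝ) * (4 * (j : ℝ)) ^ (k - j) * Wm j R :=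
          mul_nonneg (by positivity) (Wm_nonneg j R)
        calc 2 * (R.card : ℝ) * ((k.choose j : ℝ) * (4 * (j : ℝ)) ^ (k - j) * Wm j R)
            ≤ 4 * (j : ℝ) * ((k.choose j : ℝ) * (4 * (j : ℝ)) ^ (k - j) * Wm j R) :=
              mul_le_mul_of_nonneg_right hR' h0
          _ = _ := by ring
      · rw [Wm_supp j R (by omega)]
        simp
    have h2 : 2 * ∑ i, ∑ j ∈ univ.erase i, al k (symmDiff R {i, j}) ≤
        ∑ j ∈ range (k + 1), (k.choose j : ℝ) * (4 * (j : ℝ)) ^ (k - j) * Wm (j + 1) R := by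
      have h3 : ∑ i, ∑ j ∈ univ.erase i, al k (symmDiff R {i, j}) ≤
          ∑ i, ∑ j ∈ univ.erase i, ∑ l ∈ range (k + 1),
            (k.choose l : ℝ) * (4 * (l : ℝ)) ^ (k - l) * Wm l (symmDiff R {i, j}) :=
        Finset.sum_le_sum fun i _ => Finset.sum_le_sum fun j _ => ih _
      refine (mul_le_mul_of_nonneg_left h3 (by norm_num)).trans (le_of_eq ?_)
      have h4 : ∀ i : ι, ∑ j ∈ univ.erase i, ∑ l ∈ range (k + 1),
            (k.choose l : ℝ) * (4 * (l : ℝ)) ^ (k - l) * Wm l (symmDiff R {i, j})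
          = ∑ l ∈ range (k + 1), (k.choose l : ℝ) * (4 * (l : ℝ)) ^ (k - l) *
            ∑ j ∈ univ.erase i, Wm l (symmDiff R {i, j}) := by
        intro i
        rw [Finset.sum_comm]
        refine Finset.sum_congr rfl fun l _ => ?_
        rw [Finset.mul_sum]
      rw [Finset.sum_congr rfl fun i _ => h4 i, Finset.sum_comm, Finset.mul_sum]
      refine Finset.sum_congr rfl fun l _ => ?_
      rw [← Finset.mul_sum, Wm_succ]
      ring
    have h5 : al (k + 1) R = 2 * (R.card : ℝ) * al k R +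
      2 * ∑ i, ∑ j ∈ univ.erase i, al k (symmDiff R {i, j}) := rfl
    rw [h5]
    refine (add_le_add h1 h2).trans ?_
    -- combine with Pascal
    rw [Finset.sum_range_succ' (fun j => ((k + 1).choose j : ℝ) * (4 * (j : ℝ)) ^ (k + 1 - j) *
      Wm j R) (k + 1)]
    rw [Finset.sum_range_succ' (fun j => (k.choose j : ℝ) * (4 * (j : ℝ)) ^ (k + 1 - j) *
      Wm j R) k]
    have h6 : ∑ j ∈ range k, (k.choose (j + 1) : ℝ) * (4 * ((j + 1 : ℕ) : ℝ)) ^ (k + 1 - (j + 1)) *
        Wm (j + 1) R = ∑ j ∈ range (k + 1), (k.choose (j + 1) : ℝ) *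
          (4 * ((j + 1 : ℕ) : ℝ)) ^ (k + 1 - (j + 1)) * Wm (j + 1) R := by
      rw [Finset.sum_range_succ]
      simp
    rw [h6]
    have h7 : ∀ j ∈ range (k + 1), (k.choose j : ℝ) * (4 * (j : ℝ)) ^ (k - j) * Wm (j + 1) R ≤
        (k.choose j : ℝ) * (4 * ((j + 1 : ℕ) : ℝ)) ^ (k + 1 - (j + 1)) * Wm (j + 1) R := by
      intro j _
      refine mul_le_mul_of_nonneg_right ?_ (Wm_nonneg _ _)
      refine mul_le_mul_of_nonneg_left ?_ (by positivity)
      rw [Nat.add_sub_add_right]
      refine pow_le_pow_left₀ (by positivity) ?_ _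
      push_cast; linarith
    have h8 := Finset.sum_le_sum h7
    have h9 : ∑ j ∈ range (k + 1), (((k + 1).choose (j + 1) : ℕ) : ℝ) *
        (4 * ((j + 1 : ℕ) : ℝ)) ^ (k + 1 - (j + 1)) * Wm (j + 1) R =
        ∑ j ∈ range (k + 1), (k.choose (j + 1) : ℝ) *
          (4 * ((j + 1 : ℕ) : ℝ)) ^ (k + 1 - (j + 1)) * Wm (j + 1) R +
        ∑ j ∈ range (k + 1), (k.choose j : ℝ) *
          (4 * ((j + 1 : ℕ) : ℝ)) ^ (k + 1 - (j + 1)) * Wm (j + 1) R := by
      rw [← Finset.sum_add_distrib]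
      refine Finset.sum_congr rfl fun j _ => ?_
      rw [Nat.choose_succ_succ]
      push_cast
      ring
    rw [h9]
    have h10 : (k.choose 0 : ℝ) * (4 * ((0 : ℕ) : ℝ)) ^ (k + 1 - 0) * Wm 0 R ≤
        ((k + 1).choose 0 : ℝ) * (4 * ((0 : ℕ) : ℝ)) ^ (k + 1 - 0) * Wm 0 R := by
      simp
    linarith

section vec

variable {V : Type} [NormedAddCommGroup V] [InnerProductSpace ℝ V]
  (s : ι → (V →L[ℝ] V)) (D : ι → ι → (V →L[ℝ] V))

/-- parity components of `M ^ k u` -/
noncomputable def vv (u : V) : ℕ → Finset ι → V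
  | 0, R => if R = ∅ then u else 0
  | k + 1, R => (2 * (R.card : ℝ)) • vv u k R -
      (1 / 2 : ℝ) • ∑ i, ∑ j ∈ univ.erase i, D i j (vv u k (symmDiff R {i, j}))

noncomputable def eps (i : ι) (R : Finset ι) : ℝ := if i ∈ R then -1 else 1

lemma eps_pair_left {i j : ι} (hij : i ≠ j) (R : Finset ι) :
    eps i (symmDiff R {i, j}) = - eps i R := by
  unfold eps
  by_cases h : i ∈ R <;> simp [Finset.mem_symmDiff, h]

lemma eps_pair_right {i j : ι} (hij : i ≠ j) (R : Finset ι) :
    eps j (symmDiff R {i, j}) = - eps j R := by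
  unfold eps
  by_cases h : j ∈ R <;> simp [Finset.mem_symmDiff, h]

lemma eps_pair_other {i j l : ι} (hi : l ≠ i) (hj : l ≠ j) (R : Finset ι) :
    eps l (symmDiff R {i, j}) = eps l R := by
  unfold eps
  by_cases h : l ∈ R <;> simp [Finset.mem_symmDiff, h, hi, hj]

lemma vv_sign (u : V) (hu : ∀ i, s i u = u)
    (hl : ∀ i j, i ≠ j → s i * D i j = -(D i j * s i))
    (hr : ∀ i j, i ≠ j → s j * D i j = -(D i j * s j))
    (ho : ∀ i j k, k ≠ i → k ≠ j → s k * D i j = D i j * s k) (k : ℕ) :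
    ∀ (l : ι) (R : Finset ι), s l (vv D u k R) = eps l R • vv D u k R := by
  induction k with
  | zero =>
    intro l R
    unfold vv
    split_ifs with h
    · subst h; rw [hu]; simp [eps]
    · simp
  | succ k ih =>
    intro l R
    have key : ∀ i j, i ≠ j → s l (D i j (vv D u k (symmDiff R {i, j}))) =
        eps l R • D i j (vv D u k (symmDiff R {i, j})) := by
      intro i j hij
      have hmul : ∀ (A B : V →L[ℝ] V) (w : V), A (B w) = (A * B) w := fun _ _ _ => rfl
      by_cases hli : l = i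
      · subst hli
        rw [hmul, hl l j hij, ContinuousLinearMap.neg_apply, ← hmul, ih, map_smul,
          eps_pair_left hij]
        simp
      · by_cases hlj : l = j
        · subst hlj
          rw [hmul, hr i l hij, ContinuousLinearMap.neg_apply, ← hmul, ih, map_smul,
            eps_pair_right hij]
          simp
        · rw [hmul, ho i j l hli hlj, ← hmul, ih, map_smul, eps_pair_other hli hlj]
    have hdef : vv D u (k + 1) R = (2 * (R.card : ℝ)) • vv D u k R -
      (1 / 2 : ℝ) • ∑ i, ∑ j ∈ univ.erase i, D i j (vv D u k (symmDiff R {i, j})) := rfl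
    rw [hdef, map_sub, map_smul, map_smul, ih, map_sum, smul_sub]
    congr 1
    · rw [smul_comm]
    · rw [smul_comm (eps l R)]
      congr 1
      rw [Finset.smul_sum]
      refine Finset.sum_congr rfl fun i _ => ?_
      rw [map_sum, Finset.smul_sum]
      refine Finset.sum_congr rfl fun j hj => ?_
      exact key i j (Ne.symm (Finset.ne_of_mem_erase hj))

lemma sum_one_sub_eps (R : Finset ι) : ∑ i, (1 - eps i R) = 2 * (R.card : ℝ) := by
  have : ∀ i, 1 - eps i R = if i ∈ R then 2 else 0 := by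
    intro i; unfold eps; split_ifs <;> norm_num
  rw [Finset.sum_congr rfl fun i _ => this i, Finset.sum_ite_mem]
  simp [mul_comm]

/-- the operator `S - D/2` -/
noncomputable def MM : V →L[ℝ] V :=
  ∑ i, (1 - s i) - (1 / 2 : ℝ) • ∑ i, ∑ j ∈ univ.erase i, D i j

lemma MM_sum (u : V) (hu : ∀ i, s i u = u)
    (hl : ∀ i j, i ≠ j → s i * D i j = -(D i j * s i))
    (hr : ∀ i j, i ≠ j → s j * D i j = -(D i j * s j))
    (ho : ∀ i j k, k ≠ i → k ≠ j → s k * D i j = D i j * s k) (k : ℕ) :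
    MM s D (∑ R, vv D u k R) = ∑ R, vv D u (k + 1) R := by
  have hS : ∀ R, (∑ i, (1 - s i)) (vv D u k R) = (2 * (R.card : ℝ)) • vv D u k R := by
    intro R
    rw [ContinuousLinearMap.sum_apply, ← sum_one_sub_eps, Finset.sum_smul]
    refine Finset.sum_congr rfl fun i _ => ?_
    rw [ContinuousLinearMap.sub_apply, vv_sign s D u hu hl hr ho, sub_smul, one_smul]
    rfl
  unfold MM
  rw [map_sum]
  have h1 : ∀ R, (∑ i, (1 - s i) - (1 / 2 : ℝ) • ∑ i, ∑ j ∈ univ.erase i, D i j) (vv D u k R)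
      = (2 * (R.card : ℝ)) • vv D u k R -
        (1 / 2 : ℝ) • ∑ i, ∑ j ∈ univ.erase i, D i j (vv D u k R) := by
    intro R
    rw [ContinuousLinearMap.sub_apply, hS, ContinuousLinearMap.smul_apply,
      ContinuousLinearMap.sum_apply]
    congr 2
    refine Finset.sum_congr rfl fun i _ => ?_
    rw [ContinuousLinearMap.sum_apply]
  rw [Finset.sum_congr rfl fun R _ => h1 R, Finset.sum_sub_distrib]
  have hdef : ∀ R, vv D u (k + 1) R = (2 * (R.card : ℝ)) • vv D u k R -
      (1 / 2 : ℝ) • ∑ i, ∑ j ∈ univ.erase i, D i j (vv D u k (symmDiff R {i, j})) :=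
    fun R => rfl
  rw [Finset.sum_congr rfl fun R _ => hdef R, Finset.sum_sub_distrib, ← Finset.smul_sum,
    ← Finset.smul_sum]
  congr 2
  have e1 : ∀ F : Finset ι → ι → ι → V, ∑ R, ∑ i, ∑ j ∈ univ.erase i, F R i j =
      ∑ i, ∑ j ∈ univ.erase i, ∑ R, F R i j := by
    intro F
    rw [Finset.sum_comm]
    refine Finset.sum_congr rfl fun i _ => ?_
    rw [Finset.sum_comm]
  rw [e1 (fun R i j => D i j (vv D u k R)),
    e1 (fun R i j => D i j (vv D u k (symmDiff R {i, j})))]
  refine Finset.sum_congr rfl fun i _ => Finset.sum_congr rfl fun j _ => ?_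
  have hinv : Function.Involutive (fun R : Finset ι => symmDiff R {i, j}) := by
    intro R
    simp [symmDiff_assoc]
  exact (Equiv.sum_comp hinv.toPerm (fun R => D i j (vv D u k R))).symm

lemma pow_sum (u : V) (hu : ∀ i, s i u = u)
    (hl : ∀ i j, i ≠ j → s i * D i j = -(D i j * s i))
    (hr : ∀ i j, i ≠ j → s j * D i j = -(D i j * s j))
    (ho : ∀ i j k, k ≠ i → k ≠ j → s k * D i j = D i j * s k) (k : ℕ) :
    (MM s D ^ k) u = ∑ R, vv D u k R := by
  induction k with
  | zero =>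
    unfold vv
    simp
  | succ k ih =>
    rw [pow_succ']
    change MM s D ((MM s D ^ k) u) = _
    rw [ih, MM_sum s D u hu hl hr ho]

lemma vv_norm (u : V) (hD : ∀ i j v, i ≠ j → ‖D i j v‖ ≤ 4 * ‖v‖) (k : ℕ) :
    ∀ R : Finset ι, ‖vv D u k R‖ ≤ al k R * ‖u‖ := by
  induction k with
  | zero =>
    intro R
    unfold vv al
    split_ifs <;> simp
  | succ k ih =>
    intro R
    have hdef : vv D u (k + 1) R = (2 * (R.card : ℝ)) • vv D u k R -
      (1 / 2 : ℝ) • ∑ i, ∑ j ∈ univ.erase i, D i j (vv D u k (symmDiff R {i, j})) := rfl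
    have hdef2 : al (k + 1) R = 2 * (R.card : ℝ) * al k R +
      2 * ∑ i, ∑ j ∈ univ.erase i, al k (symmDiff R {i, j}) := rfl
    rw [hdef, hdef2]
    refine (norm_sub_le _ _).trans ?_
    rw [norm_smul, norm_smul, add_mul]
    refine add_le_add ?_ ?_
    · rw [Real.norm_of_nonneg (by positivity), mul_assoc (2 * (R.card : ℝ))]
      exact mul_le_mul_of_nonneg_left (ih R) (by positivity)
    · have h1 : ‖∑ i, ∑ j ∈ univ.erase i, D i j (vv D u k (symmDiff R {i, j}))‖ ≤
          ∑ i, ∑ j ∈ univ.erase i, 4 * (al k (symmDiff R {i, j}) * ‖u‖) := by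
        refine (norm_sum_le _ _).trans (Finset.sum_le_sum fun i _ => ?_)
        refine (norm_sum_le _ _).trans (Finset.sum_le_sum fun j hj => ?_)
        refine (hD i j _ (Ne.symm (Finset.ne_of_mem_erase hj))).trans ?_
        exact mul_le_mul_of_nonneg_left (ih _) (by norm_num)
      have h2 : ∑ i, ∑ j ∈ univ.erase i, 4 * (al k (symmDiff R {i, j}) * ‖u‖) =
          4 * ((∑ i, ∑ j ∈ univ.erase i, al k (symmDiff R {i, j})) * ‖u‖) := by
        rw [Finset.sum_mul, Finset.mul_sum]
        refine Finset.sum_congr rfl fun i _ => ?_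
        rw [Finset.sum_mul, Finset.mul_sum]
      rw [h2] at h1
      rw [Real.norm_of_nonneg (by norm_num : (0 : ℝ) ≤ 1 / 2)]
      linarith

lemma inner_pow (u : V) (hsa : ∀ i v w, inner ℝ (s i v) w = inner ℝ v (s i w))
    (hu : ∀ i, s i u = u)
    (hl : ∀ i j, i ≠ j → s i * D i j = -(D i j * s i))
    (hr : ∀ i j, i ≠ j → s j * D i j = -(D i j * s j))
    (ho : ∀ i j k, k ≠ i → k ≠ j → s k * D i j = D i j * s k)
    (hD : ∀ i j v, i ≠ j → ‖D i j v‖ ≤ 4 * ‖v‖) (k : ℕ) :
    inner ℝ u ((MM s D ^ k) u) ≤ al k (∅ : Finset ι) * ‖u‖ ^ 2 := by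
  rw [pow_sum s D u hu hl hr ho, inner_sum, Finset.sum_eq_single (∅ : Finset ι)]
  · refine (real_inner_le_norm _ _).trans ?_
    calc ‖u‖ * ‖vv D u k (∅ : Finset ι)‖ ≤ ‖u‖ * (al k (∅ : Finset ι) * ‖u‖) :=
          mul_le_mul_of_nonneg_left (vv_norm D u hD k ∅) (norm_nonneg _)
      _ = al k (∅ : Finset ι) * ‖u‖ ^ 2 := by ring
  · intro R _ hR
    obtain ⟨i, hi⟩ := Finset.nonempty_iff_ne_empty.2 hR
    have h0 : inner ℝ (s i u) (vv D u k R) = inner ℝ u (s i (vv D u k R)) := hsa i u _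
    have h1 : inner ℝ u (vv D u k R) = - inner ℝ u (vv D u k R) := by
      rw [hu i, vv_sign s D u hu hl hr ho, inner_smul_right] at h0
      simpa [eps, hi] using h0
    linarith
  · intro h; exact absurd (Finset.mem_univ _) h

end vec

/-- scalar series bound -/
lemma series_bound (t : ℝ) (ht : 0 ≤ t) (K : ℕ) :
    ∑ k ∈ range K, ((k.factorial : ℝ)⁻¹ * t ^ k) * al k (∅ : Finset ι) ≤
      avg (fun σ : ι → Bool =>
        Real.exp (2 * (t * Real.exp (4 * t)) * ((∑ i, sgn (σ i)) ^ 2 - Fintype.card ι))) := by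
  set x : ℝ := t * Real.exp (4 * t) with hx
  have hx0 : 0 ≤ x := by positivity
  -- the series of the right side
  have hsum : HasSum (fun j : ℕ => ((j.factorial : ℝ)⁻¹ * x ^ j) * Wm j (∅ : Finset ι))
      (avg (fun σ : ι → Bool =>
        Real.exp (2 * x * ((∑ i, sgn (σ i)) ^ 2 - Fintype.card ι)))) := by
    unfold avg
    have h1 : HasSum (fun j : ℕ => (∑ σ : ι → Bool, (j.factorial : ℝ)⁻¹ *
        (2 * x * ((∑ i, sgn (σ i)) ^ 2 - Fintype.card ι)) ^ j) / (Fintype.card (ι → Bool) : ℝ))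
        ((∑ σ : ι → Bool, Real.exp (2 * x * ((∑ i, sgn (σ i)) ^ 2 - Fintype.card ι))) /
          (Fintype.card (ι → Bool) : ℝ)) := by
      refine HasSum.div_const ?_ _
      refine hasSum_sum fun σ _ => ?_
      rw [Real.exp_eq_exp_ℝ]
      have := NormedSpace.exp_series_hasSum_exp' (𝕂 := ℝ) (𝔸 := ℝ)
        (2 * x * ((∑ i, sgn (σ i)) ^ 2 - Fintype.card ι))
      simpa [smul_eq_mul] using this
    refine h1.congr_fun ?_ |> fun h => h
    intro j
    unfold Wm avg wch
    simp only [Finset.prod_empty, one_mul]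
    rw [mul_div_assoc', Finset.mul_sum]
    congr 1
    refine Finset.sum_congr rfl fun σ _ => ?_
    rw [mul_pow, mul_pow, mul_pow]
    ring
  have hterm : ∀ j, 0 ≤ ((j.factorial : ℝ)⁻¹ * x ^ j) * Wm j (∅ : Finset ι) := fun j =>
    mul_nonneg (by positivity) (Wm_nonneg j _)
  refine le_trans ?_ (sum_le_hasSum (range K) (fun j _ => hterm j) hsum)
  -- bound al, swap the sums
  have h1 : ∑ k ∈ range K, ((k.factorial : ℝ)⁻¹ * t ^ k) * al k (∅ : Finset ι) ≤
      ∑ k ∈ range K, ∑ j ∈ range K, if j ≤ k then ((k.factorial : ℝ)⁻¹ * t ^ k) *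
        ((k.choose j : ℝ) * (4 * (j : ℝ)) ^ (k - j) * Wm j (∅ : Finset ι)) else 0 := by
    refine Finset.sum_le_sum fun k hk => ?_
    refine (mul_le_mul_of_nonneg_left (al_le k ∅) (by positivity)).trans (le_of_eq ?_)
    rw [Finset.mul_sum, ← Finset.sum_filter]
    refine Finset.sum_congr ?_ fun _ _ => rfl
    ext j
    simp only [Finset.mem_range, Finset.mem_filter] at hk ⊢
    omega
  refine h1.trans ?_
  rw [Finset.sum_comm]
  refine Finset.sum_le_sum fun j _ => ?_
  -- fixed j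
  have h2 : ∀ k, (if j ≤ k then ((k.factorial : ℝ)⁻¹ * t ^ k) *
        ((k.choose j : ℝ) * (4 * (j : ℝ)) ^ (k - j) * Wm j (∅ : Finset ι)) else 0) =
      (if j ≤ k then (((k - j).factorial : ℝ)⁻¹ * (4 * j * t) ^ (k - j)) else 0) *
        (((j.factorial : ℝ)⁻¹ * t ^ j) * Wm j (∅ : Finset ι)) := by
    intro k
    split_ifs with hjk
    · have e1 : (k.choose j : ℝ) = (k.factorial : ℝ) / (j.factorial * (k - j).factorial) :=
        Nat.cast_choose ℝ hjk
      have e2 : t ^ k = t ^ j * t ^ (k - j) := by rw [← pow_add]; congr 1; omega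
      have e3 : (4 * (j : ℝ) * t) ^ (k - j) = (4 * (j : ℝ)) ^ (k - j) * t ^ (k - j) := by
        rw [← mul_pow]
      rw [e1, e2, e3]
      have h3 : (k.factorial : ℝ) ≠ 0 := by positivity
      have h4 : (j.factorial : ℝ) ≠ 0 := by positivity
      have h5 : ((k - j).factorial : ℝ) ≠ 0 := by positivity
      field_simp
    · simp
  rw [Finset.sum_congr rfl fun k _ => h2 k, ← Finset.sum_mul]
  have h3 : ∑ k ∈ range K, (if j ≤ k then (((k - j).factorial : ℝ)⁻¹ * (4 * j * t) ^ (k - j))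
      else 0) ≤ Real.exp (4 * j * t) := by
    rw [← Finset.sum_filter]
    have h4 : ∑ k ∈ (range K).filter (fun k => j ≤ k),
        (((k - j).factorial : ℝ)⁻¹ * (4 * j * t) ^ (k - j)) =
        ∑ l ∈ ((range K).filter (fun k => j ≤ k)).image (fun k => k - j),
          ((l.factorial : ℝ)⁻¹ * (4 * j * t) ^ l) := by
      rw [Finset.sum_image]
      intro a ha b hb hab
      simp only [Finset.coe_filter, Finset.mem_range, Set.mem_setOf_eq] at ha hb hab
      omega
    rw [h4]
    have h5 : HasSum (fun l : ℕ => (l.factorial : ℝ)⁻¹ * (4 * j * t) ^ l)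
        (Real.exp (4 * j * t)) := by
      rw [Real.exp_eq_exp_ℝ]
      have := NormedSpace.exp_series_hasSum_exp' (𝕂 := ℝ) (𝔸 := ℝ) (4 * j * t)
      simpa [smul_eq_mul] using this
    exact sum_le_hasSum _ (fun l _ => by positivity) h5
  have h6 : 0 ≤ ((j.factorial : ℝ)⁻¹ * t ^ j) * Wm j (∅ : Finset ι) :=
    mul_nonneg (by positivity) (Wm_nonneg j _)
  refine (mul_le_mul_of_nonneg_right h3 h6).trans (le_of_eq ?_)
  rw [hx, mul_pow, ← Real.exp_nat_mul]
  have : (j : ℝ) * (4 * t) = 4 * j * t := by ring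
  rw [this]
  ring

end MOM

open MOM in
theorem mom : S_RAD → S_MOM := by
  rintro ⟨C, c₀, hC, hc₀, H⟩
  refine ⟨C * Real.exp 4 ^ 2, min 1 (c₀ / Real.exp 4), by positivity, by positivity, ?_⟩
  intro ι _ _ V _ _ _ s D hsa _ _ hl hr ho hD u hu t ht htc
  have hx : t * Real.exp (4 * t) * Fintype.card ι ≤ Real.exp 4 * (t * Fintype.card ι) := by
    rcases Nat.eq_zero_or_pos (Fintype.card ι) with h0 | h0
    · rw [h0]; simp
    · have h1 : (1 : ℝ) ≤ Fintype.card ι := by exact_mod_cast h0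
      have h2 : t ≤ 1 := by
        have := htc.trans (min_le_left _ _)
        nlinarith
      have h3 : Real.exp (4 * t) ≤ Real.exp 4 := Real.exp_le_exp.2 (by linarith)
      calc t * Real.exp (4 * t) * Fintype.card ι
          = Real.exp (4 * t) * (t * Fintype.card ι) := by ring
        _ ≤ _ := mul_le_mul_of_nonneg_right h3 (by positivity)
  have hx1 : t * Real.exp (4 * t) * Fintype.card ι ≤ c₀ := by
    refine hx.trans ?_
    have := htc.trans (min_le_right _ _)
    rw [le_div_iff₀ (Real.exp_pos 4)] at this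
    linarith
  have hR := H ι (t * Real.exp (4 * t)) (by positivity) hx1
  have hM : -t • ((1 / 2 : ℝ) • ∑ i, ∑ j ∈ univ.erase i, D i j - ∑ i, (1 - s i)) =
      t • MM s D := by
    unfold MM
    rw [neg_smul, ← smul_neg, neg_sub]
  rw [hM]
  have hser : HasSum (fun k : ℕ => ((k.factorial : ℝ)⁻¹ * t ^ k) * inner ℝ u ((MM s D ^ k) u))
      (inner ℝ u (NormedSpace.exp (t • MM s D) u)) := by
    have h1 := NormedSpace.exp_series_hasSum_exp' (𝕂 := ℝ) (t • MM s D)
    have h2 := h1.mapL (ContinuousLinearMap.apply ℝ V u)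
    have h3 := h2.mapL (innerSL ℝ u)
    refine h3.congr_fun ?_ |> fun h => h
    intro k
    simp only [ContinuousLinearMap.apply_apply, innerSL_apply_apply, smul_pow,
      ContinuousLinearMap.smul_apply, inner_smul_right]
    ring
  refine le_of_tendsto' hser.tendsto_sum_nat fun K => ?_
  have h4 : ∑ k ∈ range K, ((k.factorial : ℝ)⁻¹ * t ^ k) * inner ℝ u ((MM s D ^ k) u) ≤
      (∑ k ∈ range K, ((k.factorial : ℝ)⁻¹ * t ^ k) * al k (∅ : Finset ι)) * ‖u‖ ^ 2 := by
    rw [Finset.sum_mul]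
    refine Finset.sum_le_sum fun k _ => ?_
    rw [mul_assoc ((k.factorial : ℝ)⁻¹ * t ^ k)]
    have hk : (0 : ℝ) ≤ (k.factorial : ℝ)⁻¹ * t ^ k := by positivity
    exact mul_le_mul_of_nonneg_left (inner_pow s D u hsa hu hl hr ho hD k) hk
  refine h4.trans (mul_le_mul_of_nonneg_right ?_ (by positivity))
  refine (series_bound t ht K).trans (hR.trans ?_)
  refine Real.exp_le_exp.2 ?_
  rw [mul_assoc C, ← mul_pow]
  refine mul_le_mul_of_nonneg_left ?_ hC.le
  exact pow_le_pow_left₀ (by positivity) hx 2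

end Vale.Agent.P162c
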