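import Vale.Agent.P162c.Defs
import Vale.Agent.P162.Basic
import Vale.Agent.P162.Tensor

/-!
# P162c, module NODE: moments of the loop count of a level
-/

namespace Vale.Agent.P162c

open Finset Vale.Agent.P162

namespace Node

variable {I : Type} [DecidableEq I]

lemma flip_same (j : I) (x : I → Bool) : flip j x j = !x j := by
  unfold flip; simp

lemma flip_ne {i j : I} (h : i ≠ j) (x : I → Bool) : flip i x j = x j := by
  unfold flip; rw [Function.update_of_ne h.symm]

lemma flip_comm {i j : I} (h : i ≠ j) (x : I → Bool) : flip i (flip j x) = flip j (flip i x) := by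
  unfold flip
  rw [Function.update_of_ne h, Function.update_of_ne h.symm, Function.update_comm h]

lemma swFun_coord {i j : I} (h : i ≠ j) (s : (I → Bool) → Bool) (x : I → Bool) :
    swFun i s x j = x j := by
  unfold swFun
  split_ifs
  · exact flip_ne h x
  · rfl

lemma op_inv_cons (t : I → (I → Bool) → Bool) (i : I) (l : List I) (x : I → Bool) :
    (op t (i :: l))⁻¹ x = (op t l)⁻¹ (swFun i (t i) x) := by
  rw [op, mul_inv_rev, Equiv.Perm.mul_apply]
  rfl

lemma op_inv_coord (t : I → (I → Bool) → Bool) {j : I} (l : List I) (hj : j ∉ l) (x : I → Bool) :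
    ((op t l)⁻¹ x) j = x j := by
  induction l generalizing x with
  | nil => simp [op]
  | cons i l ih =>
    rw [List.mem_cons, not_or] at hj
    rw [op_inv_cons, ih hj.2, swFun_coord (Ne.symm hj.1)]

/-- switches `T1` on the half `x j = false`, `T2` (transported) on the other half -/
def mix (j : I) (T1 T2 : I → (I → Bool) → Bool) : I → (I → Bool) → Bool :=
  fun i y => if y j = false then T1 i y else T2 i (flip j y)

lemma mix_false (j : I) (T1 T2 : I → (I → Bool) → Bool) (l : List I) (hj : j ∉ l) (x : I → Bool)
    (hx : x j = false) : (op (mix j T1 T2) l)⁻¹ x = (op T1 l)⁻¹ x := by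
  induction l generalizing x with
  | nil => simp [op]
  | cons i l ih =>
    rw [List.mem_cons, not_or] at hj
    have hij : i ≠ j := Ne.symm hj.1
    have e : swFun i (mix j T1 T2 i) x = swFun i (T1 i) x := by
      unfold swFun mix
      rw [Function.update_of_ne hj.1, if_pos hx]
    rw [op_inv_cons, op_inv_cons, e, ih hj.2]
    rw [swFun_coord hij, hx]

lemma mix_true (j : I) (T1 T2 : I → (I → Bool) → Bool) (l : List I) (hj : j ∉ l) (x : I → Bool)
    (hx : x j = false) : (op (mix j T1 T2) l)⁻¹ (flip j x) = flip j ((op T2 l)⁻¹ x) := by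
  induction l generalizing x with
  | nil => simp [op]
  | cons i l ih =>
    rw [List.mem_cons, not_or] at hj
    have hij : i ≠ j := Ne.symm hj.1
    have e0 : flip j (Function.update (flip j x) i false) = Function.update x i false := by
      funext k
      unfold flip
      by_cases hk : k = j
      · subst hk
        simp [Function.update_of_ne hj.1]
      · by_cases hk2 : k = i
        · subst hk2
          simp [Function.update_of_ne hk]
        · simp [Function.update_of_ne hk, Function.update_of_ne hk2]
    have e : swFun i (mix j T1 T2 i) (flip j x) = flip j (swFun i (T2 i) x) := by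
      have h1 : (Function.update (flip j x) i false) j = true := by
        rw [Function.update_of_ne hj.1, flip_same, hx]; rfl
      have h2 : mix j T1 T2 i (Function.update (flip j x) i false)
          = T2 i (Function.update x i false) := by
        unfold mix
        rw [if_neg (by rw [h1]; simp), e0]
      unfold swFun
      rw [h2]
      split_ifs
      · rw [flip_comm hij]
      · rfl
    rw [op_inv_cons, op_inv_cons, e, ih hj.2]
    rw [swFun_coord hij, hx]

variable [Fintype I]

/-- the measure preserving rearrangement behind `mix` -/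
def mixEquiv (j : I) : ((I → (I → Bool) → Bool) × (I → (I → Bool) → Bool)) ≃
    ((I → (I → Bool) → Bool) × (I → (I → Bool) → Bool)) where
  toFun T := (mix j T.1 T.2, fun i y => if y j = false then T.2 i (flip j y) else T.1 i y)
  invFun T := (fun i y => if y j = false then T.1 i y else T.2 i y,
    fun i y => if y j = false then T.1 i (flip j y) else T.2 i (flip j y))
  left_inv := by
    rintro ⟨T1, T2⟩
    refine Prod.ext ?_ ?_
    · funext i y
      simp only [mix]
      cases h : y j <;> simp
    · funext i y
      simp only [mix]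
      cases h : y j <;> simp [flip_same, h, flip_flip]
  right_inv := by
    rintro ⟨T1, T2⟩
    refine Prod.ext ?_ ?_
    · funext i y
      simp only [mix]
      cases h : y j <;> simp [flip_same, h, flip_flip]
    · funext i y
      simp only
      cases h : y j <;> simp [flip_same, h, flip_flip]

lemma avg_fst {A B : Type} [Fintype A] [Fintype B] [Nonempty B] (F : A → ℝ) :
    avg (fun T : A × B => F T.1) = avg F := by
  unfold avg
  rw [Fintype.sum_prod_type, Fintype.card_prod]
  simp only [Finset.sum_const, Finset.card_univ, nsmul_eq_mul]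
  rw [← Finset.mul_sum]
  have hB : (Fintype.card B : ℝ) ≠ 0 := by exact_mod_cast Fintype.card_ne_zero
  push_cast
  rcases eq_or_ne (Fintype.card A : ℝ) 0 with hA | hA
  · rw [hA]; simp
  · field_simp

lemma avg_mix (j : I) (F : (I → (I → Bool) → Bool) → ℝ) :
    avg (fun T : (I → (I → Bool) → Bool) × (I → (I → Bool) → Bool) => F (mix j T.1 T.2))
      = avg F := by
  have h := avg_equiv (mixEquiv j)
    (fun T : (I → (I → Bool) → Bool) × (I → (I → Bool) → Bool) => F T.1)
  rw [avg_fst] at h
  exact h

/-- Cauchy-Schwarz for collision probabilities -/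
lemma coll {A C : Type} [Fintype A] [Fintype C] [DecidableEq C] (u v : A → C) :
    avg (fun T : A × A => if u T.1 = v T.2 then (1 : ℝ) else 0)
      ≤ (1 / 2) * (avg (fun T : A × A => if u T.1 = u T.2 then (1 : ℝ) else 0)
        + avg (fun T : A × A => if v T.1 = v T.2 then (1 : ℝ) else 0)) := by
  have key : ∀ u v : A → C, ∑ T : A × A, (if u T.1 = v T.2 then (1 : ℝ) else 0)
      = ∑ c, (∑ s, if u s = c then (1 : ℝ) else 0) * (∑ s, if v s = c then (1 : ℝ) else 0) := by
    intro u v
    rw [Fintype.sum_prod_type]
    simp only [Finset.sum_mul_sum]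
    symm
    rw [Finset.sum_comm]
    refine Finset.sum_congr rfl fun s _ => ?_
    rw [Finset.sum_comm]
    refine Finset.sum_congr rfl fun t _ => ?_
    have : ∀ c, (if u s = c then (1 : ℝ) else 0) * (if v t = c then (1 : ℝ) else 0)
        = if u s = c then (if v t = c then (1 : ℝ) else 0) else 0 := by
      intro c; split_ifs <;> simp
    simp only [this, Finset.sum_ite_eq, Finset.mem_univ, if_true]
    by_cases h : u s = v t
    · rw [if_pos h, if_pos h.symm]
    · rw [if_neg h, if_neg (Ne.symm h)]
  unfold avg
  rw [key u v, key u u, key v v, ← add_div, ← mul_div_assoc]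
  refine div_le_div_of_nonneg_right ?_ (Nat.cast_nonneg _)
  rw [← Finset.sum_add_distrib, Finset.mul_sum]
  refine Finset.sum_le_sum fun c _ => ?_
  nlinarith [sq_nonneg ((∑ s, if u s = c then (1 : ℝ) else 0) - ∑ s, if v s = c then (1 : ℝ) else 0)]

/-- `a` restricted to the half `x j = false` -/
def half {K : Type} (z : K) (j : I) (a : (I → Bool) → K) : (I → Bool) → K :=
  fun y => if y j = false then a y else z

omit [Fintype I] in
lemma cond_half {K : Type} (z : K) (j : I) (l : List I) (hj : j ∉ l) (a : (I → Bool) → K)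
    (T1 T2 : I → (I → Bool) → Bool)
    (h : ∀ x, a ((op (mix j T1 T2) l)⁻¹ (flip j x)) = a ((op (mix j T1 T2) l)⁻¹ x)) :
    (fun x => half z j a ((op T1 l)⁻¹ x)) = fun x => half z j (fun y => a (flip j y)) ((op T2 l)⁻¹ x) := by
  funext x
  simp only [half]
  rw [op_inv_coord _ _ hj, op_inv_coord _ _ hj]
  cases hx : x j with
  | true => simp
  | false =>
    simp only [if_true]
    rw [← mix_false j T1 T2 l hj x hx, ← mix_true j T1 T2 l hj x hx]
    exact (h x).symm

lemma one_colouring {K : Type} [Fintype K] [DecidableEq K] (z : K) (j : I) (l : List I)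
    (hj : j ∉ l) (a : (I → Bool) → K) :
    avg (fun t : I → (I → Bool) → Bool =>
        if (∀ x, a ((op t l)⁻¹ (flip j x)) = a ((op t l)⁻¹ x)) then (1 : ℝ) else 0)
      ≤ (1 / 2) * (avg (fun T : (I → (I → Bool) → Bool) × (I → (I → Bool) → Bool) =>
          if (∀ x, half z j a ((op T.1 l)⁻¹ x) = half z j a ((op T.2 l)⁻¹ x)) then (1 : ℝ) else 0)
        + avg (fun T : (I → (I → Bool) → Bool) × (I → (I → Bool) → Bool) =>
          if (∀ x, half z j (fun y => a (flip j y)) ((op T.1 l)⁻¹ x)
            = half z j (fun y => a (flip j y)) ((op T.2 l)⁻¹ x)) then (1 : ℝ) else 0)) := by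
  rw [← avg_mix j]
  have h1 := coll (A := I → (I → Bool) → Bool) (C := (I → Bool) → K)
    (fun t x => half z j a ((op t l)⁻¹ x))
    (fun t x => half z j (fun y => a (flip j y)) ((op t l)⁻¹ x))
  simp only [funext_iff] at h1
  refine le_trans (avg_mono fun T => ?_) h1
  by_cases h : ∀ x, a ((op (mix j T.1 T.2) l)⁻¹ (flip j x)) = a ((op (mix j T.1 T.2) l)⁻¹ x)
  · rw [if_pos h, if_pos (fun x => congrFun (cond_half z j l hj a T.1 T.2 h) x)]
  · rw [if_neg h]
    split_ifs <;> norm_num

/-- the colourings which matter -/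
def good (K : Type) [Fintype K] [DecidableEq K] (z : K) (j : I) (U : Finset (I → Bool)) :
    Finset ((I → Bool) → K) :=
  univ.filter fun a => (∀ x, a (flip j x) = a x) ∧ ∀ x, x ∉ U → a x = z

lemma good_dbl {K : Type} [Fintype K] [DecidableEq K] {z : K} {j : I} {U : Finset (I → Bool)}
    {a : (I → Bool) → K} (ha : a ∈ good K z j U) {x : I → Bool} (hx : a x ≠ z) : x ∈ dbl j U := by
  rw [good, Finset.mem_filter] at ha
  rw [dbl, Finset.mem_filter]
  constructor
  · by_contra h; exact hx (ha.2.2 x h)
  · by_contra h
    exact hx (by rw [← ha.2.1 x]; exact ha.2.2 _ h)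

/-- sum over the good colourings, for one of the two halves -/
lemma sum_half (hC : S_COLOR) (j : I) (l : List I) (hl : l.Nodup)
    (q : ℕ) (U : Finset (I → Bool)) (φ : ((I → Bool) → (Fin q → Bool)) → ((I → Bool) → (Fin q → Bool)))
    (E : Finset (I → Bool)) (hE : E.card ≤ (dbl j U).card)
    (hinj : Set.InjOn φ (good (Fin q → Bool) (fun _ => false) j U))
    (hsupp : ∀ a ∈ good (Fin q → Bool) (fun _ => false) j U, ∀ x, x ∉ E → φ a x = fun _ => false) :
    ∑ a ∈ good (Fin q → Bool) (fun _ => false) j U,
      avg (fun T : (I → (I → Bool) → Bool) × (I → (I → Bool) → Bool) =>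
          if (∀ x, φ a ((op T.1 l)⁻¹ x) = φ a ((op T.2 l)⁻¹ x)) then (1 : ℝ) else 0)
      ≤ Real.exp (2 ^ q * (3 / 4) ^ l.length * ((dbl j U).card : ℝ)) := by
  have h := hC I (Fin q → Bool) (fun _ => false) l hl E 1 zero_le_one le_rfl
  simp only [one_pow, one_mul] at h
  have h2 : ∑ a ∈ good (Fin q → Bool) (fun _ => false) j U,
      avg (fun T : (I → (I → Bool) → Bool) × (I → (I → Bool) → Bool) =>
          if (∀ x, φ a ((op T.1 l)⁻¹ x) = φ a ((op T.2 l)⁻¹ x)) then (1 : ℝ) else 0)
      ≤ ∑ a ∈ univ.filter (fun a : (I → Bool) → (Fin q → Bool) => ∀ x, x ∉ E → a x = fun _ => false),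
        avg (fun T : (I → (I → Bool) → Bool) × (I → (I → Bool) → Bool) =>
          if (∀ x, a ((op T.1 l)⁻¹ x) = a ((op T.2 l)⁻¹ x)) then (1 : ℝ) else 0) := by
    rw [← Finset.sum_image (f := fun b : (I → Bool) → (Fin q → Bool) =>
      avg (fun T : (I → (I → Bool) → Bool) × (I → (I → Bool) → Bool) =>
          if (∀ x, b ((op T.1 l)⁻¹ x) = b ((op T.2 l)⁻¹ x)) then (1 : ℝ) else 0)) (g := φ)
      (fun a ha b hb hab => hinj ha hb hab)]
    refine Finset.sum_le_sum_of_subset_of_nonneg ?_ fun a _ _ => ?_
    · intro b hb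
      rw [Finset.mem_image] at hb
      obtain ⟨a, ha, rfl⟩ := hb
      rw [Finset.mem_filter]
      exact ⟨Finset.mem_univ _, hsupp a ha⟩
    · exact avg_nonneg fun T => by split_ifs <;> norm_num
  refine h2.trans (h.trans (Real.exp_le_exp.mpr ?_))
  have hK : (Fintype.card (Fin q → Bool) : ℝ) = 2 ^ q := by simp
  rw [hK]
  have hp : (0 : ℝ) ≤ (3 / 4) ^ l.length := by positivity
  have h2q : (1 : ℝ) ≤ 2 ^ q := one_le_pow₀ (by norm_num)
  have hE' : (E.card : ℝ) ≤ ((dbl j U).card : ℝ) := by exact_mod_cast hE
  calc (3 / 4 : ℝ) ^ l.length * (2 ^ q - 1) * 1 * (E.card : ℝ)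
      ≤ (3 / 4) ^ l.length * (2 ^ q) * 1 * ((dbl j U).card : ℝ) := by
        refine mul_le_mul ?_ hE' (Nat.cast_nonneg _) (by positivity)
        refine mul_le_mul_of_nonneg_right ?_ zero_le_one
        exact mul_le_mul_of_nonneg_left (by linarith) hp
    _ = 2 ^ q * (3 / 4) ^ l.length * ((dbl j U).card : ℝ) := by ring

lemma image_flip_iff {j : I} {b : Finset (I → Bool)} (h : b.image (flip j) = b) (x : I → Bool) :
    flip j x ∈ b ↔ x ∈ b := by
  constructor
  · intro hx
    have := Finset.mem_image_of_mem (flip j) hx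
    rwa [h, flip_flip] at this
  · intro hx
    have := Finset.mem_image_of_mem (flip j) hx
    rwa [h] at this

lemma cnt_pow_le (j : I) (O B : Equiv.Perm (I → Bool)) (U : Finset (I → Bool)) (q : ℕ) :
    (cnt j (O * B) U : ℝ) ^ q ≤ ∑ a ∈ good (Fin q → Bool) (fun _ => false) j U,
      if (∀ x, a (B⁻¹ (O⁻¹ (flip j x))) = a (B⁻¹ (O⁻¹ x))) then (1 : ℝ) else 0 := by
  rw [← Finset.sum_filter, Finset.sum_const, nsmul_eq_mul, mul_one, cnt]
  set F := U.powerset.filter (fun b => b.image (flip j) = b ∧
    (b.image (O * B)).image (flip j) = b.image (O * B)) with hF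
  have h1 : F.card ^ q = (Fintype.piFinset fun _ : Fin q => F).card := by
    rw [Fintype.card_piFinset]; simp
  have h2 : (Fintype.piFinset fun _ : Fin q => F).card ≤
      ((good (Fin q → Bool) (fun _ => false) j U).filter
        (fun a => ∀ x, a (B⁻¹ (O⁻¹ (flip j x))) = a (B⁻¹ (O⁻¹ x)))).card := by
    refine Finset.card_le_card_of_injOn
      (fun b x k => decide (x ∈ b k)) ?_ ?_
    · intro b hb
      have hb' : ∀ k, b k ∈ F := by
        intro k
        have := Fintype.mem_piFinset.mp (Finset.mem_coe.mp hb)
        exact this k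
      rw [Finset.mem_coe, Finset.mem_filter, good, Finset.mem_filter]
      refine ⟨⟨Finset.mem_univ _, ?_, ?_⟩, ?_⟩
      · intro x
        funext k
        have hk := hb' k
        rw [hF, Finset.mem_filter] at hk
        have := image_flip_iff hk.2.1 x
        simp only [this]
      · intro x hx
        funext k
        have hk := hb' k
        rw [hF, Finset.mem_filter, Finset.mem_powerset] at hk
        simp only [decide_eq_false_iff_not]
        exact fun h => hx (hk.1 h)
      · intro x
        funext k
        have hk := hb' k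
        rw [hF, Finset.mem_filter] at hk
        have h3 := image_flip_iff hk.2.2 x
        have h4 : ∀ y, y ∈ (b k).image (O * B) ↔ B⁻¹ (O⁻¹ y) ∈ b k := by
          intro y
          rw [Finset.mem_image]
          constructor
          · rintro ⟨w, hw, rfl⟩
            simpa using hw
          · intro hy
            exact ⟨_, hy, by simp⟩
        rw [h4, h4] at h3
        simp only [h3]
    · intro b _ c _ hbc
      funext k
      ext x
      have := congrFun (congrFun hbc x) k
      simpa using this
  have h3 : (F.card : ℝ) ^ q = ((Fintype.piFinset fun _ : Fin q => F).card : ℝ) := by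
    rw [← h1]; push_cast; rfl
  rw [h3]
  exact_mod_cast h2

end Node

open Node in
/-- **module NODE** -/
theorem node (hC : S_COLOR) : S_NODE := by
  intro I _ _ l j hl hj B hB U q
  have hB' : ∀ x, (B⁻¹ x) j = x j := by
    intro x
    have := hB (B⁻¹ x)
    have e : B (B⁻¹ x) = x := by simp
    rw [e] at this
    exact this.symm
  set G := good (Fin q → Bool) (fun _ => false) j U with hG
  -- expand the count
  have h1 : avg (fun t : I → (I → Bool) → Bool => (cnt j (op t l * B) U : ℝ) ^ q)
      ≤ ∑ a ∈ G, avg (fun t : I → (I → Bool) → Bool =>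
        if (∀ x, (fun y => a (B⁻¹ y)) ((op t l)⁻¹ (flip j x)) = (fun y => a (B⁻¹ y)) ((op t l)⁻¹ x))
          then (1 : ℝ) else 0) := by
    refine (avg_mono fun t => cnt_pow_le j (op t l) B U q).trans (le_of_eq ?_)
    unfold avg
    rw [← Finset.sum_div, Finset.sum_comm]
  refine h1.trans ?_
  set φ0 : ((I → Bool) → (Fin q → Bool)) → ((I → Bool) → (Fin q → Bool)) :=
    fun a => half (fun _ => false) j (fun y => a (B⁻¹ y)) with hφ0
  set φ1 : ((I → Bool) → (Fin q → Bool)) → ((I → Bool) → (Fin q → Bool)) :=
    fun a => half (fun _ => false) j (fun y => a (B⁻¹ (flip j y))) with hφ1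
  have h2 : ∀ a ∈ G, avg (fun t : I → (I → Bool) → Bool =>
        if (∀ x, (fun y => a (B⁻¹ y)) ((op t l)⁻¹ (flip j x)) = (fun y => a (B⁻¹ y)) ((op t l)⁻¹ x))
          then (1 : ℝ) else 0)
      ≤ (1 / 2) * (avg (fun T : (I → (I → Bool) → Bool) × (I → (I → Bool) → Bool) =>
          if (∀ x, φ0 a ((op T.1 l)⁻¹ x) = φ0 a ((op T.2 l)⁻¹ x)) then (1 : ℝ) else 0)
        + avg (fun T : (I → (I → Bool) → Bool) × (I → (I → Bool) → Bool) =>
          if (∀ x, φ1 a ((op T.1 l)⁻¹ x) = φ1 a ((op T.2 l)⁻¹ x)) then (1 : ℝ) else 0)) :=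
    fun a _ => one_colouring (fun _ => false) j l hj (fun y => a (B⁻¹ y))
  refine (Finset.sum_le_sum h2).trans ?_
  rw [← Finset.mul_sum, Finset.sum_add_distrib]
  have flipinv : ∀ a ∈ G, ∀ x, a (flip j x) = a x := by
    intro a ha
    rw [hG, good, Finset.mem_filter] at ha
    exact ha.2.1
  have s0 := sum_half hC j l hl q U φ0 ((dbl j U).image B) Finset.card_image_le (by
    intro a ha b hb hab
    have key : ∀ w : I → Bool, w j = false → a w = b w := by
      intro w hw
      have h3 := congrFun hab (B w)
      simp only [hφ0, half] at h3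
      have e : B⁻¹ (B w) = w := by simp
      rw [hB w, if_pos hw, if_pos hw, e] at h3
      exact h3
    funext w
    cases hw : w j with
    | false => exact key w hw
    | true =>
      have := key (flip j w) (by rw [flip_same, hw]; rfl)
      rwa [flipinv a ha, flipinv b hb] at this) (by
    intro a ha x hx
    simp only [hφ0, half]
    split_ifs with hxj
    · by_contra hne
      refine hx (Finset.mem_image.mpr ⟨B⁻¹ x, good_dbl ha hne, by simp⟩)
    · rfl)
  have s1 := sum_half hC j l hl q U φ1 (((dbl j U).image B).image (flip j))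
    (Finset.card_image_le.trans Finset.card_image_le) (by
    intro a ha b hb hab
    have key : ∀ w : I → Bool, w j = true → a w = b w := by
      intro w hw
      have h3 := congrFun hab (flip j (B w))
      simp only [hφ1, half] at h3
      have e : B⁻¹ (B w) = w := by simp
      rw [flip_same, hB w, hw, flip_flip, e] at h3
      simpa using h3
    funext w
    cases hw : w j with
    | true => exact key w hw
    | false =>
      have := key (flip j w) (by rw [flip_same, hw]; rfl)
      rwa [flipinv a ha, flipinv b hb] at this) (by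
    intro a ha x hx
    simp only [hφ1, half]
    split_ifs with hxj
    · by_contra hne
      refine hx (Finset.mem_image.mpr ⟨flip j x, Finset.mem_image.mpr
        ⟨B⁻¹ (flip j x), good_dbl ha hne, by simp⟩, by rw [flip_flip]⟩)
    · rfl)
  linarith

end Vale.Agent.P162c
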