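import Vale.Agent.P162c.Defs2

/-!
P162 (Thorp shuffle): module NUM1, choice of the block size.
-/

namespace Vale.Agent.P162c

open Finset Vale.Agent.P162

namespace NUM1

lemma threshold (C β a : ℝ) (p : ℕ) (hβ : 0 < β) (hβ1 : β ≤ 1) (ha : a = β / 4) :
    ∃ R : ℝ, 4 ≤ R ∧ ∀ r : ℝ, R ≤ r →
      4 * Real.exp 1 ≤ r ^ (a / 2) ∧ C * p * r ^ (-(β / 2)) ≤ 1 ∧ 4 * r ^ a ≤ r := by
  have ha0 : 0 < a := by rw [ha]; positivity
  have h1 : ∀ᶠ r : ℝ in Filter.atTop, 4 * Real.exp 1 ≤ r ^ (a / 2) :=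
    (tendsto_rpow_atTop (by positivity)).eventually_ge_atTop _
  have h2 : ∀ᶠ r : ℝ in Filter.atTop, C * p * r ^ (-(β / 2)) ≤ 1 := by
    have h := (tendsto_rpow_neg_atTop (by positivity : 0 < β / 2)).const_mul (C * p)
    rw [mul_zero] at h
    exact h.eventually (ge_mem_nhds (by norm_num))
  have h3 : ∀ᶠ r : ℝ in Filter.atTop, 4 ≤ r ^ (1 - a) :=
    (tendsto_rpow_atTop (by rw [ha]; linarith)).eventually_ge_atTop _
  obtain ⟨R, hR⟩ := Filter.eventually_atTop.1 (h1.and (h2.and h3))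
  refine ⟨max R 4, le_max_right _ _, fun r hr => ?_⟩
  obtain ⟨g1, g2, g3⟩ := hR r ((le_max_left _ _).trans hr)
  refine ⟨g1, g2, ?_⟩
  have hr0 : 0 < r := by
    have := (le_max_right R 4).trans hr
    linarith
  calc 4 * r ^ a ≤ r ^ (1 - a) * r ^ a := by gcongr
    _ = r := by rw [← Real.rpow_add hr0, sub_add_cancel, Real.rpow_one]

end NUM1

open NUM1 in
theorem num1 : S_NUM1 := by
  intro C β p hC hβ hβ1 hp
  set a : ℝ := β / 4 with ha
  have ha0 : 0 < a := by rw [ha]; positivity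
  obtain ⟨R, hR4, hR⟩ := threshold C β a p hβ hβ1 ha
  have hR0 : 0 < R := by linarith
  have hp0 : (0 : ℝ) < p := by exact_mod_cast hp
  refine ⟨1 / R, a / (2 * p), by positivity, ?_, by positivity, ?_⟩
  · rw [div_le_div_iff₀ hR0 (by norm_num)]
    linarith
  intro n j hj hjn
  have hj0 : (0 : ℝ) < j := by exact_mod_cast hj
  have hn0 : (0 : ℝ) < n := by
    by_contra h
    have h2 : 1 / R * (n : ℝ) ≤ 0 :=
      mul_nonpos_of_nonneg_of_nonpos (by positivity) (not_lt.1 h)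
    linarith
  set r : ℝ := n / j with hr
  have hr0 : 0 < r := by positivity
  have hRr : R ≤ r := by
    rw [hr, le_div_iff₀ hj0]
    rw [div_mul_eq_mul_div, one_mul, le_div_iff₀ hR0] at hjn
    linarith
  obtain ⟨g1, g2, g3⟩ := hR r hRr
  have hr1 : 1 ≤ r := by linarith
  have hra1 : 1 ≤ r ^ a := Real.one_le_rpow hr1 ha0.le
  set m : ℕ := ⌊r ^ a⌋₊ with hm
  have hm1 : 1 ≤ m := Nat.le_floor (by simpa using hra1)
  have hmr : (m : ℝ) ≤ r ^ a := Nat.floor_le (by positivity)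
  have hm2 : r ^ a ≤ 2 * m := by
    have h1 := Nat.lt_floor_add_one (r ^ a)
    have h2 : (1 : ℝ) ≤ m := by exact_mod_cast hm1
    rw [← hm] at h1
    linarith
  have hm0 : (0 : ℝ) < m := by exact_mod_cast hm1
  have hnr : (n : ℝ) = j * r := by rw [hr]; field_simp
  refine ⟨m, hm1, ?_, ?_⟩
  · have : (4 * (j * m) : ℝ) ≤ n := by
      rw [hnr]
      calc (4 * (j * m) : ℝ) = j * (4 * m) := by ring
        _ ≤ j * (4 * r ^ a) := by gcongr
        _ ≤ j * r := by gcongr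
    exact_mod_cast this
  intro x hx hxm
  have hratio : ((j * m : ℕ) : ℝ) / n = m / r := by
    rw [hnr]
    push_cast
    field_simp
  have hexp : C * p * ((j * m : ℕ) : ℝ) * (((j * m : ℕ) : ℝ) / n) ^ β ≤ j := by
    rw [hratio]
    have h1 : ((m : ℝ) / r) ^ β ≤ (r ^ (a - 1)) ^ β := by
      apply Real.rpow_le_rpow (by positivity) _ hβ.le
      rw [Real.rpow_sub hr0, Real.rpow_one]
      gcongr
    have h2 : (m : ℝ) * ((m : ℝ) / r) ^ β ≤ r ^ (-(β / 2)) := by
      calc (m : ℝ) * ((m : ℝ) / r) ^ β ≤ r ^ a * (r ^ (a - 1)) ^ β := by gcongr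
        _ = r ^ (a + (a - 1) * β) := by
            rw [← Real.rpow_mul hr0.le, ← Real.rpow_add hr0]
        _ ≤ r ^ (-(β / 2)) := by
            apply Real.rpow_le_rpow_of_exponent_le hr1
            rw [ha]
            nlinarith
    calc C * p * ((j * m : ℕ) : ℝ) * ((m : ℝ) / r) ^ β
        = j * (C * p * ((m : ℝ) * ((m : ℝ) / r) ^ β)) := by push_cast; ring
      _ ≤ j * (C * p * r ^ (-(β / 2))) := by gcongr
      _ ≤ j * 1 := by gcongr
      _ = j := by ring
  have hx1 : x ^ p * (m : ℝ) ^ j ≤ (2 * Real.exp 1) ^ j := by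
    refine hxm.trans ?_
    rw [mul_pow]
    gcongr
    rw [← Real.exp_nat_mul, mul_one]
    exact Real.exp_le_exp.2 hexp
  have hx2 : x ^ p ≤ (r ^ (-(a / 2))) ^ j := by
    have h1 : x ^ p ≤ (2 * Real.exp 1 / m) ^ j := by
      rw [div_pow, le_div_iff₀ (by positivity)]
      exact hx1
    refine h1.trans ?_
    gcongr
    rw [div_le_iff₀ hm0]
    have h3 : r ^ (-(a / 2)) * r ^ a = r ^ (a / 2) := by
      rw [← Real.rpow_add hr0]
      congr 1
      ring
    have h4 : 0 < r ^ (-(a / 2)) := by positivity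
    nlinarith
  have hjn' : ((j : ℝ) / n) = r⁻¹ := by rw [hr, inv_div]
  rw [hjn']
  have hpne : p ≠ 0 := by omega
  have h5 : ((r⁻¹ ^ (a / (2 * p))) ^ j) ^ p = (r ^ (-(a / 2))) ^ j := by
    rw [← pow_mul, mul_comm j p, pow_mul]
    congr 1
    rw [← Real.rpow_natCast, Real.inv_rpow hr0.le, ← Real.rpow_neg hr0.le,
      ← Real.rpow_mul hr0.le]
    congr 1
    field_simp
  rw [← h5] at hx2
  exact le_of_pow_le_pow_left₀ hpne (by positivity) hx2

end Vale.Agent.P162c
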