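import Mathlib
import Vale.Agent.P162c.Defs2

/-!
P162 (Thorp shuffle), module NUM2: the final numerical estimate.
-/

namespace Vale.Agent.P162c

open Finset Vale.Agent.P162

namespace Num2

theorem geom (J : ℕ) : ∑ j ∈ Finset.Icc 1 J, ((1 : ℝ) / 16) ^ j = (1 - (1 / 16) ^ J) / 15 := by
  induction J with
  | zero => simp
  | succ J ih =>
    rw [Finset.sum_Icc_succ_top (by omega), ih, pow_succ]
    ring

theorem term {δ C : ℝ} (hC : 0 < C) (K n j : ℕ) (hK : 4 + C ≤ δ * K) (hj : 1 ≤ j)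
    (hn : (j : ℝ) ≤ n / 4) :
    ((((j : ℝ) / n) ^ δ) ^ j) ^ K * ((n.choose j : ℝ) * Real.exp (C * j)) ≤ (1 / 16 : ℝ) ^ j := by
  have hj0 : (0 : ℝ) < j := by exact_mod_cast hj
  have hn0 : (0 : ℝ) < n := by linarith
  set x : ℝ := (j : ℝ) / n with hx
  have hx0 : 0 < x := div_pos hj0 hn0
  have hx4 : x ≤ 1 / 4 := by
    rw [hx, div_le_iff₀ hn0]; linarith
  have h1 : (((x ^ δ) ^ j) ^ K) = (x ^ (δ * K)) ^ j := by
    rw [← pow_mul, mul_comm j K, pow_mul, ← Real.rpow_natCast (x ^ δ) K, ← Real.rpow_mul hx0.le]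
  have h2 : x ^ (δ * K) ≤ x * (1 / 4 : ℝ) ^ (3 + C) := by
    calc x ^ (δ * K) ≤ x ^ (4 + C) :=
          Real.rpow_le_rpow_of_exponent_ge hx0 (by linarith) hK
      _ = x * x ^ (3 + C) := by
          rw [show (4 + C) = 1 + (3 + C) by ring, Real.rpow_add hx0, Real.rpow_one]
      _ ≤ x * (1 / 4 : ℝ) ^ (3 + C) :=
          mul_le_mul_of_nonneg_left (Real.rpow_le_rpow hx0.le hx4 (by linarith)) hx0.le
  have h3 : (n.choose j : ℝ) ≤ (Real.exp 1 / x) ^ j := by
    have a := Nat.choose_le_pow_div (α := ℝ) j n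
    have b := Real.pow_div_factorial_le_exp (j : ℝ) hj0.le j
    refine a.trans ?_
    have e : (n : ℝ) ^ j / (j.factorial : ℝ) = (1 / x) ^ j * ((j : ℝ) ^ j / (j.factorial : ℝ)) := by
      have : (1 / x) ^ j * (j : ℝ) ^ j = (n : ℝ) ^ j := by
        rw [← mul_pow]
        congr 1
        rw [hx]
        field_simp
      rw [← this]
      ring
    rw [e]
    have f : (Real.exp 1 / x) ^ j = (1 / x) ^ j * Real.exp j := by
      rw [div_eq_mul_one_div, mul_pow, ← Real.exp_nat_mul, mul_one, mul_comm]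
    rw [f]
    exact mul_le_mul_of_nonneg_left b (by positivity)
  have h4 : Real.exp (C * j) = (Real.exp C) ^ j := by
    rw [← Real.exp_nat_mul, mul_comm]
  rw [h1, h4]
  calc (x ^ (δ * K)) ^ j * ((n.choose j : ℝ) * Real.exp C ^ j)
      ≤ (x * (1 / 4 : ℝ) ^ (3 + C)) ^ j * ((Real.exp 1 / x) ^ j * Real.exp C ^ j) := by
        gcongr
    _ = ((1 / 4 : ℝ) ^ (3 + C) * (Real.exp 1 * Real.exp C)) ^ j := by
        rw [← mul_pow, ← mul_pow]
        congr 1
        field_simp
    _ ≤ (1 / 16 : ℝ) ^ j := by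
        refine pow_le_pow_left₀ (by positivity) ?_ j
        rw [← Real.exp_add]
        have e1 : (1 / 4 : ℝ) ^ (3 + C) = 1 / 16 * (1 / 4 : ℝ) ^ (1 + C) := by
          rw [show 3 + C = 2 + (1 + C) by ring, Real.rpow_add (by norm_num)]
          norm_num
        have e2 : Real.exp (1 + C) ≤ (4 : ℝ) ^ (1 + C) := by
          rw [← Real.exp_one_rpow]
          refine Real.rpow_le_rpow (Real.exp_pos 1).le ?_ (by linarith)
          have := Real.exp_one_lt_d9
          linarith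
        have e3 : (1 / 4 : ℝ) ^ (1 + C) * (4 : ℝ) ^ (1 + C) = 1 := by
          rw [← Real.mul_rpow (by norm_num) (by norm_num)]
          norm_num
        rw [e1, mul_assoc]
        have e4 : (1 / 4 : ℝ) ^ (1 + C) * Real.exp (1 + C) ≤ 1 := by
          have e5 := mul_le_mul_of_nonneg_left e2
            (Real.rpow_nonneg (by norm_num : (0 : ℝ) ≤ 1 / 4) (1 + C))
          linarith
        linarith

end Num2

theorem num2 : S_NUM2 := by
  intro δ C c hδ hC hc
  obtain ⟨K, hK⟩ := exists_nat_ge (max ((4 + C) / δ) ((C + 1) / c))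
  have hK1 : 4 + C ≤ δ * K := by
    have := (le_max_left _ _).trans hK
    rw [div_le_iff₀ hδ] at this
    linarith
  have hK2 : C + 1 ≤ c * K := by
    have := (le_max_right _ _).trans hK
    rw [div_le_iff₀ hc] at this
    linarith
  refine ⟨K, 3, fun n J hn hJ => ?_⟩
  have h1 : ∑ j ∈ Finset.Icc 1 J, ((((j : ℝ) / n) ^ δ) ^ j) ^ K * ((n.choose j : ℝ) *
      Real.exp (C * j)) ≤ 1 / 15 := by
    calc _ ≤ ∑ j ∈ Finset.Icc 1 J, ((1 : ℝ) / 16) ^ j := by
          refine Finset.sum_le_sum fun j hj => ?_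
          rw [Finset.mem_Icc] at hj
          refine Num2.term hC K n j hK1 hj.1 ?_
          have : (j : ℝ) ≤ J := by exact_mod_cast hj.2
          linarith
      _ ≤ 1 / 15 := by
          rw [Num2.geom]
          have : (0 : ℝ) ≤ (1 / 16) ^ J := by positivity
          linarith
  have h2 : Real.exp (-c * n) ^ K * Real.exp (C * n) ≤ 1 / 8 := by
    rw [← Real.exp_nat_mul, ← Real.exp_add]
    have hn3 : (3 : ℝ) ≤ n := by exact_mod_cast hn
    have h3 : (K : ℝ) * (-c * n) + C * n ≤ -3 := by nlinarith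
    refine (Real.exp_le_exp.mpr h3).trans ?_
    rw [Real.exp_neg, one_div]
    refine inv_anti₀ (by norm_num) ?_
    have h4 : Real.exp 3 = Real.exp 1 ^ 3 := by
      rw [← Real.exp_nat_mul]; norm_num
    rw [h4]
    have h5 : (2 : ℝ) ≤ Real.exp 1 := by
      have := Real.exp_one_gt_d9
      linarith
    calc (8 : ℝ) = 2 ^ 3 := by norm_num
      _ ≤ Real.exp 1 ^ 3 := pow_le_pow_left₀ (by norm_num) h5 3
  linarith

end Vale.Agent.P162c
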