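import Mathlib
import Vale.Agent.P162c.Defs

/-!
P162, module PATH: trace of a power through an entrywise Hoelder bound.
-/

namespace Vale.Agent.P162c

open Finset

namespace PATH

variable {Y : Type} [Fintype Y] [DecidableEq Y]

/-- product of the first `n` matrices -/
def P (M : ℕ → Matrix Y Y ℝ) : ℕ → Matrix Y Y ℝ
  | 0 => 1
  | n + 1 => P M n * M n

/-- weight of a walk -/
def wt (M : ℕ → Matrix Y Y ℝ) (n : ℕ) (x : Fin (n + 1) → Y) : ℝ :=
  ∏ i : Fin n, M i (x i.castSucc) (x i.succ)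

lemma wt_snoc (M : ℕ → Matrix Y Y ℝ) (n : ℕ) (x : Fin (n + 1) → Y) (y : Y) :
    wt M (n + 1) (Fin.snoc (α := fun _ => Y) x y) = wt M n x * M n (x (Fin.last n)) y := by
  unfold wt
  rw [Fin.prod_univ_castSucc]
  congr 1
  · refine prod_congr rfl fun i _ => ?_
    rw [Fin.succ_castSucc, Fin.snoc_castSucc (α := fun _ => Y),
      Fin.snoc_castSucc (α := fun _ => Y)]
    rfl
  · rw [Fin.succ_last, Fin.snoc_castSucc (α := fun _ => Y), Fin.snoc_last (α := fun _ => Y)]
    rfl

lemma sum_snoc (n : ℕ) (g : (Fin (n + 2) → Y) → ℝ) :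
    ∑ x : Fin (n + 2) → Y, g x
      = ∑ x : Fin (n + 1) → Y, ∑ y : Y, g (Fin.snoc (α := fun _ => Y) x y) := by
  rw [← Fintype.sum_prod_type']
  refine (Fintype.sum_equiv ((Equiv.prodComm _ _).trans (Fin.snocEquiv (fun _ => Y))) _ _ ?_).symm
  rintro ⟨x, y⟩
  rfl

lemma P_apply (M : ℕ → Matrix Y Y ℝ) (n : ℕ) : ∀ a b, P M n a b =
    ∑ x : Fin (n + 1) → Y, if x 0 = a ∧ x (Fin.last n) = b then wt M n x else 0 := by
  induction n with
  | zero =>
    intro a b
    rw [Fintype.sum_equiv (Equiv.funUnique (Fin 1) Y) _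
      (fun y => if y = a ∧ y = b then (1 : ℝ) else 0) (by
        intro x
        simp [wt])]
    change (1 : Matrix Y Y ℝ) a b = _
    rw [Matrix.one_apply]
    by_cases h : a = b
    · subst h
      simp
    · rw [if_neg h]
      symm
      refine sum_eq_zero fun y _ => ?_
      rw [if_neg]
      rintro ⟨h1, h2⟩
      exact h (h1.symm.trans h2)
  | succ n ih =>
    intro a b
    rw [sum_snoc]
    change (P M n * M n) a b = _
    rw [Matrix.mul_apply]
    simp only [ih, sum_mul]
    rw [sum_comm]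
    refine sum_congr rfl fun x _ => ?_
    have e0 : ∀ y, (Fin.snoc (α := fun _ => Y) x y : Fin (n + 2) → Y) 0 = x 0 := by
      intro y
      exact Fin.snoc_castSucc (α := fun _ => Y) y x (0 : Fin (n + 1))
    have el : ∀ y, (Fin.snoc (α := fun _ => Y) x y : Fin (n + 2) → Y) (Fin.last (n + 1)) = y := by
      intro y
      exact Fin.snoc_last (α := fun _ => Y) y x
    simp only [e0, el, wt_snoc]
    by_cases h : x 0 = a
    · simp only [h, true_and]
      rw [sum_ite_eq', if_pos (mem_univ _)]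
      rw [sum_eq_single (x (Fin.last n))]
      · rw [if_pos rfl]
      · intro c _ hc
        rw [if_neg (Ne.symm hc), zero_mul]
      · intro hc
        exact absurd (mem_univ _) hc
    · simp [h]

lemma trace_P (M : ℕ → Matrix Y Y ℝ) (n : ℕ) : (P M n).trace =
    ∑ x : Fin (n + 1) → Y, if x 0 = x (Fin.last n) then wt M n x else 0 := by
  unfold Matrix.trace
  simp only [Matrix.diag_apply, P_apply]
  rw [sum_comm]
  refine sum_congr rfl fun x _ => ?_
  by_cases h : x 0 = x (Fin.last n)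
  · rw [if_pos h, ← h]
    simp
  · rw [if_neg h]
    refine sum_eq_zero fun a _ => ?_
    rw [if_neg]
    rintro ⟨h1, h2⟩
    exact h (h1.trans h2.symm)

lemma P_const (A : Matrix Y Y ℝ) (n : ℕ) : P (fun _ => A) n = A ^ n := by
  induction n with
  | zero => simp [P]
  | succ n ih => rw [P, ih, pow_succ]

/-- all ones -/
def J : Matrix Y Y ℝ := fun _ _ => 1

lemma P_J (B : Matrix Y Y ℝ) (i n : ℕ) : P (fun j => if j = i then J else B) n =
    if n ≤ i then B ^ n else B ^ i * J * B ^ (n - 1 - i) := by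
  induction n with
  | zero => simp [P]
  | succ n ih =>
    rw [P, ih]
    by_cases h1 : n + 1 ≤ i
    · rw [if_pos (by omega), if_neg (by omega), if_pos h1, pow_succ]
    · rw [if_neg h1]
      by_cases h2 : n = i
      · subst h2
        simp
      · rw [if_neg (by omega), if_neg h2, mul_assoc, ← pow_succ]
        congr 2
        omega

lemma pow_nn {B : Matrix Y Y ℝ} (hB : ∀ x y, 0 ≤ B x y) (n : ℕ) : ∀ x y, 0 ≤ (B ^ n) x y := by
  induction n with
  | zero =>
    intro x y
    rw [pow_zero, Matrix.one_apply]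
    split_ifs <;> norm_num
  | succ n ih =>
    intro x y
    rw [pow_succ, Matrix.mul_apply]
    exact sum_nonneg fun c _ => mul_nonneg (ih x c) (hB c y)

lemma row_sum {B : Matrix Y Y ℝ} {C : ℝ} (hC : 0 ≤ C) (hB : ∀ x y, 0 ≤ B x y)
    (hr : ∀ x, ∑ y, B x y ≤ C) (n : ℕ) : ∀ x, ∑ y, (B ^ n) x y ≤ C ^ n := by
  induction n with
  | zero =>
    intro x
    rw [pow_zero, pow_zero]
    simp [Matrix.one_apply]
  | succ n ih =>
    intro x
    simp only [pow_succ, Matrix.mul_apply]
    rw [sum_comm]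
    calc ∑ c, ∑ y, (B ^ n) x c * B c y = ∑ c, (B ^ n) x c * ∑ y, B c y := by
          simp only [mul_sum]
      _ ≤ ∑ c, (B ^ n) x c * C :=
          sum_le_sum fun c _ => mul_le_mul_of_nonneg_left (hr c) (pow_nn hB n x c)
      _ = (∑ c, (B ^ n) x c) * C := by rw [sum_mul]
      _ ≤ C ^ n * C := mul_le_mul_of_nonneg_right (ih x) hC

lemma trace_J {B : Matrix Y Y ℝ} {C : ℝ} (hC : 0 ≤ C) (hB : ∀ x y, 0 ≤ B x y)
    (hr : ∀ x, ∑ y, B x y ≤ C) (p i : ℕ) (hi : i < p) :
    (P (fun j => if j = i then J else B) p).trace ≤ Fintype.card Y * C ^ (p - 1) := by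
  rw [P_J, if_neg (by omega), mul_assoc, Matrix.trace_mul_comm, mul_assoc, ← pow_add]
  have e : p - 1 - i + i = p - 1 := by omega
  rw [e]
  unfold Matrix.trace
  simp only [Matrix.diag_apply, Matrix.mul_apply, J, one_mul]
  rw [sum_comm]
  calc ∑ y, ∑ x, (B ^ (p - 1)) y x ≤ ∑ _y : Y, C ^ (p - 1) :=
        sum_le_sum fun y _ => row_sum hC hB hr (p - 1) y
    _ = Fintype.card Y * C ^ (p - 1) := by rw [sum_const, nsmul_eq_mul, card_univ]

/-- the inequality for one walk -/
lemma amgm (p : ℕ) (hp : 1 ≤ p) (δ : ℝ) (hδ : 0 ≤ δ) (α β : Fin p → ℝ) (hα : ∀ i, 0 ≤ α i)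
    (hβ : ∀ i, 0 ≤ β i) (h : ∀ i, α i ^ p ≤ δ * β i ^ (p - 1)) :
    ∏ i, α i ≤ δ * ((1 / p : ℝ) * ∑ i : Fin p, ∏ j : Fin p, if j = i then 1 else β j) := by
  have hp0 : (0 : ℝ) < p := by exact_mod_cast hp
  set g : Fin p → ℝ := fun i => ∏ j : Fin p, if j = i then 1 else β j with hg
  have hgn : ∀ i, 0 ≤ g i := fun i => prod_nonneg fun j _ => by
    split_ifs
    · norm_num
    · exact hβ j
  have hprod : ∏ i, g i = ∏ j, β j ^ (p - 1) := by
    simp only [hg]
    rw [prod_comm]
    refine prod_congr rfl fun j _ => ?_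
    rw [prod_ite, prod_const_one, one_mul, prod_const]
    congr 1
    have : (univ.filter (fun i : Fin p => ¬ j = i)) = univ.erase j := by
      ext i
      simp [eq_comm]
    rw [this, card_erase_of_mem (mem_univ _), card_univ, Fintype.card_fin]
  have hgm : ∏ i, g i ^ (1 / p : ℝ) ≤ ∑ i, (1 / p : ℝ) * g i := by
    refine Real.geom_mean_le_arith_mean_weighted univ (fun _ => (1 / p : ℝ)) g
      (fun i _ => by positivity) ?_ (fun i _ => hgn i)
    rw [sum_const, card_univ, Fintype.card_fin, nsmul_eq_mul]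
    field_simp
  have hmain : ∏ i, α i ≤ δ * ∏ i, g i ^ (1 / p : ℝ) := by
    refine le_of_pow_le_pow_left₀ (n := p) (by omega)
      (mul_nonneg hδ (prod_nonneg fun i _ => Real.rpow_nonneg (hgn i) _)) ?_
    rw [mul_pow, ← prod_pow, ← prod_pow]
    have e : ∏ i, (g i ^ (1 / p : ℝ)) ^ p = ∏ i, g i := by
      refine prod_congr rfl fun i _ => ?_
      rw [← Real.rpow_natCast, ← Real.rpow_mul (hgn i), one_div,
        inv_mul_cancel₀ hp0.ne', Real.rpow_one]
    rw [e, hprod]
    calc ∏ i, α i ^ p ≤ ∏ i, δ * β i ^ (p - 1) :=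
          prod_le_prod (fun i _ => pow_nonneg (hα i) _) fun i _ => h i
      _ = δ ^ p * ∏ j, β j ^ (p - 1) := by
          rw [prod_mul_distrib, prod_const, card_univ, Fintype.card_fin]
  refine hmain.trans (mul_le_mul_of_nonneg_left ?_ hδ)
  rw [mul_sum]
  exact hgm

end PATH

theorem path : S_PATH := by
  intro Y _ _ A B p δ C hp hδ hC hA hB hAB hr
  have hp0 : (0 : ℝ) < p := by
    have : 0 < p := by omega
    exact_mod_cast this
  rw [← PATH.P_const, PATH.trace_P]
  have h1 : ∀ x : Fin (p + 1) → Y, PATH.wt (fun _ => A) p x ≤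
      δ * ((1 / p : ℝ) * ∑ i : Fin p,
        PATH.wt (fun j => if j = (i : ℕ) then PATH.J else B) p x) := by
    intro x
    refine (PATH.amgm p (by omega) δ hδ (fun i => A (x i.castSucc) (x i.succ))
      (fun i => B (x i.castSucc) (x i.succ)) (fun i => hA _ _) (fun i => hB _ _)
      (fun i => hAB _ _)).trans (le_of_eq ?_)
    congr 2
    refine sum_congr rfl fun i _ => ?_
    unfold PATH.wt
    refine prod_congr rfl fun j _ => ?_
    by_cases hj : j = i
    · subst hj
      simp [PATH.J]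
    · have : (j : ℕ) ≠ (i : ℕ) := fun hh => hj (Fin.ext hh)
      simp [hj, this]
  calc ∑ x : Fin (p + 1) → Y, (if x 0 = x (Fin.last p) then PATH.wt (fun _ => A) p x else 0)
      ≤ ∑ x : Fin (p + 1) → Y, (if x 0 = x (Fin.last p) then
          δ * ((1 / p : ℝ) * ∑ i : Fin p,
            PATH.wt (fun j => if j = (i : ℕ) then PATH.J else B) p x) else 0) := by
        refine sum_le_sum fun x _ => ?_
        split_ifs
        · exact h1 x
        · exact le_refl _
    _ = δ * ((1 / p : ℝ) * ∑ i : Fin p,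
          (PATH.P (fun j => if j = (i : ℕ) then PATH.J else B) p).trace) := by
        simp only [PATH.trace_P]
        rw [sum_comm, mul_sum, mul_sum]
        refine sum_congr rfl fun x _ => ?_
        by_cases hx : x 0 = x (Fin.last p)
        · simp only [hx, if_true]
        · simp only [hx, if_false, sum_const_zero, mul_zero]
    _ ≤ δ * ((1 / p : ℝ) * ∑ _i : Fin p, ((Fintype.card Y : ℝ) * C ^ (p - 1))) := by
        refine mul_le_mul_of_nonneg_left (mul_le_mul_of_nonneg_left ?_ (by positivity)) hδ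
        exact sum_le_sum fun i _ => PATH.trace_J hC hB hr p i i.isLt
    _ = δ * (Fintype.card Y : ℝ) * C ^ (p - 1) := by
        rw [sum_const, card_univ, Fintype.card_fin, nsmul_eq_mul]
        field_simp

end Vale.Agent.P162c
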