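import Vale.Agent.P162c.Defs2

/-!
# P162c, module RAD

`E exp (2 t (S^2 - N)) ≤ exp (16 (t N)^2)` for `t N ≤ 1/16`, where `S` is a sum of `N`
independent signs.  Proof: adding one sign at a time,
`E_ε exp (a (s + ε)^2) = exp (a s^2 + a) cosh (2 a s) ≤ exp (a + (a + 2 a^2) s^2)`.
-/

open scoped BigOperators

namespace Vale.Agent.P162c

open Vale.Agent.P162

namespace Rad

lemma step (a s : ℝ) :
    Real.exp (a * (1 + s) ^ 2) + Real.exp (a * (-1 + s) ^ 2)
      ≤ 2 * Real.exp a * Real.exp ((a + 2 * a ^ 2) * s ^ 2) := by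
  have h1 : Real.exp (a * (1 + s) ^ 2) + Real.exp (a * (-1 + s) ^ 2)
      = 2 * Real.exp (a + a * s ^ 2) * Real.cosh (2 * a * s) := by
    rw [Real.cosh_eq]
    have e1 : a * (1 + s) ^ 2 = (a + a * s ^ 2) + 2 * a * s := by ring
    have e2 : a * (-1 + s) ^ 2 = (a + a * s ^ 2) + -(2 * a * s) := by ring
    rw [e1, e2, Real.exp_add, Real.exp_add (a + a * s ^ 2) (-(2 * a * s))]
    ring
  rw [h1]
  have h2 := Real.cosh_le_exp_half_sq (2 * a * s)
  calc 2 * Real.exp (a + a * s ^ 2) * Real.cosh (2 * a * s)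
      ≤ 2 * Real.exp (a + a * s ^ 2) * Real.exp ((2 * a * s) ^ 2 / 2) := by
        apply mul_le_mul_of_nonneg_left h2
        positivity
    _ = 2 * Real.exp a * Real.exp ((a + 2 * a ^ 2) * s ^ 2) := by
        have e3 : (a + 2 * a ^ 2) * s ^ 2 = a * s ^ 2 + (2 * a * s) ^ 2 / 2 := by ring
        rw [e3, Real.exp_add a, Real.exp_add (a * s ^ 2)]
        ring

lemma key (n : ℕ) : ∀ (a b : ℝ), 0 ≤ a → a + 2 * b ^ 2 * n ≤ b →
    (∑ σ : Fin n → Bool, Real.exp (a * (∑ i, sgn (σ i)) ^ 2))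
      ≤ 2 ^ n * Real.exp (n * a + n ^ 2 * b ^ 2) := by
  induction n with
  | zero =>
      intro a b _ _
      simp
  | succ n ih =>
      intro a b ha hab
      have hb : 0 ≤ b := by
        refine le_trans ?_ hab
        positivity
      have hab' : a ≤ b := by
        refine le_trans ?_ hab
        have : 0 ≤ 2 * b ^ 2 * ((n + 1 : ℕ) : ℝ) := by positivity
        linarith
      have haa : a ^ 2 ≤ b ^ 2 := by
        apply pow_le_pow_left₀ ha hab'
      have h1 : (∑ σ : Fin (n + 1) → Bool, Real.exp (a * (∑ i, sgn (σ i)) ^ 2))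
          = ∑ τ : Fin n → Bool, (Real.exp (a * (1 + ∑ i, sgn (τ i)) ^ 2)
              + Real.exp (a * (-1 + ∑ i, sgn (τ i)) ^ 2)) := by
        rw [← (Fin.consEquiv (fun _ : Fin (n + 1) => Bool)).sum_comp, Fintype.sum_prod_type]
        simp only [Fin.consEquiv, Equiv.coe_fn_mk, Fin.sum_univ_succ, Fin.cons_zero, Fin.cons_succ,
          Fintype.sum_bool, sgn, if_true]
        rw [← Finset.sum_add_distrib]
        apply Finset.sum_congr rfl
        intro τ _
        simp
      rw [h1]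
      have h2 : (∑ τ : Fin n → Bool, (Real.exp (a * (1 + ∑ i, sgn (τ i)) ^ 2)
              + Real.exp (a * (-1 + ∑ i, sgn (τ i)) ^ 2)))
          ≤ ∑ τ : Fin n → Bool, 2 * Real.exp a *
              Real.exp ((a + 2 * a ^ 2) * (∑ i, sgn (τ i)) ^ 2) :=
        Finset.sum_le_sum (fun τ _ => step a _)
      refine h2.trans ?_
      rw [← Finset.mul_sum]
      have h3 := ih (a + 2 * a ^ 2) b (by positivity) (by
        push_cast at hab
        nlinarith)
      calc 2 * Real.exp a * (∑ τ : Fin n → Bool,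
              Real.exp ((a + 2 * a ^ 2) * (∑ i, sgn (τ i)) ^ 2))
          ≤ 2 * Real.exp a * (2 ^ n * Real.exp (n * (a + 2 * a ^ 2) + n ^ 2 * b ^ 2)) := by
            apply mul_le_mul_of_nonneg_left h3
            positivity
        _ = 2 ^ (n + 1) * Real.exp (a + (n * (a + 2 * a ^ 2) + n ^ 2 * b ^ 2)) := by
            rw [Real.exp_add a]
            ring
        _ ≤ 2 ^ (n + 1) * Real.exp (((n + 1 : ℕ) : ℝ) * a + ((n + 1 : ℕ) : ℝ) ^ 2 * b ^ 2) := by
            apply mul_le_mul_of_nonneg_left _ (by positivity)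
            apply Real.exp_le_exp.2
            push_cast
            have hn : (0 : ℝ) ≤ n := Nat.cast_nonneg n
            have := mul_le_mul_of_nonneg_left haa hn
            nlinarith [sq_nonneg b]

end Rad

open Rad in
theorem rad : S_RAD := by
  refine ⟨16, 1 / 16, by norm_num, by norm_num, ?_⟩
  intro ι _ _ t ht htN
  set N := Fintype.card ι with hN
  have e : ι ≃ Fin N := Fintype.equivFin ι
  have hk := key N (2 * t) (4 * t) (by positivity) (by nlinarith)
  have hsum : (∑ σ : ι → Bool, Real.exp (2 * t * ((∑ i, sgn (σ i)) ^ 2 - (N : ℝ))))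
      = Real.exp (-(2 * t * N)) *
        ∑ σ : Fin N → Bool, Real.exp (2 * t * (∑ i, sgn (σ i)) ^ 2) := by
    rw [Finset.mul_sum]
    rw [← (Equiv.arrowCongr e (Equiv.refl Bool)).sum_comp]
    apply Finset.sum_congr rfl
    intro σ _
    rw [← Real.exp_add]
    congr 1
    have : (∑ i : Fin N, sgn ((Equiv.arrowCongr e (Equiv.refl Bool)) σ i)) = ∑ i, sgn (σ i) := by
      rw [← e.sum_comp]
      simp [Equiv.arrowCongr]
    rw [this]
    ring
  unfold avg
  rw [hsum]
  have hcard : (Fintype.card (ι → Bool) : ℝ) = 2 ^ N := by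
    rw [Fintype.card_fun]
    simp [hN]
  rw [hcard, div_le_iff₀ (by positivity)]
  calc Real.exp (-(2 * t * N)) *
        ∑ σ : Fin N → Bool, Real.exp (2 * t * (∑ i, sgn (σ i)) ^ 2)
      ≤ Real.exp (-(2 * t * N)) *
          (2 ^ N * Real.exp (N * (2 * t) + N ^ 2 * (4 * t) ^ 2)) := by
        apply mul_le_mul_of_nonneg_left hk (Real.exp_pos _).le
    _ = Real.exp (16 * (t * N) ^ 2) * 2 ^ N := by
        rw [mul_left_comm, ← Real.exp_add, mul_comm]
        congr 2
        ring

end Vale.Agent.P162c
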