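import Vale.Agent.P162c.Defs
import Vale.Agent.P162.Basic

/-! # P162, module RETURN: trace of powers of the token kernel -/

namespace Vale.Agent.P162c

open Finset Vale.Agent.P162

namespace RET

/-- Hoelder's inequality for the average of an indicator -/
theorem holder_avg {Ω : Type} [Fintype Ω] (S : Ω → Prop) [DecidablePred S] (W : Ω → ℝ)
    (hW : ∀ ω, 0 < W ω) (p : ℕ) (hp : 2 ≤ p) :
    (avg fun ω => if S ω then (1 : ℝ) else 0) ^ p ≤
      (avg fun ω => if S ω then 1 / W ω else 0) *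
        (avg fun ω => if S ω then W ω ^ (1 / ((p : ℝ) - 1)) else 0) ^ (p - 1) := by
  have hp1 : (1 : ℝ) < p := by exact_mod_cast hp
  have hp0 : (0 : ℝ) < p := by linarith
  have hpm : (0 : ℝ) < (p : ℝ) - 1 := by linarith
  set q : ℝ := p / (p - 1) with hq
  have hq0 : 0 < q := by positivity
  have hpq : (p : ℝ).HolderConjugate q := by
    rw [Real.holderConjugate_iff]
    refine ⟨hp1, ?_⟩
    rw [hq]
    field_simp
    ring
  have h := Real.inner_le_Lp_mul_Lq_of_nonneg (univ.filter S) hpq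
    (f := fun ω => W ω ^ (-(1 / (p : ℝ)))) (g := fun ω => W ω ^ (1 / (p : ℝ)))
    (fun ω _ => Real.rpow_nonneg (hW ω).le _) (fun ω _ => Real.rpow_nonneg (hW ω).le _)
  have e1 : ∀ ω, W ω ^ (-(1 / (p : ℝ))) * W ω ^ (1 / (p : ℝ)) = 1 := fun ω => by
    rw [← Real.rpow_add (hW ω)]; simp
  have e2 : ∀ ω, (W ω ^ (-(1 / (p : ℝ)))) ^ (p : ℝ) = 1 / W ω := fun ω => by
    rw [← Real.rpow_mul (hW ω).le]
    have : -(1 / (p : ℝ)) * p = -1 := by field_simp
    rw [this, Real.rpow_neg_one, one_div]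
  have e3 : ∀ ω, (W ω ^ (1 / (p : ℝ))) ^ q = W ω ^ (1 / ((p : ℝ) - 1)) := fun ω => by
    rw [← Real.rpow_mul (hW ω).le]
    congr 1
    rw [hq]
    field_simp
  simp only [e1, e2, e3] at h
  set X : ℝ := ∑ ω ∈ univ.filter S, 1 / W ω with hX
  set Z : ℝ := ∑ ω ∈ univ.filter S, W ω ^ (1 / ((p : ℝ) - 1)) with hZ
  set N : ℝ := ∑ ω ∈ univ.filter S, (1 : ℝ) with hN
  have hX0 : 0 ≤ X := sum_nonneg fun ω _ => (one_div_pos.2 (hW ω)).le
  have hZ0 : 0 ≤ Z := sum_nonneg fun ω _ => Real.rpow_nonneg (hW ω).le _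
  have hN0 : 0 ≤ N := sum_nonneg fun ω _ => zero_le_one
  have h2 : N ^ p ≤ X * Z ^ (p - 1) := by
    calc N ^ p ≤ (X ^ (1 / (p : ℝ)) * Z ^ (1 / q)) ^ p := pow_le_pow_left₀ hN0 h p
      _ = X * Z ^ (p - 1) := by
        rw [mul_pow, ← Real.rpow_natCast (X ^ (1 / (p : ℝ))), ← Real.rpow_mul hX0,
          ← Real.rpow_natCast (Z ^ (1 / q)), ← Real.rpow_mul hZ0]
        have a1 : 1 / (p : ℝ) * (p : ℕ) = 1 := by field_simp
        have a2 : 1 / q * (p : ℕ) = ((p - 1 : ℕ) : ℝ) := by
          rw [hq, Nat.cast_sub (by omega)]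
          push_cast
          field_simp
        rw [a1, a2, Real.rpow_one, Real.rpow_natCast]
  have f1 : ∀ F : Ω → ℝ, (∑ ω, if S ω then F ω else 0) = ∑ ω ∈ univ.filter S, F ω := fun F => by
    rw [sum_filter]
  unfold avg
  rw [f1, f1, f1, ← hX, ← hZ, ← hN, div_pow, div_pow]
  have hc : (0 : ℝ) ≤ Fintype.card Ω := Nat.cast_nonneg _
  have hpe : p = (p - 1) + 1 := by omega
  rw [div_mul_div_comm]
  have e4 : (Fintype.card Ω : ℝ) * (Fintype.card Ω : ℝ) ^ (p - 1) = (Fintype.card Ω : ℝ) ^ p := by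
    conv_rhs => rw [hpe, pow_succ]
    ring
  rw [e4]
  exact div_le_div_of_nonneg_right h2 (by positivity)

theorem one_le_cnt {I : Type} [Fintype I] [DecidableEq I] (j : I) (B : Equiv.Perm (I → Bool))
    (U : Finset (I → Bool)) : 1 ≤ cnt j B U := by
  unfold cnt
  rw [Nat.one_le_iff_ne_zero, ← Nat.pos_iff_ne_zero, card_pos]
  exact ⟨∅, by simp⟩

theorem one_le_Wt {I : Type} [Fintype I] [DecidableEq I] (s t : I → (I → Bool) → Bool)
    (l : List I) : ∀ U : Finset (I → Bool), 1 ≤ Wt s t l U := by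
  induction l with
  | nil => intro U; simp [Wt]
  | cons j l ih =>
      intro U
      simp only [Wt]
      have h1 : (1 : ℝ) ≤ cnt j (net s t l) U := by exact_mod_cast one_le_cnt j (net s t l) U
      have h2 := ih (U.image (sw j (s j)))
      nlinarith

end RET

open RET

theorem ret (hLOOP : S_LOOP) (hPATH : S_PATH) (hKER : S_KER) : S_RETURN := by
  refine ⟨65, ?_⟩
  intro d ι _ _ p C hp hC hC1
  classical
  set l : List (Fin d) := List.finRange d with hl
  have hnd : l.Nodup := List.nodup_finRange d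
  have hlen : l.length = d := List.length_finRange
  set Y := ι ↪ (Fin d → Bool) with hY
  set θ : ℝ := 1 / ((p : ℝ) - 1) with hθ
  have hp65 : (65 : ℝ) ≤ p := by exact_mod_cast hp
  have hθ64 : θ ≤ 1 / 64 := by
    rw [hθ]
    apply one_div_le_one_div_of_le (by norm_num)
    linarith
  have hWpos : ∀ (T : (Fin d → (Fin d → Bool) → Bool) × (Fin d → (Fin d → Bool) → Bool))
      (U : Finset (Fin d → Bool)), 1 ≤ Wt T.1 T.2 l U := fun T U => one_le_Wt T.1 T.2 l U
  let B : Matrix Y Y ℝ := fun x y =>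
    avg (fun T : (Fin d → (Fin d → Bool) → Bool) × (Fin d → (Fin d → Bool) → Bool) =>
      if net T.1 T.2 l • x = y then Wt T.1 T.2 l (univ.map x) ^ θ else 0)
  have hker := hKER (Fin d) Y l hnd
  have hcardU : ∀ x : Y, (univ.map x).card = Fintype.card ι := fun x => by
    rw [card_map, card_univ]
  have hA0 : ∀ x y, 0 ≤ Qm Y l x y := fun x y => by
    rw [hker]
    exact avg_nonneg fun T => by split_ifs <;> norm_num
  have hB0 : ∀ x y, 0 ≤ B x y := fun x y => avg_nonneg fun T => by
    split_ifs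
    · exact Real.rpow_nonneg (by linarith [hWpos T (univ.map x)]) _
    · exact le_rfl
  have hentry : ∀ x y, Qm Y l x y ^ p ≤ (1 / 2) ^ (d * Fintype.card ι) * B x y ^ (p - 1) := by
    intro x y
    rw [hker]
    have h1 := holder_avg
      (fun T : (Fin d → (Fin d → Bool) → Bool) × (Fin d → (Fin d → Bool) → Bool) =>
        net T.1 T.2 l • x = y) (fun T => Wt T.1 T.2 l (univ.map x))
      (fun T => by linarith [hWpos T (univ.map x)]) p (by omega)
    refine h1.trans ?_
    apply mul_le_mul_of_nonneg_right _ (pow_nonneg (hB0 x y) _)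
    have h2 := hLOOP (Fin d) l hnd (univ.map x) (Function.extend x y id)
    rw [hlen, hcardU] at h2
    refine le_trans (le_of_eq ?_) h2
    apply avg_congr
    intro T
    have hiff : net T.1 T.2 l • x = y ↔
        ∀ z ∈ univ.map x, net T.1 T.2 l z = Function.extend x y id z := by
      constructor
      · intro h z hz
        rw [mem_map] at hz
        obtain ⟨i, _, rfl⟩ := hz
        rw [x.injective.extend_apply, ← h]
        rfl
      · intro h
        ext1 i
        have := h (x i) (mem_map_of_mem x (mem_univ i))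
        rw [x.injective.extend_apply] at this
        exact this
    simp only [hiff]
  have hsum : ∀ x, ∑ y, B x y ≤ C := by
    intro x
    have h1 : ∑ y, B x y = avg (fun T : (Fin d → (Fin d → Bool) → Bool) ×
        (Fin d → (Fin d → Bool) → Bool) => Wt T.1 T.2 l (univ.map x) ^ θ) := by
      simp only [B]
      unfold avg
      rw [← sum_div, sum_comm]
      congr 1
      apply sum_congr rfl
      intro T _
      rw [sum_ite_eq]
      simp
    rw [h1]
    refine le_trans (avg_mono fun T => ?_) (hC (univ.map x) (hcardU x))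
    exact Real.rpow_le_rpow_of_exponent_le (hWpos T _) hθ64
  have hmain := hPATH Y (Qm Y l) B p ((1 / 2) ^ (d * Fintype.card ι)) C (by omega) (by positivity)
    (by linarith) hA0 hB0 hentry hsum
  refine hmain.trans ?_
  have hcard : (Fintype.card Y : ℝ) ≤ (2 : ℝ) ^ (d * Fintype.card ι) := by
    have h1 : Fintype.card Y ≤ (2 ^ d) ^ Fintype.card ι := by
      have h0 : Fintype.card Y
          = (Fintype.card (Fin d → Bool)).descFactorial (Fintype.card ι) := by
        convert Fintype.card_embedding_eq (α := ι) (β := Fin d → Bool)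
      rw [h0]
      refine (Nat.descFactorial_le_pow _ _).trans (le_of_eq ?_)
      simp
    rw [← pow_mul] at h1
    exact_mod_cast h1
  have h3 : (1 / 2 : ℝ) ^ (d * Fintype.card ι) * (Fintype.card Y : ℝ) ≤ 1 := by
    calc (1 / 2 : ℝ) ^ (d * Fintype.card ι) * (Fintype.card Y : ℝ)
        ≤ (1 / 2 : ℝ) ^ (d * Fintype.card ι) * (2 : ℝ) ^ (d * Fintype.card ι) :=
          mul_le_mul_of_nonneg_left hcard (by positivity)
      _ = 1 := by rw [← mul_pow]; norm_num
  have h4 : 0 ≤ C ^ (p - 1) := by positivity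
  nlinarith

end Vale.Agent.P162c
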