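import Vale.Agent.P162c.Defs

/-!
P162c, module SUB: subadditivity of the trace of a PSD operator over invariant subspaces.
-/

namespace Vale.Agent.P162c

open Finset Vale.Agent.P162

namespace SUB

section
variable {H : Type} [NormedAddCommGroup H] [InnerProductSpace ℝ H] [FiniteDimensional ℝ H]
  {M : H →ₗ[ℝ] H}

/-- trace over an invariant subspace -/
theorem trace_proj (V : Submodule ℝ H) (hV : ∀ v ∈ V, M v ∈ V) :
    LinearMap.trace ℝ H (M ∘ₗ (V.starProjection : H →L[ℝ] H)) =
      LinearMap.trace ℝ V (M.restrict hV) := by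
  have h1 : (M ∘ₗ ((V.starProjection : H →L[ℝ] H) : H →ₗ[ℝ] H)) =
      (M ∘ₗ V.subtype) ∘ₗ ((V.orthogonalProjectionOnto : H →L[ℝ] V) : H →ₗ[ℝ] V) := by
    ext v
    simp only [LinearMap.comp_apply, ContinuousLinearMap.coe_coe, Submodule.subtype_apply,
      Submodule.starProjection_apply]
  rw [h1, LinearMap.trace_comp_comm']
  congr 1
  ext v
  have h2 : M v ∈ V := hV v v.2
  simp only [LinearMap.comp_apply, Submodule.subtype_apply, ContinuousLinearMap.coe_coe]
  have h3 := Submodule.orthogonalProjectionOnto_mem_subspace_eq_self (K := V) ⟨M v, h2⟩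
  rw [show M (v : H) = ((⟨M v, h2⟩ : V) : H) from rfl, h3]
  rfl

/-- the trace over a subspace is nonnegative -/
theorem trace_proj_nonneg {E : Type} [NormedAddCommGroup E] [InnerProductSpace ℝ E]
    [FiniteDimensional ℝ E] {M : E →ₗ[ℝ] E} (hM : ∀ v, 0 ≤ inner ℝ (M v) v) (K : Submodule ℝ E) :
    0 ≤ LinearMap.trace ℝ E (M ∘ₗ (K.starProjection : E →L[ℝ] E)) := by
  have h1 : (M ∘ₗ ((K.starProjection : E →L[ℝ] E) : E →ₗ[ℝ] E)) =
      (M ∘ₗ K.subtype) ∘ₗ ((K.orthogonalProjectionOnto : E →L[ℝ] K) : E →ₗ[ℝ] K) := by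
    ext v
    simp only [LinearMap.comp_apply, ContinuousLinearMap.coe_coe, Submodule.subtype_apply,
      Submodule.starProjection_apply]
  rw [h1, LinearMap.trace_comp_comm', LinearMap.trace_eq_sum_inner _ (stdOrthonormalBasis ℝ K)]
  refine Finset.sum_nonneg fun i _ => ?_
  set b := stdOrthonormalBasis ℝ K i
  have h2 : inner ℝ b ((K.orthogonalProjectionOnto : E →L[ℝ] K) (M (b : E)))
      = inner ℝ (b : E) (M (b : E)) := by
    rw [Submodule.coe_inner]
    have h3 : inner ℝ (M (b : E) - K.starProjection (M (b : E))) (b : E) = 0 :=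
      K.starProjection_inner_eq_zero _ _ b.2
    rw [inner_sub_left, sub_eq_zero] at h3
    rw [real_inner_comm, real_inner_comm (M (b : E)) (b : E), h3]
    rfl
  change 0 ≤ inner ℝ b ((K.orthogonalProjectionOnto : E →L[ℝ] K) (M (b : E)))
  rw [h2, real_inner_comm]
  exact hM _

/-- traces and surjective intertwiners -/
theorem trace_le_of_surj {E F : Type} [NormedAddCommGroup E] [InnerProductSpace ℝ E]
    [FiniteDimensional ℝ E] [NormedAddCommGroup F] [InnerProductSpace ℝ F]
    [FiniteDimensional ℝ F] {ME : E →ₗ[ℝ] E} {MF : F →ₗ[ℝ] F}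
    (hM : ∀ v, 0 ≤ inner ℝ (ME v) v) (Φ : E →ₗ[ℝ] F) (hΦ : Function.Surjective Φ)
    (hint : ∀ v, Φ (ME v) = MF (Φ v)) :
    LinearMap.trace ℝ F MF ≤ LinearMap.trace ℝ E ME := by
  obtain ⟨R, hR⟩ := Φ.exists_rightInverse_of_surjective (LinearMap.range_eq_top.mpr hΦ)
  set K : Submodule ℝ E := LinearMap.ker Φ with hK
  have hR' : ∀ w, Φ (R w) = w := fun w => by
    have := congrArg (fun f => f w) hR
    simpa using this
  set Q : E →ₗ[ℝ] E := LinearMap.id - ((K.starProjection : E →L[ℝ] E) : E →ₗ[ℝ] E) with hQ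
  have hQap : ∀ v, Q v = v - K.starProjection v := fun v => rfl
  have hΦQ : ∀ v, Φ (Q v) = Φ v := by
    intro v
    rw [hQap, map_sub]
    have : Φ (K.starProjection v) = 0 := K.starProjection_apply_mem v
    rw [this, sub_zero]
  have hQker : ∀ v ∈ K, Q v = 0 := by
    intro v hv
    rw [hQap, Submodule.starProjection_eq_self_iff.mpr hv, sub_self]
  have hQR : (Q ∘ₗ R) ∘ₗ Φ = Q := by
    ext v
    simp only [LinearMap.comp_apply]
    have h1 : R (Φ v) - v ∈ K := by
      rw [hK, LinearMap.mem_ker, map_sub, hR', sub_self]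
    have h2 := hQker _ h1
    rw [map_sub, sub_eq_zero] at h2
    exact h2
  have e1 : MF = (Φ ∘ₗ ME) ∘ₗ (Q ∘ₗ R) := by
    ext w
    simp only [LinearMap.comp_apply]
    rw [hint, hΦQ, hR']
  have e2 : LinearMap.trace ℝ F MF = LinearMap.trace ℝ E (ME ∘ₗ Q) := by
    have : LinearMap.trace ℝ F ((Φ ∘ₗ ME) ∘ₗ (Q ∘ₗ R))
        = LinearMap.trace ℝ E (ME ∘ₗ ((Q ∘ₗ R) ∘ₗ Φ)) := by
      rw [LinearMap.comp_assoc, LinearMap.trace_comp_comm', LinearMap.comp_assoc]
    rw [← hQR, ← this, ← e1]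
  have e3 : LinearMap.trace ℝ E (ME ∘ₗ Q) = LinearMap.trace ℝ E ME
      - LinearMap.trace ℝ E (ME ∘ₗ ((K.starProjection : E →L[ℝ] E) : E →ₗ[ℝ] E)) := by
    rw [hQ, LinearMap.comp_sub, map_sub, LinearMap.comp_id]
  rw [e2, e3]
  have := trace_proj_nonneg hM K
  linarith

/-- projections onto invariant subspaces commute with a symmetric operator -/
theorem comm_proj (hs : ∀ v w, inner ℝ (M v) w = inner ℝ v (M w)) (V : Submodule ℝ H)
    (hV : ∀ v ∈ V, M v ∈ V) (v : H) : V.starProjection (M v) = M (V.starProjection v) := by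
  refine (V.eq_starProjection_of_mem_of_inner_eq_zero (hV _ (V.starProjection_apply_mem v))
    fun w hw => ?_)
  rw [← map_sub, hs]
  exact V.starProjection_inner_eq_zero v _ (hV w hw)

theorem two (hs : ∀ v w, inner ℝ (M v) w = inner ℝ v (M w)) (hM : ∀ v, 0 ≤ inner ℝ (M v) v)
    (A B : Submodule ℝ H) (hA : ∀ v ∈ A, M v ∈ A) (hB : ∀ v ∈ B, M v ∈ B) :
    LinearMap.trace ℝ H (M ∘ₗ ((A ⊔ B).starProjection : H →L[ℝ] H)) ≤
      LinearMap.trace ℝ H (M ∘ₗ (A.starProjection : H →L[ℝ] H)) +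
      LinearMap.trace ℝ H (M ∘ₗ (B.starProjection : H →L[ℝ] H)) := by
  set P : H →ₗ[ℝ] H := LinearMap.id - ((A.starProjection : H →L[ℝ] H) : H →ₗ[ℝ] H) with hP
  have hPap : ∀ v, P v = v - A.starProjection v := fun v => rfl
  have hPM : ∀ v, P (M v) = M (P v) := by
    intro v
    rw [hPap, hPap, comm_proj hs A hA, map_sub]
  set A' : Submodule ℝ H := B.map P with hA'
  have hA'inv : ∀ v ∈ A', M v ∈ A' := by
    rintro v ⟨b, hb, rfl⟩
    exact ⟨M b, hB b hb, hPM b⟩
  have horth : ∀ v ∈ A', ∀ a ∈ A, inner ℝ v a = 0 := by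
    rintro v ⟨b, hb, rfl⟩ a ha
    rw [hPap]
    exact A.starProjection_inner_eq_zero b a ha
  have hsum : A ⊔ B = A ⊔ A' := by
    apply le_antisymm
    · refine sup_le le_sup_left fun b hb => ?_
      have : b = A.starProjection b + P b := by rw [hPap]; abel
      rw [this]
      exact Submodule.add_mem_sup (A.starProjection_apply_mem b) ⟨b, hb, rfl⟩
    · refine sup_le le_sup_left ?_
      rintro v ⟨b, hb, rfl⟩
      rw [hPap]
      exact sub_mem (Submodule.mem_sup_right hb)
        (Submodule.mem_sup_left (A.starProjection_apply_mem b))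
  have hproj : ∀ v, (A ⊔ A').starProjection v = A.starProjection v + A'.starProjection v := by
    intro v
    refine ((A ⊔ A').eq_starProjection_of_mem_of_inner_eq_zero
      (Submodule.add_mem_sup (A.starProjection_apply_mem v) (A'.starProjection_apply_mem v))
      fun w hw => ?_)
    obtain ⟨a, ha, a', ha', rfl⟩ := Submodule.mem_sup.mp hw
    have o1 : inner ℝ (v - A.starProjection v) a = 0 := A.starProjection_inner_eq_zero v a ha
    have o2 : inner ℝ (v - A'.starProjection v) a' = 0 := A'.starProjection_inner_eq_zero v a' ha'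
    have o3 : inner ℝ (A'.starProjection v) a = 0 := horth _ (A'.starProjection_apply_mem v) a ha
    have o4 : inner ℝ (A.starProjection v) a' = 0 := by
      rw [real_inner_comm]
      exact horth _ ha' _ (A.starProjection_apply_mem v)
    rw [inner_add_right]
    have e1 : inner ℝ (v - (A.starProjection v + A'.starProjection v)) a
        = inner ℝ (v - A.starProjection v) a - inner ℝ (A'.starProjection v) a := by
      rw [← inner_sub_left]; congr 1; abel
    have e2 : inner ℝ (v - (A.starProjection v + A'.starProjection v)) a'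
        = inner ℝ (v - A'.starProjection v) a' - inner ℝ (A.starProjection v) a' := by
      rw [← inner_sub_left]; congr 1; abel
    rw [e1, e2, o1, o2, o3, o4]
    ring
  have hcomp : (M ∘ₗ (((A ⊔ B).starProjection : H →L[ℝ] H) : H →ₗ[ℝ] H))
      = (M ∘ₗ ((A.starProjection : H →L[ℝ] H) : H →ₗ[ℝ] H))
        + (M ∘ₗ ((A'.starProjection : H →L[ℝ] H) : H →ₗ[ℝ] H)) := by
    ext v
    simp only [LinearMap.comp_apply, LinearMap.add_apply, ContinuousLinearMap.coe_coe]
    rw [← map_add, ← hproj]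
    simp only [hsum]
  rw [hcomp, map_add]
  have hle : LinearMap.trace ℝ H (M ∘ₗ (A'.starProjection : H →L[ℝ] H)) ≤
      LinearMap.trace ℝ H (M ∘ₗ (B.starProjection : H →L[ℝ] H)) := by
    rw [trace_proj A' hA'inv, trace_proj B hB]
    let Φ : B →ₗ[ℝ] A' := (P ∘ₗ B.subtype).codRestrict A' (fun b => ⟨b, b.2, rfl⟩)
    refine trace_le_of_surj (fun v => hM v) Φ ?_ ?_
    · rintro ⟨w, b, hb, rfl⟩
      exact ⟨⟨b, hb⟩, rfl⟩
    · intro v
      apply Subtype.ext
      exact hPM v
  linarith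

end

end SUB

theorem sub : S_SUB := by
  intro H _ _ _ M hs hM κ _ V hV
  classical
  let T : Submodule ℝ H → ℝ := fun W => LinearMap.trace ℝ H (M ∘ₗ (W.starProjection : H →L[ℝ] H))
  have key : ∀ s : Finset κ, (∀ v ∈ (⨆ i ∈ s, V i), M v ∈ (⨆ i ∈ s, V i)) ∧
      T (⨆ i ∈ s, V i) ≤ ∑ i ∈ s, T (V i) := by
    intro s
    induction s using Finset.induction_on with
    | empty =>
      have e0 : (⨆ i ∈ (∅ : Finset κ), V i) = ⊥ := by simp
      rw [e0]
      refine ⟨?_, ?_⟩
      · intro v hv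
        rw [Submodule.mem_bot] at hv ⊢
        rw [hv, map_zero]
      · simp [T]
    | insert a s ha ih =>
      have e : (⨆ i ∈ insert a s, V i) = V a ⊔ ⨆ i ∈ s, V i := by
        rw [Finset.iSup_insert]
      rw [e, Finset.sum_insert ha]
      refine ⟨?_, ?_⟩
      · intro v hv
        obtain ⟨x, hx, y, hy, rfl⟩ := Submodule.mem_sup.mp hv
        rw [map_add]
        exact Submodule.add_mem_sup (hV a x hx) (ih.1 y hy)
      · have h2 : T (V a ⊔ ⨆ i ∈ s, V i) ≤ T (V a) + T (⨆ i ∈ s, V i) :=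
          SUB.two hs hM (V a) _ (hV a) ih.1
        linarith [ih.2]
  have h3 : T (⨆ i ∈ (Finset.univ : Finset κ), V i) ≤ ∑ i, T (V i) := (key Finset.univ).2
  have e : (⨆ i ∈ (Finset.univ : Finset κ), V i) = ⨆ i, V i := by simp
  rw [e] at h3
  exact h3

end Vale.Agent.P162c
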