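import Mathlib
import Vale.Agent.P162c.Defs

/-!
# The transposition Laplacian on functions of high level (P162, helper10)
-/

namespace Vale.Agent.P162c.TrLap

open Equiv Finset

section Abstract

variable {α : Type*} [DecidableEq α]
variable {V : Type*} [NormedAddCommGroup V] [InnerProductSpace ℝ V] [FiniteDimensional ℝ V]

/-- Twice the sum of all transpositions supported in `S`. -/
noncomputable def Z2 (ρ : Perm α →* (V →ₗ[ℝ] V)) (S : Finset α) : V →ₗ[ℝ] V :=
  ∑ p ∈ S.offDiag, ρ (swap p.1 p.2)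

/-- `v` is symmetric in `B`. -/
def Sym (ρ : Perm α →* (V →ₗ[ℝ] V)) (B : Finset α) (v : V) : Prop :=
  ∀ a ∈ B, ∀ b ∈ B, ρ (swap a b) v = v

theorem rayleigh_bound (E : Submodule ℝ V) (T : E →ₗ[ℝ] E) (hT : T.IsSymmetric) (c : ℝ)
    (h : ∀ (z : ℝ) (v : E), v ≠ 0 → T v = z • v → z ≤ c) (v : E) :
    inner ℝ (T v) v ≤ c * ‖v‖ ^ 2 := by
  classical
  set b := hT.eigenvectorBasis rfl with hb
  have h1 : ∀ i, hT.eigenvalues rfl i ≤ c := by
    intro i
    apply h _ (b i)
    · exact b.toBasis.ne_zero i |> fun h => by simpa using h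
    · exact hT.apply_eigenvectorBasis rfl i
  have h2 : inner ℝ (T v) v = ∑ i, hT.eigenvalues rfl i * (inner ℝ (b i) v) ^ 2 := by
    rw [← b.sum_inner_mul_inner (T v) v]
    apply Finset.sum_congr rfl
    intro i _
    rw [hT v (b i)]
    have := hT.apply_eigenvectorBasis rfl i
    rw [← hb] at this
    rw [this, inner_smul_right, real_inner_comm]
    simp
    ring
  have h3 : ‖v‖ ^ 2 = ∑ i, (inner ℝ (b i) v) ^ 2 := by
    rw [← real_inner_self_eq_norm_sq, ← b.sum_inner_mul_inner v v]
    apply Finset.sum_congr rfl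
    intro i _
    rw [real_inner_comm]
    ring
  rw [h2, h3, Finset.mul_sum]
  apply Finset.sum_le_sum
  intro i _
  exact mul_le_mul_of_nonneg_right (h1 i) (sq_nonneg _)

variable (ρ : Perm α →* (V →ₗ[ℝ] V))

theorem comm_Z2 (S : Finset α) (a b : α) (ha : a ∈ S) (hb : b ∈ S) (v : V) :
    ρ (swap a b) (Z2 ρ S v) = Z2 ρ S (ρ (swap a b) v) := by
  unfold Z2
  simp only [LinearMap.sum_apply, map_sum]
  have hmem : ∀ x ∈ S, swap a b x ∈ S := by
    intro x hx
    by_cases h1 : x = a
    · subst h1; simpa using hb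
    · by_cases h2 : x = b
      · subst h2; simpa using ha
      · rw [swap_apply_of_ne_of_ne h1 h2]; exact hx
  refine Finset.sum_bij' (fun p _ => (swap a b p.1, swap a b p.2))
    (fun p _ => (swap a b p.1, swap a b p.2)) ?_ ?_ ?_ ?_ ?_
  · intro p hp
    rw [Finset.mem_offDiag] at hp ⊢
    exact ⟨hmem _ hp.1, hmem _ hp.2.1, fun h => hp.2.2 ((swap a b).injective h)⟩
  · intro p hp
    rw [Finset.mem_offDiag] at hp ⊢
    exact ⟨hmem _ hp.1, hmem _ hp.2.1, fun h => hp.2.2 ((swap a b).injective h)⟩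
  · intro p _
    simp
  · intro p _
    simp
  · intro p _
    have : swap a b * swap p.1 p.2 = swap (swap a b p.1) (swap a b p.2) * swap a b :=
      Equiv.mul_swap_eq_swap_mul _ _ _
    have h2 := congrArg (fun g => ρ g v) this
    simpa [map_mul] using h2

theorem sym_extend (A : Finset α) (b : α) (hb : b ∉ A) (w : V) (hw : Sym ρ A w) :
    Sym ρ (insert b A) (w + ∑ a ∈ A, ρ (swap a b) w) := by
  have key1 : ∀ a0 ∈ A, ρ (swap a0 b) (w + ∑ a ∈ A, ρ (swap a b) w)
      = w + ∑ a ∈ A, ρ (swap a b) w := by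
    intro a0 ha0
    rw [map_add, map_sum, ← Finset.add_sum_erase A _ ha0, ← Finset.add_sum_erase A _ ha0]
    have e1 : ρ (swap a0 b) (ρ (swap a0 b) w) = w := by
      have : ρ (swap a0 b * swap a0 b) w = w := by
        rw [swap_mul_self, map_one]; rfl
      rw [map_mul] at this
      exact this
    have e2 : ∑ a ∈ A.erase a0, ρ (swap a0 b) (ρ (swap a b) w)
        = ∑ a ∈ A.erase a0, ρ (swap a b) w := by
      apply Finset.sum_congr rfl
      intro a ha
      rw [Finset.mem_erase] at ha
      have hab : a ≠ b := fun h => hb (h ▸ ha.2)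
      have ha0b : a0 ≠ b := fun h => hb (h ▸ ha0)
      have h3 : swap a b * swap a a0 = swap (swap a b a) (swap a b a0) * swap a b :=
        Equiv.mul_swap_eq_swap_mul _ _ _
      rw [swap_apply_left, swap_apply_of_ne_of_ne ha.1.symm ha0b, swap_comm b a0] at h3
      have h4 := congrArg (fun g => ρ g w) h3
      simp only [map_mul] at h4
      have h5 : ρ (swap a a0) w = w := hw a ha.2 a0 ha0
      have h6 : ρ (swap a b) (ρ (swap a a0) w) = ρ (swap a0 b) (ρ (swap a b) w) := h4
      rw [h5] at h6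
      exact h6.symm
    rw [e1, e2]
    abel
  intro x hx y hy
  rw [Finset.mem_insert] at hx hy
  rcases hx with hx | hx
  · rcases hy with hy | hy
    · subst hx; subst hy
      rw [swap_self]
      change ρ 1 _ = _
      rw [map_one]; rfl
    · subst hx
      rw [swap_comm]
      exact key1 y hy
  · rcases hy with hy | hy
    · subst hy
      exact key1 x hx
    · rw [map_add, map_sum, hw x hx y hy]
      congr 1
      have hmem : ∀ z ∈ A, swap x y z ∈ A := by
        intro z hz
        by_cases h1 : z = x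
        · subst h1; simpa using hy
        · by_cases h2 : z = y
          · subst h2; simpa using hx
          · rw [swap_apply_of_ne_of_ne h1 h2]; exact hz
      refine Finset.sum_bij' (fun p _ => swap x y p) (fun p _ => swap x y p) ?_ ?_ ?_ ?_ ?_
      · intro p hp; exact hmem p hp
      · intro p hp; exact hmem p hp
      · intro p _; simp
      · intro p _; simp
      · intro p hp
        have h3 : swap x y * swap p b = swap (swap x y p) (swap x y b) * swap x y :=
          Equiv.mul_swap_eq_swap_mul _ _ _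
        have hxb : b ≠ x := fun h => hb (h ▸ hx)
        have hyb : b ≠ y := fun h => hb (h ▸ hy)
        rw [swap_apply_of_ne_of_ne hxb hyb] at h3
        have h4 := congrArg (fun g => ρ g w) h3
        simp only [map_mul] at h4
        have h6 : ρ (swap x y) (ρ (swap p b) w)
          = ρ (swap (swap x y p) b) (ρ (swap x y) w) := h4
        rw [hw x hx y hy] at h6
        exact h6

theorem main_bound (hρ : ∀ (σ : Perm α) (v w : V), inner ℝ (ρ σ v) (ρ σ w) = inner ℝ v w) :
    ∀ (N : ℕ) (S : Finset α), S.card = N → ∀ (E : Submodule ℝ V) (k : ℕ), 1 ≤ k →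
      (∀ a ∈ S, ∀ b ∈ S, ∀ v ∈ E, ρ (swap a b) v ∈ E) →
      (∀ B ⊆ S, B.card = k → ∀ v ∈ E, Sym ρ B v → v = 0) →
      ∀ v ∈ E, inner ℝ (Z2 ρ S v) v ≤ (S.card : ℝ) * ((k : ℝ) - 2) * ‖v‖ ^ 2 := by
  intro N
  induction N using Nat.strong_induction_on with
  | _ N IH =>
  intro S hS E k hk hstab hsym
  have hsymm : ∀ (a b : α) (v w : V), inner ℝ (ρ (swap a b) v) w = inner ℝ v (ρ (swap a b) w) := by
    intro a b v w
    have h1 := hρ (swap a b) v (ρ (swap a b) w)
    have h2 : ρ (swap a b) (ρ (swap a b) w) = w := by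
      have : ρ (swap a b * swap a b) w = w := by
        rw [swap_mul_self, map_one]; rfl
      rw [map_mul] at this
      exact this
    rw [h2] at h1
    exact h1
  have hZstab : ∀ v ∈ E, Z2 ρ S v ∈ E := by
    intro v hv
    unfold Z2
    rw [LinearMap.sum_apply]
    apply Submodule.sum_mem
    intro p hp
    rw [Finset.mem_offDiag] at hp
    exact hstab _ hp.1 _ hp.2.1 v hv
  have hZsymm : ∀ v w, inner ℝ (Z2 ρ S v) w = inner ℝ v (Z2 ρ S w) := by
    intro v w
    unfold Z2
    rw [LinearMap.sum_apply, LinearMap.sum_apply, sum_inner, inner_sum]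
    apply Finset.sum_congr rfl
    intro p _
    exact hsymm _ _ _ _
  -- restrict
  let T : E →ₗ[ℝ] E := (Z2 ρ S).restrict hZstab
  have hTapp : ∀ v : E, ((T v : E) : V) = Z2 ρ S v := fun v => rfl
  have hTsymm : T.IsSymmetric := by
    intro x y
    change inner ℝ (Z2 ρ S (x : V)) (y : V) = inner ℝ (x : V) (Z2 ρ S (y : V))
    exact hZsymm _ _
  have hbound : ∀ v : E, inner ℝ (T v) v ≤ ((S.card : ℝ) * ((k : ℝ) - 2)) * ‖v‖ ^ 2 := by
    intro v
    refine rayleigh_bound E T hTsymm _ ?_ v
    intro z v0 hv0 hz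
    -- eigenspace
    have hz' : Z2 ρ S (v0 : V) = z • (v0 : V) := by
      rw [← hTapp, hz]; rfl
    have hv0' : (v0 : V) ≠ 0 := by simpa using hv0
    by_cases hSe : S = ∅
    · subst hSe
      have h0 : Z2 ρ (∅ : Finset α) (v0 : V) = 0 := by
        unfold Z2; simp
      rw [h0] at hz'
      have : z = 0 := by
        rcases smul_eq_zero.mp hz'.symm with h | h
        · exact h
        · exact absurd h hv0'
      rw [this]; simp
    let E' : Submodule ℝ V :=
      { carrier := {v | v ∈ E ∧ Z2 ρ S v = z • v}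
        add_mem' := by
          rintro a b ⟨ha1, ha2⟩ ⟨hb1, hb2⟩
          exact ⟨E.add_mem ha1 hb1, by rw [map_add, ha2, hb2, smul_add]⟩
        zero_mem' := ⟨E.zero_mem, by simp⟩
        smul_mem' := by
          rintro c a ⟨ha1, ha2⟩
          exact ⟨E.smul_mem c ha1, by rw [map_smul, ha2, smul_comm]⟩ }
    have hE'mem : ∀ v, v ∈ E' ↔ (v ∈ E ∧ Z2 ρ S v = z • v) := fun v => Iff.rfl
    have hE'stab : ∀ a ∈ S, ∀ b ∈ S, ∀ v ∈ E', ρ (swap a b) v ∈ E' := by
      intro a ha b hb v hv
      rw [hE'mem] at hv ⊢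
      refine ⟨hstab a ha b hb v hv.1, ?_⟩
      rw [← comm_Z2 ρ S a b ha hb, hv.2, map_smul]
    -- the family of good sizes
    let P : ℕ → Prop := fun j => ∃ A ⊆ S, A.card = j ∧ ∃ w ∈ E', w ≠ 0 ∧ Sym ρ A w
    have hP1 : P 1 := by
      obtain ⟨s, hs⟩ := Finset.nonempty_iff_ne_empty.mpr hSe
      refine ⟨{s}, by simpa using hs, by simp, v0, ⟨v0.2, hz'⟩, hv0', ?_⟩
      intro a ha b hb
      rw [Finset.mem_singleton] at ha hb
      subst ha; subst hb
      rw [swap_self]
      change ρ 1 _ = _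
      rw [map_one]; rfl
    have hPk : ∀ j, P j → j ≤ k - 1 := by
      intro j hj
      by_contra hlt
      have hkj : k ≤ j := by omega
      obtain ⟨A, hAS, hAc, w, hw, hw0, hws⟩ := hj
      obtain ⟨B, hBA, hBc⟩ := Finset.exists_subset_card_eq (s := A) (n := k) (by omega)
      exact hw0 (hsym B (hBA.trans hAS) hBc w hw.1
        (fun a ha b hb => hws a (hBA ha) b (hBA hb)))
    obtain ⟨j, hj, hjmax⟩ : ∃ j, P j ∧ ∀ i, P i → i ≤ j := by
      classical
      have hb : ∀ i, P i → i ≤ k - 1 := hPk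
      refine ⟨Nat.findGreatest P (k - 1), Nat.findGreatest_spec (hb 1 hP1) hP1, ?_⟩
      intro i hi
      exact Nat.le_findGreatest (hb i hi) hi
    obtain ⟨A, hAS, hAc, w, hw, hw0, hws⟩ := hj
    have hj1 : 1 ≤ j := hjmax 1 hP1
    have hjk : j ≤ k - 1 := hPk j ⟨A, hAS, hAc, w, hw, hw0, hws⟩
    -- relation for b outside A
    have hrel : ∀ b ∈ S \ A, ∑ a ∈ A, ρ (swap a b) w = - w := by
      intro b hb
      rw [Finset.mem_sdiff] at hb
      have hu := sym_extend ρ A b hb.2 w hws
      have huE : (w + ∑ a ∈ A, ρ (swap a b) w) ∈ E' := by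
        apply E'.add_mem hw
        apply Submodule.sum_mem
        intro a ha
        exact hE'stab a (hAS ha) b hb.1 w hw
      by_contra hne
      have hne' : (w + ∑ a ∈ A, ρ (swap a b) w) ≠ 0 := by
        intro h
        apply hne
        exact eq_neg_of_add_eq_zero_right h
      have : P (j + 1) := by
        refine ⟨insert b A, ?_, ?_, _, huE, hne', hu⟩
        · intro x hx
          rw [Finset.mem_insert] at hx
          rcases hx with hx | hx
          · subst hx; exact hb.1
          · exact hAS hx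
        · rw [Finset.card_insert_of_notMem hb.2, hAc]
      have := hjmax _ this
      omega
    -- induction hypothesis on S \ A
    have hcard : (S \ A).card = S.card - j := by
      rw [Finset.card_sdiff_of_subset hAS, hAc]
    have hjS : j ≤ S.card := by rw [← hAc]; exact Finset.card_le_card hAS
    have hIH := IH (S \ A).card (by rw [hcard]; omega) (S \ A) rfl E' (j + 1) (by omega)
      (fun a ha b hb v hv => hE'stab a (Finset.mem_sdiff.mp ha).1 b (Finset.mem_sdiff.mp hb).1 v hv)
      (by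
        intro B hB hBc v hv hvs
        by_contra hne
        have : P (j + 1) := ⟨B, hB.trans Finset.sdiff_subset, hBc, v, hv, hne, hvs⟩
        have := hjmax _ this
        omega) w hw
    -- decomposition
    have hdec : Z2 ρ S w = ((j : ℝ) * ((j : ℝ) - 1)) • w + Z2 ρ (S \ A) w
        + (2 * ((S \ A).card : ℝ)) • (- w) := by
      have hunion : S = A ∪ (S \ A) := by
        rw [Finset.union_sdiff_of_subset hAS]
      have hdisj : Disjoint A (S \ A) := Finset.disjoint_sdiff
      have h1 : S.offDiag = (A.offDiag ∪ (S \ A).offDiag) ∪ (A ×ˢ (S \ A) ∪ (S \ A) ×ˢ A) := by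
        conv_lhs => rw [hunion]
        rw [Finset.offDiag_union hdisj]
        ext p
        simp only [Finset.mem_union]
        tauto
      have hd1 : Disjoint A.offDiag (S \ A).offDiag := by
        rw [Finset.disjoint_left]
        intro p hp hq
        rw [Finset.mem_offDiag] at hp hq
        exact (Finset.mem_sdiff.mp hq.1).2 hp.1
      have hd2 : Disjoint (A ×ˢ (S \ A)) ((S \ A) ×ˢ A) := by
        rw [Finset.disjoint_left]
        intro p hp hq
        rw [Finset.mem_product] at hp hq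
        exact (Finset.mem_sdiff.mp hq.1).2 hp.1
      have hd3 : Disjoint (A.offDiag ∪ (S \ A).offDiag) (A ×ˢ (S \ A) ∪ (S \ A) ×ˢ A) := by
        rw [Finset.disjoint_left]
        intro p hp hq
        rw [Finset.mem_union, Finset.mem_offDiag, Finset.mem_offDiag] at hp
        rw [Finset.mem_union, Finset.mem_product, Finset.mem_product] at hq
        rcases hp with hp | hp <;> rcases hq with hq | hq
        · exact (Finset.mem_sdiff.mp hq.2).2 hp.2.1
        · exact (Finset.mem_sdiff.mp hq.1).2 hp.1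
        · exact (Finset.mem_sdiff.mp hp.1).2 hq.1
        · exact (Finset.mem_sdiff.mp hp.2.1).2 hq.2
      have hZ : Z2 ρ S w = ∑ p ∈ S.offDiag, ρ (swap p.1 p.2) w := by
        unfold Z2; rw [LinearMap.sum_apply]
      have hZA : ∑ p ∈ A.offDiag, ρ (swap p.1 p.2) w = ((j : ℝ) * ((j : ℝ) - 1)) • w := by
        have : ∀ p ∈ A.offDiag, ρ (swap p.1 p.2) w = w := by
          intro p hp
          rw [Finset.mem_offDiag] at hp
          exact hws _ hp.1 _ hp.2.1
        rw [Finset.sum_congr rfl this, Finset.sum_const, Finset.offDiag_card, hAc,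
          ← Nat.cast_smul_eq_nsmul ℝ]
        congr 1
        rw [Nat.cast_sub (by nlinarith)]
        push_cast
        ring
      have hZB : ∑ p ∈ (S \ A).offDiag, ρ (swap p.1 p.2) w = Z2 ρ (S \ A) w := by
        unfold Z2; rw [LinearMap.sum_apply]
      have hX1 : ∑ p ∈ A ×ˢ (S \ A), ρ (swap p.1 p.2) w = ((S \ A).card : ℝ) • (- w) := by
        rw [Finset.sum_product_right]
        rw [Finset.sum_congr rfl (fun b hb => hrel b hb), Finset.sum_const,
          ← Nat.cast_smul_eq_nsmul ℝ]
      have hX2 : ∑ p ∈ (S \ A) ×ˢ A, ρ (swap p.1 p.2) w = ((S \ A).card : ℝ) • (- w) := by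
        rw [Finset.sum_product]
        have : ∀ b ∈ S \ A, ∑ a ∈ A, ρ (swap b a) w = - w := by
          intro b hb
          rw [← hrel b hb]
          apply Finset.sum_congr rfl
          intro a _
          rw [swap_comm]
        rw [Finset.sum_congr rfl this, Finset.sum_const, ← Nat.cast_smul_eq_nsmul ℝ]
      rw [hZ, h1, Finset.sum_union hd3, Finset.sum_union hd1, Finset.sum_union hd2, hZA, hZB,
        hX1, hX2]
      module
    have hwz : Z2 ρ S w = z • w := hw.2
    have hnorm : 0 < ‖w‖ ^ 2 := by positivity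
    have hin : z * ‖w‖ ^ 2 = ((j : ℝ) * ((j : ℝ) - 1)) * ‖w‖ ^ 2 + inner ℝ (Z2 ρ (S \ A) w) w
        - 2 * ((S \ A).card : ℝ) * ‖w‖ ^ 2 := by
      have h1 : inner ℝ (Z2 ρ S w) w = z * ‖w‖ ^ 2 := by
        rw [hwz, inner_smul_left, real_inner_self_eq_norm_sq]; simp
      rw [← h1, hdec, inner_add_left, inner_add_left, inner_smul_left, inner_smul_left,
        inner_neg_left, real_inner_self_eq_norm_sq]
      simp
      ring
    have hcardR : ((S \ A).card : ℝ) = (S.card : ℝ) - j := by
      rw [hcard, Nat.cast_sub hjS]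
    rw [hcardR] at hin hIH
    push_cast at hIH
    have hjR : (1 : ℝ) ≤ j := by exact_mod_cast hj1
    have hjSR : (j : ℝ) ≤ S.card := by exact_mod_cast hjS
    have hjkR : (j : ℝ) ≤ (k : ℝ) - 1 := by
      have : j + 1 ≤ k := by omega
      have : ((j + 1 : ℕ) : ℝ) ≤ k := by exact_mod_cast this
      push_cast at this
      linarith
    have hfin : z * ‖w‖ ^ 2 ≤ ((S.card : ℝ) * ((k : ℝ) - 2)) * ‖w‖ ^ 2 := by
      have h5 : z * ‖w‖ ^ 2 ≤ ((j : ℝ) * ((j : ℝ) - 1) + ((S.card : ℝ) - j) * ((j : ℝ) + 1 - 2)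
          - 2 * ((S.card : ℝ) - j)) * ‖w‖ ^ 2 := by
        rw [hin]
        nlinarith [hIH]
      refine h5.trans ?_
      apply mul_le_mul_of_nonneg_right _ hnorm.le
      have hc0 : (0 : ℝ) ≤ S.card := Nat.cast_nonneg _
      nlinarith [mul_nonneg hc0 (sub_nonneg.mpr hjkR)]
    exact le_of_mul_le_mul_right hfin hnorm
  intro v hv
  have := hbound ⟨v, hv⟩
  have h2 : inner ℝ (T ⟨v, hv⟩) (⟨v, hv⟩ : E) = inner ℝ (Z2 ρ S v) v := rfl
  rw [h2] at this
  simpa using this

end Abstract

end Vale.Agent.P162c.TrLap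

namespace Vale.Agent.P162c

/-- Statement of TRLAP (lower bound for the transposition Laplacian). -/
def S_TRLAP_local : Prop :=
  ∀ (S : Type) [Fintype S] [DecidableEq S] (V : Type) [NormedAddCommGroup V]
    [InnerProductSpace ℝ V] [FiniteDimensional ℝ V]
    (ρ : Equiv.Perm S →* (V →ₗ[ℝ] V)), (∀ g v, ‖ρ g v‖ = ‖v‖) → ∀ s : ℕ,
    (∀ (B : Finset S) (v : V), B.card = s + 1 →
      (∀ a ∈ B, ∀ b ∈ B, ρ (Equiv.swap a b) v = v) → v = 0) →
    ∀ v : V, (Fintype.card S : ℝ) * ((Fintype.card S : ℝ) - s) * ‖v‖ ^ 2 ≤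
      ∑ x : S, ∑ y : S, inner ℝ v (v - ρ (Equiv.swap x y) v)

theorem trLap : S_TRLAP_local := by
  intro S _ _ V _ _ _ ρ hρ s hs v
  have hinner : ∀ (σ : Equiv.Perm S) (v w : V), inner ℝ (ρ σ v) (ρ σ w) = inner ℝ v w := by
    intro σ v w
    rw [real_inner_eq_norm_add_mul_self_sub_norm_mul_self_sub_norm_mul_self_div_two,
      real_inner_eq_norm_add_mul_self_sub_norm_mul_self_sub_norm_mul_self_div_two,
      ← map_add, hρ, hρ, hρ]
  have h := TrLap.main_bound ρ hinner _ Finset.univ rfl ⊤ (s + 1) (by omega)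
    (fun _ _ _ _ _ _ => Submodule.mem_top) (fun B _ hB v _ hv => hs B v hB hv) v
    Submodule.mem_top
  rw [Finset.card_univ] at h
  push_cast at h
  have h1 : ∀ x : S, ∑ y : S, inner ℝ v (v - ρ (Equiv.swap x y) v)
      = ∑ y ∈ Finset.univ.erase x, inner ℝ v (v - ρ (Equiv.swap x y) v) := by
    intro x
    rw [← Finset.add_sum_erase Finset.univ _ (Finset.mem_univ x)]
    have : ρ (Equiv.swap x x) v = v := by
      rw [Equiv.swap_self]
      change ρ 1 _ = _
      rw [map_one]; rfl
    rw [this]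
    simp
  have h2 : ∑ x : S, ∑ y : S, inner ℝ v (v - ρ (Equiv.swap x y) v)
      = ∑ p ∈ (Finset.univ : Finset S).offDiag, inner ℝ v (v - ρ (Equiv.swap p.1 p.2) v) := by
    have hsum : ∑ p ∈ (Finset.univ : Finset S) ×ˢ (Finset.univ : Finset S),
        inner ℝ v (v - ρ (Equiv.swap p.1 p.2) v)
        = ∑ x : S, ∑ y : S, inner ℝ v (v - ρ (Equiv.swap x y) v) := by
      rw [Finset.sum_product]
    rw [← hsum, ← Finset.diag_union_offDiag, Finset.sum_union (Finset.disjoint_diag_offDiag _)]
    have hz : ∑ p ∈ (Finset.univ : Finset S).diag,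
        inner ℝ v (v - ρ (Equiv.swap p.1 p.2) v) = 0 := by
      apply Finset.sum_eq_zero
      intro p hp
      rw [Finset.mem_diag] at hp
      rw [← hp.2]
      have : ρ (Equiv.swap p.1 p.1) v = v := by
        rw [Equiv.swap_self]
        change ρ 1 _ = _
        rw [map_one]; rfl
      rw [this]
      simp
    rw [hz, zero_add]
  rw [h2]
  have h3 : ∑ p ∈ (Finset.univ : Finset S).offDiag, inner ℝ v (v - ρ (Equiv.swap p.1 p.2) v)
      = ((Fintype.card S : ℝ) * ((Fintype.card S : ℝ) - 1)) * ‖v‖ ^ 2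
        - inner ℝ (TrLap.Z2 ρ Finset.univ v) v := by
    simp only [inner_sub_right, Finset.sum_sub_distrib, real_inner_self_eq_norm_sq,
      Finset.sum_const]
    congr 1
    · rw [Finset.offDiag_card, Finset.card_univ, nsmul_eq_mul]
      congr 1
      rw [Nat.cast_sub (Nat.le_mul_self _)]
      push_cast
      ring
    · unfold TrLap.Z2
      rw [LinearMap.sum_apply, sum_inner]
      apply Finset.sum_congr rfl
      intro p _
      rw [real_inner_comm]
  rw [h3]
  nlinarith [h]

end Vale.Agent.P162c
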