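import Mathlib
import Vale.Agent.P162c.Defs2
import Vale.Agent.P162.Basic

/-!
P162c, module TRLEV: the trace of `(T^K)ᵀ T^K` on the level `≤ j`.
-/

namespace Vale.Agent.P162c

open Finset Vale.Agent.P162

namespace TRL

section Inter

variable {I : Type} [Fintype I] [DecidableEq I]
variable {Y Z : Type} [Fintype Y] [DecidableEq Y] [Fintype Z] [DecidableEq Z]
  [MulAction (Equiv.Perm (I → Bool)) Y] [MulAction (Equiv.Perm (I → Bool)) Z]

/-- incidence matrix of a map -/
def Ph (g : Y → Z) : Matrix Y Z ℝ := fun y z => if g y = z then 1 else 0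

lemma avg_sum {A B : Type} [Fintype A] [Fintype B] (F : A → B → ℝ) :
    ∑ b, avg (fun a => F a b) = avg (fun a => ∑ b, F a b) := by
  unfold avg
  rw [← Finset.sum_div, Finset.sum_comm]

lemma Pm_mul_Ph (g : Y → Z) (hg : ∀ (σ : Equiv.Perm (I → Bool)) (y : Y), g (σ • y) = σ • g y)
    (j : I) : Pm Y j * Ph g = Ph g * Pm Z j := by
  ext y z
  rw [Matrix.mul_apply, Matrix.mul_apply]
  have h1 : ∀ y', Pm Y j y y' * Ph g y' z =
      avg (fun s : (I → Bool) → Bool => (if sw j s • y = y' then (1 : ℝ) else 0) * Ph g y' z) := by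
    intro y'
    rw [avg_mul_const]; rfl
  simp_rw [h1]
  rw [avg_sum]
  have h2 : ∀ z', Ph g y z' * Pm Z j z' z = if g y = z' then Pm Z j z' z else 0 := by
    intro z'; unfold Ph; split_ifs <;> simp
  simp_rw [h2]
  rw [Finset.sum_ite_eq]
  simp only [Finset.mem_univ, if_true]
  unfold Pm
  congr 1
  funext s
  simp only [ite_mul, one_mul, zero_mul, Finset.sum_ite_eq, Finset.mem_univ, if_true]
  unfold Ph
  rw [hg]

omit [Fintype I] in
lemma sw_mul_self (j : I) (s : (I → Bool) → Bool) : sw j s * sw j s = 1 := by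
  ext x : 1
  exact swFun_swFun j s x

lemma Pm_symm (j : I) : (Pm Y j).transpose = Pm Y j := by
  ext y y'
  rw [Matrix.transpose_apply]
  unfold Pm
  congr 1
  funext s
  have h : (sw j s • y' = y) ↔ (sw j s • y = y') := by
    constructor
    · rintro rfl; rw [← mul_smul, sw_mul_self, one_smul]
    · rintro rfl; rw [← mul_smul, sw_mul_self, one_smul]
  simp only [h]

lemma Tm_mul_Ph (g : Y → Z) (hg : ∀ (σ : Equiv.Perm (I → Bool)) (y : Y), g (σ • y) = σ • g y)
    (l : List I) : Tm Y l * Ph g = Ph g * Tm Z l := by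
  induction l with
  | nil => simp [Tm]
  | cons j l ih =>
    change Tm Y l * Pm Y j * Ph g = Ph g * (Tm Z l * Pm Z j)
    rw [Matrix.mul_assoc, Pm_mul_Ph g hg, ← Matrix.mul_assoc, ih, Matrix.mul_assoc]

lemma TmT_mul_Ph (g : Y → Z) (hg : ∀ (σ : Equiv.Perm (I → Bool)) (y : Y), g (σ • y) = σ • g y)
    (l : List I) : (Tm Y l).transpose * Ph g = Ph g * (Tm Z l).transpose := by
  induction l with
  | nil => simp [Tm]
  | cons j l ih =>
    change (Tm Y l * Pm Y j).transpose * Ph g = Ph g * (Tm Z l * Pm Z j).transpose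
    rw [Matrix.transpose_mul, Matrix.transpose_mul, Pm_symm, Pm_symm, Matrix.mul_assoc, ih,
      ← Matrix.mul_assoc, Pm_mul_Ph g hg, Matrix.mul_assoc]

lemma pow_mul_Ph {A : Matrix Y Y ℝ} {B : Matrix Z Z ℝ} {P : Matrix Y Z ℝ} (h : A * P = P * B)
    (K : ℕ) : A ^ K * P = P * B ^ K := by
  induction K with
  | zero => simp
  | succ K ih => rw [pow_succ, Matrix.mul_assoc, h, ← Matrix.mul_assoc, ih, Matrix.mul_assoc,
      ← pow_succ]

/-- `(A^K)ᵀ A^K` -/
noncomputable def MM (Y : Type) [Fintype Y] [DecidableEq Y] [MulAction (Equiv.Perm (I → Bool)) Y]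
    (l : List I) (K : ℕ) : Matrix Y Y ℝ :=
  (Tm Y l ^ K).transpose * Tm Y l ^ K

lemma MM_mul_Ph (g : Y → Z) (hg : ∀ (σ : Equiv.Perm (I → Bool)) (y : Y), g (σ • y) = σ • g y)
    (l : List I) (K : ℕ) : MM Y l K * Ph g = Ph g * MM Z l K := by
  unfold MM
  rw [Matrix.mul_assoc, pow_mul_Ph (Tm_mul_Ph g hg l), ← Matrix.mul_assoc, Matrix.transpose_pow,
    Matrix.transpose_pow, pow_mul_Ph (TmT_mul_Ph g hg l), Matrix.mul_assoc]

/-- trace of `MM Y` against the projection of the range of `Ph g` -/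
lemma trace_MM (g : Y → Z) (hg : ∀ (σ : Equiv.Perm (I → Bool)) (y : Y), g (σ • y) = σ • g y)
    (l : List I) (K : ℕ) (c : ℝ) (hc : c ≠ 0)
    (hP : (Ph g).transpose * Ph g = c • (1 : Matrix Z Z ℝ)) :
    (MM Y l K * (c⁻¹ • (Ph g * (Ph g).transpose))).trace = (MM Z l K).trace := by
  rw [Matrix.mul_smul, Matrix.trace_smul, ← Matrix.mul_assoc, MM_mul_Ph g hg, Matrix.trace_mul_comm,
    ← Matrix.mul_assoc, hP, Matrix.smul_mul, Matrix.one_mul, Matrix.trace_smul, smul_smul,
    inv_mul_cancel₀ hc, one_smul]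

end Inter

section Level

variable {d : ℕ}

/-- restriction of a deck order to the cards enumerated by `r` -/
def res {j : ℕ} (r : Fin j ↪ (Fin d → Bool)) (X : Equiv.Perm (Fin d → Bool)) :
    Fin j ↪ (Fin d → Bool) :=
  r.trans X.toEmbedding

lemma res_smul {j : ℕ} (r : Fin j ↪ (Fin d → Bool)) (σ X : Equiv.Perm (Fin d → Bool)) :
    res r (σ • X) = σ • res r X := by
  ext i : 1
  rfl

lemma Ph_orth {j : ℕ} (r : Fin j ↪ (Fin d → Bool)) :
    ∃ c : ℝ, 0 < c ∧ (Ph (res r)).transpose * Ph (res r) =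
      c • (1 : Matrix (Fin j ↪ (Fin d → Bool)) (Fin j ↪ (Fin d → Bool)) ℝ) := by
  classical
  refine ⟨((univ.filter (fun X : Equiv.Perm (Fin d → Bool) => res r X = r)).card : ℝ), ?_, ?_⟩
  · have : 0 < (univ.filter (fun X : Equiv.Perm (Fin d → Bool) => res r X = r)).card := by
      apply Finset.card_pos.2
      refine ⟨1, ?_⟩
      rw [Finset.mem_filter]
      refine ⟨Finset.mem_univ _, ?_⟩
      ext i : 1
      rfl
    exact_mod_cast this
  · ext e e'
    rw [Matrix.mul_apply, Matrix.smul_apply, Matrix.one_apply]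
    have h1 : ∀ X : Equiv.Perm (Fin d → Bool),
        (Ph (res r)).transpose e X * Ph (res r) X e' =
          if res r X = e ∧ e = e' then (1 : ℝ) else 0 := by
      intro X
      rw [Matrix.transpose_apply]
      unfold Ph
      by_cases h : res r X = e
      · by_cases h' : e = e'
        · simp [h, h']
        · simp [h, h']
      · simp [h]
    simp_rw [h1]
    by_cases h' : e = e'
    · simp only [h', and_true, if_true, smul_eq_mul, mul_one]
      obtain ⟨g, hg⟩ := Equiv.Perm.exists_smul_eq_embedding r e'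
      rw [Finset.sum_boole]
      congr 1
      refine Finset.card_bij' (fun X _ => g⁻¹ * X) (fun X _ => g * X) ?_ ?_ ?_ ?_
      · intro X hX
        rw [Finset.mem_filter] at hX ⊢
        refine ⟨Finset.mem_univ _, ?_⟩
        change res r (g⁻¹ • X) = r
        rw [res_smul, hX.2, ← hg, inv_smul_smul]
      · intro X hX
        rw [Finset.mem_filter] at hX ⊢
        refine ⟨Finset.mem_univ _, ?_⟩
        change res r (g • X) = e'
        rw [res_smul, hX.2, hg]
      · intro X _
        simp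
      · intro X _
        simp
    · simp [h']

/-- the range of the incidence matrix is the space of functions of the cards in `R` -/
lemma mem_VR {j : ℕ} (r : Fin j ↪ (Fin d → Bool)) (φ : (Fin j ↪ (Fin d → Bool)) → ℝ)
    (R : Finset (Fin d → Bool)) (hR : ∀ c, c ∈ R ↔ ∃ i, r i = c) :
    (WithLp.toLp 2 ((Ph (res r)).mulVec φ) : HH d) ∈ VR R := by
  intro X X' h
  have h1 : res r X = res r X' := by
    ext i : 1
    exact h _ ((hR _).2 ⟨i, rfl⟩)
  change ∑ e, Ph (res r) X e * φ e = ∑ e, Ph (res r) X' e * φ e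
  unfold Ph
  rw [h1]

lemma fix_VR {j : ℕ} (r : Fin j ↪ (Fin d → Bool)) (R : Finset (Fin d → Bool))
    (hR : ∀ c, c ∈ R ↔ ∃ i, r i = c) (c : ℝ) (hc : c ≠ 0)
    (hP : (Ph (res r)).transpose * Ph (res r) =
      c • (1 : Matrix (Fin j ↪ (Fin d → Bool)) (Fin j ↪ (Fin d → Bool)) ℝ)) (w : HH d)
    (hw : w ∈ VR R) :
    (c⁻¹ • (Ph (res r) * (Ph (res r)).transpose)).mulVec w.ofLp = w.ofLp := by
  funext X
  rw [Matrix.smul_mulVec, Pi.smul_apply, smul_eq_mul]
  have h1 : (Ph (res r) * (Ph (res r)).transpose).mulVec w.ofLp X =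
      ∑ X' : Equiv.Perm (Fin d → Bool), (if res r X' = res r X then w.ofLp X else 0) := by
    change ∑ X', (Ph (res r) * (Ph (res r)).transpose) X X' * w.ofLp X' = _
    refine Finset.sum_congr rfl fun X' _ => ?_
    rw [Matrix.mul_apply]
    have h2 : ∀ e, Ph (res r) X e * (Ph (res r)).transpose e X' =
        if res r X = e then (Ph (res r) X' e) else 0 := by
      intro e
      rw [Matrix.transpose_apply]
      unfold Ph
      split_ifs <;> simp
    simp_rw [h2]
    rw [Finset.sum_ite_eq]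
    simp only [Finset.mem_univ, if_true]
    unfold Ph
    by_cases h : res r X' = res r X
    · rw [if_pos h, if_pos h, one_mul]
      apply hw X' X
      intro a ha
      obtain ⟨i, rfl⟩ := (hR a).1 ha
      exact DFunLike.congr_fun h i
    · rw [if_neg h, if_neg h, zero_mul]
  have h3 : ∑ X' : Equiv.Perm (Fin d → Bool), (if res r X' = res r X then (1 : ℝ) else 0) = c := by
    have h4 := congrFun (congrFun hP (res r X)) (res r X)
    rw [Matrix.mul_apply, Matrix.smul_apply, Matrix.one_apply_eq, smul_eq_mul, mul_one] at h4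
    rw [← h4]
    refine Finset.sum_congr rfl fun X' _ => ?_
    rw [Matrix.transpose_apply]
    unfold Ph
    split_ifs <;> simp
  have h5 : ∀ X' : Equiv.Perm (Fin d → Bool), (if res r X' = res r X then w.ofLp X else 0) =
      (if res r X' = res r X then (1 : ℝ) else 0) * w.ofLp X := by
    intro X'
    split_ifs <;> simp
  rw [h1]
  simp_rw [h5]
  rw [← Finset.sum_mul, h3, ← mul_assoc, inv_mul_cancel₀ hc, one_mul]

lemma orth_VR {j : ℕ} (r : Fin j ↪ (Fin d → Bool)) (R : Finset (Fin d → Bool))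
    (hR : ∀ c, c ∈ R ↔ ∃ i, r i = c) (c : ℝ) (hc : c ≠ 0)
    (hP : (Ph (res r)).transpose * Ph (res r) =
      c • (1 : Matrix (Fin j ↪ (Fin d → Bool)) (Fin j ↪ (Fin d → Bool)) ℝ)) :
    ((VR R).starProjection : HH d →ₗ[ℝ] HH d) =
      Matrix.toEuclideanLin (c⁻¹ • (Ph (res r) * (Ph (res r)).transpose)) := by
  ext1 f
  change (VR R).starProjection f = _
  apply Submodule.eq_starProjection_of_mem_of_inner_eq_zero
  · have h1 : (Matrix.toEuclideanLin (c⁻¹ • (Ph (res r) * (Ph (res r)).transpose))) f =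
      (WithLp.toLp 2 ((Ph (res r)).mulVec (c⁻¹ • (Ph (res r)).transpose.mulVec f.ofLp)) : HH d) := by
      rw [Matrix.toLpLin_apply, Matrix.smul_mulVec, Matrix.mulVec_smul, Matrix.mulVec_mulVec]
    rw [h1]
    exact mem_VR r _ R hR
  · intro w hw
    have h2 := fix_VR r R hR c hc hP w hw
    have h3 : (Matrix.toEuclideanLin (c⁻¹ • (Ph (res r) * (Ph (res r)).transpose))) w = w := by
      rw [Matrix.toLpLin_apply, h2]
    have h4 : LinearMap.adjoint
        (Matrix.toEuclideanLin (c⁻¹ • (Ph (res r) * (Ph (res r)).transpose))) =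
        Matrix.toEuclideanLin (c⁻¹ • (Ph (res r) * (Ph (res r)).transpose)) := by
      rw [← Matrix.toEuclideanLin_conjTranspose_eq_adjoint]
      congr 1
      rw [Matrix.conjTranspose_eq_transpose_of_trivial, Matrix.transpose_smul,
        Matrix.transpose_mul, Matrix.transpose_transpose]
    rw [inner_sub_left, ← LinearMap.adjoint_inner_right, h4, h3, sub_self]

end Level

end TRL

open TRL in
/-- module TRLEV -/
theorem trlev (hsub : S_SUB) (hdyad : S_DYAD) : S_TRLEV := by
  intro d j l hj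
  set K := 2 ^ l with hK
  set M : HH d →ₗ[ℝ] HH d := LinearMap.adjoint (TT d ^ K) ∘ₗ (TT d ^ K) with hM
  have hMM : M = Matrix.toEuclideanLin
      (MM (Equiv.Perm (Fin d → Bool)) (List.finRange d) K) := by
    rw [hM]
    unfold TT MM
    rw [← Matrix.toLpLin_pow, ← Matrix.toEuclideanLin_conjTranspose_eq_adjoint,
      ← Matrix.toLpLin_mul_same, Matrix.conjTranspose_eq_transpose_of_trivial]
  have hsym : ∀ v w, inner ℝ (M v) w = inner ℝ v (M w) := by
    intro v w
    rw [hM, LinearMap.comp_apply, LinearMap.comp_apply, LinearMap.adjoint_inner_left,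
      LinearMap.adjoint_inner_right]
  have hpos : ∀ v, 0 ≤ inner ℝ (M v) v := by
    intro v
    rw [hM, LinearMap.comp_apply, LinearMap.adjoint_inner_left]
    exact real_inner_self_nonneg
  -- enumerations
  have henum : ∀ R : {R : Finset (Fin d → Bool) // R.card = j}, ∃ r : Fin j ↪ (Fin d → Bool),
      ∀ c, c ∈ R.1 ↔ ∃ i, r i = c := by
    intro R
    have e : Fin j ≃ R.1 := (R.1.equivFinOfCardEq R.2).symm
    refine ⟨e.toEmbedding.trans (Function.Embedding.subtype _), ?_⟩
    intro c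
    constructor
    · intro hc
      refine ⟨e.symm ⟨c, hc⟩, ?_⟩
      simp
    · rintro ⟨i, rfl⟩
      exact (e i).2
  choose r hr using henum
  have hproj : ∀ R : {R : Finset (Fin d → Bool) // R.card = j}, ∃ c : ℝ, c ≠ 0 ∧
      (Ph (res (r R))).transpose * Ph (res (r R)) =
        c • (1 : Matrix (Fin j ↪ (Fin d → Bool)) (Fin j ↪ (Fin d → Bool)) ℝ) := by
    intro R
    obtain ⟨c, hc, h⟩ := Ph_orth (r R)
    exact ⟨c, hc.ne', h⟩
  have hinv : ∀ R : {R : Finset (Fin d → Bool) // R.card = j}, ∀ v ∈ VR R.1, M v ∈ VR R.1 := by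
    intro R v hv
    obtain ⟨c, hc, hP⟩ := hproj R
    have h1 := fix_VR (r R) R.1 (hr R) c hc hP v hv
    have h2 : M v = (WithLp.toLp 2 ((Ph (res (r R))).mulVec
        ((MM (Fin j ↪ (Fin d → Bool)) (List.finRange d) K).mulVec
          (c⁻¹ • (Ph (res (r R))).transpose.mulVec v.ofLp))) : HH d) := by
      rw [hMM, Matrix.toLpLin_apply]
      congr 1
      conv_lhs => rw [← h1]
      rw [Matrix.mulVec_mulVec, Matrix.mul_smul, ← Matrix.mul_assoc,
        MM_mul_Ph (res (r R)) (res_smul (r R)), Matrix.smul_mulVec, Matrix.mulVec_smul,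
        Matrix.mulVec_smul, Matrix.mulVec_mulVec, Matrix.mulVec_mulVec]
    rw [h2]
    exact mem_VR (r R) _ R.1 (hr R)
  have hS := hsub (HH d) M hsym hpos {R : Finset (Fin d → Bool) // R.card = j}
    (fun R => VR R.1) hinv
  refine hS.trans ?_
  have hterm : ∀ R : {R : Finset (Fin d → Bool) // R.card = j},
      LinearMap.trace ℝ (HH d) (M ∘ₗ ((VR R.1).starProjection : HH d →L[ℝ] HH d)) ≤
        ((Qm (Fin j ↪ (Fin d → Bool)) (List.finRange d)) ^ K).trace := by
    intro R
    obtain ⟨c, hc, hP⟩ := hproj R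
    rw [orth_VR (r R) R.1 (hr R) c hc hP, hMM, ← Matrix.toLpLin_mul_same]
    have h3 : ∀ A : Matrix (Equiv.Perm (Fin d → Bool)) (Equiv.Perm (Fin d → Bool)) ℝ,
        LinearMap.trace ℝ (HH d) (Matrix.toEuclideanLin A) = A.trace := by
      intro A
      rw [Matrix.toEuclideanLin_eq_toLin_orthonormal, Matrix.trace_toLin_eq]
    rw [h3, trace_MM (res (r R)) (res_smul (r R)) _ _ c hc hP]
    exact hdyad _ (Tm (Fin j ↪ (Fin d → Bool)) (List.finRange d)) l
  refine (Finset.sum_le_sum fun R _ => hterm R).trans ?_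
  rw [Finset.sum_const, Finset.card_univ, Fintype.card_finset_len, nsmul_eq_mul]
  simp

end Vale.Agent.P162c
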