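import Vale.Agent.P162c.Chain
import Vale.Agent.P162c.Color
import Vale.Agent.P162c.Decomp
import Vale.Agent.P162c.Dyad
import Vale.Agent.P162c.EnergyFinal
import Vale.Agent.P162c.ExpK
import Vale.Agent.P162c.Expt
import Vale.Agent.P162c.High
import Vale.Agent.P162c.Gram
import Vale.Agent.P162c.Gram1
import Vale.Agent.P162c.Ker
import Vale.Agent.P162c.Loop
import Vale.Agent.P162c.Lower
import Vale.Agent.P162c.Path
import Vale.Agent.P162c.Sub
import Vale.Agent.P162c.Node
import Vale.Agent.P162c.Num1
import Vale.Agent.P162c.Num2
import Vale.Agent.P162c.Occ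
import Vale.Agent.P162c.Return
import Vale.Agent.P162c.TrLap
import Vale.Agent.P162c.TrLev
import Vale.Agent.P162c.Rad
import Vale.Agent.P162c.Mom
import Vale.Agent.P162c.Level
import Vale.Agent.P162c.Final
import Vale.Agent.P162c.Link

/-!
P162: the mixing time of the Thorp shuffle on `2^d` cards is of order `d` (assembly).
-/

namespace Vale.Agent.P162c

open Finset Vale.Agent.P162

theorem mixtr : S_MIXTR := by
  have hKER := ker
  have hLOOP := loop
  have hRET := ret hLOOP path hKER
  have hNODE := node color
  have hEXPT := expt hNODE chain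
  have hEXPK := expk hEXPT occ
  have hENERGY := energy (mom rad)
  have hHIGH := high trLap hENERGY
  exact final (trlev sub dyad) decomp level (gram gram1) hHIGH num1 num2 hRET hEXPK

theorem goal : S_GOALC := link mixtr

end Vale.Agent.P162c
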