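import Vale.Agent.P162c.Defs
import Vale.Agent.P162.Basic
import Vale.Agent.P162c.Node
import Vale.Agent.P162c.Ker

/-!
P162 (Thorp shuffle): OCC, exponential moment of the number of doubly occupied edges (helper12).
-/

namespace Vale.Agent.P162c

namespace OCC

open Finset Vale.Agent.P162

variable {I : Type} [Fintype I] [DecidableEq I]

/-- average over an edge -/
noncomputable def Aop (i : I) (w : (I → Bool) → ℝ) (x : I → Bool) : ℝ := (w x + w (flip i x)) / 2

lemma Aop_nonneg (i : I) {w : (I → Bool) → ℝ} (hw : ∀ x, 0 ≤ w x) (x : I → Bool) :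
    0 ≤ Aop i w x := by
  unfold Aop
  have := hw x
  have := hw (flip i x)
  positivity

/-- average over a subcube -/
noncomputable def Al : List I → ((I → Bool) → ℝ) → (I → Bool) → ℝ
  | [], w => w
  | i :: l, w => Al l (Aop i w)

lemma avg_pi {Y B : Type} [Fintype Y] [DecidableEq Y] [Fintype B] (g : Y → B → ℝ) :
    avg (fun s : Y → B => ∏ y, g y (s y)) = ∏ y, avg (g y) := by
  unfold avg
  rw [Finset.prod_div_distrib, Finset.prod_univ_sum, Fintype.piFinset_univ]
  simp

lemma fib_cases (i : I) (V : Finset (I → Bool)) (y : I → Bool) :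
    (V.filter (fun x => Function.update x i false = y) = ∅) ∨
    (∃ a, V.filter (fun x => Function.update x i false = y) = {a}) ∨
    (∃ a, a ≠ flip i a ∧ V.filter (fun x => Function.update x i false = y) = {a, flip i a}) := by
  classical
  set S := V.filter (fun x => Function.update x i false = y) with hS
  have key : ∀ a ∈ S, ∀ b ∈ S, b = a ∨ b = flip i a := by
    intro a ha b hb
    have h1 : Function.update a i false = y := (mem_filter.1 ha).2
    have h2 : Function.update b i false = y := (mem_filter.1 hb).2
    have h3 : ∀ k, k ≠ i → b k = a k := by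
      intro k hk
      have := congrFun (h2.trans h1.symm) k
      rwa [Function.update_of_ne hk, Function.update_of_ne hk] at this
    by_cases h : b i = a i
    · left
      funext k
      by_cases hk : k = i
      · subst hk; exact h
      · exact h3 k hk
    · right
      funext k
      by_cases hk : k = i
      · subst hk
        rw [Node.flip_same]
        clear h3
        revert h
        cases b k <;> cases a k <;> simp
      · rw [Node.flip_ne (Ne.symm hk)]
        exact h3 k hk
  rcases S.eq_empty_or_nonempty with h | ⟨a, ha⟩
  · left; exact h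
  · right
    have hne : a ≠ flip i a := by
      intro h
      have := congrFun h i
      rw [Node.flip_same] at this
      revert this
      cases a i <;> simp
    by_cases hb : flip i a ∈ S
    · right
      refine ⟨a, hne, ?_⟩
      ext b
      rw [mem_insert, mem_singleton]
      constructor
      · intro h; exact key a ha b h
      · rintro (rfl | rfl)
        · exact ha
        · exact hb
    · left
      refine ⟨a, ?_⟩
      ext b
      rw [mem_singleton]
      constructor
      · intro h
        rcases key a ha b h with h1 | h1
        · exact h1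
        · exact absurd (h1 ▸ h) hb
      · rintro rfl; exact ha

lemma avg_bool (f : Bool → ℝ) : avg f = (f true + f false) / 2 := by
  unfold avg
  simp

lemma layer (i : I) (w : (I → Bool) → ℝ) (hw : ∀ x, 0 ≤ w x) (V : Finset (I → Bool)) :
    avg (fun s : (I → Bool) → Bool => ∏ x ∈ V, w (swFun i s x)) ≤ ∏ x ∈ V, Aop i w x := by
  have e1 : ∀ s : (I → Bool) → Bool, ∏ x ∈ V, w (swFun i s x) =
      ∏ y : I → Bool, (∏ x ∈ V.filter (fun x => Function.update x i false = y),
        w (if s y = true then flip i x else x)) := by
    intro s
    rw [← Finset.prod_fiberwise_of_maps_to (s := V) (t := univ)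
      (g := fun x => Function.update x i false) (fun x _ => mem_univ _)]
    refine Finset.prod_congr rfl fun y _ => Finset.prod_congr rfl fun x hx => ?_
    unfold swFun
    rw [(mem_filter.1 hx).2]
  have e2 : ∏ x ∈ V, Aop i w x =
      ∏ y : I → Bool, (∏ x ∈ V.filter (fun x => Function.update x i false = y), Aop i w x) := by
    rw [← Finset.prod_fiberwise_of_maps_to (s := V) (t := univ)
      (g := fun x => Function.update x i false) (fun x _ => mem_univ _)]
  rw [avg_congr e1, avg_pi (fun (y : I → Bool) (b : Bool) =>
    ∏ x ∈ V.filter (fun x => Function.update x i false = y),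
        w (if b = true then flip i x else x)), e2]
  refine Finset.prod_le_prod (fun y _ => ?_) (fun y _ => ?_)
  · exact avg_nonneg (fun b => Finset.prod_nonneg fun x _ => hw _)
  · rw [avg_bool]
    rcases fib_cases i V y with h | ⟨a, h⟩ | ⟨a, hne, h⟩
    · rw [h]; simp
    · rw [h]
      simp only [prod_singleton, if_true]
      unfold Aop
      simp
      linarith
    · rw [h]
      simp only [prod_pair hne, if_true, flip_flip]
      unfold Aop
      rw [flip_flip]
      simp only [Bool.false_eq_true, if_false]
      nlinarith [sq_nonneg (w a - w (flip i a))]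

lemma op_congr (t t' : I → (I → Bool) → Bool) (l : List I) (h : ∀ i ∈ l, t i = t' i) :
    op t l = op t' l := by
  induction l with
  | nil => rfl
  | cons j l ih =>
    simp only [op]
    rw [ih (fun i hi => h i (List.mem_cons_of_mem _ hi)), h j List.mem_cons_self]

lemma op_bound (l : List I) (hl : l.Nodup) (w : (I → Bool) → ℝ) (hw : ∀ x, 0 ≤ w x)
    (U : Finset (I → Bool)) :
    avg (fun t : I → (I → Bool) → Bool => ∏ v ∈ U, w (op t l v)) ≤ ∏ v ∈ U, Al l w v := by
  induction l generalizing w with
  | nil =>
    simp only [op, Al, Equiv.Perm.coe_one, id]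
    rw [avg_const]
  | cons i l ih =>
    rw [List.nodup_cons] at hl
    have h1 := KER.avg_split (X := (I → Bool) → Bool) i
      (fun t : I → (I → Bool) → Bool => ∏ v ∈ U, w (op t (i :: l) v))
    rw [h1, KER.avg_comm]
    simp only [Al]
    refine le_trans ?_ (ih hl.2 (Aop i w) (Aop_nonneg i hw))
    refine avg_mono fun t => ?_
    have e : ∀ s : (I → Bool) → Bool, ∏ v ∈ U, w (op (Function.update t i s) (i :: l) v) =
        ∏ x ∈ U.image (op t l), w (swFun i s x) := by
      intro s
      rw [Finset.prod_image (fun a _ b _ h => (op t l).injective h)]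
      refine Finset.prod_congr rfl fun v _ => ?_
      have : op (Function.update t i s) l = op t l :=
        op_congr _ _ _ (fun k hk => Function.update_of_ne (by rintro rfl; exact hl.1 hk) _ _)
      simp only [op]
      rw [this, Function.update_self]
      rfl
    rw [avg_congr e]
    refine le_trans (layer i w hw _) ?_
    rw [Finset.prod_image (fun a _ b _ h => (op t l).injective h)]

/-- the subcube through `v` in the directions of `l` -/
def Rl (l : List I) (v : I → Bool) : Finset (I → Bool) :=
  univ.filter (fun x => ∀ k, k ∉ l → x k = v k)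

lemma Al_bound (l : List I) (hl : l.Nodup) (g : (I → Bool) → ℝ) (hg : ∀ x, 0 ≤ g x)
    (v : I → Bool) : Al l g v ≤ (∑ x ∈ Rl l v, g x) / 2 ^ l.length := by
  classical
  induction l generalizing g with
  | nil =>
    simp only [Al, List.length_nil, pow_zero, div_one]
    exact Finset.single_le_sum (f := g) (fun x _ => hg x) (by simp [Rl])
  | cons i l ih =>
    rw [List.nodup_cons] at hl
    simp only [Al]
    refine (ih hl.2 (Aop i g) (Aop_nonneg i hg)).trans ?_
    have e : ∑ x ∈ Rl l v, Aop i g x ≤ (∑ x ∈ Rl (i :: l) v, g x) / 2 := by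
      have h0 : ∑ x ∈ Rl l v, Aop i g x =
          (∑ x ∈ Rl l v, g x + ∑ x ∈ (Rl l v).image (flip i), g x) / 2 := by
        rw [Finset.sum_image (fun a _ b _ h => by
          have := congrArg (flip i) h
          rwa [flip_flip, flip_flip] at this)]
        unfold Aop
        rw [← Finset.sum_add_distrib, Finset.sum_div]
      rw [h0]
      have hd : Disjoint (Rl l v) ((Rl l v).image (flip i)) := by
        rw [Finset.disjoint_left]
        intro x hx hx'
        obtain ⟨z, hz, rfl⟩ := mem_image.1 hx'
        have h1 := (mem_filter.1 hx).2 i hl.1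
        have h2 := (mem_filter.1 hz).2 i hl.1
        rw [Node.flip_same, h2] at h1
        revert h1
        cases v i <;> simp
      rw [← Finset.sum_union hd]
      have hsub : Rl l v ∪ (Rl l v).image (flip i) ⊆ Rl (i :: l) v := by
        intro x hx
        rw [mem_union] at hx
        rcases hx with hx | hx
        · refine mem_filter.2 ⟨mem_univ _, fun k hk => ?_⟩
          rw [List.mem_cons, not_or] at hk
          exact (mem_filter.1 hx).2 k hk.2
        · obtain ⟨z, hz, rfl⟩ := mem_image.1 hx
          refine mem_filter.2 ⟨mem_univ _, fun k hk => ?_⟩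
          rw [List.mem_cons, not_or] at hk
          rw [Node.flip_ne (Ne.symm hk.1)]
          exact (mem_filter.1 hz).2 k hk.2
      have := Finset.sum_le_sum_of_subset_of_nonneg (f := g) hsub (fun x _ _ => hg x)
      linarith
    rw [List.length_cons, pow_succ]
    calc (∑ x ∈ Rl l v, Aop i g x) / 2 ^ l.length
        ≤ ((∑ x ∈ Rl (i :: l) v, g x) / 2) / 2 ^ l.length := by gcongr
      _ = _ := by rw [div_div, mul_comm]

lemma Al_affine (l : List I) (u : ℝ) (g : (I → Bool) → ℝ) (v : I → Bool) :
    Al l (fun x => 1 + u * g x) v = 1 + u * Al l g v := by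
  induction l generalizing g with
  | nil => rfl
  | cons i l ih =>
    simp only [Al]
    have : Aop i (fun x => 1 + u * g x) = fun x => 1 + u * Aop i g x := by
      funext x; unfold Aop; ring
    rw [this, ih]

lemma Al_ind (l : List I) (hl : l.Nodup) (W : Finset (I → Bool)) (v : I → Bool) :
    Al l (fun x => if x ∈ W then (1 : ℝ) else 0) v ≤ (W.card : ℝ) / 2 ^ l.length := by
  refine (Al_bound l hl _ (fun x => by positivity) v).trans ?_
  gcongr
  rw [Finset.sum_ite_mem, Finset.sum_const, nsmul_eq_mul, mul_one]
  exact_mod_cast Finset.card_le_card Finset.inter_subset_right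

end OCC

open Finset Vale.Agent.P162 in
theorem occ : S_OCC := by
  intro I _ _ l j hl hj U u hu
  classical
  rw [← Node.avg_mix j]
  rw [KER.avg_prod (fun T1 T2 : I → (I → Bool) → Bool =>
    (1 + u) ^ ((dbl j (U.image (op (Node.mix j T1 T2) l))).filter (fun x => x j = false)).card),
    KER.avg_comm]
  have hcard : (0 : ℝ) ≤ (U.card : ℝ) := Nat.cast_nonneg _
  have key : ∀ T2 : I → (I → Bool) → Bool,
      avg (fun T1 : I → (I → Bool) → Bool => (1 + u) ^
        ((dbl j (U.image (op (Node.mix j T1 T2) l))).filter (fun x => x j = false)).card)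
      ≤ Real.exp (u * (U.card : ℝ) ^ 2 / 2 ^ l.length) := by
    intro T2
    set W : Finset (I → Bool) := (U.image (flip j)).image (op T2 l) with hW
    have hWc : (W.card : ℝ) ≤ U.card := by
      exact_mod_cast (Finset.card_image_le.trans Finset.card_image_le)
    set U0 : Finset (I → Bool) := U.filter (fun x => x j = false) with hU0
    have e : ∀ T1 : I → (I → Bool) → Bool, (1 + u) ^
        ((dbl j (U.image (op (Node.mix j T1 T2) l))).filter (fun x => x j = false)).card
        = ∏ v ∈ U0, (fun x => 1 + u * (if x ∈ W then (1 : ℝ) else 0)) (op T1 l v) := by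
      intro T1
      have e1 : ∏ v ∈ U0, (fun x => 1 + u * (if x ∈ W then (1 : ℝ) else 0)) (op T1 l v)
          = ∏ v ∈ U0, (if op T1 l v ∈ W then (1 + u) else 1) := by
        refine Finset.prod_congr rfl fun v _ => ?_
        simp only
        split_ifs <;> simp
      rw [e1, Finset.prod_ite]
      simp only [Finset.prod_const, one_pow, mul_one]
      congr 1
      have e2 : (dbl j (U.image (op (Node.mix j T1 T2) l))).filter (fun x => x j = false)
          = (U0.filter (fun v => op T1 l v ∈ W)).image (op T1 l) := by
        have mem_im : ∀ (P : Equiv.Perm (I → Bool)) (S : Finset (I → Bool)) (x : I → Bool),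
            x ∈ S.image P ↔ P⁻¹ x ∈ S := by
          intro P S x
          constructor
          · intro h
            obtain ⟨z, hz, rfl⟩ := mem_image.1 h
            simpa using hz
          · intro h
            exact mem_image.2 ⟨P⁻¹ x, h, by simp⟩
        have mem_fl : ∀ (S : Finset (I → Bool)) (x : I → Bool),
            x ∈ S.image (flip j) ↔ flip j x ∈ S := by
          intro S x
          constructor
          · intro h
            obtain ⟨z, hz, rfl⟩ := mem_image.1 h
            rwa [flip_flip]
          · intro h
            exact mem_image.2 ⟨flip j x, h, flip_flip j x⟩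
        ext x
        rw [mem_im, mem_filter, mem_filter, hU0, mem_filter, hW, mem_im, mem_fl]
        unfold dbl
        rw [mem_filter, mem_im, mem_im, Node.op_inv_coord T1 l hj]
        constructor
        · rintro ⟨⟨h1, h2⟩, h3⟩
          rw [Node.mix_false j T1 T2 l hj x h3] at h1
          rw [Node.mix_true j T1 T2 l hj x h3] at h2
          refine ⟨⟨h1, h3⟩, ?_⟩
          simpa using h2
        · rintro ⟨⟨h1, h3⟩, h2⟩
          rw [Node.mix_false j T1 T2 l hj x h3, Node.mix_true j T1 T2 l hj x h3]
          refine ⟨⟨h1, ?_⟩, h3⟩
          simpa using h2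
      rw [e2]
      exact Finset.card_image_of_injective _ (op T1 l).injective
    rw [avg_congr e]
    have hw0 : ∀ x : I → Bool, 0 ≤ 1 + u * (if x ∈ W then (1 : ℝ) else 0) := by
      intro x; positivity
    refine (OCC.op_bound l hl _ hw0 U0).trans ?_
    have e3 : ∀ v ∈ U0, OCC.Al l (fun x => 1 + u * (if x ∈ W then (1 : ℝ) else 0)) v
        ≤ Real.exp (u * ((U.card : ℝ) / 2 ^ l.length)) := by
      intro v _
      rw [OCC.Al_affine]
      have h1 := OCC.Al_ind l hl W v
      have h2 : (W.card : ℝ) / 2 ^ l.length ≤ (U.card : ℝ) / 2 ^ l.length := by gcongr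
      have h3 := Real.add_one_le_exp (u * ((U.card : ℝ) / 2 ^ l.length))
      have h4 := mul_le_mul_of_nonneg_left (h1.trans h2) hu
      linarith
    have e4 : ∀ v ∈ U0, 0 ≤ OCC.Al l (fun x => 1 + u * (if x ∈ W then (1 : ℝ) else 0)) v := by
      intro v _
      clear e3 e
      have : ∀ (l : List I) (w : (I → Bool) → ℝ), (∀ x, 0 ≤ w x) → ∀ v, 0 ≤ OCC.Al l w v := by
        intro l
        induction l with
        | nil => intro w hw v; exact hw v
        | cons i l ih => intro w hw v; exact ih _ (OCC.Aop_nonneg i hw) v
      exact this l _ hw0 v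
    refine (Finset.prod_le_prod e4 e3).trans ?_
    rw [Finset.prod_const, ← Real.exp_nat_mul]
    apply Real.exp_le_exp.2
    have h5 : (U0.card : ℝ) ≤ U.card := by exact_mod_cast Finset.card_filter_le _ _
    have h6 : (0 : ℝ) ≤ u * ((U.card : ℝ) / 2 ^ l.length) := by positivity
    calc (U0.card : ℝ) * (u * ((U.card : ℝ) / 2 ^ l.length))
        ≤ (U.card : ℝ) * (u * ((U.card : ℝ) / 2 ^ l.length)) := by gcongr
      _ = _ := by ring
  exact (avg_mono key).trans (by rw [avg_const])

end Vale.Agent.P162c
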